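import Vale.Agent.Lib.P002.CTorus

/-!
Iterating rational flows: polynomial functions vanishing on the orbit of a family of tuples under
all the integer powers of the twists vanish on the images under the rational flows.
-/

open Matrix MvPolynomial

namespace Vale.Agent.Lib.P002

variable {n g r : ℕ} {ι Lab : Type*}

/-! ### Functions regular where a polynomial function does not vanish -/

/-- The domain where a function does not vanish. -/
abbrev DomP (Δ : Par n g r → ℂ) := {π : Par n g r // Δ π ≠ 0}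

/-- Coordinates on this domain. -/
noncomputable def cR (Δ : Par n g r → ℂ) :
    ((Fin n ⊕ (Fin g × Fin r × Fin r)) ⊕ Unit) → DomP Δ → ℂ
  | Sum.inl k, π => cP n g r k π.1
  | Sum.inr _, π => (Δ π.1)⁻¹

/-- Clearing denominators. -/
theorem numerator_aux {Δ : Par n g r → ℂ} (hΔ : PolyOn (cP n g r) Δ)
    (p : MvPolynomial ((Fin n ⊕ (Fin g × Fin r × Fin r)) ⊕ Unit) ℂ) :
    ∃ (N : ℕ) (F : Par n g r → ℂ), PolyOn (cP n g r) F ∧
      ∀ (π : Par n g r) (h : Δ π ≠ 0), F π = Δ π ^ N * eval (fun k => cR Δ k ⟨π, h⟩) p := by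
  induction p using MvPolynomial.induction_on with
  | C a =>
    exact ⟨0, fun _ => a, PolyOn.const _ a, fun π h => by simp⟩
  | add p q hp hq =>
    obtain ⟨N1, F1, h1, h1'⟩ := hp
    obtain ⟨N2, F2, h2, h2'⟩ := hq
    refine ⟨N1 + N2, fun π => Δ π ^ N2 * F1 π + Δ π ^ N1 * F2 π, ((hΔ.pow _).mul h1).add
      ((hΔ.pow _).mul h2), fun π h => ?_⟩
    simp only [h1' π h, h2' π h, map_add]
    ring
  | mul_X p k hp =>
    obtain ⟨N1, F1, h1, h1'⟩ := hp
    rcases k with k | k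
    · refine ⟨N1, fun π => F1 π * cP n g r k π, h1.mul (PolyOn.coord _ k), fun π h => ?_⟩
      simp only [h1' π h, map_mul, eval_X, cR]
      ring
    · refine ⟨N1 + 1, F1, h1, fun π h => ?_⟩
      simp only [h1' π h, map_mul, eval_X, cR]
      field_simp
      ring

/-- Clearing denominators. -/
theorem numerator {Δ : Par n g r → ℂ} (hΔ : PolyOn (cP n g r) Δ) {G : DomP Δ → ℂ}
    (hG : PolyOn (cR Δ) G) : ∃ (N : ℕ) (F : Par n g r → ℂ), PolyOn (cP n g r) F ∧
      ∀ (π : Par n g r) (h : Δ π ≠ 0), F π = Δ π ^ N * G ⟨π, h⟩ := by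
  obtain ⟨p, hp⟩ := hG
  obtain ⟨N, F, h1, h2⟩ := numerator_aux hΔ p
  exact ⟨N, F, h1, fun π h => by rw [h2 π h, hp]⟩

/-- Shrinking the domain. -/
theorem regular_shrink {Δ Φ : Par n g r → ℂ} (hΦ : PolyOn (cP n g r) Φ) {G : DomP Δ → ℂ}
    (hG : PolyOn (cR Δ) G) {Δ' : Par n g r → ℂ} (hΔ' : ∀ π, Δ' π = Δ π * Φ π)
    (hdom : ∀ π, Δ' π ≠ 0 → Δ π ≠ 0) :
    PolyOn (cR Δ') (fun π : DomP Δ' => G ⟨π.1, hdom _ π.2⟩) := by
  refine hG.comp (g := fun π : DomP Δ' => (⟨π.1, hdom _ π.2⟩ : DomP Δ)) fun k => ?_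
  rcases k with k | k
  · exact PolyOn.coord (cR Δ') (Sum.inl k)
  · have h1 : PolyOn (cR Δ') (fun π : DomP Δ' => Φ π.1) :=
      hΦ.comp (g := fun π : DomP Δ' => π.1) fun k => PolyOn.coord (cR Δ') (Sum.inl k)
    have h2 : PolyOn (cR Δ') (fun π : DomP Δ' => (Δ' π.1)⁻¹) := PolyOn.coord (cR Δ') (Sum.inr ())
    have h3 := h1.mul h2
    convert h3 using 2 with π
    simp only [cR]
    have h4 := π.2
    rw [hΔ'] at h4 ⊢
    have h5 : Δ π.1 ≠ 0 := left_ne_zero_of_mul h4
    have h6 : Φ π.1 ≠ 0 := right_ne_zero_of_mul h4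
    field_simp

/-! ### Systems of flows -/

/-- A system of twists: for every label a curve, a move and an exponent, and a family of base
tuples depending polynomially on a tuple of parameters. -/
structure FlowSys (ι Lab : Type*) (g r : ℕ) where
  /-- The curve of a label. -/
  c : Lab → FreeGroup ι
  /-- The twist along the curve, with the last letter for the element of the centralizer. -/
  mv : Lab → ι → FreeGroup (Option ι)
  /-- The exponent in the rational family. -/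
  kk : Lab → ℕ
  /-- The base tuples. -/
  β : (Fin g → SLC r) → ι → SLC r
  hβ : ∀ i, PolyG (cS (Fin g) r) (fun p => β p i)
  hprim : ∀ (l : Lab) (M : SLC r), ∃ p, FreeGroup.lift (β p) (c l) = M
  hone : ∀ (l : Lab) (q : ι → SLC r), mvAt (mv l) q 1 = q

variable (S : FlowSys ι Lab g r)

/-- The parameter with a given index. -/
def tv (π : Par n g r) (j : ℕ) : ℂ := if h : j < n then π.1 ⟨j, h⟩ else 0

theorem tv_poly (j : ℕ) : PolyOn (cP n g r) (fun π : Par n g r => tv π j) := by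
  unfold tv
  by_cases h : j < n
  · simp only [dif_pos h]
    exact PolyOn.coord (cP n g r) (Sum.inl ⟨j, h⟩)
  · simp only [dif_neg h]
    exact PolyOn.const _ 0

theorem tv_zero (p : Fin g → SLC r) (j : ℕ) : tv ((0, p) : Par n g r) j = 0 := by
  unfold tv
  split_ifs <;> rfl

/-- The value of the curve of a label. -/
noncomputable def FlowSys.cv (l : Lab) (q : ι → SLC r) : SLC r := FreeGroup.lift q (S.c l)

/-- The move by a power of the curve. -/
noncomputable def FlowSys.aMove (l : Lab) (s : ℕ) (q : ι → SLC r) : ι → SLC r :=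
  mvAt (S.mv l) q (S.cv l q ^ s)

/-- The move by the rational family. -/
noncomputable def FlowSys.bMove (l : Lab) (t : ℂ) (q : ι → SLC r) : ι → SLC r :=
  mvAt (S.mv l) q (gS (S.kk l) t (S.cv l q))

/-- The iterated rational flows. -/
noncomputable def FlowSys.qj (lab : ℕ → Lab) : ℕ → Par n g r → ι → SLC r
  | 0, π => S.β π.2
  | j + 1, π => S.bMove (lab j) (tv π j) (FlowSys.qj lab j π)

theorem FlowSys.qj_zero (lab : ℕ → Lab) (j : ℕ) (p : Fin g → SLC r) :
    S.qj lab j ((0, p) : Par n g r) = S.β p := by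
  induction j with
  | zero => rfl
  | succ j ih =>
    simp only [FlowSys.qj, FlowSys.bMove, tv_zero, gS_zero, ih]
    exact S.hone _ _

/-- The polynomial functions on tuples vanishing on all orbits of the base tuples. -/
def FlowSys.J0 : Set ((ι → SLC r) → ℂ) :=
  {f | PolyOn (cS ι r) f ∧ ∀ (L : List (Lab × ℕ)) (p : Fin g → SLC r),
    f (L.foldr (fun a q => S.aMove a.1 a.2 q) (S.β p)) = 0}

theorem FlowSys.cv_poly (l : Lab) : PolyG (cS ι r) (S.cv l) :=
  polyG_lift (q := fun q => q) (fun i => polyG_coord i) (S.c l)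

theorem FlowSys.J0_move {f : (ι → SLC r) → ℂ} (hf : f ∈ S.J0) (l : Lab) (s : ℕ) :
    (fun q => f (S.aMove l s q)) ∈ S.J0 := by
  refine ⟨hf.1.comp_tuple fun i => ?_, fun L p => ?_⟩
  · refine polyG_lift (fun o => ?_) (S.mv l i)
    cases o with
    | none => exact (S.cv_poly l).pow s
    | some a => exact polyG_coord a
  · exact hf.2 ((l, s) :: L) p

/-- The data of one stage of the iteration. -/
structure FlowSys.Stage (lab : ℕ → Lab) (j : ℕ) (Δ : Par n g r → ℂ) : Prop where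
  poly : PolyOn (cP n g r) Δ
  base : ∀ p, Δ (0, p) ≠ 0
  reg : ∀ i, PolyG (cR Δ) (fun π : DomP Δ => S.qj lab j π.1 i)
  van : ∀ f ∈ S.J0, ∀ π, Δ π ≠ 0 → f (S.qj lab j π) = 0

theorem FlowSys.stage_zero (lab : ℕ → Lab) :
    S.Stage (n := n) lab 0 (fun _ => 1) := by
  refine ⟨PolyOn.const _ 1, fun _ => one_ne_zero, fun i => ?_, fun f hf π _ => hf.2 [] π.2⟩
  intro a b
  refine (S.hβ i a b).comp (g := fun π : DomP (fun _ : Par n g r => (1 : ℂ)) => π.1.2)
    fun k => ?_
  exact PolyOn.coord (cR _) (Sum.inl (Sum.inr k))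

/-- The regular functions given by the curve and the denominator. -/
theorem FlowSys.stage_step_reg {lab : ℕ → Lab} {j : ℕ} {Δ : Par n g r → ℂ}
    (hS : S.Stage lab j Δ) :
    ∃ Δ' : Par n g r → ℂ, PolyOn (cP n g r) Δ' ∧ (∀ p, Δ' (0, p) ≠ 0) ∧
      (∀ π, Δ' π ≠ 0 → Δ π ≠ 0) ∧
      ∀ i, PolyG (cR Δ') (fun π : DomP Δ' => S.qj lab (j + 1) π.1 i) := by
  set l := lab j with hl
  set k := S.kk l with hk
  -- the curve
  have hc : PolyG (cR Δ) (fun π : DomP Δ => S.cv l (S.qj lab j π.1)) :=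
    polyG_lift (fun i => hS.reg i) (S.c l)
  have ht : PolyOn (cR Δ) (fun π : DomP Δ => tv π.1 j) :=
    (tv_poly j).comp (g := fun π : DomP Δ => π.1) fun k => PolyOn.coord (cR Δ) (Sum.inl k)
  have hM : PolyM (cR Δ) (fun π : DomP Δ =>
      (1 - (tv π.1 j) • ((S.cv l (S.qj lab j π.1) : SLC r) : Matrix (Fin r) (Fin r) ℂ) ^ k)) :=
    (PolyM.const _ _).sub (PolyM.smul ht (PolyM.pow hc k))
  have hD : PolyOn (cR Δ) (fun π : DomP Δ =>
      dnm k (tv π.1 j) ((S.cv l (S.qj lab j π.1) : SLC r) : Matrix (Fin r) (Fin r) ℂ)) :=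
    PolyM.det hM
  obtain ⟨N, F, hF, hF'⟩ := numerator hS.poly hD
  let Δ' : Par n g r → ℂ := fun π => Δ π * F π
  have hΔ' : ∀ π, Δ' π = Δ π * F π := fun _ => rfl
  have hdom : ∀ π, Δ' π ≠ 0 → Δ π ≠ 0 := fun π h => left_ne_zero_of_mul h
  refine ⟨Δ', hS.poly.mul hF, fun p => ?_, hdom, fun i => ?_⟩
  · refine mul_ne_zero (hS.base p) ?_
    rw [hF' _ (hS.base p)]
    refine mul_ne_zero (pow_ne_zero _ (hS.base p)) ?_
    simp only [tv_zero, dnm_zero]
    exact one_ne_zero
  · have hc' : PolyG (cR Δ') (fun π : DomP Δ' => S.cv l (S.qj lab j π.1)) := fun a b =>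
      regular_shrink hF (hc a b) hΔ' hdom
    have hq' : ∀ i, PolyG (cR Δ') (fun π : DomP Δ' => S.qj lab j π.1 i) := fun i a b =>
      regular_shrink hF (hS.reg i a b) hΔ' hdom
    have ht' : PolyOn (cR Δ') (fun π : DomP Δ' => tv π.1 j) :=
      (tv_poly j).comp (g := fun π : DomP Δ' => π.1) fun k => PolyOn.coord (cR Δ') (Sum.inl k)
    have hM' : PolyM (cR Δ') (fun π : DomP Δ' =>
        (1 - (tv π.1 j) • ((S.cv l (S.qj lab j π.1) : SLC r) : Matrix (Fin r) (Fin r) ℂ) ^ k)) :=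
      (PolyM.const _ _).sub (PolyM.smul ht' (PolyM.pow hc' k))
    -- the denominator is invertible
    have hDinv : PolyOn (cR Δ') (fun π : DomP Δ' =>
        (dnm k (tv π.1 j) ((S.cv l (S.qj lab j π.1) : SLC r) : Matrix (Fin r) (Fin r) ℂ))⁻¹) := by
      have h1 : PolyOn (cR Δ') (fun π : DomP Δ' => Δ π.1) :=
        hS.poly.comp (g := fun π : DomP Δ' => π.1) fun k => PolyOn.coord (cR Δ') (Sum.inl k)
      have h2 : PolyOn (cR Δ') (fun π : DomP Δ' => (Δ' π.1)⁻¹) :=
        PolyOn.coord (cR Δ') (Sum.inr ())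
      have h3 := ((h1.pow N).mul h1).mul h2
      convert h3 using 2 with π
      have h4 := π.2
      have h5 : Δ π.1 ≠ 0 := left_ne_zero_of_mul h4
      have h6 : F π.1 ≠ 0 := right_ne_zero_of_mul h4
      rw [hΔ', hF' _ h5] at *
      have h7 := right_ne_zero_of_mul h6
      field_simp
    have hg : PolyG (cR Δ') (fun π : DomP Δ' =>
        gS k (tv π.1 j) (S.cv l (S.qj lab j π.1))) := by
      have h1 : PolyM (cR Δ') (fun π : DomP Δ' => gMat k (tv π.1 j)
          ((S.cv l (S.qj lab j π.1) : SLC r) : Matrix (Fin r) (Fin r) ℂ)) :=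
        PolyM.smul hDinv (PolyM.pow hM' r)
      intro a b
      have e : (fun π : DomP Δ' => ((gS k (tv π.1 j) (S.cv l (S.qj lab j π.1)) : SLC r) :
          Matrix (Fin r) (Fin r) ℂ) a b) = fun π : DomP Δ' => gMat k (tv π.1 j)
          ((S.cv l (S.qj lab j π.1) : SLC r) : Matrix (Fin r) (Fin r) ℂ) a b := by
        funext π
        rw [gS_coe]
        have h4 := π.2
        have h5 : Δ π.1 ≠ 0 := left_ne_zero_of_mul h4
        have h6 : F π.1 ≠ 0 := right_ne_zero_of_mul h4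
        rw [hF' _ h5] at h6
        exact right_ne_zero_of_mul h6
      change PolyOn _ (fun π : DomP Δ' => ((gS k (tv π.1 j) (S.cv l (S.qj lab j π.1)) : SLC r) :
          Matrix (Fin r) (Fin r) ℂ) a b)
      rw [e]
      exact h1 a b
    refine polyG_lift (fun o => ?_) (S.mv l i)
    cases o with
    | none => exact hg
    | some a => exact hq' a

/-- Non-vanishing of the polynomial functions defining generic elements, on a dense set. -/
theorem FlowSys.dense_gen {lab : ℕ → Lab} {j : ℕ} {Δ : Par n g r → ℂ}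
    (hS : S.Stage lab j Δ) :
    Dense {π : Par n g r | Δ π ≠ 0 ∧ GenM (S.cv (lab j) (S.qj lab j π))} := by
  classical
  set l := lab j with hl
  have hc : PolyG (cR Δ) (fun π : DomP Δ => S.cv l (S.qj lab j π.1)) :=
    polyG_lift (fun i => hS.reg i) (S.c l)
  have hex : ∀ a : {a : (Fin r → ℕ) × (Fin r → ℕ) // NonConst a.1 a.2},
      ∃ H : Par n g r → ℂ, PolyOn (cP n g r) H ∧ (∃ x0, H x0 ≠ 0) ∧
        ∀ π, H π ≠ 0 → Δ π ≠ 0 ∧ symR a.1.1 a.1.2 (S.cv l (S.qj lab j π)) ≠ 0 := by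
    rintro ⟨⟨e, e'⟩, hee⟩
    obtain ⟨N, F, hF, hF'⟩ := numerator hS.poly (symR_poly hc e e')
    refine ⟨fun π => Δ π * F π, hS.poly.mul hF, ?_, fun π h => ?_⟩
    · obtain ⟨M, hM⟩ := exists_symR_ne hee
      obtain ⟨p, hp⟩ := S.hprim l M
      refine ⟨(0, p), mul_ne_zero (hS.base p) ?_⟩
      rw [hF' _ (hS.base p)]
      refine mul_ne_zero (pow_ne_zero _ (hS.base p)) ?_
      simp only [S.qj_zero]
      unfold FlowSys.cv
      rw [hp]
      exact hM
    · have h5 : Δ π ≠ 0 := left_ne_zero_of_mul h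
      have h6 : F π ≠ 0 := right_ne_zero_of_mul h
      rw [hF' _ h5] at h6
      exact ⟨h5, right_ne_zero_of_mul h6⟩
  choose H hH1 hH2 hH3 using hex
  have hopen : ∀ a, IsOpen {π | H a π ≠ 0} := fun a =>
    isOpen_ne_fun ((hH1 a).continuous continuous_cP) continuous_const
  have hdense : ∀ a, Dense {π | H a π ≠ 0} := fun a => by
    obtain ⟨x0, hx0⟩ := hH2 a
    exact dense_ne_zero_par (hH1 a) hx0
  have hall := dense_iInter_of_isOpen (fun a => hopen a) (fun a => hdense a)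
  have hΔd : Dense {π : Par n g r | Δ π ≠ 0} := dense_ne_zero_par hS.poly (hS.base 1)
  have hΔo : IsOpen {π : Par n g r | Δ π ≠ 0} :=
    isOpen_ne_fun (hS.poly.continuous continuous_cP) continuous_const
  refine (hΔd.inter_of_isOpen_left hall hΔo).mono ?_
  rintro π ⟨h1, h2⟩
  refine ⟨h1, genM_of_symR fun e e' hee => ?_⟩
  exact (hH3 ⟨(e, e'), hee⟩ π (Set.mem_iInter.mp h2 ⟨(e, e'), hee⟩)).2

/-- The inductive step. -/
theorem FlowSys.stage_step {lab : ℕ → Lab} {j : ℕ} {Δ : Par n g r → ℂ}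
    (hS : S.Stage lab j Δ) : ∃ Δ' : Par n g r → ℂ, S.Stage lab (j + 1) Δ' := by
  obtain ⟨Δ', h1, h2, h3, h4⟩ := S.stage_step_reg hS
  refine ⟨Δ', h1, h2, h4, fun f hf => ?_⟩
  -- the numerator of the function
  have hG : PolyOn (cR Δ') (fun π : DomP Δ' => f (S.qj lab (j + 1) π.1)) :=
    hf.1.comp_tuple h4
  obtain ⟨N, F, hF, hF'⟩ := numerator h1 hG
  have hd := S.dense_gen hS
  have hΔo : IsOpen {π : Par n g r | Δ' π ≠ 0} :=
    isOpen_ne_fun (h1.continuous continuous_cP) continuous_const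
  have hd2 : Dense ({π : Par n g r | Δ' π ≠ 0} ∩
      {π : Par n g r | Δ π ≠ 0 ∧ GenM (S.cv (lab j) (S.qj lab j π))}) :=
    (dense_ne_zero_par h1 (h2 1)).inter_of_isOpen_left hd hΔo
  have hzero : ∀ π, F π = 0 := by
    have hcont : Continuous F := hF.continuous continuous_cP
    have hclosed : IsClosed {π | F π = 0} := isClosed_eq hcont continuous_const
    have hsub : ({π : Par n g r | Δ' π ≠ 0} ∩
        {π : Par n g r | Δ π ≠ 0 ∧ GenM (S.cv (lab j) (S.qj lab j π))}) ⊆ {π | F π = 0} := by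
      rintro π ⟨hπ1, hπ2, hπ3⟩
      change F π = 0
      rw [hF' π hπ1]
      refine mul_eq_zero_of_right _ ?_
      change f (S.bMove (lab j) (tv π j) (S.qj lab j π)) = 0
      refine hull_vanish hf.1 (S.mv (lab j)) (S.qj lab j π) hπ3 (fun s => ?_) _ _
      exact hS.van _ (S.J0_move hf (lab j) s) π hπ2
    intro π
    have := hclosed.closure_subset_iff.mpr hsub
    exact this (hd2 π)
  intro π hπ
  have := hF' π hπ
  rw [hzero π] at this
  exact (mul_eq_zero.mp this.symm).resolve_left (pow_ne_zero _ hπ)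

/-- The conclusion of the iteration. -/
theorem FlowSys.exists_stage (lab : ℕ → Lab) (j : ℕ) : ∃ Δ : Par n g r → ℂ, S.Stage lab j Δ := by
  induction j with
  | zero => exact ⟨_, S.stage_zero lab⟩
  | succ j ih =>
    obtain ⟨Δ, hΔ⟩ := ih
    exact S.stage_step hΔ

end Vale.Agent.Lib.P002
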