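import Vale.Agent.Lib.P002.CPoly

/-!
Statement definitions for representations of the fundamental group of a closed orientable surface
of genus `g`, with generators `a_i = (i, false)`, `b_i = (i, true)` and the one relation
`[a_1, b_1] ⋯ [a_g, b_g] = 1`.
-/

open Matrix

namespace Vale.Agent.Lib.P002

/-- The generators `a_i = (i, false)`, `b_i = (i, true)` of the surface group. -/
abbrev Gens (g : ℕ) := Fin g × Bool

variable {g r : ℕ}

/-- The homomorphism from the free group on the generators given by a tuple of matrices. -/
noncomputable def rhoG (A : Gens g → SLC r) : FreeGroup (Gens g) →* SLC r := FreeGroup.lift A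

/-- The tuple satisfies the surface relation `[a_1, b_1] ⋯ [a_g, b_g] = 1`, that is, it is a point
of the representation variety `Hom(π₁(Σ_g), SL_r(ℂ))`. -/
def IsSurfaceRep (A : Gens g → SLC r) : Prop :=
  (List.ofFn fun i : Fin g =>
    A (i, false) * A (i, true) * (A (i, false))⁻¹ * (A (i, true))⁻¹).prod = 1

/-- The subspace is invariant under the tuple. -/
def IsInvariant (A : Gens g → SLC r) (U : Submodule ℂ (Fin r → ℂ)) : Prop :=
  ∀ i, ∀ x ∈ U, ((A i : SLC r) : Matrix (Fin r) (Fin r) ℂ).mulVec x ∈ U

/-- The representation given by the tuple is irreducible. -/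
def IsIrredRep (A : Gens g → SLC r) : Prop :=
  ∀ U : Submodule ℂ (Fin r → ℂ), IsInvariant A U → U = ⊥ ∨ U = ⊤

/-- The representation given by the tuple is semisimple. -/
def IsSSRep (A : Gens g → SLC r) : Prop :=
  ∀ U : Submodule ℂ (Fin r → ℂ), IsInvariant A U →
    ∃ U' : Submodule ℂ (Fin r → ℂ), IsInvariant A U' ∧ IsCompl U U'

/-- The point of the character variety given by the tuple is integral: all coefficients of the
characteristic polynomials of all elements of the group are rational integers. -/
def IsIntRep (A : Gens g → SLC r) : Prop :=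
  ∀ (w : FreeGroup (Gens g)) (k : ℕ),
    ∃ n : ℤ, ((rhoG A w : SLC r) : Matrix (Fin r) (Fin r) ℂ).charpoly.coeff k = n

/-- The value of a polynomial in the traces of finitely many words at a tuple. -/
noncomputable def evalTrG {m : ℕ} (w : Fin m → FreeGroup (Gens g)) (P : MvPolynomial (Fin m) ℂ)
    (A : Gens g → SLC r) : ℂ :=
  MvPolynomial.eval
    (fun i => Matrix.trace ((rhoG A (w i) : SLC r) : Matrix (Fin r) (Fin r) ℂ)) P

end Vale.Agent.Lib.P002
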