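import Vale.Agent.Lib.P002.CLines
import Vale.Agent.Lib.P002.CDefs

/-!
Integer points of the special linear group are Zariski dense, and words in two matrices spanning
all matrices give irreducible representations.
-/

open Matrix Relation

namespace Vale.Agent.Lib.P002

variable {g r : ℕ}

/-- The integer points of the special linear group. -/
noncomputable def IntS (r : ℕ) : Subgroup (SLC r) :=
  (Matrix.SpecialLinearGroup.map (n := Fin r) (Int.castRingHom ℂ)).range

theorem tMat_int (a b : Fin r) (hab : a ≠ b) (m : ℤ) : tMat a b hab (m : ℂ) ∈ IntS r := by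
  refine ⟨⟨transvection a b m, det_transvection_of_ne a b hab m⟩, ?_⟩
  apply Subtype.ext
  ext i j
  change (Int.castRingHom ℂ).mapMatrix (transvection a b m) i j = (transvection a b (m : ℂ)) i j
  simp only [RingHom.mapMatrix_apply, Matrix.map_apply, transvection, Matrix.add_apply,
    Matrix.single_apply]
  by_cases h : a = i ∧ b = j
  · simp [h.1, h.2, Matrix.one_apply]
  · simp [if_neg h, Matrix.one_apply]

theorem charpoly_int {M : SLC r} (hM : M ∈ IntS r) (k : ℕ) :
    ∃ n : ℤ, ((M : SLC r) : Matrix (Fin r) (Fin r) ℂ).charpoly.coeff k = n := by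
  obtain ⟨N, rfl⟩ := hM
  refine ⟨(N : Matrix (Fin r) (Fin r) ℤ).charpoly.coeff k, ?_⟩
  have h : ((Matrix.SpecialLinearGroup.map (n := Fin r) (Int.castRingHom ℂ) N : SLC r) :
      Matrix (Fin r) (Fin r) ℂ) = (Int.castRingHom ℂ).mapMatrix (N : Matrix (Fin r) (Fin r) ℤ) :=
    rfl
  rw [h, RingHom.mapMatrix_apply, Matrix.charpoly_map, Polynomial.coeff_map]
  simp

/-- Words with letters in a subgroup are in the subgroup. -/
theorem lift_mem {G ι : Type*} [Group G] (S : Subgroup G) (q : ι → G) (hq : ∀ i, q i ∈ S)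
    (w : FreeGroup ι) : FreeGroup.lift q w ∈ S := by
  induction w using FreeGroup.induction_on with
  | C1 => simp [S.one_mem]
  | of x => simpa using hq x
  | inv_of x ih => simpa using S.inv_mem ih
  | mul x y hx hy => simpa using S.mul_mem hx hy

/-- Words in tuples with polynomial entries have polynomial entries. -/
theorem polyG_lift {Y κ ι : Type*} {c : κ → Y → ℂ} {q : Y → ι → SLC r}
    (hq : ∀ i, PolyG c (fun y => q y i)) (w : FreeGroup ι) :
    PolyG c (fun y => FreeGroup.lift (q y) w) := by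
  induction w using FreeGroup.induction_on with
  | C1 => simpa using PolyG.const c (1 : SLC r)
  | of x => simpa using hq x
  | inv_of x ih => simpa using (hq x).inv
  | mul x y hx hy => simpa using hx.mul hy

/-- A polynomial function vanishing on integer tuples vanishes. -/
theorem vanish_of_int : ∀ (q : Fin g → SLC r), ∀ {F : (Fin g → SLC r) → ℂ},
    PolyOn (cS (Fin g) r) F → (∀ p, (∀ i, p i ∈ IntS r) → F p = 0) → F q = 0 := by
  intro q
  induction reach_tuple (1 : Fin g → SLC r) q with
  | refl =>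
    intro F _ h
    exact h 1 fun i => (IntS r).one_mem
  | tail _ hs ih =>
    obtain ⟨ℓ, ⟨i, a, b, hab, rfl⟩, u, rfl⟩ := hs
    intro F hF h
    have hF' : PolyOn (cS (Fin g) r) (fun p => F (sStep i a b hab u p)) := by
      refine hF.comp_tuple fun j => ?_
      unfold sStep
      by_cases hj : j = i
      · subst hj
        simp only [Function.update_self]
        exact (PolyG.const _ _).mul (polyG_coord j)
      · simp only [Function.update_of_ne hj]
        exact polyG_coord j
    refine ih hF' ?_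
    intro p hp
    have hG : PolyOn (fun _ : Unit => (id : ℂ → ℂ)) (fun v => F (sStep i a b hab v p)) :=
      hF.comp_tuple fun j => sStep_polyG i a b hab p j
    refine poly_unit_eq_zero hG (S := Set.range ((↑) : ℤ → ℂ)) ?_ ?_ u
    · exact Set.infinite_range_of_injective Int.cast_injective
    · rintro _ ⟨m, rfl⟩
      refine h _ fun j => ?_
      unfold sStep
      by_cases hj : j = i
      · subst hj
        simp only [Function.update_self]
        exact (IntS r).mul_mem (tMat_int a b hab m) (hp j)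
      · simp only [Function.update_of_ne hj]
        exact hp j

/-! ### Words spanning all matrices -/

/-- The matrix of the entries of the words `x ^ k * y ^ l`. -/
def wordMat (x y : SLC r) : Matrix (Fin r × Fin r) (Fin r × Fin r) ℂ :=
  Matrix.of fun a b => (((x : Matrix (Fin r) (Fin r) ℂ) ^ (a.1 : ℕ)) *
    ((y : Matrix (Fin r) (Fin r) ℂ) ^ (a.2 : ℕ))) b.1 b.2

/-- The determinant of the matrix of the words. -/
def qDet (x y : SLC r) : ℂ := (wordMat x y).det

theorem qDet_span {x y : SLC r} (h : qDet x y ≠ 0) (T : Matrix (Fin r) (Fin r) ℂ) :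
    ∃ coef : Fin r × Fin r → ℂ, T = ∑ a, coef a • (((x : Matrix (Fin r) (Fin r) ℂ) ^ (a.1 : ℕ)) *
      ((y : Matrix (Fin r) (Fin r) ℂ) ^ (a.2 : ℕ))) := by
  have hu : IsUnit (wordMat x y).det := isUnit_iff_ne_zero.mpr h
  let v : Fin r × Fin r → ℂ := fun b => T b.1 b.2
  let coef := Matrix.vecMul v (wordMat x y)⁻¹
  have hc : Matrix.vecMul coef (wordMat x y) = v := by
    simp only [coef, Matrix.vecMul_vecMul, Matrix.nonsing_inv_mul _ hu, Matrix.vecMul_one]
  refine ⟨coef, ?_⟩
  ext i j
  have := congrFun hc (i, j)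
  simp only [Matrix.vecMul, dotProduct, v, wordMat, Matrix.of_apply] at this
  rw [Matrix.sum_apply]
  simp only [Matrix.smul_apply, smul_eq_mul]
  exact this.symm

/-- A subspace preserved by `x` and `y` is preserved by words. -/
theorem inv_word {x y : Matrix (Fin r) (Fin r) ℂ} {U : Submodule ℂ (Fin r → ℂ)}
    (hx : ∀ v ∈ U, x.mulVec v ∈ U) (hy : ∀ v ∈ U, y.mulVec v ∈ U) (k l : ℕ) :
    ∀ v ∈ U, (x ^ k * y ^ l).mulVec v ∈ U := by
  have h1 : ∀ (A : Matrix (Fin r) (Fin r) ℂ), (∀ v ∈ U, A.mulVec v ∈ U) →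
      ∀ k : ℕ, ∀ v ∈ U, (A ^ k).mulVec v ∈ U := by
    intro A hA k
    induction k with
    | zero => simp
    | succ k ih =>
      intro v hv
      rw [pow_succ, ← Matrix.mulVec_mulVec]
      exact ih _ (hA v hv)
  intro v hv
  rw [← Matrix.mulVec_mulVec]
  exact h1 x hx k _ (h1 y hy l v hv)

/-- Irreducibility from the spanning words. -/
theorem irred_of_qDet {x y : SLC r} (h : qDet x y ≠ 0) (U : Submodule ℂ (Fin r → ℂ))
    (hx : ∀ v ∈ U, ((x : SLC r) : Matrix (Fin r) (Fin r) ℂ).mulVec v ∈ U)
    (hy : ∀ v ∈ U, ((y : SLC r) : Matrix (Fin r) (Fin r) ℂ).mulVec v ∈ U) : U = ⊥ ∨ U = ⊤ := by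
  by_cases hU : U = ⊥
  · exact Or.inl hU
  right
  obtain ⟨v, hv, hv0⟩ := (Submodule.ne_bot_iff U).mp hU
  obtain ⟨j, hj⟩ : ∃ j, v j ≠ 0 := by
    by_contra hcon
    push Not at hcon
    exact hv0 (funext hcon)
  rw [eq_top_iff]
  intro w _
  let T : Matrix (Fin r) (Fin r) ℂ := Matrix.of fun a b => if b = j then w a / v j else 0
  have hT : T.mulVec v = w := by
    funext a
    simp [T, Matrix.mulVec, dotProduct, hj]
  obtain ⟨coef, hc⟩ := qDet_span h T
  rw [← hT, hc, Matrix.sum_mulVec]
  refine U.sum_mem fun a _ => ?_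
  rw [Matrix.smul_mulVec]
  exact U.smul_mem _ (inv_word hx hy _ _ v hv)

theorem qDet_poly {Y κ : Type*} {c : κ → Y → ℂ} {x y : Y → SLC r} (hx : PolyG c x)
    (hy : PolyG c y) : PolyOn c (fun t => qDet (x t) (y t)) := by
  unfold qDet
  apply PolyM.det
  intro a b
  exact ((PolyM.pow hx _).mul (PolyM.pow hy _)) b.1 b.2

end Vale.Agent.Lib.P002
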