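import Vale.Agent.Lib.P002.CSpan
import Vale.Agent.Lib.P002.CInt

/-!
The explicit base point: the cyclic permutation matrix up to a scalar and a diagonal matrix with
prime entries up to a scalar.
-/

open Matrix

namespace Vale.Agent.Lib.P002

variable {r : ℕ}

theorem finRotate_free (hr : 2 ≤ r) (s : ℕ) (h0 : 0 < s) (h1 : s < r) (i : Fin r) :
    ((finRotate r) ^ s) i ≠ i := by
  intro he
  have hc := isCycle_finRotate_of_le hr
  have hs : finRotate r i ≠ i := by
    have : i ∈ (finRotate r).support := by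
      rw [support_finRotate_of_le hr]
      exact Finset.mem_univ i
    exact Equiv.Perm.mem_support.mp this
  have h2 := (hc.pow_eq_one_iff' hs).mpr he
  have h3 := orderOf_dvd_of_pow_eq_one h2
  rw [hc.orderOf, support_finRotate_of_le hr, Finset.card_univ, Fintype.card_fin] at h3
  exact absurd (Nat.le_of_dvd h0 h3) (by omega)

theorem finRotate_trans (hr : 2 ≤ r) (i u : Fin r) (hiu : i ≠ u) :
    ∃ s : ℕ, 0 < s ∧ s < r ∧ ((finRotate r) ^ s) i = u := by
  have hc := isCycle_finRotate_of_le hr
  have hs : ∀ i, finRotate r i ≠ i := by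
    intro i
    have : i ∈ (finRotate r).support := by
      rw [support_finRotate_of_le hr]
      exact Finset.mem_univ i
    exact Equiv.Perm.mem_support.mp this
  obtain ⟨s, hs1, hs2⟩ := (hc.sameCycle (hs i) (hs u)).exists_pow_eq'
  rw [hc.orderOf, support_finRotate_of_le hr, Finset.card_univ, Fintype.card_fin] at hs1
  refine ⟨s, ?_, hs1, hs2⟩
  rcases Nat.eq_zero_or_pos s with h | h
  · subst h
    exact absurd hs2 (by simpa using hiu)
  · exact h

/-- The primes. -/
noncomputable def prm (i : Fin r) : ℕ := Nat.nth Nat.Prime i.val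

theorem prm_prime (i : Fin r) : (prm i).Prime := Nat.prime_nth_prime _

theorem prm_inj : Function.Injective (prm : Fin r → ℕ) := by
  intro i j h
  exact Fin.ext (Nat.nth_injective Nat.infinite_setOfPred_prime h)

/-- A product of distinct primes determines the set of primes. -/
theorem prod_prm_inj {A B : Finset (Fin r)} (h : ∏ x ∈ A, prm x = ∏ x ∈ B, prm x) : A = B := by
  have key : ∀ {A B : Finset (Fin r)}, ∏ x ∈ A, prm x = ∏ x ∈ B, prm x → A ⊆ B := by
    intro A B h x hx
    have h1 : prm x ∣ ∏ y ∈ B, prm y := by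
      rw [← h]
      exact Finset.dvd_prod_of_mem _ hx
    obtain ⟨y, hy, hxy⟩ := (Nat.Prime.prime (prm_prime x)).exists_mem_finset_dvd h1
    have h2 := (Nat.prime_dvd_prime_iff_eq (prm_prime x) (prm_prime y)).mp hxy
    rwa [prm_inj h2]
  exact Finset.Subset.antisymm (key h) (key h.symm)

/-- The orbit segment. -/
noncomputable def seg (σ : Equiv.Perm (Fin r)) (k : ℕ) (i : Fin r) : Finset (Fin r) :=
  (Finset.range k).image fun s => (σ ^ (s + 1)) i

theorem seg_inj {σ : Equiv.Perm (Fin r)} (hfree : ∀ s : ℕ, 0 < s → s < r → ∀ i, (σ ^ s) i ≠ i)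
    {k : ℕ} (hk0 : 0 < k) (hkr : k < r) {i i' : Fin r} (h : seg σ k i = seg σ k i') : i = i' := by
  have h1 : (σ ^ (0 + 1)) i ∈ seg σ k i' := by
    rw [← h]
    exact Finset.mem_image_of_mem _ (Finset.mem_range.mpr hk0)
  obtain ⟨s, hs, hs2⟩ := Finset.mem_image.mp h1
  have hs' := Finset.mem_range.mp hs
  rcases Nat.eq_zero_or_pos s with h0 | h0
  · subst h0
    simp only [zero_add, pow_one] at hs2
    exact (σ.injective hs2).symm
  · have h2 : (σ ^ s) i' = i := by
      have e : σ ((σ ^ s) i') = σ i := by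
        rw [← Equiv.Perm.mul_apply, ← pow_succ']
        simpa using hs2
      exact σ.injective e
    have h3 : i ∈ seg σ k i := by
      rw [h]
      refine Finset.mem_image.mpr ⟨s - 1, Finset.mem_range.mpr (by omega), ?_⟩
      rw [Nat.sub_add_cancel h0, h2]
    obtain ⟨t, ht, ht2⟩ := Finset.mem_image.mp h3
    exact absurd ht2 (hfree (t + 1) (by omega) (by have := Finset.mem_range.mp ht; omega) i)

/-- The explicit data. -/
theorem exists_mono (hr : 2 ≤ r) : ∃ S : Mono r, S.aM.det = 1 ∧ S.bM.det = 1 := by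
  have hr0 : 0 < r := by omega
  -- the scalars
  have hprod : ((∏ i : Fin r, prm i : ℕ) : ℂ) ≠ 0 := by
    rw [Nat.cast_ne_zero]
    exact Finset.prod_ne_zero_iff.mpr fun i _ => (prm_prime i).ne_zero
  obtain ⟨ε, hε⟩ := IsAlgClosed.exists_pow_nat_eq (((∏ i : Fin r, prm i : ℕ) : ℂ)⁻¹) hr0
  have hε0 : ε ≠ 0 := by
    intro h
    rw [h, zero_pow (by omega)] at hε
    exact inv_ne_zero hprod hε.symm
  have hsign : (((Equiv.Perm.sign (finRotate r) : ℤˣ) : ℤ) : ℂ) ≠ 0 := by
    rcases Int.units_eq_one_or (Equiv.Perm.sign (finRotate r)) with h | h <;> simp [h]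
  obtain ⟨d, hdd⟩ := IsAlgClosed.exists_pow_nat_eq
    (((Equiv.Perm.sign (finRotate r) : ℤˣ) : ℤ) : ℂ) hr0
  have hd0 : d ≠ 0 := by
    intro h
    rw [h, zero_pow (by omega)] at hdd
    exact hsign hdd.symm
  let l : Fin r → ℂ := fun i => ε * (prm i : ℂ)
  have hl : ∀ i, l i ≠ 0 := fun i =>
    mul_ne_zero hε0 (Nat.cast_ne_zero.mpr (prm_prime i).ne_zero)
  have hfree := finRotate_free hr
  let S : Mono r :=
    { σ := finRotate r
      d := d
      hd := hd0
      l := l
      hl := hl
      hfree := hfree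
      htrans := finRotate_trans hr
      hint := by
        intro k hk0 hkr i i' h
        have hinj : ∀ a : Fin r, Set.InjOn (fun s : ℕ => ((finRotate r) ^ (s + 1)) a)
            (Finset.range k) := by
          intro a s hs s' hs' he
          simp only [Finset.coe_range, Set.mem_Iio] at hs hs'
          by_contra hne
          have hlt : ∀ s s' : ℕ, s < s' → s' < k →
              ((finRotate r) ^ (s + 1)) a ≠ ((finRotate r) ^ (s' + 1)) a := by
            intro s s' h1 h2 he
            have h3 : ((finRotate r) ^ (s' - s)) (((finRotate r) ^ (s + 1)) a) =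
                ((finRotate r) ^ (s + 1)) a := by
              rw [← Equiv.Perm.mul_apply, ← pow_add]
              have : s' - s + (s + 1) = s' + 1 := by omega
              rw [this]
              exact he.symm
            exact hfree (s' - s) (by omega) (by omega) _ h3
          rcases lt_or_gt_of_ne hne with h1 | h1
          · exact hlt s s' h1 hs' he
          · exact hlt s' s h1 hs he.symm
        have hval : ∀ a : Fin r, ∏ s ∈ Finset.range k, l (((finRotate r) ^ (s + 1)) a) =
            ε ^ k * ((∏ x ∈ seg (finRotate r) k a, prm x : ℕ) : ℂ) := by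
          intro a
          unfold seg
          rw [Finset.prod_image (hinj a)]
          simp only [l, Finset.prod_mul_distrib, Finset.prod_const, Finset.card_range]
          push_cast
          rfl
        rw [hval, hval] at h
        have h1 := mul_left_cancel₀ (pow_ne_zero k hε0) h
        have h2 : (∏ x ∈ seg (finRotate r) k i, prm x) = ∏ x ∈ seg (finRotate r) k i', prm x := by
          exact_mod_cast h1
        exact seg_inj hfree hk0 hkr (prod_prm_inj h2) }
  refine ⟨S, ?_, ?_⟩
  · have h1 : S.aM = d • ((finRotate r).permMatrix ℂ) := by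
      ext i j
      simp only [Mono.aM, Matrix.of_apply, Matrix.smul_apply, smul_eq_mul]
      rw [Equiv.Perm.permMatrix, PEquiv.toMatrix_apply]
      simp only [Equiv.toPEquiv_apply, Option.mem_def, Option.some.injEq]
      change (if (finRotate r) i = j then d else 0) = d * (if (finRotate r) i = j then 1 else 0)
      split_ifs <;> simp
    rw [h1, Matrix.det_smul, Matrix.det_permutation, Fintype.card_fin, hdd]
    rcases Int.units_eq_one_or (Equiv.Perm.sign (finRotate r)) with h | h <;> simp [h]
  · change (diagonal l).det = 1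
    rw [Matrix.det_diagonal]
    simp only [l, Finset.prod_mul_distrib, Finset.prod_const, Finset.card_univ, Fintype.card_fin]
    rw [hε]
    push_cast
    exact inv_mul_cancel₀ (by exact_mod_cast hprod)

/-- The powers of the monomial matrix. -/
theorem Mono.aM_pow_apply (S : Mono r) (k : ℕ) (i j : Fin r) :
    (S.aM ^ k) i j = if (S.σ ^ k) i = j then S.d ^ k else 0 := by
  have h := S.cM_pow_apply 0 k i j
  simpa using h

/-- The words in the base point are linearly independent. -/
theorem Mono.word_indep (S : Mono r) (hr : 2 ≤ r) (coef : Fin r × Fin r → ℂ)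
    (h : ∀ i j, ∑ a : Fin r × Fin r, coef a * ((S.aM ^ (a.1 : ℕ)) * (S.bM ^ (a.2 : ℕ))) i j = 0) :
    coef = 0 := by
  funext ⟨k0, l0⟩
  have hv : ∀ j : Fin r, ∑ t : Fin r, coef (k0, t) * S.l j ^ (t : ℕ) = 0 := by
    intro j
    have h1 := h ((S.σ ^ (k0 : ℕ))⁻¹ j) j
    rw [Fintype.sum_prod_type, Finset.sum_eq_single k0] at h1
    · have h2 : ∑ t : Fin r, coef (k0, t) * ((S.aM ^ (k0 : ℕ)) * (S.bM ^ (t : ℕ)))
          ((S.σ ^ (k0 : ℕ))⁻¹ j) j =
          S.d ^ (k0 : ℕ) * ∑ t : Fin r, coef (k0, t) * S.l j ^ (t : ℕ) := by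
        rw [Finset.mul_sum]
        refine Finset.sum_congr rfl fun t _ => ?_
        rw [S.bM_pow, Matrix.mul_diagonal, S.aM_pow_apply, if_pos (by simp)]
        ring
      simp only at h1
      rw [h2] at h1
      exact (mul_eq_zero.mp h1).resolve_left (pow_ne_zero _ S.hd)
    · intro k _ hk
      refine Finset.sum_eq_zero fun t _ => ?_
      simp only
      rw [S.bM_pow, Matrix.mul_diagonal, S.aM_pow_apply, if_neg, zero_mul, mul_zero]
      intro he
      apply hk
      -- the powers are distinct
      have h3 : (S.σ ^ (k : ℕ)) ((S.σ ^ (k0 : ℕ))⁻¹ j) = (S.σ ^ (k0 : ℕ)) ((S.σ ^ (k0 : ℕ))⁻¹ j) := by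
        rw [he]
        simp
      have hlt : ∀ s s' : ℕ, s < s' → s' < r → ∀ a, (S.σ ^ s) a ≠ (S.σ ^ s') a := by
        intro s s' h1 h2 a he
        have h3 : (S.σ ^ (s' - s)) ((S.σ ^ s) a) = (S.σ ^ s) a := by
          rw [← Equiv.Perm.mul_apply, ← pow_add, Nat.sub_add_cancel h1.le]
          exact he.symm
        exact S.hfree (s' - s) (by omega) (by omega) _ h3
      by_contra hne
      have hne' : (k : ℕ) ≠ (k0 : ℕ) := fun e => hne (Fin.ext e)
      rcases lt_or_gt_of_ne hne' with h4 | h4
      · exact hlt k k0 h4 k0.2 _ h3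
      · exact hlt k0 k h4 k.2 _ h3.symm
    · intro hn
      exact absurd (Finset.mem_univ _) hn
  have hdet : (Matrix.vandermonde S.l).det ≠ 0 :=
    Matrix.det_vandermonde_ne_zero_iff.mpr (S.l_inj hr)
  have h0 : (Matrix.vandermonde S.l).mulVec (fun t => coef (k0, t)) = 0 := by
    funext j
    have := hv j
    simp only [Matrix.mulVec, dotProduct, Matrix.vandermonde_apply, Pi.zero_apply]
    rw [← this]
    exact Finset.sum_congr rfl fun t _ => mul_comm _ _
  have h1 := Matrix.eq_zero_of_mulVec_eq_zero hdet h0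
  exact congrFun h1 l0

/-- The two generators of the base point give a nonzero determinant of words. -/
theorem Mono.qDet_ne (S : Mono r) (hr : 2 ≤ r) (hA : S.aM.det = 1) (hB : S.bM.det = 1) :
    qDet (⟨S.aM, hA⟩ : SLC r) (⟨S.bM, hB⟩ : SLC r) ≠ 0 := by
  intro h0
  obtain ⟨v, hv, hv2⟩ := Matrix.exists_vecMul_eq_zero_iff.mpr h0
  apply hv
  apply S.word_indep hr
  intro i j
  have := congrFun hv2 (i, j)
  simpa [Matrix.vecMul, dotProduct, wordMat] using this

end Vale.Agent.Lib.P002
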