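import Vale.Agent.Lib.P002.CSys
import Vale.Agent.Lib.P002.CMono

/-!
Derivatives of the rational families and properties of the flows on tuples of matrices.
-/

open Matrix Filter Topology

namespace Vale.Agent.Lib.P002

attribute [local instance] Matrix.linftyOpNormedAddCommGroup Matrix.linftyOpNormedSpace
  Matrix.linftyOpNormedRing Matrix.linftyOpNormedAlgebra

variable {n r : ℕ}

/-! ### Derivatives of matrix functions -/

theorem hasDerivAt_matpow {P : ℂ → MC r} {P' : MC r} {t : ℂ} (h : HasDerivAt P P' t) (m : ℕ) :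
    HasDerivAt (fun s => P s ^ m)
      (∑ i ∈ Finset.range m, P t ^ i * P' * P t ^ (m - 1 - i)) t := by
  induction m with
  | zero =>
    simp only [pow_zero, Finset.range_zero, Finset.sum_empty]
    exact hasDerivAt_const t (1 : MC r)
  | succ m ih =>
    have h1 : HasDerivAt (fun s => P s ^ m * P s) _ t := ih.mul h
    have e : (fun s => P s ^ (m + 1)) = fun s => P s ^ m * P s := by
      funext s
      exact pow_succ _ _
    rw [e]
    convert h1 using 1
    rw [Finset.sum_range_succ, Finset.sum_mul]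
    simp only [Nat.add_sub_cancel, Nat.sub_self, pow_zero, Matrix.mul_one]
    congr 1
    refine Finset.sum_congr rfl fun i hi => ?_
    have hi' := Finset.mem_range.mp hi
    have e2 : m - i = (m - 1 - i) + 1 := by omega
    rw [e2, pow_succ (P t) (m - 1 - i)]
    simp only [Matrix.mul_assoc]

theorem hasDerivAt_minv {P : ℂ → MC r} {P' : MC r} {t : ℂ} (h : HasDerivAt P P' t)
    (hu : IsUnit (P t)) :
    HasDerivAt (fun s => (P s)⁻¹) (-((P t)⁻¹ * P' * (P t)⁻¹)) t := by
  obtain ⟨u, hu⟩ := hu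
  have h1 := hasFDerivAt_ringInverse (𝕜 := ℂ) u
  have h0 : HasFDerivAt (𝕜 := ℂ) Ring.inverse (-((ContinuousLinearMap.mulLeftRight ℂ (MC r))
      ((u⁻¹ : (MC r)ˣ) : MC r)) ((u⁻¹ : (MC r)ˣ) : MC r)) (P t) := by
    rw [← hu]
    exact h1
  have h2 : HasDerivAt (Ring.inverse ∘ P) _ t := HasFDerivAt.comp_hasDerivAt t h0 h
  have e : (Ring.inverse ∘ P) = fun s => (P s)⁻¹ := by
    funext s
    simp [Matrix.nonsing_inv_eq_ringInverse]
  rw [e] at h2
  convert h2 using 1
  have h3 : ((u⁻¹ : (MC r)ˣ) : MC r) = (P t)⁻¹ := by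
    rw [← hu, Matrix.coe_units_inv]
  rw [← hu] at *
  simp [h3, Matrix.mul_assoc]

theorem hasDerivAt_dnm (k : ℕ) (M : MC r) :
    HasDerivAt (fun t => dnm k t M) (-(Matrix.trace (M ^ k))) 0 := by
  classical
  have e : (fun t => dnm k t M) = fun t => 1 + Matrix.trace (M ^ k) * (-t) +
      (det (1 + (Polynomial.X : Polynomial ℂ) • (M ^ k).map Polynomial.C)).divX.divX.eval (-t) *
        (-t) ^ 2 := by
    funext t
    unfold dnm
    have : (1 : MC r) - t • M ^ k = 1 + (-t) • M ^ k := by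
      rw [neg_smul, sub_eq_add_neg]
    rw [this, Matrix.det_one_add_smul]
  rw [e]
  set p := (det (1 + (Polynomial.X : Polynomial ℂ) • (M ^ k).map Polynomial.C)).divX.divX
  have h1 : HasDerivAt (fun t : ℂ => -t) (-1 : ℂ) 0 := (hasDerivAt_id (0 : ℂ)).neg
  have h2 : HasDerivAt (fun t : ℂ => p.eval (-t)) _ 0 :=
    HasDerivAt.comp (h₂ := fun x => p.eval x) (0 : ℂ) (p.hasDerivAt (-0)) h1
  have h3 : HasDerivAt (fun t : ℂ => (-t) ^ 2) _ 0 := h1.pow 2
  have h4 := ((hasDerivAt_const (0 : ℂ) (1 : ℂ)).add (h1.const_mul (Matrix.trace (M ^ k)))).add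
    (h2.mul h3)
  refine HasDerivAt.congr_deriv h4 ?_
  simp

/-- The derivative of the rational family. -/
theorem hasDerivAt_gMat (k : ℕ) (M : MC r) : HasDerivAt (fun t => gMat k t M) (gd k M) 0 := by
  have h1 : HasDerivAt (fun t : ℂ => (1 : MC r) - t • M ^ k) (-(M ^ k)) 0 := by
    have h2 : HasDerivAt (fun t : ℂ => t • M ^ k) ((1 : ℂ) • M ^ k) 0 :=
      (hasDerivAt_id (0 : ℂ)).smul_const (M ^ k)
    have h3 := (hasDerivAt_const (0 : ℂ) (1 : MC r)).sub h2
    refine HasDerivAt.congr_deriv h3 ?_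
    simp
  have h2 := hasDerivAt_matpow h1 r
  have h3 : HasDerivAt (fun t => (dnm k t M)⁻¹) _ 0 := (hasDerivAt_dnm k M).inv (by
    rw [dnm_zero]
    exact one_ne_zero)
  have h4 := h3.smul h2
  refine HasDerivAt.congr_deriv h4 ?_
  simp only [dnm_zero, inv_one, one_smul, zero_smul, sub_zero, one_pow, Matrix.one_mul,
    Matrix.mul_one, Finset.sum_const, Finset.card_range]
  unfold gd
  simp only [neg_neg, div_one]
  rw [sub_eq_add_neg]
  simp only [smul_neg]
  have e : ((r : ℕ) : MC r) * M ^ k = (r : ℂ) • M ^ k := by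
    rw [Nat.cast_smul_eq_nsmul, nsmul_eq_mul]
  simp only [nsmul_eq_mul, e]
  rw [add_comm]

/-! ### The relation as a function on tuples of matrices -/

/-- The value of the surface relation on a tuple of matrices. -/
noncomputable def relM (q : Ix n → MC r) : MC r := mE q (relG FreeGroup.of)

theorem lift_relG {G : Type*} [Group G] (q : Ix n → G) :
    FreeGroup.lift q (relG FreeGroup.of) = relG q := by
  have h := relG_map (FreeGroup.lift q) (FreeGroup.of (α := Ix n))
  simp only [FreeGroup.lift_apply_of] at h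
  exact h.symm

theorem relM_units (q : Ix n → (MC r)ˣ) :
    relM (fun i => ((q i : (MC r)ˣ) : MC r)) = ((relG q : (MC r)ˣ) : MC r) := by
  unfold relM
  rw [mE_units, lift_relG]

theorem relM_sl (q : Ix n → SLC r) :
    relM (fun i => ((q i : SLC r) : MC r)) = ((relG q : SLC r) : MC r) := by
  unfold relM
  rw [mE_sl, lift_relG]

/-! ### The flows -/

/-- The flow of a label. -/
noncomputable def wF (l : CLab n) : ℂ × (Ix n → MC r) → Ix n → MC r :=
  wFlow (cLab l) (mvLab l) (kLab l)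

theorem wF_units (l : CLab n) (t : ℂ) (q : Ix n → (MC r)ˣ)
    (h : dnm (kLab l) t ((FreeGroup.lift q (cLab l) : (MC r)ˣ) : MC r) ≠ 0) (i : Ix n) :
    wF l (t, fun a => ((q a : (MC r)ˣ) : MC r)) i =
      ((mvAt (mvLab l) q (gMat_isUnit h).unit i : (MC r)ˣ) : MC r) :=
  wFlow_units _ _ _ _ _ h i

theorem unit_gMat_coe {k : ℕ} {t : ℂ} {M : MC r} (h : dnm k t M ≠ 0) :
    (((gMat_isUnit h).unit : (MC r)ˣ) : MC r) = gMat k t M := rfl

theorem wF_zero_units (l : CLab n) (q : Ix n → (MC r)ˣ) :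
    wF l (0, fun a => ((q a : (MC r)ˣ) : MC r)) = fun a => ((q a : (MC r)ˣ) : MC r) := by
  funext i
  have h : dnm (kLab l) 0 ((FreeGroup.lift q (cLab l) : (MC r)ˣ) : MC r) ≠ 0 := by
    rw [dnm_zero]
    exact one_ne_zero
  rw [wF_units l 0 q h i]
  have e : (gMat_isUnit h).unit = 1 := by
    apply Units.ext
    rw [unit_gMat_coe h, gMat_zero]
    rfl
  rw [e, mv_one_eq]

theorem wF_rel_units (l : CLab n) (t : ℂ) (q : Ix n → (MC r)ˣ)
    (h : dnm (kLab l) t ((FreeGroup.lift q (cLab l) : (MC r)ˣ) : MC r) ≠ 0) :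
    relM (wF l (t, fun a => ((q a : (MC r)ˣ) : MC r))) =
      relM (fun a => ((q a : (MC r)ˣ) : MC r)) := by
  have e : wF l (t, fun a => ((q a : (MC r)ˣ) : MC r)) =
      fun i => ((mvAt (mvLab l) q (gMat_isUnit h).unit i : (MC r)ˣ) : MC r) := by
    funext i
    exact wF_units l t q h i
  rw [e, relM_units, relM_units, mv_rel]
  apply Units.ext
  exact gMat_commute _ _ _

/-- The determinant as a homomorphism on units. -/
noncomputable def detU (r : ℕ) : (MC r)ˣ →* ℂˣ := Units.map (Matrix.detMonoidHom)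

theorem detU_coe (u : (MC r)ˣ) : ((detU r u : ℂˣ) : ℂ) = ((u : (MC r)ˣ) : MC r).det := rfl

theorem wF_det_units (l : CLab n) (t : ℂ) (q : Ix n → (MC r)ˣ)
    (h : dnm (kLab l) t ((FreeGroup.lift q (cLab l) : (MC r)ˣ) : MC r) ≠ 0) (i : Ix n) :
    (wF l (t, fun a => ((q a : (MC r)ˣ) : MC r)) i).det = ((q i : (MC r)ˣ) : MC r).det := by
  rw [wF_units l t q h i, ← detU_coe, ← detU_coe]
  congr 1
  have h1 : detU r (gMat_isUnit h).unit = 1 := by
    apply Units.ext
    rw [detU_coe, unit_gMat_coe h, gMat_det h]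
    rfl
  have h2 : ∀ w : FreeGroup (Option (Ix n)), detU r (FreeGroup.lift
      (extT q (gMat_isUnit h).unit) w) = FreeGroup.lift (extT (fun a => detU r (q a)) 1) w := by
    intro w
    have h3 : (detU r).comp (FreeGroup.lift (extT q (gMat_isUnit h).unit)) =
        FreeGroup.lift (extT (fun a => detU r (q a)) 1) := by
      ext o
      cases o with
      | none => simpa [extT] using h1
      | some a => simp [extT]
    exact congrArg (fun f => f w) h3
  have h3 := congrFun (mv_one_eq l (fun a => detU r (q a))) i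
  unfold mvAt at h3 ⊢
  rw [h2, h3]

theorem wF_sl (l : CLab n) (t : ℂ) (q : Ix n → SLC r)
    (h : dnm (kLab l) t (((surfSys n r).cv l q : SLC r) : MC r) ≠ 0) (i : Ix n) :
    wF l (t, fun a => ((q a : SLC r) : MC r)) i = (((surfSys n r).bMove l t q i : SLC r) : MC r) := by
  unfold wF wFlow
  simp only
  rw [mE_sl]
  have e : extT (fun a => ((q a : SLC r) : MC r))
      (gMat (kLab l) t ((FreeGroup.lift q (cLab l) : SLC r) : MC r)) =
      fun o => ((extT q (gS (kLab l) t ((surfSys n r).cv l q)) o : SLC r) : MC r) := by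
    funext o
    cases o with
    | none =>
      change gMat (kLab l) t _ = ((gS (kLab l) t ((surfSys n r).cv l q) : SLC r) : MC r)
      rw [gS_coe h]
      rfl
    | some a => rfl
  rw [e, mE_sl]
  rfl

section Local

variable {ρ : Ix n → MC r}

theorem wF_zero (l : CLab n) {q : Ix n → MC r} (hq : ∀ i, IsUnit (q i)) : wF l (0, q) = q :=
  wF_zero_units l (toUnits q hq)

theorem wF_rel (l : CLab n) {t : ℂ} {q : Ix n → MC r} (hq : ∀ i, IsUnit (q i))
    (h : dnm (kLab l) t (mE q (cLab l)) ≠ 0) : relM (wF l (t, q)) = relM q := by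
  have e : mE q (cLab l) = ((FreeGroup.lift (toUnits q hq) (cLab l) : (MC r)ˣ) : MC r) :=
    mE_units (toUnits q hq) (cLab l)
  rw [e] at h
  exact wF_rel_units l t (toUnits q hq) h

theorem wF_det (l : CLab n) {t : ℂ} {q : Ix n → MC r} (hq : ∀ i, IsUnit (q i))
    (h : dnm (kLab l) t (mE q (cLab l)) ≠ 0) (i : Ix n) : (wF l (t, q) i).det = (q i).det := by
  have e : mE q (cLab l) = ((FreeGroup.lift (toUnits q hq) (cLab l) : (MC r)ˣ) : MC r) :=
    mE_units (toUnits q hq) (cLab l)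
  rw [e] at h
  exact wF_det_units l t (toUnits q hq) h i

/-- The conditions needed for the flow near the base point. -/
theorem wF_good (l : CLab n) (hρ : ∀ i, IsUnit (ρ i)) :
    ∀ᶠ z in 𝓝 ((0 : ℂ), ρ), (∀ i, IsUnit (z.2 i)) ∧ dnm (kLab l) z.1 (mE z.2 (cLab l)) ≠ 0 := by
  have hsnd : ContDiffAt ℂ 1 (fun z : ℂ × (Ix n → MC r) => z.2) ((0 : ℂ), ρ) := contDiffAt_snd
  have hfst : ContDiffAt ℂ 1 (fun z : ℂ × (Ix n → MC r) => z.1) ((0 : ℂ), ρ) := contDiffAt_fst
  have hc : ContDiffAt ℂ 1 (fun z : ℂ × (Ix n → MC r) => mE z.2 (cLab l)) ((0 : ℂ), ρ) :=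
    contDiffAt_mE (fun a => (contDiffAt_pi.mp hsnd) a) hρ _
  have hd := (contDiffAt_dnm (k := kLab l) hfst hc).continuousAt
  have h1 : ∀ᶠ z : ℂ × (Ix n → MC r) in 𝓝 ((0 : ℂ), ρ), dnm (kLab l) z.1 (mE z.2 (cLab l)) ≠ 0 := by
    refine hd.eventually_ne ?_
    simp only [dnm_zero]
    exact one_ne_zero
  have h2 : ∀ᶠ z : ℂ × (Ix n → MC r) in 𝓝 ((0 : ℂ), ρ), ∀ i, IsUnit (z.2 i) :=
    continuous_snd.continuousAt.eventually (eventually_isUnit hρ)
  filter_upwards [h1, h2] with z h3 h4 using ⟨h4, h3⟩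

/-- The tangent vector of a flow. -/
noncomputable def Yf (ρ : Ix n → MC r) (l : CLab n) : Ix n → MC r :=
  deriv (fun t => wF l (t, ρ)) 0

theorem wF_contDiff (l : CLab n) (hρ : ∀ i, IsUnit (ρ i)) :
    ContDiffAt ℂ 1 (wF (r := r) l) (0, ρ) :=
  wFlow_contDiffAt _ _ _ hρ

theorem wF_hasDeriv (l : CLab n) (hρ : ∀ i, IsUnit (ρ i)) :
    HasDerivAt (fun t => wF l (t, ρ)) (Yf ρ l) 0 := by
  apply DifferentiableAt.hasDerivAt
  have h1 : DifferentiableAt ℂ (wF (r := r) l) (0, ρ) :=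
    (wF_contDiff l hρ).differentiableAt (by norm_num)
  have h2 : DifferentiableAt ℂ (fun t : ℂ => (t, ρ)) 0 := by fun_prop
  exact DifferentiableAt.comp (g := wF (r := r) l) (0 : ℂ) h1 h2

theorem wF_strict (l : CLab n) (hρ : ∀ i, IsUnit (ρ i)) :
    HasStrictFDerivAt (wF (r := r) l) (flowD (Yf ρ l)) (0, ρ) := by
  refine flow_strict (wF_contDiff l hρ) (by norm_num) ?_ (wF_hasDeriv l hρ)
  filter_upwards [eventually_isUnit hρ] with q hq using wF_zero l hq

theorem wF_base (l : CLab n) (hρ : ∀ i, IsUnit (ρ i)) : wF l (0, ρ) = ρ := wF_zero l hρ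

theorem relM_strict (hρ : ∀ i, IsUnit (ρ i)) :
    HasStrictFDerivAt (relM (n := n) (r := r)) (fderiv ℂ relM ρ) ρ := by
  have h1 : ContDiffAt ℂ 1 (relM (n := n) (r := r)) ρ :=
    contDiffAt_mE (fun a => (contDiffAt_pi.mp contDiffAt_id) a) hρ _
  exact h1.hasStrictFDerivAt (by norm_num)

end Local

end Vale.Agent.Lib.P002
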