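import Vale.Agent.Lib.P002.CInt

/-!
Generic elements of the special linear group: regular semisimple with multiplicatively independent
eigenvalues. The condition is a countable intersection of conditions, each being the non-vanishing
of a polynomial function.
-/

open Matrix MvPolynomial

namespace Vale.Agent.Lib.P002

variable {r : ℕ}

/-- Multiplicative independence of numbers with product one. -/
def MulIndep (μ : Fin r → ℂ) : Prop :=
  ∀ e e' : Fin r → ℕ, ∏ i, μ i ^ e i = ∏ i, μ i ^ e' i →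
    (∃ c : ℕ, ∀ i, e i = e' i + c) ∨ (∃ c : ℕ, ∀ i, e' i = e i + c)

/-- A generic element. -/
def GenM (M : SLC r) : Prop :=
  ∃ (Q Q' : Matrix (Fin r) (Fin r) ℂ) (μ : Fin r → ℂ), Q * Q' = 1 ∧
    (M : Matrix (Fin r) (Fin r) ℂ) = Q * diagonal μ * Q' ∧ ∏ i, μ i = 1 ∧ MulIndep μ

/-- Two exponent vectors whose difference is not constant. -/
def NonConst (e e' : Fin r → ℕ) : Prop :=
  ¬ ((∃ c : ℕ, ∀ i, e i = e' i + c) ∨ (∃ c : ℕ, ∀ i, e' i = e i + c))

/-- The symmetric polynomial vanishing when the monomials coincide for some ordering. -/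
noncomputable def symS (e e' : Fin r → ℕ) : MvPolynomial (Fin r) ℂ :=
  ∏ σ : Equiv.Perm (Fin r), (∏ i, X (σ i) ^ e i - ∏ i, X (σ i) ^ e' i)

theorem symS_isSymmetric (e e' : Fin r → ℕ) : (symS e e').IsSymmetric := by
  intro τ
  unfold symS
  rw [map_prod]
  simp only [map_sub, map_prod, map_pow, rename_X]
  exact Equiv.prod_comp (Equiv.mulLeft τ)
    (fun σ : Equiv.Perm (Fin r) => (∏ i, X (σ i) ^ e i - ∏ i, X (σ i) ^ e' i))

/-- The expression of the symmetric polynomial in the elementary symmetric polynomials. -/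
noncomputable def symT (e e' : Fin r → ℕ) : MvPolynomial (Fin r) ℂ :=
  (esymmAlgEquiv (Fin r) ℂ (Fintype.card_fin r)).symm ⟨symS e e', symS_isSymmetric e e'⟩

theorem symT_eval (e e' : Fin r → ℕ) (μ : Fin r → ℂ) :
    eval (fun i : Fin r => eval μ (esymm (Fin r) ℂ (i + 1))) (symT e e') = eval μ (symS e e') := by
  have h1 : (esymmAlgHom (Fin r) ℂ r (symT e e')).val = symS e e' := by
    have := (esymmAlgEquiv (Fin r) ℂ (Fintype.card_fin r)).apply_symm_apply
      ⟨symS e e', symS_isSymmetric e e'⟩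
    exact congrArg Subtype.val this
  rw [esymmAlgHom_apply] at h1
  rw [← h1]
  generalize symT e e' = p
  induction p using MvPolynomial.induction_on with
  | C a => simp
  | add p q hp hq => simp [hp, hq]
  | mul_X p i hp => simp [hp]

/-- The elementary symmetric functions as functions of a matrix. -/
noncomputable def ccM (i : Fin r) (M : SLC r) : ℂ :=
  (-1) ^ ((i : ℕ) + 1) * ((M : Matrix (Fin r) (Fin r) ℂ).charpoly.coeff (r - ((i : ℕ) + 1)))

/-- The polynomial function on the group. -/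
noncomputable def symR (e e' : Fin r → ℕ) (M : SLC r) : ℂ :=
  eval (fun i => ccM i M) (symT e e')

theorem symR_poly {Y κ : Type*} {c : κ → Y → ℂ} {M : Y → SLC r} (hM : PolyG c M)
    (e e' : Fin r → ℕ) : PolyOn c (fun y => symR e e' (M y)) := by
  have h : PolyOn (fun (i : Fin r) (M : SLC r) => ccM i M) (symR e e') := ⟨symT e e', fun x => rfl⟩
  refine h.comp fun i => ?_
  unfold ccM
  exact (PolyOn.const _ _).mul (PolyM.charpoly_coeff hM _)

theorem symR_eval {e e' : Fin r → ℕ} {M : SLC r} {μ : Fin r → ℂ}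
    (h : (M : Matrix (Fin r) (Fin r) ℂ).charpoly = ∏ i, (Polynomial.X - Polynomial.C (μ i))) :
    symR e e' M = ∏ σ : Equiv.Perm (Fin r), (∏ i, μ (σ i) ^ e i - ∏ i, μ (σ i) ^ e' i) := by
  have h1 : ∀ i : Fin r, ccM i M = eval μ (esymm (Fin r) ℂ (i + 1)) := by
    intro i
    unfold ccM
    rw [h]
    have hi : (i : ℕ) + 1 ≤ r := i.2
    have h2 : Multiset.card (Finset.univ.val.map μ) = r := by simp
    have h3 : (∏ i, (Polynomial.X - Polynomial.C (μ i))) =
        ((Finset.univ.val.map μ).map fun t => Polynomial.X - Polynomial.C t).prod := by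
      rw [Multiset.map_map]
      rfl
    rw [h3, Multiset.prod_X_sub_C_coeff _ (by rw [h2]; omega), h2]
    have h4 : r - (r - ((i : ℕ) + 1)) = (i : ℕ) + 1 := by omega
    rw [h4, ← mul_assoc, ← pow_add, ← two_mul, pow_mul]
    simp only [even_two, Even.neg_pow, one_pow, one_mul]
    rw [← MvPolynomial.aeval_esymm_eq_multiset_esymm (σ := Fin r) (R := ℂ) (S := ℂ)]
    rw [MvPolynomial.aeval_eq_eval]
  unfold symR
  rw [funext h1, symT_eval]
  simp [symS]

/-- Every element has an ordering of its eigenvalues. -/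
theorem exists_eigs (M : Matrix (Fin r) (Fin r) ℂ) :
    ∃ μ : Fin r → ℂ, M.charpoly = ∏ i, (Polynomial.X - Polynomial.C (μ i)) := by
  have hs := IsAlgClosed.splits M.charpoly
  have h1 : Multiset.card M.charpoly.roots = r := by
    rw [← hs.natDegree_eq_card_roots, Matrix.charpoly_natDegree_eq_dim, Fintype.card_fin]
  have h2 : M.charpoly = (M.charpoly.roots.map fun a => Polynomial.X - Polynomial.C a).prod :=
    (hs.eq_prod_roots_of_monic M.charpoly_monic)
  let l := M.charpoly.roots.toList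
  have hl : l.length = r := by
    simp only [l, Multiset.length_toList, h1]
  refine ⟨fun i => l.get (i.cast hl.symm), ?_⟩
  have h3 : (Finset.univ.val.map fun i : Fin r => l.get (i.cast hl.symm)) = M.charpoly.roots := by
    rw [Fin.univ_val_map]
    have : (List.ofFn fun i : Fin r => l.get (i.cast hl.symm)) = l := by
      apply List.ext_get
      · simpa using hl.symm
      · intro n h1 h2
        simp
    rw [this]
    exact Multiset.coe_toList _
  conv_lhs => rw [h2, ← h3, Multiset.map_map]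
  rfl

theorem prod_eigs {M : SLC r} {μ : Fin r → ℂ}
    (h : (M : Matrix (Fin r) (Fin r) ℂ).charpoly = ∏ i, (Polynomial.X - Polynomial.C (μ i))) :
    ∏ i, μ i = 1 := by
  have h1 := Matrix.det_eq_prod_roots_charpoly (M : Matrix (Fin r) (Fin r) ℂ)
  rw [M.2] at h1
  have h3 : (∏ i, (Polynomial.X - Polynomial.C (μ i))) =
      ((Finset.univ.val.map μ).map fun t => Polynomial.X - Polynomial.C t).prod := by
    rw [Multiset.map_map]
    rfl
  rw [h, h3, Polynomial.roots_multiset_prod_X_sub_C] at h1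
  exact h1.symm

/-- A matrix with distinct eigenvalues is diagonalizable. -/
theorem diag_of_inj {M : Matrix (Fin r) (Fin r) ℂ} {μ : Fin r → ℂ}
    (h : M.charpoly = ∏ i, (Polynomial.X - Polynomial.C (μ i))) (hμ : Function.Injective μ) :
    ∃ Q Q' : Matrix (Fin r) (Fin r) ℂ, Q * Q' = 1 ∧ M = Q * diagonal μ * Q' := by
  have h1 : ∀ i, ∃ v : Fin r → ℂ, v ≠ 0 ∧ M.mulVec v = μ i • v := by
    intro i
    have h2 : (Matrix.scalar (Fin r) (μ i) - M).det = 0 := by
      rw [← Matrix.eval_charpoly, h, Polynomial.eval_prod]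
      exact Finset.prod_eq_zero (Finset.mem_univ i) (by simp)
    obtain ⟨v, hv, hv2⟩ := Matrix.exists_mulVec_eq_zero_iff.mpr h2
    refine ⟨v, hv, ?_⟩
    rw [Matrix.sub_mulVec, sub_eq_zero] at hv2
    rw [← hv2]
    ext a
    simp [Matrix.scalar_apply, Matrix.mulVec_diagonal]
  choose v hv0 hv using h1
  have hli : LinearIndependent ℂ v := by
    refine Module.End.eigenvectors_linearIndependent' (Matrix.toLin' M) μ hμ v fun i => ?_
    refine ⟨?_, hv0 i⟩
    rw [Module.End.mem_eigenspace_iff, Matrix.toLin'_apply]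
    exact hv i
  let Q : Matrix (Fin r) (Fin r) ℂ := (Matrix.of v)ᵀ
  have hQ : IsUnit Q := by
    rw [← Matrix.linearIndependent_cols_iff_isUnit]
    exact hli
  have hdet : IsUnit Q.det := (Matrix.isUnit_iff_isUnit_det Q).mp hQ
  refine ⟨Q, Q⁻¹, Matrix.mul_nonsing_inv Q hdet, ?_⟩
  have h3 : M * Q = Q * diagonal μ := by
    ext a b
    have := congrFun (hv b) a
    simp only [Matrix.mulVec, dotProduct, Pi.smul_apply, smul_eq_mul] at this
    rw [Matrix.mul_diagonal, Matrix.mul_apply]
    simp only [Q, Matrix.transpose_apply, Matrix.of_apply]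
    rw [this, mul_comm]
  rw [← h3, Matrix.mul_assoc, Matrix.mul_nonsing_inv Q hdet, Matrix.mul_one]

theorem mulIndep_inj {μ : Fin r → ℂ} (h : MulIndep μ) : Function.Injective μ := by
  classical
  intro i j hij
  by_contra hne
  have := h (fun k => if k = i then 1 else 0) (fun k => if k = j then 1 else 0) (by
    simp [pow_ite, hij])
  rcases this with ⟨c, hc⟩ | ⟨c, hc⟩
  · have := hc j
    simp only [if_true] at this
    rw [if_neg (Ne.symm hne)] at this
    omega
  · have := hc i
    simp only [if_true] at this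
    rw [if_neg hne] at this
    omega

/-- The non-vanishing of all the polynomial functions implies genericity. -/
theorem genM_of_symR {M : SLC r}
    (h : ∀ e e' : Fin r → ℕ, NonConst e e' → symR e e' M ≠ 0) : GenM M := by
  obtain ⟨μ, hμ⟩ := exists_eigs (M : Matrix (Fin r) (Fin r) ℂ)
  have hind : MulIndep μ := by
    intro e e' hee
    by_contra hcon
    have h1 := h e e' hcon
    rw [symR_eval hμ] at h1
    refine h1 (Finset.prod_eq_zero (Finset.mem_univ (1 : Equiv.Perm (Fin r))) ?_)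
    simp only [Equiv.Perm.coe_one, id_eq]
    rw [hee, sub_self]
  obtain ⟨Q, Q', h1, h2⟩ := diag_of_inj hμ (mulIndep_inj hind)
  exact ⟨Q, Q', μ, h1, h2, prod_eigs hμ, hind⟩

/-- The numbers used to show that the polynomial functions are not zero. -/
theorem exists_good_eigs {e e' : Fin r → ℕ} (h : NonConst e e') :
    ∃ μ : Fin r → ℂ, ∏ i, μ i = 1 ∧ ∀ σ : Equiv.Perm (Fin r),
      ∏ i, μ (σ i) ^ e i - ∏ i, μ (σ i) ^ e' i ≠ 0 := by
  classical
  -- the difference of the exponents is not constant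
  have hd : ∃ i j, (e i : ℤ) - e' i ≠ (e j : ℤ) - e' j := by
    by_contra hcon
    push Not at hcon
    apply h
    by_cases hr : Nonempty (Fin r)
    · obtain ⟨i0⟩ := hr
      by_cases h0 : 0 ≤ (e i0 : ℤ) - e' i0
      · left
        refine ⟨((e i0 : ℤ) - e' i0).toNat, fun i => ?_⟩
        have := hcon i i0
        omega
      · right
        refine ⟨((e' i0 : ℤ) - e i0).toNat, fun i => ?_⟩
        have := hcon i i0
        omega
    · left
      exact ⟨0, fun i => absurd ⟨i⟩ hr⟩
  obtain ⟨i0, j0, hij⟩ := hd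
  -- the space of real vectors with sum zero
  let sumL : (Fin r → ℝ) →ₗ[ℝ] ℝ := ∑ i, LinearMap.proj i
  let E := LinearMap.ker sumL
  let fσ : Equiv.Perm (Fin r) → (E →ₗ[ℝ] ℝ) := fun σ =>
    (∑ i, (((e i : ℝ) - e' i) • (LinearMap.proj (σ i) : (Fin r → ℝ) →ₗ[ℝ] ℝ))).comp E.subtype
  have hf : ∀ σ, LinearMap.ker (fσ σ) ≠ ⊤ := by
    intro σ htop
    let θ0 : Fin r → ℝ := fun k => (if k = σ i0 then 1 else 0) - (if k = σ j0 then 1 else 0)
    have hθ : θ0 ∈ E := by
      simp [E, sumL, θ0, LinearMap.sum_apply, Finset.sum_sub_distrib]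
    have h1 : fσ σ ⟨θ0, hθ⟩ = 0 := by
      have : (⟨θ0, hθ⟩ : E) ∈ LinearMap.ker (fσ σ) := by
        rw [htop]
        exact Submodule.mem_top
      exact this
    have h2 : fσ σ ⟨θ0, hθ⟩ = ((e i0 : ℝ) - e' i0) - ((e j0 : ℝ) - e' j0) := by
      simp only [fσ, LinearMap.comp_apply, Submodule.subtype_apply, LinearMap.sum_apply,
        LinearMap.smul_apply, LinearMap.proj_apply, smul_eq_mul, θ0, mul_sub,
        Finset.sum_sub_distrib]
      simp [σ.injective.eq_iff]
    rw [h2] at h1
    apply hij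
    have : (((e i0 : ℤ) - e' i0 : ℤ) : ℝ) = (((e j0 : ℤ) - e' j0 : ℤ) : ℝ) := by
      push_cast
      linarith
    exact_mod_cast this
  let s : Finset (Subspace ℝ E) := Finset.univ.image fun σ => LinearMap.ker (fσ σ)
  have hs : ⊤ ∉ s := by
    intro hm
    obtain ⟨σ, _, hσ⟩ := Finset.mem_image.mp hm
    exact hf σ hσ
  have hne := Subspace.biUnion_ne_univ_of_top_notMem hs
  obtain ⟨θ, hθ⟩ : ∃ θ : E, θ ∉ ⋃ p ∈ s, (p : Set E) := by
    by_contra hcon
    push Not at hcon
    exact hne (Set.eq_univ_of_forall hcon)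
  have hθσ : ∀ σ, fσ σ θ ≠ 0 := by
    intro σ h0
    apply hθ
    simp only [Set.mem_iUnion]
    exact ⟨LinearMap.ker (fσ σ), Finset.mem_image.mpr ⟨σ, Finset.mem_univ _, rfl⟩, h0⟩
  have hsum : ∑ i, (θ : Fin r → ℝ) i = 0 := by
    have h1 : sumL (θ : Fin r → ℝ) = 0 := LinearMap.mem_ker.mp θ.2
    have h2 : sumL (θ : Fin r → ℝ) = ∑ i, (θ : Fin r → ℝ) i := by
      simp only [sumL, LinearMap.sum_apply, LinearMap.proj_apply]
    rw [← h2, h1]
  refine ⟨fun i => ((Real.exp ((θ : Fin r → ℝ) i) : ℝ) : ℂ), ?_, ?_⟩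
  · have : (∏ i, (Real.exp ((θ : Fin r → ℝ) i) : ℝ)) = 1 := by
      rw [← Real.exp_sum, hsum, Real.exp_zero]
    show ∏ i, ((Real.exp ((θ : Fin r → ℝ) i) : ℝ) : ℂ) = 1
    rw [← Complex.ofReal_prod, this, Complex.ofReal_one]
  · intro σ h0
    apply hθσ σ
    rw [sub_eq_zero] at h0
    have h1 : ∀ e : Fin r → ℕ, ∏ i, ((Real.exp ((θ : Fin r → ℝ) (σ i)) : ℝ) : ℂ) ^ e i =
        ((Real.exp (∑ i, (e i : ℝ) * (θ : Fin r → ℝ) (σ i)) : ℝ) : ℂ) := by
      intro e
      rw [Real.exp_sum]
      push_cast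
      refine Finset.prod_congr rfl fun i _ => ?_
      rw [← Complex.ofReal_exp, ← Complex.ofReal_pow, ← Real.exp_nat_mul]
      norm_cast
    rw [h1, h1] at h0
    have h2 := Real.exp_injective (Complex.ofReal_injective h0)
    simp only [fσ, LinearMap.comp_apply, Submodule.subtype_apply, LinearMap.sum_apply,
      LinearMap.smul_apply, LinearMap.proj_apply, smul_eq_mul, sub_mul, Finset.sum_sub_distrib]
    rw [h2, sub_self]

/-- The polynomial functions are not identically zero. -/
theorem exists_symR_ne {e e' : Fin r → ℕ} (h : NonConst e e') :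
    ∃ M : SLC r, symR e e' M ≠ 0 := by
  obtain ⟨μ, h1, h2⟩ := exists_good_eigs h
  let M : SLC r := ⟨diagonal μ, by rw [det_diagonal, h1]⟩
  have hc : (M : Matrix (Fin r) (Fin r) ℂ).charpoly =
      ∏ i, (Polynomial.X - Polynomial.C (μ i)) := Matrix.charpoly_diagonal μ
  refine ⟨M, ?_⟩
  rw [symR_eval hc]
  exact Finset.prod_ne_zero_iff.mpr fun σ _ => h2 σ

end Vale.Agent.Lib.P002
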