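import Vale.Agent.Lib.P002.CTang

/-!
The kernel of the derivative of the relation at the base point is spanned by the tangent vectors
of the flows, the scalings and the tangent vectors of the base family.
-/

open Matrix Filter Topology

namespace Vale.Agent.Lib.P002

attribute [local instance] Matrix.linftyOpNormedAddCommGroup Matrix.linftyOpNormedSpace
  Matrix.linftyOpNormedRing Matrix.linftyOpNormedAlgebra

variable {n r : ℕ}

/-! ### Scalings -/

/-- The weights of the scalings: not on the last handle and not on the letters `t_j`. -/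
def mask (i : Ix n) : ℂ := if i.1.val = n + 1 ∨ (i.1.val ≠ 0 ∧ i.2 = false) then 0 else 1

theorem relG_central {G : Type*} [Group G] (c q : Ix n → G) (hc : ∀ i g, Commute (c i) g) :
    relG (fun i => c i * q i) = relG q := by
  unfold relG
  congr 2
  funext i
  have h1 := (hc (i, false) (q (i, false) * (c (i, true) * q (i, true)) * (q (i, false))⁻¹)).eq
  have h2 := (hc (i, true) (q (i, true))).eq
  have h3 := (hc (i, true) (q (i, false))⁻¹).eq
  have h4 := (hc (i, true) (q (i, false))).eq
  calc c (i, false) * q (i, false) * (c (i, true) * q (i, true)) *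
        (c (i, false) * q (i, false))⁻¹ * (c (i, true) * q (i, true))⁻¹
      = (c (i, false) * (q (i, false) * (c (i, true) * q (i, true)) * (q (i, false))⁻¹)) *
          (c (i, false))⁻¹ * (c (i, true) * q (i, true))⁻¹ := by group
    _ = ((q (i, false) * (c (i, true) * q (i, true)) * (q (i, false))⁻¹) * c (i, false)) *
          (c (i, false))⁻¹ * (c (i, true) * q (i, true))⁻¹ := by rw [h1]
    _ = q (i, false) * (c (i, true) * q (i, true)) * (q (i, false))⁻¹ *
          (c (i, true) * q (i, true))⁻¹ := by group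
    _ = c (i, true) * (q (i, false) * q (i, true) * (q (i, false))⁻¹) *
          (c (i, true) * q (i, true))⁻¹ := by
        have h5 := (hc (i, true) (q (i, false) * q (i, true) * (q (i, false))⁻¹)).eq
        rw [h5]
        have h6 : q (i, false) * (c (i, true) * q (i, true)) =
            c (i, true) * (q (i, false) * q (i, true)) := by
          rw [← mul_assoc, ← h4]
          group
        rw [h6]
        have h7 : c (i, true) * (q (i, false) * q (i, true)) * (q (i, false))⁻¹ =
            c (i, true) * (q (i, false) * q (i, true) * (q (i, false))⁻¹) := by group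
        rw [h7, h5]
    _ = c (i, true) * (q (i, false) * q (i, true) * (q (i, false))⁻¹ * (q (i, true))⁻¹) *
          (c (i, true))⁻¹ := by group
    _ = (q (i, false) * q (i, true) * (q (i, false))⁻¹ * (q (i, true))⁻¹) * c (i, true) *
          (c (i, true))⁻¹ := by
        rw [(hc (i, true) (q (i, false) * q (i, true) * (q (i, false))⁻¹ * (q (i, true))⁻¹)).eq]
    _ = _ := by group

/-- The scalar units. -/
noncomputable def scU (c : ℂˣ) : (MC r)ˣ := Units.map (algebraMap ℂ (MC r)).toMonoidHom c

theorem scU_coe (c : ℂˣ) (M : MC r) : ((scU c : (MC r)ˣ) : MC r) * M = (c : ℂ) • M := by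
  simp [scU, Algebra.smul_def]

theorem scU_commute (c : ℂˣ) (g : (MC r)ˣ) : Commute (scU c) g := by
  apply Units.ext
  change ((scU c : (MC r)ˣ) : MC r) * (g : MC r) = (g : MC r) * ((scU c : (MC r)ˣ) : MC r)
  simp [scU, Algebra.commutes]

/-- Scaling does not change the relation. -/
theorem relM_scale {c : Ix n → ℂ} {q : Ix n → MC r} (hc : ∀ i, c i ≠ 0) (hq : ∀ i, IsUnit (q i)) :
    relM (fun i => c i • q i) = relM q := by
  let cu : Ix n → ℂˣ := fun i => Units.mk0 (c i) (hc i)
  let qu := toUnits q hq
  have e1 : (fun i => c i • q i) = fun i =>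
      (((fun i => scU (cu i)) i * qu i : (MC r)ˣ) : MC r) := by
    funext i
    rw [Units.val_mul, scU_coe]
    rfl
  rw [e1, relM_units, relG_central (fun i => scU (cu i)) qu fun i g => scU_commute _ _]
  exact (relM_units qu).symm

/-! ### The base family -/

/-- The linear part of the base family. -/
noncomputable def betaLin (n r : ℕ) : (Fin (n + 2) → MC r) →ₗ[ℂ] (Ix n → MC r) where
  toFun x i := betaG x i - betaG (0 : Fin (n + 2) → MC r) i
  map_add' x y := by
    funext i
    simp only [Pi.add_apply]
    unfold betaG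
    split_ifs <;> simp
  map_smul' c x := by
    funext i
    simp only [Pi.smul_apply, RingHom.id_apply]
    unfold betaG
    split_ifs <;> simp

theorem betaG_eq (x : Fin (n + 2) → MC r) : betaG x = betaLin n r x + betaG 0 := by
  funext i
  simp [betaLin]

theorem betaG_units (y : Fin (n + 2) → (MC r)ˣ) :
    betaG (fun i => ((y i : (MC r)ˣ) : MC r)) = fun i => ((betaG y i : (MC r)ˣ) : MC r) := by
  funext i
  unfold betaG
  split_ifs <;> rfl

theorem relM_beta {y : Fin (n + 2) → MC r} (hy : ∀ i, IsUnit (y i)) : relM (betaG y) = 1 := by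
  have e : y = fun i => ((toUnits y hy i : (MC r)ˣ) : MC r) := rfl
  rw [e, betaG_units, relM_units, rel_beta]
  rfl

/-! ### Duality -/

theorem exists_trace_rep (φ : MC r →ₗ[ℂ] ℂ) : ∃ X : MC r, ∀ M, φ M = Matrix.trace (X * M) := by
  refine ⟨Matrix.of fun i j => φ (Matrix.single j i 1), fun M => ?_⟩
  have h1 : ∀ (a b : Fin r) (c : ℂ), Matrix.single a b c = c • Matrix.single a b (1 : ℂ) := by
    intro a b c
    rw [Matrix.smul_single, smul_eq_mul, mul_one]
  conv_lhs => rw [Matrix.matrix_eq_sum_single M]
  simp only [map_sum]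
  rw [Matrix.trace]
  simp only [Matrix.diag_apply, Matrix.mul_apply, Matrix.of_apply]
  rw [Finset.sum_comm]
  refine Finset.sum_congr rfl fun a _ => Finset.sum_congr rfl fun b _ => ?_
  rw [h1 b a (M b a), map_smul, smul_eq_mul, mul_comm]

/-! ### Tuples supported on the first handle -/

/-- The tuples supported on the first handle. -/
noncomputable def iota0 (n r : ℕ) : (MC r × MC r) →ₗ[ℂ] (Ix n → MC r) :=
  (LinearMap.single ℂ (fun _ : Ix n => MC r) aIx).comp (LinearMap.fst ℂ (MC r) (MC r)) +
    (LinearMap.single ℂ (fun _ : Ix n => MC r) bIx).comp (LinearMap.snd ℂ (MC r) (MC r))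

theorem iota0_a (A B : MC r) : iota0 n r (A, B) aIx = A := by
  simp [iota0, aIx_ne_bIx]

theorem iota0_b (A B : MC r) : iota0 n r (A, B) bIx = B := by
  simp [iota0, aIx_ne_bIx.symm]

theorem iota0_o (A B : MC r) {i : Ix n} (h1 : i ≠ aIx) (h2 : i ≠ bIx) :
    iota0 n r (A, B) i = 0 := by
  simp [iota0, h1, h2]

theorem eq_iota0 {w : Ix n → MC r} (h : ∀ i, i ≠ aIx → i ≠ bIx → w i = 0) :
    w = iota0 n r (w aIx, w bIx) := by
  funext i
  by_cases h1 : i = aIx
  · subst h1
    rw [iota0_a]
  · by_cases h2 : i = bIx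
    · subst h2
      rw [iota0_b]
    · rw [iota0_o _ _ h1 h2, h i h1 h2]

theorem ne_of_val_ne {i : Ix n} (h : i.1.val ≠ 0) : i ≠ aIx ∧ i ≠ bIx :=
  ⟨ne_aIx_of_val h, ne_bIx_of_val h⟩

namespace Mono

variable (S : Mono r)

/-- The scalings of the base tuple, to first order. -/
noncomputable def scL (n : ℕ) : (Ix n → ℂ) →ₗ[ℂ] (Ix n → MC r) where
  toFun c i := (mask i * c i) • S.rS n i
  map_add' x y := by
    funext i
    simp [mul_add, add_smul]
  map_smul' c x := by
    funext i
    simp [mul_smul, smul_comm c (mask i)]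

/-- The span of all the tangent directions. -/
noncomputable def WW (n : ℕ) : Submodule ℂ (Ix n → MC r) :=
  Submodule.span ℂ (Set.range (S.Y (n := n))) ⊔ LinearMap.range (S.scL n) ⊔
    LinearMap.range (betaLin n r)

theorem Y_mem (l : CLab n) : S.Y l ∈ S.WW n :=
  Submodule.mem_sup_left (Submodule.mem_sup_left (Submodule.subset_span ⟨l, rfl⟩))

theorem single_mem {i : Ix n} (hi : mask i = 1) : Pi.single i (S.rS n i) ∈ S.WW n := by
  refine Submodule.mem_sup_left (Submodule.mem_sup_right ⟨Pi.single i 1, ?_⟩)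
  funext a
  by_cases h : a = i
  · subst h
    simp [scL, hi]
  · simp [scL, h]

theorem rS_a : S.rS n aIx = S.aM := by
  unfold rS
  rw [S.qU_a]
  rfl

theorem rS_b : S.rS n bIx = S.bM := by
  unfold rS
  rw [S.qU_b]
  rfl

theorem rS_new (j : Fin n) (b : Bool) : S.rS n (hj j, b) = 1 := by
  unfold rS
  rw [S.qU_new]
  rfl

theorem mask_a : mask (aIx : Ix n) = 1 := by simp [mask, aIx]

theorem mask_b : mask (bIx : Ix n) = 1 := by simp [mask, bIx]

theorem mask_new (j : Fin n) : mask ((hj j, true) : Ix n) = 1 := by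
  have := j.2
  have h : ¬ j.val = n := by omega
  simp [mask, hj, h]

/-- The statement on the first handle, as a membership. -/
theorem first_mem (hr : 2 ≤ r) {A B : MC r} (hL : A * S.bM + S.aM * B =
    (S.aM * S.bM * S.aI * S.bI) * (B * S.aM + S.bM * A)) : iota0 n r (A, B) ∈ S.WW n := by
  by_contra hne
  have hne' : (A, B) ∉ (S.WW n).comap (iota0 n r) := hne
  obtain ⟨f, hf, hW⟩ := Submodule.exists_le_ker_of_notMem hne'
  obtain ⟨V, hV⟩ := exists_trace_rep (f.comp (LinearMap.inl ℂ (MC r) (MC r)))
  obtain ⟨U, hU⟩ := exists_trace_rep (f.comp (LinearMap.inr ℂ (MC r) (MC r)))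
  have hfv : ∀ A' B', f (A', B') = Matrix.trace (V * A') + Matrix.trace (U * B') := by
    intro A' B'
    have e : ((A', B') : MC r × MC r) = LinearMap.inl ℂ (MC r) (MC r) A' +
        LinearMap.inr ℂ (MC r) (MC r) B' := by simp
    rw [e, map_add, ← hV, ← hU]
    rfl
  have hzero : ∀ p, iota0 n r p ∈ S.WW n → f p = 0 := fun p hp => hW hp
  apply hf
  have htr1 : Matrix.trace (V * S.aM) = 0 := by
    have h1 : iota0 n r (S.aM, 0) ∈ S.WW n := by
      have h2 := S.single_mem (n := n) mask_a
      rw [S.rS_a] at h2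
      convert h2 using 1
      funext i
      by_cases h : i = aIx
      · subst h
        simp [iota0_a]
      · by_cases h' : i = bIx
        · subst h'
          simp [iota0_b, h]
        · simp [iota0_o _ _ h h', h]
    have h3 := hzero _ h1
    rw [hfv] at h3
    simpa using h3
  have htr2 : Matrix.trace (U * S.bM) = 0 := by
    have h1 : iota0 n r (0, S.bM) ∈ S.WW n := by
      have h2 := S.single_mem (n := n) mask_b
      rw [S.rS_b] at h2
      convert h2 using 1
      funext i
      by_cases h : i = bIx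
      · subst h
        simp [iota0_b]
      · by_cases h' : i = aIx
        · subst h'
          simp [iota0_a, h]
        · simp [iota0_o _ _ h' h, h]
    have h3 := hzero _ h1
    rw [hfv] at h3
    simpa using h3
  have hinf : ∀ k : ℕ, 0 < k → Matrix.trace (V * S.aM * gd k S.bM) = 0 := by
    intro k _
    have h1 := S.Y_mem (CLab.inf k : CLab n)
    rw [eq_iota0 (w := S.Y (CLab.inf k)) fun i h _ => S.Y_inf_o k h] at h1
    have h3 := hzero _ h1
    rw [hfv, S.Y_inf_a, S.Y_inf_o k aIx_ne_bIx.symm] at h3
    simpa [Matrix.mul_assoc] using h3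
  have hone : ∀ m k : ℕ, 0 < k → Matrix.trace (U * S.bM * gd k (S.aM * S.bM ^ m)) -
      ∑ i ∈ Finset.range m, Matrix.trace
        (V * S.aM * (S.bM ^ (i + 1) * gd k (S.aM * S.bM ^ m) * S.bI ^ (i + 1))) = 0 := by
    intro m k _
    have h1 := S.Y_mem (CLab.one m k : CLab n)
    rw [eq_iota0 (w := S.Y (CLab.one m k)) fun i h h' => S.Y_one_o m k h h'] at h1
    have h3 := hzero _ h1
    rw [hfv, S.Y_one_a, S.Y_one_b, Matrix.mul_neg, Matrix.trace_neg, Matrix.mul_sum,
      Matrix.mul_sum, Matrix.trace_sum] at h3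
    rw [← h3, sub_eq_add_neg, add_comm]
    congr 1
    · congr 1
      refine Finset.sum_congr rfl fun i _ => ?_
      simp only [Matrix.mul_assoc]
    · simp only [Matrix.mul_assoc]
  have key := S.first_handle hr (V * S.aM) (U * S.bM) htr1 htr2 hinf hone A B hL
  have e1 : V * S.aM * S.aI = V := by rw [Matrix.mul_assoc, S.aM_mul_aI, Matrix.mul_one]
  have e2 : U * S.bM * S.bI = U := by rw [Matrix.mul_assoc, S.bM_mul_bI, Matrix.mul_one]
  rw [e1, e2] at key
  rw [hfv]
  exact key

/-- The statement on the new handles, as a membership. -/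
theorem tail_mem (hr : 2 ≤ r) (j : Fin n) (M : MC r) :
    Pi.single (hj j, true) M ∈ S.WW n ⊔ LinearMap.range (iota0 n r) := by
  by_contra hne
  let T : Submodule ℂ (MC r) := (S.WW n ⊔ LinearMap.range (iota0 n r)).comap
    (LinearMap.single ℂ (fun _ : Ix n => MC r) (hj j, true))
  have hne' : M ∉ T := hne
  obtain ⟨f, hf, hW⟩ := Submodule.exists_le_ker_of_notMem hne'
  obtain ⟨X, hX⟩ := exists_trace_rep f
  have hzero : ∀ N, Pi.single (hj j, true) N ∈ S.WW n ⊔ LinearMap.range (iota0 n r) → f N = 0 :=
    fun N hN => hW hN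
  have htr : Matrix.trace X = 0 := by
    have h1 := S.single_mem (n := n) (mask_new j)
    rw [S.rS_new] at h1
    have h2 := hzero 1 (Submodule.mem_sup_left h1)
    rw [hX, Matrix.mul_one] at h2
    exact h2
  -- tangent vectors of the twists
  have htan : ∀ (w : Ix n → MC r) (N : MC r), w ∈ S.WW n →
      (∀ i : Ix n, i.1.val ≠ 0 → i ≠ (hj j, true) → w i = 0) → w (hj j, true) = -N → f N = 0 := by
    intro w N hw h0 h1
    apply hzero
    let w0 : Ix n → MC r := w + Pi.single (hj j, true) N
    have h2 : w0 ∈ LinearMap.range (iota0 n r) := by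
      refine ⟨(w0 aIx, w0 bIx), (eq_iota0 ?_).symm⟩
      intro i hia hib
      by_cases hi : i = (hj j, true)
      · subst hi
        simp [w0, h1]
      · have hv : i.1.val ≠ 0 := by
          intro h
          obtain ⟨i1, i2⟩ := i
          simp only at h
          have h3 : i1 = 0 := Fin.ext h
          subst h3
          cases i2
          · exact hia rfl
          · exact hib rfl
        simp [w0, h0 i hv hi, hi]
    have h3 : Pi.single (hj j, true) N = w0 - w := by
      simp [w0]
    rw [h3]
    exact Submodule.sub_mem _ (Submodule.mem_sup_right h2) (Submodule.mem_sup_left hw)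
  have h1 : ∀ m k : ℕ, 0 < k → Matrix.trace (X * gd k (S.bM * (S.aM * S.bM ^ m) * S.bI)) = 0 := by
    intro m k _
    rw [← hX]
    exact htan _ _ (S.Y_mem (CLab.two j m k)) (fun i hi hne => S.Y_two_o j m k hi hne)
      (S.Y_two_e j m k)
  have h2 : ∀ k : ℕ, 0 < k → Matrix.trace (X * gd k S.bM) = 0 := by
    intro k _
    rw [← hX]
    exact htan _ _ (S.Y_mem (CLab.three j k)) (fun i hi hne => S.Y_three_o j k hi hne)
      (S.Y_three_e j k)
  have h3 := S.tail_handle hr X htr h1 h2
  apply hf
  rw [hX, h3, Matrix.zero_mul, Matrix.trace_zero]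

end Mono

end Vale.Agent.Lib.P002
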