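import Vale.Agent.Lib.P002.CKer

/-!
The kernel of the derivative of the relation at the base point.
-/

open Matrix Filter Topology

namespace Vale.Agent.Lib.P002

attribute [local instance] Matrix.linftyOpNormedAddCommGroup Matrix.linftyOpNormedSpace
  Matrix.linftyOpNormedRing Matrix.linftyOpNormedAlgebra

variable {n r : ℕ}

theorem relG_first {G : Type*} [Group G] {q q' : Ix n → G} (hq : ∀ i : Ix n, i.1.val ≠ 0 → q' i = q i) :
    relG q' = kap q' 0 * (kap q 0)⁻¹ * relG q := by
  have hk : ∀ l : ℕ, kap q' (l + 1) = kap q (l + 1) := by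
    intro l
    unfold kap
    split_ifs with hl
    · rw [hq (⟨l + 1, hl⟩, false) (by simp), hq (⟨l + 1, hl⟩, true) (by simp)]
    · rfl
  have hp : ∀ l, prd q' l = prd q l := by
    intro l
    induction l with
    | zero => simp [prd_zero]
    | succ l ih => rw [prd_succ, prd_succ, ih, hk]
  rw [relG_eq, relG_eq, hp, hk]
  group

namespace Mono

variable (S : Mono r)

/-- The derivative of the relation at the base point. -/
noncomputable def DR (n : ℕ) : (Ix n → MC r) →L[ℂ] MC r := fderiv ℂ relM (S.rS n)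

theorem hasDeriv_line (w : Ix n → MC r) :
    HasDerivAt (fun t : ℂ => relM (S.rS n + t • w)) (S.DR n w) 0 := by
  have h1 : HasDerivAt (fun t : ℂ => S.rS n + t • w) w 0 := by
    have h2 := ((hasDerivAt_id (0 : ℂ)).smul_const w).const_add (S.rS n)
    refine HasDerivAt.congr_deriv h2 ?_
    simp
  have h2 : HasFDerivAt relM (S.DR n) (S.rS n + (0 : ℂ) • w) := by
    rw [zero_smul, add_zero]
    exact (relM_strict S.rS_unit).hasFDerivAt
  exact HasFDerivAt.comp_hasDerivAt 0 h2 h1

theorem DR_of_line {w : Ix n → MC r}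
    (h : ∀ᶠ t in 𝓝 (0 : ℂ), relM (S.rS n + t • w) = relM (S.rS n)) : S.DR n w = 0 :=
  (S.hasDeriv_line w).unique ((hasDerivAt_const (0 : ℂ) (relM (S.rS n))).congr_of_eventuallyEq h)

theorem DR_Y (l : CLab n) : S.DR n (S.Y l) = 0 := by
  have hρ := S.rS_unit (n := n)
  have h1 := wF_hasDeriv l hρ
  have h2 : HasFDerivAt relM (S.DR n) (wF l (0, S.rS n)) := by
    rw [wF_base l hρ]
    exact (relM_strict hρ).hasFDerivAt
  have h3 : HasDerivAt (relM ∘ fun t => wF l (t, S.rS n)) (S.DR n (S.Y l)) 0 :=
    HasFDerivAt.comp_hasDerivAt 0 h2 h1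
  have hc : Tendsto (fun t : ℂ => (t, S.rS n)) (𝓝 0) (𝓝 (0, S.rS n)) :=
    (Continuous.prodMk continuous_id continuous_const).tendsto 0
  have h4 : (relM ∘ fun t => wF l (t, S.rS n)) =ᶠ[𝓝 0] fun _ => relM (S.rS n) := by
    filter_upwards [hc.eventually (wF_good l hρ)] with t ht using wF_rel l ht.1 ht.2
  exact h3.unique ((hasDerivAt_const (0 : ℂ) (relM (S.rS n))).congr_of_eventuallyEq h4)

theorem DR_scL (c : Ix n → ℂ) : S.DR n (S.scL n c) = 0 := by
  apply S.DR_of_line
  have h1 : ∀ i : Ix n, ∀ᶠ t in 𝓝 (0 : ℂ), 1 + t * (mask i * c i) ≠ 0 := by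
    intro i
    have h2 : ContinuousAt (fun t : ℂ => 1 + t * (mask i * c i)) 0 := by fun_prop
    exact h2.eventually_ne (by simp)
  filter_upwards [eventually_all.mpr h1] with t ht
  have e : S.rS n + t • S.scL n c = fun i => (1 + t * (mask i * c i)) • S.rS n i := by
    funext i
    simp [scL, add_smul, mul_smul]
  rw [e]
  exact relM_scale ht S.rS_unit

theorem xS_unit (i : Fin (n + 2)) : IsUnit (S.xS n i) := (S.xU n i).isUnit

theorem DR_beta (δ : Fin (n + 2) → MC r) : S.DR n (betaLin n r δ) = 0 := by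
  apply S.DR_of_line
  have hc : Tendsto (fun t : ℂ => S.xS n + t • δ) (𝓝 0) (𝓝 (S.xS n)) := by
    have h1 : Continuous (fun t : ℂ => S.xS n + t • δ) := by fun_prop
    have h2 := h1.tendsto 0
    simpa using h2
  filter_upwards [hc.eventually (eventually_isUnit S.xS_unit)] with t ht
  have e : S.rS n + t • betaLin n r δ = betaG (S.xS n + t • δ) := by
    rw [betaG_eq (S.xS n + t • δ), map_add, map_smul, S.rS_eq, betaG_eq (S.xS n)]
    abel
  rw [e, relM_beta ht, S.rS_eq, relM_beta S.xS_unit]

theorem WW_le_ker (w : Ix n → MC r) (hw : w ∈ S.WW n) : S.DR n w = 0 := by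
  have h : S.WW n ≤ LinearMap.ker ((S.DR n : (Ix n → MC r) →L[ℂ] MC r) :
      (Ix n → MC r) →ₗ[ℂ] MC r) := by
    refine sup_le (sup_le ?_ ?_) ?_
    · rw [Submodule.span_le]
      rintro _ ⟨l, rfl⟩
      exact S.DR_Y l
    · rintro _ ⟨c, rfl⟩
      exact S.DR_scL c
    · rintro _ ⟨δ, rfl⟩
      exact S.DR_beta δ
  exact h hw

theorem relM_base : relM (S.rS n) = 1 := by
  rw [S.rS_eq]
  exact relM_beta S.xS_unit

/-- The linearized relation on the first handle. -/
theorem hL_of_ker {A B : MC r} (h : S.DR n (iota0 n r (A, B)) = 0) :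
    A * S.bM + S.aM * B = (S.aM * S.bM * S.aI * S.bI) * (B * S.aM + S.bM * A) := by
  set w := iota0 n r (A, B) with hw
  set z := S.aM * S.bM * S.aI * S.bI with hz
  have hc : Tendsto (fun t : ℂ => S.rS n + t • w) (𝓝 0) (𝓝 (S.rS n)) := by
    have h1 : Continuous (fun t : ℂ => S.rS n + t • w) := by fun_prop
    have h2 := h1.tendsto 0
    simpa using h2
  have hev : ∀ᶠ t in 𝓝 (0 : ℂ), relM (S.rS n + t • w) * z *
      ((S.bM + t • B) * (S.aM + t • A)) = (S.aM + t • A) * (S.bM + t • B) := by
    filter_upwards [hc.eventually (eventually_isUnit S.rS_unit)] with t ht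
    set q' := toUnits _ ht with hq'
    have e0 : S.rS n + t • w = fun i => ((q' i : (MC r)ˣ) : MC r) := rfl
    have ha : ((q' aIx : (MC r)ˣ) : MC r) = S.aM + t • A := by
      rw [hq', toUnits_coe]
      simp only [Pi.add_apply, Pi.smul_apply, hw, iota0_a, S.rS_a]
    have hb : ((q' bIx : (MC r)ˣ) : MC r) = S.bM + t • B := by
      rw [hq', toUnits_coe]
      simp only [Pi.add_apply, Pi.smul_apply, hw, iota0_b, S.rS_b]
    have ho : ∀ i : Ix n, i.1.val ≠ 0 → q' i = S.qU n i := by
      intro i hi
      apply Units.ext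
      rw [hq', toUnits_coe]
      simp only [Pi.add_apply, Pi.smul_apply, hw, iota0_o _ _ (ne_aIx_of_val hi) (ne_bIx_of_val hi)]
      simp
      rfl
    have hrel := relG_first ho
    have hqU : relG (S.qU n) = 1 := rel_beta _
    rw [hqU, mul_one] at hrel
    have hz' : ((kap (S.qU n) 0 : (MC r)ˣ) : MC r) = z := by
      rw [kap_zero, S.qU_a, S.qU_b]
      rfl
    have hkey : relG q' * kap (S.qU n) 0 * (q' bIx * q' aIx) = q' aIx * q' bIx := by
      rw [hrel, kap_zero q']
      group
    have h3 := congrArg (fun u : (MC r)ˣ => (u : MC r)) hkey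
    simp only [Units.val_mul] at h3
    rw [hz', ha, hb, ← relM_units, ← e0] at h3
    exact h3
  have h_a : HasDerivAt (fun t : ℂ => S.aM + t • A) A 0 := by
    have h2 := ((hasDerivAt_id (0 : ℂ)).smul_const A).const_add S.aM
    refine HasDerivAt.congr_deriv h2 ?_
    simp
  have h_b : HasDerivAt (fun t : ℂ => S.bM + t • B) B 0 := by
    have h2 := ((hasDerivAt_id (0 : ℂ)).smul_const B).const_add S.bM
    refine HasDerivAt.congr_deriv h2 ?_
    simp
  have h_ba := h_b.mul h_a
  have h_ab := h_a.mul h_b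
  have h_R := S.hasDeriv_line w
  have h_Rz := h_R.mul_const z
  have h_L : HasDerivAt (fun t : ℂ => relM (S.rS n + t • w) * z *
      ((S.bM + t • B) * (S.aM + t • A))) _ 0 := h_Rz.mul h_ba
  have h_ab' : HasDerivAt (fun t : ℂ => (S.aM + t • A) * (S.bM + t • B)) _ 0 := h_ab
  have h_eq2 := h_ab'.congr_of_eventuallyEq (f₁ := fun t : ℂ => relM (S.rS n + t • w) * z *
      ((S.bM + t • B) * (S.aM + t • A))) (hev.mono fun t ht => ht)
  have huniq := h_L.unique h_eq2
  simp only [zero_smul, add_zero, h, Matrix.zero_mul, zero_add, S.relM_base, Matrix.one_mul] at huniq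
  exact huniq.symm

/-- The kernel of the derivative is spanned by the tangent directions. -/
theorem ker_le (hr : 2 ≤ r) {v : Ix n → MC r} (hv : S.DR n v = 0) : v ∈ S.WW n := by
  classical
  let δ : Fin (n + 2) → MC r := fun i =>
    if i = 0 then v (hL0 n, true) else if i = hL0 n then v (hL0 n, false) else v (i, false)
  let T : Ix n → MC r := ∑ j : Fin n, Pi.single (hj j, true) (v (hj j, true))
  have hT : T ∈ S.WW n ⊔ LinearMap.range (iota0 n r) :=
    Submodule.sum_mem _ fun j _ => S.tail_mem hr j _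
  let u : Ix n → MC r := v - betaLin n r δ - T
  have hbeta : betaLin n r δ ∈ S.WW n := Submodule.mem_sup_right ⟨δ, rfl⟩
  have hu : u = iota0 n r (u aIx, u bIx) := by
    apply eq_iota0
    intro i hia hib
    have hne0 : i.1.val ≠ 0 := by
      intro h
      obtain ⟨i1, i2⟩ := i
      simp only at h
      have h3 : i1 = 0 := Fin.ext h
      subst h3
      cases i2
      · exact hia rfl
      · exact hib rfl
    have hTa : ∀ (a : Ix n), (∀ j : Fin n, a ≠ (hj j, true)) → T a = 0 := by
      intro a ha
      simp only [T, Finset.sum_apply]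
      refine Finset.sum_eq_zero fun j _ => ?_
      exact Pi.single_eq_of_ne (ha j) _
    have hTb : ∀ j : Fin n, T (hj j, true) = v (hj j, true) := by
      intro j
      simp only [T, Finset.sum_apply]
      rw [Finset.sum_eq_single j]
      · exact Pi.single_eq_same _ _
      · intro j' _ hj'
        refine Pi.single_eq_of_ne ?_ _
        intro he
        apply hj'
        have h1 := congrArg (fun x : Ix n => x.1.val) he
        simp only [hj] at h1
        exact Fin.ext (by omega)
      · intro h
        exact absurd (Finset.mem_univ _) h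
    have hδ0 : δ 0 = v (hL0 n, true) := by simp [δ]
    have hδl : δ (hL0 n) = v (hL0 n, false) := by simp [δ, hl_ne_zero]
    have hδj : ∀ j : Fin n, δ (hj j) = v (hj j, false) := by
      intro j
      simp [δ, hj_ne_zero, hj_ne_hl]
    have hu0 : ∀ a : Ix n, u a = v a - (betaG δ a - betaG 0 a) - T a := fun a => rfl
    by_cases hlast : i.1 = hL0 n
    · obtain ⟨i1, i2⟩ := i
      simp only at hlast
      subst hlast
      have hT0 : T (hL0 n, i2) = 0 := by
        refine hTa _ fun j he => ?_
        have h1 := congrArg (fun x : Ix n => x.1) he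
        exact hj_ne_hl j h1.symm
      rw [hu0, hT0, betaG_last, betaG_last]
      cases i2
      · simp only [Bool.false_eq_true, if_false]
        rw [show δ (hL0 n) = v (hL0 n, false) from hδl]
        simp
      · simp only [if_true]
        rw [show δ 0 = v (hL0 n, true) from hδ0]
        simp
    · have hlt : i.1.val - 1 < n := by
        have h1 := i.1.2
        have h2 : i.1.val ≠ n + 1 := fun he => hlast (Fin.ext he)
        omega
      have hi1 : i.1 = hj ⟨i.1.val - 1, hlt⟩ := by
        apply Fin.ext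
        simp only [hj]
        omega
      obtain ⟨i1, i2⟩ := i
      simp only at hi1
      set j : Fin n := ⟨i1.val - 1, hlt⟩
      rw [hi1, hu0, betaG_new, betaG_new]
      cases i2
      · have hT0 : T (hj j, false) = 0 := by
          refine hTa _ fun j' he => ?_
          have h1 := congrArg (fun x : Ix n => x.2) he
          simp at h1
        rw [hT0]
        simp [hδj]
      · rw [hTb]
        simp
  have hdecomp : v = betaLin n r δ + T + u := by
    simp only [u]
    abel
  obtain ⟨w1, hw1, h1, ⟨p1, rfl⟩, hT1⟩ := Submodule.mem_sup.mp hT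
  -- the remaining part is supported on the first handle
  let p2 : MC r × MC r := p1 + (u aIx, u bIx)
  let w2 : Ix n → MC r := betaLin n r δ + w1
  have hw2 : w2 ∈ S.WW n := Submodule.add_mem _ hbeta hw1
  have hv2 : v = w2 + iota0 n r p2 := by
    have e1 : iota0 n r p2 = iota0 n r p1 + iota0 n r (u aIx, u bIx) := map_add _ _ _
    rw [e1, ← hu, hdecomp, ← hT1]
    simp only [w2]
    abel
  have hD : S.DR n (iota0 n r p2) = 0 := by
    have e1 : iota0 n r p2 = v - w2 := by
      rw [hv2]
      abel
    rw [e1, map_sub, hv, S.WW_le_ker _ hw2, sub_zero]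
  have hp2 : iota0 n r (p2.1, p2.2) = iota0 n r p2 := rfl
  rw [← hp2] at hD
  have hL := S.hL_of_ker hD
  have hmem := S.first_mem (n := n) hr hL
  rw [hv2, ← hp2]
  exact Submodule.add_mem _ hw2 hmem

/-- Finitely many labels suffice. -/
theorem exists_labels (n : ℕ) : ∃ (nf : ℕ) (lab : ℕ → CLab n), ∀ l, S.Y l ∈
    Submodule.span ℂ (Set.range fun i : Fin nf => S.Y (lab i)) := by
  classical
  have hfg : (Submodule.span ℂ (Set.range (S.Y (n := n)))).FG := IsNoetherian.noetherian _
  obtain ⟨s, hs, hspan⟩ := (Submodule.fg_span_iff_fg_span_finset_subset _).mp hfg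
  have hch : ∀ e : Ix n → MC r, e ∈ s → ∃ l, S.Y l = e := fun e he => hs he
  choose! c hc using hch
  refine ⟨s.toList.length, fun i => c (s.toList.getD i default), fun l => ?_⟩
  have h1 : S.Y l ∈ Submodule.span ℂ (s : Set (Ix n → MC r)) := by
    rw [← hspan]
    exact Submodule.subset_span ⟨l, rfl⟩
  refine (Submodule.span_mono ?_) h1
  intro e he
  have he' : e ∈ s.toList := Finset.mem_toList.mpr he
  obtain ⟨i, hi, rfl⟩ := List.mem_iff_getElem.mp he'
  refine ⟨⟨i, hi⟩, ?_⟩
  simp only
  rw [List.getD_eq_getElem _ _ hi]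
  exact hc _ he

end Mono

end Vale.Agent.Lib.P002
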