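import Vale.Agent.Lib.P002.CPoly

/-!
Density of the non-vanishing locus of a polynomial function on a space whose points are connected
by polynomial lines, in particular on products of affine spaces and special linear groups.
-/

open Matrix Relation

namespace Vale.Agent.Lib.P002

section General

variable {Y κ : Type*} [TopologicalSpace Y]

/-- The one step relation attached to a set of one parameter families of maps. -/
def LStep (L : Set (ℂ → Y → Y)) (x y : Y) : Prop := ∃ ℓ ∈ L, ∃ u, y = ℓ u x

/-- A polynomial function not vanishing at one point does not vanish on a dense set. -/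
theorem dense_ne_zero (c : κ → Y → ℂ) (L : Set (ℂ → Y → Y))
    (hL1 : ∀ ℓ ∈ L, ∀ x, ℓ 0 x = x) (hL2 : ∀ ℓ ∈ L, ∀ u, Continuous (ℓ u))
    (hL3 : ∀ ℓ ∈ L, ∀ x, Continuous fun u => ℓ u x)
    (hL4 : ∀ ℓ ∈ L, ∀ x k, PolyOn (fun _ : Unit => (id : ℂ → ℂ)) (fun u => c k (ℓ u x)))
    (hreach : ∀ x y, ReflTransGen (LStep L) x y) {F : Y → ℂ} (hF : PolyOn c F) {x0 : Y}
    (h0 : F x0 ≠ 0) : Dense {x | F x ≠ 0} := by
  intro y
  induction hreach x0 y with
  | refl => exact subset_closure h0
  | tail _ hstep ih =>
    obtain ⟨ℓ, hℓ, u, rfl⟩ := hstep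
    rw [mem_closure_iff] at ih ⊢
    intro W hW hmem
    obtain ⟨x, hx1, hx2⟩ := ih (ℓ u ⁻¹' W) (hW.preimage (hL2 ℓ hℓ u)) hmem
    have hG : PolyOn (fun _ : Unit => (id : ℂ → ℂ)) (fun v => F (ℓ v x)) :=
      hF.comp fun k => hL4 ℓ hℓ x k
    have hO : IsOpen ((fun v => ℓ v x) ⁻¹' W) := hW.preimage (hL3 ℓ hℓ x)
    by_contra hcon
    have hzero : ∀ v ∈ (fun v => ℓ v x) ⁻¹' W, F (ℓ v x) = 0 := by
      intro v hv
      by_contra hne
      exact hcon ⟨ℓ v x, hv, hne⟩
    have hinf : ((fun v => ℓ v x) ⁻¹' W).Infinite :=
      infinite_of_mem_nhds u (hO.mem_nhds hx1)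
    have := poly_unit_eq_zero hG hinf hzero 0
    simp only [hL1 ℓ hℓ x] at this
    exact hx2 this

end General

variable {n g r : ℕ}

/-- The matrix of a transvection as an element of the group. -/
def tMat {r : ℕ} (a b : Fin r) (hab : a ≠ b) (c : ℂ) : SLC r :=
  ⟨transvection a b c, det_transvection_of_ne a b hab c⟩

theorem tMat_zero {r : ℕ} (a b : Fin r) (hab : a ≠ b) : tMat a b hab 0 = 1 := by
  apply Subtype.ext
  simp [tMat]

theorem tMat_coe {r : ℕ} (a b : Fin r) (hab : a ≠ b) (c : ℂ) :
    ((tMat a b hab c : SLC r) : Matrix (Fin r) (Fin r) ℂ) = transvection a b c := rfl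

theorem polyG_tMat {r : ℕ} (a b : Fin r) (hab : a ≠ b) :
    PolyG (fun _ : Unit => (id : ℂ → ℂ)) (fun u => tMat a b hab u) := by
  intro x y
  have h0 : PolyOn (fun _ : Unit => (id : ℂ → ℂ)) (fun u : ℂ => u) := PolyOn.coord _ ()
  simp only [tMat_coe, transvection, Matrix.add_apply, Matrix.single_apply]
  by_cases h : a = x ∧ b = y
  · simp only [h.1, h.2]
    simpa using (PolyOn.const _ _).add h0
  · simp only [if_neg h]
    simpa using PolyOn.const _ _

theorem continuous_tMat {r : ℕ} (a b : Fin r) (hab : a ≠ b) :
    Continuous (fun u => tMat a b hab u) := by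
  apply Continuous.subtype_mk
  refine continuous_matrix fun i j => ?_
  exact (polyG_tMat a b hab i j).continuous fun _ => continuous_id

/-- One step in the tuple. -/
def sStep {g r : ℕ} (i : Fin g) (a b : Fin r) (hab : a ≠ b) (u : ℂ) (p : Fin g → SLC r) :
    Fin g → SLC r := Function.update p i (tMat a b hab u * p i)

/-- The lines inside tuples. -/
def sLines (g r : ℕ) : Set (ℂ → (Fin g → SLC r) → (Fin g → SLC r)) :=
  {ℓ | ∃ i a b hab, ℓ = sStep i a b hab}

theorem sStep_polyG {g r : ℕ} (i : Fin g) (a b : Fin r) (hab : a ≠ b) (p : Fin g → SLC r)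
    (j : Fin g) :
    PolyG (fun _ : Unit => (id : ℂ → ℂ)) (fun u => sStep i a b hab u p j) := by
  unfold sStep
  by_cases h : j = i
  · subst h
    simp only [Function.update_self]
    exact (polyG_tMat a b hab).mul (PolyG.const _ _)
  · simp only [Function.update_of_ne h]
    exact PolyG.const _ _

theorem sStep_zero {g r : ℕ} (i : Fin g) (a b : Fin r) (hab : a ≠ b) (p : Fin g → SLC r) :
    sStep i a b hab 0 p = p := by
  simp [sStep, tMat_zero]

theorem sStep_cont {g r : ℕ} (i : Fin g) (a b : Fin r) (hab : a ≠ b) (u : ℂ) :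
    Continuous (sStep (g := g) i a b hab u) := by
  unfold sStep
  refine Continuous.update continuous_id i ?_
  exact continuous_const.mul (continuous_apply i)

theorem sStep_cont' {g r : ℕ} (i : Fin g) (a b : Fin r) (hab : a ≠ b) (p : Fin g → SLC r) :
    Continuous (fun u => sStep i a b hab u p) := by
  unfold sStep
  refine continuous_const.update i ?_
  exact (continuous_tMat a b hab).mul continuous_const

/-- Left multiplication of one entry by a determinant one matrix is reached by lines. -/
theorem reach_update {g r : ℕ} (i : Fin g) (M : Matrix (Fin r) (Fin r) ℂ) (hM : IsTProd M) :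
    ∀ (p : Fin g → SLC r) (q : SLC r), (q : Matrix (Fin r) (Fin r) ℂ) = M * (p i : SLC r) →
      ReflTransGen (LStep (sLines g r)) p (Function.update p i q) := by
  obtain ⟨L, rfl⟩ := hM
  induction L with
  | nil =>
    intro p q hq
    have : q = p i := by
      apply Subtype.ext
      simpa using hq
    rw [this]
    simp [Function.update_eq_self, ReflTransGen.refl]
  | cons t L ih =>
    intro p q hq
    by_cases hc : True
    · -- apply the tail first, then `t`
      have hdet : (List.map TransvectionStruct.toMatrix L).prod.det = 1 := by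
        have h1 : ∀ L : List (TransvectionStruct (Fin r) ℂ),
            (List.map TransvectionStruct.toMatrix L).prod.det = 1 := by
          intro L
          induction L with
          | nil => simp
          | cons t L ih =>
            simp only [List.map_cons, List.prod_cons, det_mul, ih, mul_one]
            exact det_transvection_of_ne _ _ t.hij _
        exact h1 L
      have hdet' : ((List.map TransvectionStruct.toMatrix L).prod * (p i : SLC r)).det = 1 := by
        rw [det_mul, hdet, (p i).2, one_mul]
      let q' : SLC r := ⟨_, hdet'⟩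
      have h1 := ih p q' rfl
      refine h1.tail ⟨_, ⟨i, t.i, t.j, t.hij, rfl⟩, t.c, ?_⟩
      funext j
      by_cases hj : j = i
      · subst hj
        simp only [sStep, Function.update_self]
        apply Subtype.ext
        rw [hq]
        simp only [List.map_cons, List.prod_cons, mul_assoc]
        rfl
      · simp [sStep, Function.update_of_ne hj]
    · exact absurd trivial hc

theorem reach_tuple {g r : ℕ} (p p' : Fin g → SLC r) :
    ReflTransGen (LStep (sLines g r)) p p' := by
  have key : ∀ s : Finset (Fin g), ReflTransGen (LStep (sLines g r)) p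
      (fun i => if i ∈ s then p' i else p i) := by
    intro s
    induction s using Finset.induction_on with
    | empty => simpa using ReflTransGen.refl
    | insert a s ha ih =>
      refine ih.trans ?_
      let p1 : Fin g → SLC r := fun i => if i ∈ s then p' i else p i
      have hpa : p1 a = p a := by simp [p1, ha]
      have hM : ((p' a * (p1 a)⁻¹ : SLC r) : Matrix (Fin r) (Fin r) ℂ).det = 1 :=
        (p' a * (p1 a)⁻¹).2
      have h2 := reach_update a _ (isTProd_of_det _ hM) p1 (p' a) (by
        rw [← Matrix.SpecialLinearGroup.coe_mul, inv_mul_cancel_right])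
      have e : (Function.update p1 a (p' a)) =
          fun i => if i ∈ insert a s then p' i else p i := by
        funext j
        by_cases hj : j = a
        · subst hj
          simp
        · simp [hj, p1]
      rwa [e] at h2
  simpa using key Finset.univ

/-- Density in tuples. -/
theorem dense_ne_zero_tuple {F : (Fin g → SLC r) → ℂ} (hF : PolyOn (cS (Fin g) r) F)
    {x0 : Fin g → SLC r} (h0 : F x0 ≠ 0) : Dense {x | F x ≠ 0} := by
  refine dense_ne_zero (cS (Fin g) r) (sLines g r) ?_ ?_ ?_ ?_ reach_tuple hF h0
  · rintro ℓ ⟨i, a, b, hab, rfl⟩ x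
    exact sStep_zero i a b hab x
  · rintro ℓ ⟨i, a, b, hab, rfl⟩ u
    exact sStep_cont i a b hab u
  · rintro ℓ ⟨i, a, b, hab, rfl⟩ x
    exact sStep_cont' i a b hab x
  · rintro ℓ ⟨i, a, b, hab, rfl⟩ x k
    exact sStep_polyG i a b hab x k.1 k.2.1 k.2.2

/-! ### The parameter space -/

/-- The parameter space: an affine space times a product of special linear groups. -/
abbrev Par (n g r : ℕ) := (Fin n → ℂ) × (Fin g → SLC r)

/-- The coordinates of the parameter space. -/
def cP (n g r : ℕ) : (Fin n ⊕ (Fin g × Fin r × Fin r)) → Par n g r → ℂ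
  | Sum.inl i, π => π.1 i
  | Sum.inr k, π => cS (Fin g) r k π.2

theorem continuous_cP (k : Fin n ⊕ (Fin g × Fin r × Fin r)) : Continuous (cP n g r k) := by
  rcases k with i | k
  · exact (continuous_apply i).comp continuous_fst
  · exact (continuous_cS k).comp continuous_snd

/-- A line in the affine coordinates. -/
def tStepP (i : Fin n) (u : ℂ) (π : Par n g r) : Par n g r :=
  (Function.update π.1 i (π.1 i + u), π.2)

/-- The lines in the parameter space. -/
def pLines (n g r : ℕ) : Set (ℂ → Par n g r → Par n g r) :=
  {ℓ | (∃ i, ℓ = tStepP i) ∨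
    (∃ i a b hab, ℓ = fun u π => (π.1, sStep i a b hab u π.2))}

theorem reach_par (π π' : Par n g r) : ReflTransGen (LStep (pLines n g r)) π π' := by
  have h1 : ∀ s : Finset (Fin n), ReflTransGen (LStep (pLines n g r)) π
      ((fun i => if i ∈ s then π'.1 i else π.1 i), π.2) := by
    intro s
    induction s using Finset.induction_on with
    | empty => simpa using ReflTransGen.refl
    | insert a s ha ih =>
      refine ih.tail ⟨tStepP a, Or.inl ⟨a, rfl⟩, π'.1 a - π.1 a, ?_⟩
      refine Prod.ext ?_ rfl
      funext j
      by_cases hj : j = a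
      · subst hj
        simp [tStepP, ha]
      · simp [tStepP, hj]
  have h2 : ∀ (t : Fin n → ℂ) (p p' : Fin g → SLC r),
      ReflTransGen (LStep (sLines g r)) p p' →
      ReflTransGen (LStep (pLines n g r)) (t, p) (t, p') := by
    intro t p p' h
    induction h with
    | refl => exact ReflTransGen.refl
    | tail _ hs ih =>
      obtain ⟨ℓ, ⟨i, a, b, hab, rfl⟩, u, rfl⟩ := hs
      exact ih.tail ⟨_, Or.inr ⟨i, a, b, hab, rfl⟩, u, rfl⟩
  have h3 := h1 Finset.univ
  simp only [Finset.mem_univ, if_true] at h3
  exact h3.trans (h2 _ _ _ (reach_tuple _ _))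

/-- Density in the parameter space. -/
theorem dense_ne_zero_par {F : Par n g r → ℂ} (hF : PolyOn (cP n g r) F)
    {x0 : Par n g r} (h0 : F x0 ≠ 0) : Dense {x | F x ≠ 0} := by
  refine dense_ne_zero (cP n g r) (pLines n g r) ?_ ?_ ?_ ?_ reach_par hF h0
  · rintro ℓ (⟨i, rfl⟩ | ⟨i, a, b, hab, rfl⟩) x
    · refine Prod.ext ?_ rfl
      simp [tStepP]
    · refine Prod.ext rfl ?_
      exact sStep_zero i a b hab x.2
  · rintro ℓ (⟨i, rfl⟩ | ⟨i, a, b, hab, rfl⟩) u
    · refine Continuous.prodMk ?_ continuous_snd
      refine Continuous.update continuous_fst i ?_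
      exact ((continuous_apply i).comp continuous_fst).add continuous_const
    · exact continuous_fst.prodMk ((sStep_cont i a b hab u).comp continuous_snd)
  · rintro ℓ (⟨i, rfl⟩ | ⟨i, a, b, hab, rfl⟩) x
    · refine Continuous.prodMk ?_ continuous_const
      refine continuous_const.update i ?_
      exact continuous_const.add continuous_id
    · exact continuous_const.prodMk (sStep_cont' i a b hab x.2)
  · rintro ℓ (⟨i, rfl⟩ | ⟨i, a, b, hab, rfl⟩) x k
    · rcases k with j | k
      · by_cases hj : j = i
        · subst hj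
          simp only [cP, tStepP, Function.update_self]
          exact (PolyOn.const _ _).add (PolyOn.coord (fun _ : Unit => (id : ℂ → ℂ)) ())
        · simp only [cP, tStepP, Function.update_of_ne hj]
          exact PolyOn.const _ _
      · simp only [cP, tStepP]
        exact PolyOn.const _ _
    · rcases k with j | k
      · simp only [cP]
        exact PolyOn.const _ _
      · exact sStep_polyG i a b hab x.2 k.1 k.2.1 k.2.2

instance locallyCompact_SLC (r : ℕ) : LocallyCompactSpace (SLC r) :=
  haveI : LocallyCompactSpace (Matrix (Fin r) (Fin r) ℂ) :=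
    inferInstanceAs (LocallyCompactSpace (Fin r → Fin r → ℂ))
  (Matrix.SpecialLinearGroup.isClosedEmbedding_val (n := Fin r) (R := ℂ)).locallyCompactSpace

instance t2_SLC (r : ℕ) : T2Space (SLC r) :=
  (Matrix.SpecialLinearGroup.isClosedEmbedding_val (n := Fin r) (R := ℂ)).isEmbedding.t2Space

instance baire_Par (n g r : ℕ) : BaireSpace (Par n g r) :=
  BaireSpace.of_t2Space_locallyCompactSpace

end Vale.Agent.Lib.P002
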