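import Mathlib

/-!
A local surjectivity statement for maps into level sets, and the derivative of an iterated flow.
-/

open Filter Topology

namespace Vale.Agent.Lib.P002

section LocalSurj

variable {E E' X : Type*} [NormedAddCommGroup E] [NormedSpace ℂ E] [FiniteDimensional ℂ E]
  [NormedAddCommGroup E'] [NormedSpace ℂ E'] [NormedAddCommGroup X] [NormedSpace ℂ X]
  [FiniteDimensional ℂ X]

/-- If a map `Φ` lands in a level set of `R` and the image of its derivative contains the kernel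
of the derivative of `R`, then the level set near the point is covered by the image of any
neighbourhood under `Φ`. -/
theorem local_surj {R : E → E'} {D : E →L[ℂ] E'} {ρ : E} (hR : HasStrictFDerivAt R D ρ)
    {Φ : X → E} {A : X →L[ℂ] E} {x0 : X} (hΦ : HasStrictFDerivAt Φ A x0) (h0 : Φ x0 = ρ)
    (hconst : ∀ᶠ x in 𝓝 x0, R (Φ x) = R ρ) (hker : LinearMap.ker (D : E →ₗ[ℂ] E') ≤
      LinearMap.range (A : X →ₗ[ℂ] E)) {N : Set X} (hN : N ∈ 𝓝 x0) :
    ∃ U ∈ 𝓝 ρ, ∀ p ∈ U, R p = R ρ → ∃ x ∈ N, p = Φ x := by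
  classical
  have : CompleteSpace E := FiniteDimensional.complete ℂ E
  have : CompleteSpace X := FiniteDimensional.complete ℂ X
  obtain ⟨C, hC⟩ := Submodule.exists_isCompl (LinearMap.ker (D : E →ₗ[ℂ] E'))
  have : CompleteSpace C := FiniteDimensional.complete ℂ C
  -- the derivative is injective on the complement
  have hinj : LinearMap.ker ((D : E →ₗ[ℂ] E').comp C.subtype) = ⊥ := by
    rw [LinearMap.ker_eq_bot]
    intro a b hab
    have h1 : ((a : E) - b) ∈ LinearMap.ker (D : E →ₗ[ℂ] E') := by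
      rw [LinearMap.mem_ker, map_sub, sub_eq_zero]
      exact hab
    have h2 : ((a : E) - b) ∈ C := C.sub_mem a.2 b.2
    have h3 := Submodule.disjoint_def.mp hC.disjoint _ h1 h2
    exact Subtype.ext (sub_eq_zero.mp h3)
  obtain ⟨K, hK0, hK⟩ := LinearMap.exists_antilipschitzWith _ hinj
  have hbound : ∀ w : C, ‖(w : E)‖ ≤ K * ‖D w‖ := by
    intro w
    have := hK.le_mul_dist w 0
    simpa [dist_eq_norm] using this
  -- a neighbourhood where the map `R` is close to linear
  let c : NNReal := (2 * K)⁻¹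
  have hc : 0 < c := by positivity
  obtain ⟨s, hs, hsa⟩ := hR.approximates_deriv_on_nhds (Or.inr hc)
  -- the extended map
  let Ψ : X × C → E := fun z => Φ z.1 + z.2
  let Ψ' : (X × C) →L[ℂ] E := A.comp (ContinuousLinearMap.fst ℂ X C) +
    C.subtypeL.comp (ContinuousLinearMap.snd ℂ X C)
  have hΨ : HasStrictFDerivAt Ψ Ψ' (x0, 0) := by
    have h1 : HasStrictFDerivAt (fun z : X × C => Φ z.1)
        (A.comp (ContinuousLinearMap.fst ℂ X C)) (x0, 0) :=
      HasStrictFDerivAt.comp (f := fun z : X × C => z.1) (x0, (0 : C)) hΦ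
        (hasStrictFDerivAt_fst)
    have h2 : HasStrictFDerivAt (fun z : X × C => (z.2 : E))
        (C.subtypeL.comp (ContinuousLinearMap.snd ℂ X C)) (x0, 0) :=
      C.subtypeL.hasStrictFDerivAt.comp (x0, (0 : C)) hasStrictFDerivAt_snd
    exact h1.add h2
  have hsurj : (Ψ' : (X × C) →L[ℂ] E).range = ⊤ := by
    rw [eq_top_iff]
    intro v _
    obtain ⟨v1, hv1, v2, hv2, rfl⟩ := Submodule.mem_sup.mp (hC.sup_eq_top ▸ Submodule.mem_top :
      v ∈ LinearMap.ker (D : E →ₗ[ℂ] E') ⊔ C)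
    obtain ⟨y, hy⟩ := hker hv1
    refine ⟨(y, ⟨v2, hv2⟩), ?_⟩
    have hy' : A y = v1 := hy
    change A y + v2 = v1 + v2
    rw [hy']
  have hmap := hΨ.map_nhds_eq_of_surj hsurj
  have hΨ0 : Ψ (x0, 0) = ρ := by simp [Ψ, h0]
  rw [hΨ0] at hmap
  -- the neighbourhood upstairs
  have hcΦ : ContinuousAt Φ x0 := hΦ.continuousAt
  have hcΨ : ContinuousAt Ψ (x0, 0) := hΨ.continuousAt
  let N' : Set (X × C) := {z | z.1 ∈ N ∧ R (Φ z.1) = R ρ ∧ Φ z.1 ∈ s ∧ Ψ z ∈ s}
  have hN' : N' ∈ 𝓝 ((x0, 0) : X × C) := by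
    have h1 : Tendsto (fun z : X × C => z.1) (𝓝 (x0, 0)) (𝓝 x0) := continuous_fst.tendsto _
    have h2 : ∀ᶠ z : X × C in 𝓝 (x0, 0), z.1 ∈ N := h1.eventually hN
    have h3 : ∀ᶠ z : X × C in 𝓝 (x0, 0), R (Φ z.1) = R ρ := h1.eventually hconst
    have h4 : ∀ᶠ z : X × C in 𝓝 (x0, 0), Φ z.1 ∈ s := by
      refine h1.eventually (hcΦ.eventually ?_)
      rw [h0]
      exact hs
    have h5 : ∀ᶠ z : X × C in 𝓝 (x0, 0), Ψ z ∈ s := by
      refine hcΨ.eventually ?_
      rw [hΨ0]
      exact hs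
    filter_upwards [h2, h3, h4, h5] with z a b c d using ⟨a, b, c, d⟩
  refine ⟨Ψ '' N', ?_, ?_⟩
  · rw [← hmap]
    exact image_mem_map hN'
  · rintro p ⟨⟨x, w⟩, ⟨hx1, hx2, hx3, hx4⟩, rfl⟩ hRp
    have h1 := hsa _ hx4 _ hx3
    simp only [Ψ] at hRp h1
    have h2 : Φ x + (w : E) - Φ x = w := by abel
    rw [h2, hRp, hx2, sub_self, zero_sub, norm_neg] at h1
    have h3 := hbound w
    have h4 : ‖(w : E)‖ = 0 := by
      have hKpos : (0 : ℝ) < K := by exact_mod_cast hK0
      have h5 : ((c : NNReal) : ℝ) = (2 * (K : ℝ))⁻¹ := by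
        simp [c]
      rw [h5] at h1
      have h6 : (K : ℝ) * ‖D (w : E)‖ ≤ (K : ℝ) * ((2 * (K : ℝ))⁻¹ * ‖(w : E)‖) :=
        mul_le_mul_of_nonneg_left h1 hKpos.le
      have h7 : (K : ℝ) * ((2 * (K : ℝ))⁻¹ * ‖(w : E)‖) = ‖(w : E)‖ / 2 := by
        field_simp
      have h8 : ‖(w : E)‖ ≤ ‖(w : E)‖ / 2 := by
        calc ‖(w : E)‖ ≤ (K : ℝ) * ‖D (w : E)‖ := h3
          _ ≤ _ := h6
          _ = _ := h7
      have h9 := norm_nonneg (w : E)
      linarith
    refine ⟨x, hx1, ?_⟩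
    change Φ x + (w : E) = Φ x
    rw [norm_eq_zero.mp h4, add_zero]

end LocalSurj

section Flows

variable {E X : Type*} [NormedAddCommGroup E] [NormedSpace ℂ E] [NormedAddCommGroup X]
  [NormedSpace ℂ X]

/-- The expected derivative of a flow at a point where the flow at time zero is the identity. -/
noncomputable def flowD (Y : E) : (ℂ × E) →L[ℂ] E :=
  (ContinuousLinearMap.fst ℂ ℂ E).smulRight Y + ContinuousLinearMap.snd ℂ ℂ E

/-- The strict derivative of a smooth flow. -/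
theorem flow_strict {F : ℂ × E → E} {q0 Y : E} {n : WithTop ℕ∞} (hF : ContDiffAt ℂ n F (0, q0))
    (hn : n ≠ 0) (h0 : ∀ᶠ q in 𝓝 q0, F (0, q) = q)
    (hY : HasDerivAt (fun t => F (t, q0)) Y 0) :
    HasStrictFDerivAt F (flowD Y) (0, q0) := by
  have hs := hF.hasStrictFDerivAt hn
  have hd := hs.hasFDerivAt
  set D := fderiv ℂ F (0, q0) with hD
  have h1 : ∀ v, D (0, v) = v := by
    intro v
    have h2 : HasFDerivAt (fun q => F (0, q)) (D.comp (ContinuousLinearMap.inr ℂ ℂ E)) q0 := by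
      have h3 : HasFDerivAt (fun q : E => ((0 : ℂ), q)) (ContinuousLinearMap.inr ℂ ℂ E) q0 :=
        (ContinuousLinearMap.inr ℂ ℂ E).hasFDerivAt
      exact HasFDerivAt.comp (f := fun q : E => ((0 : ℂ), q)) q0 hd h3
    have h4 : HasFDerivAt (fun q => F (0, q)) (ContinuousLinearMap.id ℂ E) q0 :=
      (hasFDerivAt_id q0).congr_of_eventuallyEq h0
    have h5 := h2.unique h4
    have h6 := congrArg (fun L : E →L[ℂ] E => L v) h5
    simpa using h6
  have h2 : D (1, 0) = Y := by
    have h3 : HasDerivAt (fun t => F (t, q0)) (D (1, 0)) 0 := by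
      have h4 : HasFDerivAt (fun t : ℂ => (t, q0)) (ContinuousLinearMap.inl ℂ ℂ E) 0 :=
        (ContinuousLinearMap.inl ℂ ℂ E).hasFDerivAt.add_const (0, q0) |>.congr_of_eventuallyEq
          (Eventually.of_forall fun t => by simp)
      have h5 := HasFDerivAt.comp (f := fun t : ℂ => (t, q0)) 0 hd h4
      have h6 := h5.hasDerivAt
      simpa [Function.comp_def] using h6
    exact h3.unique hY
  have h3 : D = flowD Y := by
    refine ContinuousLinearMap.ext fun z => ?_
    obtain ⟨t, v⟩ := z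
    have h4 : ((t, v) : ℂ × E) = t • ((1 : ℂ), (0 : E)) + ((0 : ℂ), v) := by
      simp
    rw [h4, map_add, map_smul, h2, h1]
    simp [flowD]
  rw [← h3]
  exact hs

variable {n : ℕ}

/-- The parameter with a given index. -/
def tvv (t : Fin n → ℂ) (j : ℕ) : ℂ := if h : j < n then t ⟨j, h⟩ else 0

/-- The parameter with a given index, as a linear map. -/
noncomputable def tvvL (j : ℕ) : (Fin n → ℂ) →L[ℂ] ℂ :=
  if h : j < n then ContinuousLinearMap.proj ⟨j, h⟩ else 0

theorem tvvL_apply (t : Fin n → ℂ) (j : ℕ) : tvvL j t = tvv t j := by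
  unfold tvvL tvv
  split_ifs <;> rfl

/-- The iterated flow. -/
noncomputable def iterFlow (β : X → E) (Fs : ℕ → ℂ × E → E) :
    ℕ → X × (Fin n → ℂ) → E
  | 0, z => β z.1
  | j + 1, z => Fs j (tvv z.2 j, iterFlow β Fs j z)

/-- The derivative of the iterated flow. -/
noncomputable def iterD (B : X →L[ℂ] E) (Y : ℕ → E) (j : ℕ) : (X × (Fin n → ℂ)) →L[ℂ] E :=
  B.comp (ContinuousLinearMap.fst ℂ X (Fin n → ℂ)) + ∑ i ∈ Finset.range j,
    ((tvvL i).comp (ContinuousLinearMap.snd ℂ X (Fin n → ℂ))).smulRight (Y i)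

theorem iterFlow_base {β : X → E} {Fs : ℕ → ℂ × E → E} {x0 : X} {q0 : E} (hβ : β x0 = q0)
    (hF0 : ∀ j, Fs j (0, q0) = q0) (j : ℕ) :
    iterFlow (n := n) β Fs j (x0, 0) = q0 := by
  induction j with
  | zero => exact hβ
  | succ j ih =>
    simp only [iterFlow, ih]
    have : tvv (0 : Fin n → ℂ) j = 0 := by
      unfold tvv
      split_ifs <;> rfl
    rw [this, hF0]

/-- The strict derivative of the iterated flow. -/
theorem iterFlow_strict {β : X → E} {B : X →L[ℂ] E} {Fs : ℕ → ℂ × E → E} {Y : ℕ → E} {x0 : X}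
    {q0 : E} (hβ : β x0 = q0) (hB : HasStrictFDerivAt β B x0)
    (hF : ∀ j, HasStrictFDerivAt (Fs j) (flowD (Y j)) (0, q0)) (hF0 : ∀ j, Fs j (0, q0) = q0)
    (j : ℕ) : HasStrictFDerivAt (iterFlow (n := n) β Fs j) (iterD B Y j) (x0, 0) := by
  induction j with
  | zero =>
    have h1 : HasStrictFDerivAt (fun z : X × (Fin n → ℂ) => β z.1)
        (B.comp (ContinuousLinearMap.fst ℂ X (Fin n → ℂ))) (x0, 0) :=
      HasStrictFDerivAt.comp (f := fun z : X × (Fin n → ℂ) => z.1) (x0, (0 : Fin n → ℂ)) hB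
        hasStrictFDerivAt_fst
    have e : iterFlow (n := n) β Fs 0 = fun z : X × (Fin n → ℂ) => β z.1 := rfl
    rw [e]
    simpa [iterD] using h1
  | succ j ih =>
    have hbase : iterFlow (n := n) β Fs j (x0, 0) = q0 := iterFlow_base hβ hF0 j
    have h0 : tvv (0 : Fin n → ℂ) j = 0 := by
      unfold tvv
      split_ifs <;> rfl
    have h1 : HasStrictFDerivAt (fun z : X × (Fin n → ℂ) => tvv z.2 j)
        ((tvvL j).comp (ContinuousLinearMap.snd ℂ X (Fin n → ℂ))) (x0, 0) := by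
      have h2 : (fun z : X × (Fin n → ℂ) => tvv z.2 j) =
          fun z => ((tvvL j).comp (ContinuousLinearMap.snd ℂ X (Fin n → ℂ))) z := by
        funext z
        simp [tvvL_apply]
      rw [h2]
      exact ContinuousLinearMap.hasStrictFDerivAt _
    have h2 := h1.prodMk ih
    have h3 : HasStrictFDerivAt (Fs j) (flowD (Y j))
        ((fun z : X × (Fin n → ℂ) => (tvv z.2 j, iterFlow (n := n) β Fs j z)) (x0, 0)) := by
      simp only [h0, hbase]
      exact hF j
    have h4 := h3.comp (x0, (0 : Fin n → ℂ)) h2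
    have h5 : (flowD (Y j)).comp (((tvvL j).comp
        (ContinuousLinearMap.snd ℂ X (Fin n → ℂ))).prod (iterD B Y j)) =
        iterD (n := n) B Y (j + 1) := by
      refine ContinuousLinearMap.ext fun z => ?_
      simp only [iterD, flowD, Finset.sum_range_succ]
      simp
      abel
    rw [← h5]
    exact h4

/-- Where the values of a function are preserved by the flows near the base point, they are
preserved along the iterated flow. -/
theorem iterFlow_eventually {β : X → E} {B : X →L[ℂ] E} {Fs : ℕ → ℂ × E → E} {Y : ℕ → E} {x0 : X}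
    {q0 : E} (hβ : β x0 = q0) (hB : HasStrictFDerivAt β B x0)
    (hF : ∀ j, HasStrictFDerivAt (Fs j) (flowD (Y j)) (0, q0)) (hF0 : ∀ j, Fs j (0, q0) = q0)
    {Z : Type*} (V : E → Z)
    (hV : ∀ j, ∀ᶠ z in 𝓝 ((0 : ℂ), q0), V (Fs j z) = V z.2) (j : ℕ) :
    ∀ᶠ z in 𝓝 ((x0, 0) : X × (Fin n → ℂ)), V (iterFlow (n := n) β Fs j z) = V (β z.1) := by
  induction j with
  | zero => exact Eventually.of_forall fun z => rfl
  | succ j ih =>
    have h1 := (iterFlow_strict (n := n) hβ hB hF hF0 j).continuousAt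
    have h2 : ContinuousAt (fun z : X × (Fin n → ℂ) => (tvv z.2 j, iterFlow (n := n) β Fs j z))
        (x0, 0) := by
      refine ContinuousAt.prodMk ?_ h1
      have h3 : (fun z : X × (Fin n → ℂ) => tvv z.2 j) =
          fun z => tvvL j z.2 := by
        funext z
        rw [tvvL_apply]
      rw [h3]
      exact ((tvvL j).continuous.comp continuous_snd).continuousAt
    have h4 : (tvv (0 : Fin n → ℂ) j, iterFlow (n := n) β Fs j (x0, 0)) = ((0 : ℂ), q0) := by
      have : tvv (0 : Fin n → ℂ) j = 0 := by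
        unfold tvv
        split_ifs <;> rfl
      rw [this, iterFlow_base hβ hF0 j]
    have h5 : ∀ᶠ z in 𝓝 ((x0, 0) : X × (Fin n → ℂ)),
        V (Fs j (tvv z.2 j, iterFlow (n := n) β Fs j z)) = V (iterFlow (n := n) β Fs j z) := by
      have h6 := hV j
      rw [← h4] at h6
      exact h2.eventually h6
    filter_upwards [h5, ih] with z h6 h7
    simp only [iterFlow]
    rw [h6, h7]

end Flows

end Vale.Agent.Lib.P002
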