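import Vale.Agent.Lib.P002.CKerD

/-!
The zero set of a polynomial in traces vanishing on the integer points of the character variety
of a closed surface contains a neighbourhood of the base point in the representation variety.
-/

open Matrix Filter Topology

namespace Vale.Agent.Lib.P002

attribute [local instance] Matrix.linftyOpNormedAddCommGroup Matrix.linftyOpNormedSpace
  Matrix.linftyOpNormedRing Matrix.linftyOpNormedAlgebra

variable {n r nf : ℕ}

theorem betaG_strict (x0 : Fin (n + 2) → MC r) :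
    HasStrictFDerivAt (betaG (n := n) (A := MC r))
      ((betaLin n r).toContinuousLinearMap) x0 := by
  have h := ((betaLin n r).toContinuousLinearMap).hasStrictFDerivAt (x := x0)
  have e : (betaG (n := n) (A := MC r)) =
      fun x => (betaLin n r).toContinuousLinearMap x + betaG 0 := by
    funext x
    exact betaG_eq x
  rw [e]
  exact h.add_const _

/-- The iterated flows, starting from the base family. -/
noncomputable def iF (lab : ℕ → CLab n) (j : ℕ) :
    (Fin (n + 2) → MC r) × (Fin nf → ℂ) → Ix n → MC r :=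
  iterFlow (n := nf) betaG (fun j => wF (lab j)) j

/-- The map which parametrizes the relation locally. -/
noncomputable def PhiM (lab : ℕ → CLab n) (nf : ℕ)
    (x : ((Fin (n + 2) → MC r) × (Fin nf → ℂ)) × (Ix n → ℂ)) : Ix n → MC r :=
  fun i => (1 + mask i * x.2 i) • iF lab nf x.1 i

theorem betaG_sl (y : Fin (n + 2) → SLC r) :
    betaG (fun i => ((y i : SLC r) : MC r)) = fun i => ((betaG y i : SLC r) : MC r) := by
  funext i
  unfold betaG
  split_ifs <;> rfl

theorem fin_cases_last (i : Fin (n + 2)) : i = 0 ∨ i = hl n ∨ ∃ j : Fin n, i = hj j := by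
  by_cases h0 : i.val = 0
  · left
    exact Fin.ext h0
  · by_cases h1 : i.val = n + 1
    · right
      left
      exact Fin.ext h1
    · right
      right
      have h2 := i.2
      refine ⟨⟨i.val - 1, by omega⟩, Fin.ext ?_⟩
      simp only [hj]
      omega

theorem mask_last (b : Bool) : mask ((hl n, b) : Ix n) = 0 := by
  simp [mask, hl]

theorem mask_t (j : Fin n) : mask ((hj j, false) : Ix n) = 0 := by
  simp [mask, hj]

/-- The deduction: a tuple in the image of the parametrization, in a suitable neighbourhood, is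
obtained from the rational flows on the special linear group. -/
theorem deduce (lab : ℕ → CLab n) (A : Ix n → SLC r) (y : Fin (n + 2) → MC r) (τ : Fin nf → ℂ)
    (c : Ix n → ℂ) (hp : (fun i => ((A i : SLC r) : MC r)) = PhiM lab nf ((y, τ), c))
    (hdet : ∀ i, (iF lab nf (y, τ) i).det = (betaG y i).det)
    (hdnm : ∀ j, j < nf → dnm (kLab (lab j)) (tvv τ j) (mE (iF lab j (y, τ)) (cLab (lab j))) ≠ 0)
    (hroot : ∀ i, (1 + mask i * c i) ^ r = 1 → mask i * c i = 0) :
    ∃ y' : Fin (n + 2) → SLC r, (∀ i, ((y' i : SLC r) : MC r) = y i) ∧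
      A = (surfSys n r).qj lab nf ((τ, y') : Par nf (n + 2) r) := by
  have hcomp : ∀ i, ((A i : SLC r) : MC r) = (1 + mask i * c i) • iF lab nf (y, τ) i :=
    fun i => congrFun hp i
  have h0 : ∀ i, mask i = 0 → (betaG y i).det = 1 := by
    intro i hi
    rw [← hdet i]
    have h1 := hcomp i
    rw [hi, zero_mul, add_zero, one_smul] at h1
    rw [← h1]
    exact (A i).2
  have hy : ∀ i, (y i).det = 1 := by
    intro i
    rcases fin_cases_last i with rfl | rfl | ⟨j, rfl⟩
    · have h1 := h0 (hl n, true) (mask_last _)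
      rw [betaG_last] at h1
      simpa using h1
    · have h1 := h0 (hl n, false) (mask_last _)
      rw [betaG_last] at h1
      simpa using h1
    · have h1 := h0 (hj j, false) (mask_t _)
      rw [betaG_new] at h1
      simpa using h1
  have hβ : ∀ i, (betaG y i).det = 1 := by
    intro i
    unfold betaG
    split_ifs <;> first | exact hy _ | exact Matrix.det_one
  let y' : Fin (n + 2) → SLC r := fun i => ⟨y i, hy i⟩
  have hc : ∀ i, mask i * c i = 0 := by
    intro i
    apply hroot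
    have h1 : ((A i : SLC r) : MC r).det = 1 := (A i).2
    rw [hcomp i, Matrix.det_smul, hdet, hβ, Fintype.card_fin, mul_one] at h1
    exact h1
  have hval : ∀ i, ((A i : SLC r) : MC r) = iF lab nf (y, τ) i := by
    intro i
    rw [hcomp i, hc i, add_zero, one_smul]
  have hind : ∀ j, j ≤ nf → iF lab j (y, τ) =
      fun i => (((surfSys n r).qj lab j ((τ, y') : Par nf (n + 2) r) i : SLC r) : MC r) := by
    intro j
    induction j with
    | zero =>
      intro _
      have e : y = fun i => ((y' i : SLC r) : MC r) := rfl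
      change betaG y = _
      rw [e, betaG_sl]
      rfl
    | succ j ih =>
      intro hj'
      have hj2 : j < nf := by omega
      have h1 := ih (by omega)
      change (fun i => wF (lab j) (tvv τ j, iF lab j (y, τ)) i) = _
      funext i
      have h2 := hdnm j hj2
      rw [h1] at h2 ⊢
      rw [mE_sl] at h2
      exact wF_sl (lab j) (tvv τ j) _ h2 i
  refine ⟨y', fun i => rfl, ?_⟩
  funext i
  apply Subtype.ext
  rw [hval i, hind nf le_rfl]

namespace Mono

variable (S : Mono r)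

theorem iF_strict (lab : ℕ → CLab n) (j : ℕ) :
    HasStrictFDerivAt (iF (nf := nf) lab j)
      (iterD (n := nf) (betaLin n r).toContinuousLinearMap (fun j => S.Y (lab j)) j)
      (S.xS n, 0) :=
  iterFlow_strict S.rS_eq.symm (betaG_strict _) (fun j => wF_strict (lab j) S.rS_unit)
    (fun j => wF_base (lab j) S.rS_unit) j

theorem iF_base (lab : ℕ → CLab n) (j : ℕ) :
    iF (nf := nf) lab j (S.xS n, 0) = S.rS n :=
  iterFlow_base S.rS_eq.symm (fun j => wF_base (lab j) S.rS_unit) j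

theorem iF_path (lab : ℕ → CLab n) (j : ℕ) :
    Tendsto (fun z : (Fin (n + 2) → MC r) × (Fin nf → ℂ) => (tvv z.2 j, iF lab j z))
      (𝓝 (S.xS n, 0)) (𝓝 ((0 : ℂ), S.rS n)) := by
  have h1 := (S.iF_strict (nf := nf) lab j).continuousAt
  have h3 : (fun z : (Fin (n + 2) → MC r) × (Fin nf → ℂ) => tvv z.2 j) =
      fun z => tvvL j z.2 := by
    funext z
    rw [tvvL_apply]
  have h2 : ContinuousAt (fun z : (Fin (n + 2) → MC r) × (Fin nf → ℂ) => (tvv z.2 j, iF lab j z))
      (S.xS n, 0) := by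
    refine ContinuousAt.prodMk ?_ h1
    rw [h3]
    exact ((tvvL j).continuous.comp continuous_snd).continuousAt
  have h4 : (tvv (0 : Fin nf → ℂ) j, iF (nf := nf) lab j (S.xS n, 0)) = ((0 : ℂ), S.rS n) := by
    have : tvv (0 : Fin nf → ℂ) j = 0 := by
      unfold tvv
      split_ifs <;> rfl
    rw [this, S.iF_base]
  have h5 := h2.tendsto
  simp only at h5
  rwa [h4] at h5

theorem iF_det (lab : ℕ → CLab n) (j : ℕ) :
    ∀ᶠ z in 𝓝 ((S.xS n, 0) : (Fin (n + 2) → MC r) × (Fin nf → ℂ)),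
      ∀ i, (iF lab j z i).det = (betaG z.1 i).det := by
  have h := iterFlow_eventually (n := nf) S.rS_eq.symm (betaG_strict _)
    (fun j => wF_strict (lab j) S.rS_unit) (fun j => wF_base (lab j) S.rS_unit)
    (fun (q : Ix n → MC r) (i : Ix n) => (q i).det) (fun j => ?_) j
  · filter_upwards [h] with z hz i using congrFun hz i
  · filter_upwards [wF_good (lab j) S.rS_unit] with z hz
    funext i
    exact wF_det (lab j) hz.1 hz.2 i

theorem iF_rel (lab : ℕ → CLab n) (j : ℕ) :
    ∀ᶠ z in 𝓝 ((S.xS n, 0) : (Fin (n + 2) → MC r) × (Fin nf → ℂ)),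
      relM (iF lab j z) = relM (betaG z.1) :=
  iterFlow_eventually (n := nf) S.rS_eq.symm (betaG_strict _)
    (fun j => wF_strict (lab j) S.rS_unit) (fun j => wF_base (lab j) S.rS_unit)
    relM (fun j => by
      filter_upwards [wF_good (lab j) S.rS_unit] with z hz
      exact wF_rel (lab j) hz.1 hz.2) j

theorem iF_dnm (lab : ℕ → CLab n) (j : ℕ) :
    ∀ᶠ z in 𝓝 ((S.xS n, 0) : (Fin (n + 2) → MC r) × (Fin nf → ℂ)),
      dnm (kLab (lab j)) (tvv z.2 j) (mE (iF lab j z) (cLab (lab j))) ≠ 0 := by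
  filter_upwards [(S.iF_path (nf := nf) lab j).eventually (wF_good (lab j) S.rS_unit)] with z hz
  exact hz.2

/-- The derivative of the parametrization. -/
noncomputable def PhiD (lab : ℕ → CLab n) (nf : ℕ) :
    (((Fin (n + 2) → MC r) × (Fin nf → ℂ)) × (Ix n → ℂ)) →L[ℂ] (Ix n → MC r) :=
  (iterD (n := nf) (betaLin n r).toContinuousLinearMap (fun j => S.Y (lab j)) nf).comp
      (ContinuousLinearMap.fst ℂ _ _) +
    (S.scL n).toContinuousLinearMap.comp (ContinuousLinearMap.snd ℂ _ _)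

theorem PhiM_strict (lab : ℕ → CLab n) (nf : ℕ) :
    HasStrictFDerivAt (PhiM (r := r) lab nf) (S.PhiD lab nf) ((S.xS n, 0), 0) := by
  refine hasStrictFDerivAt_pi'.mpr fun i => ?_
  have h1 : HasStrictFDerivAt
      (fun x : ((Fin (n + 2) → MC r) × (Fin nf → ℂ)) × (Ix n → ℂ) => 1 + mask i * x.2 i)
      (mask i • (ContinuousLinearMap.proj i).comp (ContinuousLinearMap.snd ℂ _ _))
      ((S.xS n, 0), 0) := by
    have h2 : (fun x : ((Fin (n + 2) → MC r) × (Fin nf → ℂ)) × (Ix n → ℂ) => 1 + mask i * x.2 i) =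
        fun x => (mask i • (ContinuousLinearMap.proj i).comp
          (ContinuousLinearMap.snd ℂ _ _)) x + 1 := by
      funext x
      simp [add_comm]
    rw [h2]
    exact ContinuousLinearMap.hasStrictFDerivAt _ |>.add_const _
  have h2 : HasStrictFDerivAt
      (fun x : ((Fin (n + 2) → MC r) × (Fin nf → ℂ)) × (Ix n → ℂ) => iF lab nf x.1 i)
      ((ContinuousLinearMap.proj i).comp ((iterD (n := nf)
        (betaLin n r).toContinuousLinearMap (fun j => S.Y (lab j)) nf).comp
          (ContinuousLinearMap.fst ℂ _ _))) ((S.xS n, 0), 0) := by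
    have h3 := (hasStrictFDerivAt_pi'.mp (S.iF_strict (nf := nf) lab nf)) i
    exact HasStrictFDerivAt.comp (f := fun x : ((Fin (n + 2) → MC r) × (Fin nf → ℂ)) × (Ix n → ℂ) =>
      x.1) (g := fun z => iF lab nf z i) ((S.xS n, 0), (0 : Ix n → ℂ)) h3 hasStrictFDerivAt_fst
  have h3 := h1.smul h2
  refine h3.congr_fderiv ?_
  refine ContinuousLinearMap.ext fun x => ?_
  have hb := congrFun (S.iF_base (nf := nf) lab nf) i
  change ((1 + mask i * (0 : ℂ)) • (iterD (n := nf) (betaLin n r).toContinuousLinearMap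
      (fun j => S.Y (lab j)) nf x.1 i)) + (mask i * x.2 i) • iF lab nf (S.xS n, 0) i =
    iterD (n := nf) (betaLin n r).toContinuousLinearMap (fun j => S.Y (lab j)) nf x.1 i +
      (mask i * x.2 i) • S.rS n i
  rw [hb, mul_zero, add_zero, one_smul]

/-- The values of the derivative of the parametrization. -/
theorem PhiD_apply (lab : ℕ → CLab n) (nf : ℕ) (δ : Fin (n + 2) → MC r) (τ : Fin nf → ℂ)
    (c : Ix n → ℂ) : S.PhiD lab nf ((δ, τ), c) = betaLin n r δ +
      ∑ i ∈ Finset.range nf, tvv τ i • S.Y (lab i) + S.scL n c := by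
  have h : S.PhiD lab nf ((δ, τ), c) = iterD (n := nf) (betaLin n r).toContinuousLinearMap
      (fun j => S.Y (lab j)) nf (δ, τ) + S.scL n c := rfl
  rw [h]
  congr 1
  simp [iterD, tvvL_apply]
  rfl

theorem tvv_single (i : Fin nf) (j : ℕ) :
    tvv (Pi.single i (1 : ℂ) : Fin nf → ℂ) j = if j = i.val then 1 else 0 := by
  unfold tvv
  by_cases h : j < nf
  · simp only [dif_pos h]
    by_cases h2 : j = i.val
    · subst h2
      simp
    · rw [if_neg h2, Pi.single_eq_of_ne]
      intro he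
      exact h2 (congrArg Fin.val he)
  · simp only [dif_neg h]
    rw [if_neg]
    intro he
    exact h (he ▸ i.2)

theorem ker_le_range (hr : 2 ≤ r) (lab : ℕ → CLab n) (nf : ℕ)
    (hlab : ∀ l, S.Y l ∈ Submodule.span ℂ (Set.range fun i : Fin nf => S.Y (lab i))) :
    LinearMap.ker ((S.DR n : (Ix n → MC r) →L[ℂ] MC r) : (Ix n → MC r) →ₗ[ℂ] MC r) ≤
      LinearMap.range ((S.PhiD lab nf : (((Fin (n + 2) → MC r) × (Fin nf → ℂ)) × (Ix n → ℂ)) →L[ℂ]
        (Ix n → MC r)) : (((Fin (n + 2) → MC r) × (Fin nf → ℂ)) × (Ix n → ℂ)) →ₗ[ℂ]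
        (Ix n → MC r)) := by
  intro v hv
  have h1 := S.ker_le hr (n := n) (v := v) hv
  have h2 : S.WW n ≤ LinearMap.range ((S.PhiD lab nf : (((Fin (n + 2) → MC r) × (Fin nf → ℂ)) ×
      (Ix n → ℂ)) →L[ℂ] (Ix n → MC r)) : (((Fin (n + 2) → MC r) × (Fin nf → ℂ)) × (Ix n → ℂ)) →ₗ[ℂ]
        (Ix n → MC r)) := by
    refine sup_le (sup_le ?_ ?_) ?_
    · rw [Submodule.span_le]
      rintro _ ⟨l, rfl⟩
      refine (Submodule.span_le.mpr ?_) (hlab l)
      rintro _ ⟨i, rfl⟩
      refine ⟨((0, Pi.single i 1), 0), ?_⟩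
      change S.PhiD lab nf _ = _
      rw [S.PhiD_apply]
      simp only [map_zero, zero_add, add_zero, tvv_single]
      rw [Finset.sum_eq_single i.val]
      · simp
      · intro b _ hb
        simp [hb]
      · intro h
        exact absurd (Finset.mem_range.mpr i.2) h
    · rintro _ ⟨c, rfl⟩
      refine ⟨((0, 0), c), ?_⟩
      change S.PhiD lab nf _ = _
      rw [S.PhiD_apply]
      have : ∀ i, tvv (0 : Fin nf → ℂ) i = 0 := by
        intro i
        unfold tvv
        split_ifs <;> rfl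
      simp [this]
    · rintro _ ⟨δ, rfl⟩
      refine ⟨((δ, 0), 0), ?_⟩
      change S.PhiD lab nf _ = _
      rw [S.PhiD_apply]
      have : ∀ i, tvv (0 : Fin nf → ℂ) i = 0 := by
        intro i
        unfold tvv
        split_ifs <;> rfl
      simp [this]
  exact h2 h1

theorem xS_det (i : Fin (n + 2)) (hA : S.aM.det = 1) (hB : S.bM.det = 1) : (S.xS n i).det = 1 := by
  rcases fin_cases_last i with rfl | rfl | ⟨j, rfl⟩
  · change ((S.xU n 0 : (MC r)ˣ) : MC r).det = 1
    rw [xU_zero]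
    exact hA
  · change ((S.xU n (hL0 n) : (MC r)ˣ) : MC r).det = 1
    rw [xU_hl]
    exact hB
  · change ((S.xU n (hj j) : (MC r)ˣ) : MC r).det = 1
    rw [xU_hj]
    exact Matrix.det_one

theorem PhiM_base (lab : ℕ → CLab n) (nf : ℕ) :
    PhiM (r := r) lab nf ((S.xS n, 0), 0) = S.rS n := by
  funext i
  change (1 + mask i * (0 : ℂ)) • iF lab nf (S.xS n, 0) i = S.rS n i
  rw [mul_zero, add_zero, one_smul, S.iF_base]

theorem PhiM_const (lab : ℕ → CLab n) (nf : ℕ) :
    ∀ᶠ x in 𝓝 (((S.xS n, 0), 0) : ((Fin (n + 2) → MC r) × (Fin nf → ℂ)) × (Ix n → ℂ)),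
      relM (PhiM lab nf x) = relM (S.rS n) := by
  have hfst : Tendsto (fun x : ((Fin (n + 2) → MC r) × (Fin nf → ℂ)) × (Ix n → ℂ) => x.1)
      (𝓝 ((S.xS n, 0), 0)) (𝓝 (S.xS n, 0)) := continuous_fst.tendsto _
  have h1 := hfst.eventually (S.iF_rel (nf := nf) lab nf)
  have h2 : ∀ᶠ z in 𝓝 ((S.xS n, 0) : (Fin (n + 2) → MC r) × (Fin nf → ℂ)),
      ∀ i, IsUnit (iF lab nf z i) := by
    have h3 := (S.iF_strict (nf := nf) lab nf).continuousAt
    have h4 := eventually_isUnit (S.rS_unit (n := n))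
    rw [← S.iF_base (nf := nf) lab nf] at h4
    exact h3.eventually h4
  have h3 : ∀ᶠ z in 𝓝 ((S.xS n, 0) : (Fin (n + 2) → MC r) × (Fin nf → ℂ)),
      ∀ i, IsUnit (z.1 i) := by
    have h4 : Tendsto (fun z : (Fin (n + 2) → MC r) × (Fin nf → ℂ) => z.1)
        (𝓝 (S.xS n, 0)) (𝓝 (S.xS n)) := continuous_fst.tendsto _
    exact h4.eventually (eventually_isUnit S.xS_unit)
  have h4 : ∀ i : Ix n, ∀ᶠ x in 𝓝 (((S.xS n, 0), 0) : ((Fin (n + 2) → MC r) × (Fin nf → ℂ)) ×
      (Ix n → ℂ)), 1 + mask i * x.2 i ≠ 0 := by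
    intro i
    have h5 : ContinuousAt (fun x : ((Fin (n + 2) → MC r) × (Fin nf → ℂ)) × (Ix n → ℂ) =>
        1 + mask i * x.2 i) ((S.xS n, 0), 0) := by fun_prop
    exact h5.eventually_ne (by simp)
  filter_upwards [h1, hfst.eventually h2, hfst.eventually h3, eventually_all.mpr h4] with x h5 h6 h7 h8
  change relM (fun i => (1 + mask i * x.2 i) • iF lab nf x.1 i) = _
  rw [relM_scale h8 h6, h5, relM_beta h7, S.relM_base]

end Mono

theorem root_nhds (hr : 2 ≤ r) : ∀ᶠ w in 𝓝 (0 : ℂ), (1 + w) ^ r = 1 → w = 0 := by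
  have h1 : HasDerivAt (fun w : ℂ => (1 + w) ^ r) _ 0 := ((hasDerivAt_id (0 : ℂ)).const_add 1).pow r
  have h2 := h1.eventually_ne (c := 1) (by
    have : r ≠ 0 := by omega
    simp [this])
  rw [eventually_nhdsWithin_iff] at h2
  filter_upwards [h2] with w hw hw1
  by_contra hne
  exact hw hne hw1

/-- The coordinates on pairs of a tuple of matrices and a tuple of numbers. -/
def cX (n r nf : ℕ) : (Fin nf ⊕ (Fin (n + 2) × Fin r × Fin r)) →
    ((Fin (n + 2) → MC r) × (Fin nf → ℂ)) → ℂ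
  | Sum.inl k, z => z.2 k
  | Sum.inr k, z => z.1 k.1 k.2.1 k.2.2

theorem continuous_cX (k : Fin nf ⊕ (Fin (n + 2) × Fin r × Fin r)) :
    Continuous (cX n r nf k) := by
  rcases k with k | k
  · exact (continuous_apply k).comp continuous_snd
  · have h1 : Continuous fun z : (Fin (n + 2) → MC r) × (Fin nf → ℂ) => z.1 k.1 :=
      (continuous_apply k.1).comp continuous_fst
    exact h1.matrix_elem k.2.1 k.2.2

/-- The main theorem. -/
theorem closed_main (n r : ℕ) (hr : 2 ≤ r) :
    ∃ U : Set (Ix n → SLC r), IsOpen U ∧ (∃ A ∈ U, IsSurfaceRep A ∧ IsIrredRep A) ∧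
      ∀ (m : ℕ) (w : Fin m → FreeGroup (Gens (n + 2))) (P : MvPolynomial (Fin m) ℂ),
        (∀ A : Gens (n + 2) → SLC r, IsSurfaceRep A → IsSSRep A → IsIntRep A → evalTrG w P A = 0) →
        ∀ A ∈ U, IsSurfaceRep A → evalTrG w P A = 0 := by
  classical
  obtain ⟨S, hA, hB⟩ := exists_mono hr
  obtain ⟨nf, lab, hlab⟩ := S.exists_labels n
  obtain ⟨Δ, hΔ⟩ := (surfSys n r).exists_stage (n := nf) lab nf
  obtain ⟨p, hp⟩ := hΔ.poly
  let x0 : Fin (n + 2) → SLC r := fun i => ⟨S.xS n i, S.xS_det i hA hB⟩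
  let Δt : (Fin (n + 2) → MC r) × (Fin nf → ℂ) → ℂ := fun z =>
    MvPolynomial.eval (fun k => cX n r nf k z) p
  have hΔc : Continuous Δt :=
    PolyOn.continuous (c := cX n r nf) ⟨p, fun _ => rfl⟩ continuous_cX
  have hΔs : ∀ (τ : Fin nf → ℂ) (y : Fin (n + 2) → SLC r),
      Δ (τ, y) = Δt (fun i => ((y i : SLC r) : MC r), τ) := by
    intro τ y
    rw [hp]
    congr 2
    funext k
    rcases k with k | k <;> rfl
  have hΔ0 : Δt (S.xS n, 0) ≠ 0 := by
    have h1 := hΔ.base x0
    rw [hΔs] at h1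
    exact h1
  -- the neighbourhood in the parameter space
  let X := ((Fin (n + 2) → MC r) × (Fin nf → ℂ)) × (Ix n → ℂ)
  let x00 : X := ((S.xS n, 0), 0)
  let N : Set X := {x | (∀ i, (iF lab nf x.1 i).det = (betaG x.1.1 i).det) ∧
    (∀ j, j < nf → dnm (kLab (lab j)) (tvv x.1.2 j) (mE (iF lab j x.1) (cLab (lab j))) ≠ 0) ∧
    Δt x.1 ≠ 0 ∧ ∀ i, (1 + mask i * x.2 i) ^ r = 1 → mask i * x.2 i = 0}
  have hN : N ∈ 𝓝 x00 := by
    have hfst : Tendsto (fun x : X => x.1) (𝓝 x00) (𝓝 (S.xS n, 0)) := continuous_fst.tendsto _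
    have h1 := hfst.eventually (S.iF_det (nf := nf) lab nf)
    have h2 : ∀ᶠ x in 𝓝 x00, ∀ j, j < nf →
        dnm (kLab (lab j)) (tvv x.1.2 j) (mE (iF lab j x.1) (cLab (lab j))) ≠ 0 := by
      have h2' := (Filter.eventually_all_finset (Finset.range nf)).mpr
        (fun j _ => S.iF_dnm (nf := nf) lab j)
      exact (hfst.eventually h2').mono fun x hx j hj => hx j (Finset.mem_range.mpr hj)
    have h3 : ∀ᶠ x in 𝓝 x00, Δt x.1 ≠ 0 :=
      hfst.eventually (hΔc.continuousAt.eventually_ne hΔ0)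
    have h4 : ∀ i : Ix n, ∀ᶠ x in 𝓝 x00, (1 + mask i * x.2 i) ^ r = 1 → mask i * x.2 i = 0 := by
      intro i
      have h5 : Continuous fun x : X => mask i * x.2 i :=
        continuous_const.mul ((continuous_apply i).comp continuous_snd)
      have h6 := h5.tendsto x00
      have h7 : mask i * x00.2 i = 0 := by simp [x00]
      rw [h7] at h6
      exact h6.eventually (root_nhds hr)
    filter_upwards [h1, h2, h3, eventually_all.mpr h4] with x a b c d using ⟨a, b, c, d⟩
  -- the neighbourhood of the base point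
  have hker := S.ker_le_range hr lab nf hlab
  obtain ⟨U', hU', hU2⟩ := local_surj (relM_strict S.rS_unit) (S.PhiM_strict lab nf)
    (S.PhiM_base lab nf) (S.PhiM_const lab nf) hker hN
  let vv : (Ix n → SLC r) → (Ix n → MC r) := fun A i => ((A i : SLC r) : MC r)
  have hvv : Continuous vv := continuous_pi fun i =>
    continuous_subtype_val.comp (continuous_apply i)
  have hq : ∃ x y : SLC r, qDet x y ≠ 0 := ⟨_, _, S.qDet_ne hr hA hB⟩
  refine ⟨vv ⁻¹' interior U', isOpen_interior.preimage hvv, ?_, ?_⟩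
  · refine ⟨betaG x0, ?_, rel_beta _, ?_⟩
    · change vv (betaG x0) ∈ interior U'
      have e : vv (betaG x0) = S.rS n := by
        rw [S.rS_eq]
        exact (betaG_sl x0).symm
      rw [e]
      exact mem_interior_iff_mem_nhds.mpr hU'
    · apply isIrred_of
      rw [betaG_last, betaG_last]
      simp only [if_true, Bool.false_eq_true, if_false]
      have e1 : x0 0 = ⟨S.aM, hA⟩ := by
        apply Subtype.ext
        change ((S.xU n 0 : (MC r)ˣ) : MC r) = S.aM
        rw [S.xU_zero]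
        rfl
      have e2 : x0 (hl n) = ⟨S.bM, hB⟩ := by
        apply Subtype.ext
        change ((S.xU n (hL0 n) : (MC r)ˣ) : MC r) = S.bM
        rw [S.xU_hl]
        rfl
      rw [e1, e2]
      exact S.qDet_ne hr hA hB
  · intro m w P hP A hAU hArel
    have hA1 : vv A ∈ U' := interior_subset hAU
    have hrel : relM (vv A) = relM (S.rS n) := by
      rw [S.relM_base]
      have h1 := relM_sl A
      have h2 : relG A = 1 := hArel
      rw [h2] at h1
      exact h1
    obtain ⟨⟨⟨y, τ⟩, c⟩, ⟨h1, h2, h3, h4⟩, hp2⟩ := hU2 _ hA1 hrel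
    obtain ⟨y', hy1, hy2⟩ := deduce lab A y τ c hp2 h1 h2 h4
    have hΔπ : Δ (τ, y') ≠ 0 := by
      rw [hΔs]
      have e : (fun i => ((y' i : SLC r) : MC r)) = y := funext hy1
      rw [e]
      exact h3
    rw [hy2]
    exact hΔ.van _ (evalTr_mem_J0 hq w P hP) _ hΔπ

end Vale.Agent.Lib.P002
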