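import Vale.Agent.Lib.P002.CGen

/-!
The powers of a generic element are Zariski dense in the torus containing it. Rational one
parameter families in the torus.
-/

open Matrix MvPolynomial

namespace Vale.Agent.Lib.P002

variable {r : ℕ}

/-- Linear independence of the sequences of powers of distinct numbers. -/
theorem pow_sum_eq_zero {ι : Type*} [DecidableEq ι] (s : Finset ι) (v : ι → ℂ)
    (hv : Set.InjOn v s) (c : ι → ℂ) (h : ∀ m : ℕ, ∑ j ∈ s, c j * v j ^ m = 0) :
    ∀ j ∈ s, c j = 0 := by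
  induction s using Finset.induction_on generalizing c with
  | empty => simp
  | insert a s ha ih =>
    have hv' : Set.InjOn v s := hv.mono (by simp)
    have h1 : ∀ j ∈ s, c j * (v j - v a) = 0 := by
      apply ih hv'
      intro m
      have h2 := h (m + 1)
      have h3 := h m
      rw [Finset.sum_insert ha] at h2 h3
      have h4 : ∑ j ∈ s, c j * (v j - v a) * v j ^ m =
          ∑ j ∈ s, c j * v j ^ (m + 1) - v a * ∑ j ∈ s, c j * v j ^ m := by
        rw [Finset.mul_sum, ← Finset.sum_sub_distrib]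
        refine Finset.sum_congr rfl fun j _ => ?_
        ring
      rw [h4]
      linear_combination h2 - v a * h3
    have h5 : ∀ j ∈ s, c j = 0 := by
      intro j hj
      have h6 := h1 j hj
      have hne : v j - v a ≠ 0 := by
        rw [sub_ne_zero]
        intro he
        exact ha (hv (Finset.mem_insert_of_mem hj) (Finset.mem_insert_self a s) he ▸ hj)
      exact (mul_eq_zero.mp h6).resolve_right hne
    have h7 := h 0
    rw [Finset.sum_insert ha] at h7
    have h8 : ∑ j ∈ s, c j * v j ^ 0 = 0 :=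
      Finset.sum_eq_zero fun j hj => by rw [h5 j hj, zero_mul]
    rw [h8] at h7
    intro j hj
    rcases Finset.mem_insert.mp hj with rfl | hj
    · simpa using h7
    · exact h5 j hj

/-- A polynomial vanishing on the powers of a multiplicatively independent point vanishes on
the torus of elements of product one. -/
theorem torus_vanish {μ : Fin r → ℂ} (hμ : MulIndep μ) (p : MvPolynomial (Fin r) ℂ)
    (h : ∀ s : ℕ, eval (fun i => μ i ^ s) p = 0) {u : Fin r → ℂ} (hu : ∏ i, u i = 1) :
    eval u p = 0 := by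
  classical
  -- evaluation as a sum over the support
  have hev : ∀ x : Fin r → ℂ, eval x p =
      ∑ d ∈ p.support, coeff d p * ∏ i, x i ^ d i := by
    intro x
    rw [MvPolynomial.eval_eq']
  -- the value of a monomial at the point
  let val : (Fin r →₀ ℕ) → ℂ := fun d => ∏ i, μ i ^ d i
  let T := p.support.image val
  have h1 : ∀ s : ℕ, ∑ v ∈ T, (∑ d ∈ p.support with val d = v, coeff d p) * v ^ s = 0 := by
    intro s
    have h2 := h s
    rw [hev] at h2
    rw [← h2, ← Finset.sum_fiberwise_of_maps_to (g := val) (t := T)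
      (fun d hd => Finset.mem_image_of_mem _ hd)]
    refine Finset.sum_congr rfl fun v _ => ?_
    rw [Finset.sum_mul]
    refine Finset.sum_congr rfl fun d hd => ?_
    congr 1
    rw [← (Finset.mem_filter.mp hd).2]
    simp only [val, ← Finset.prod_pow]
    refine Finset.prod_congr rfl fun i _ => ?_
    rw [← pow_mul, ← pow_mul, mul_comm]
  have h3 := pow_sum_eq_zero T (fun v => v) (fun _ _ _ _ he => he) _ h1
  rw [hev, ← Finset.sum_fiberwise_of_maps_to (g := val) (t := T)
    (fun d hd => Finset.mem_image_of_mem _ hd)]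
  refine Finset.sum_eq_zero fun v hv => ?_
  obtain ⟨d0, hd0, rfl⟩ := Finset.mem_image.mp hv
  -- in a fibre all monomials have the same value on the torus
  have h4 : ∀ d ∈ p.support.filter (fun d => val d = val d0),
      (∏ i, u i ^ d i) = ∏ i, u i ^ d0 i := by
    intro d hd
    have h5 : val d = val d0 := (Finset.mem_filter.mp hd).2
    have hone : ∀ c : ℕ, ∏ i, u i ^ c = 1 := by
      intro c
      rw [Finset.prod_pow, hu, one_pow]
    rcases hμ d d0 h5 with ⟨c, hc⟩ | ⟨c, hc⟩
    · have : ∀ i, u i ^ d i = u i ^ d0 i * u i ^ c := by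
        intro i
        rw [hc i, pow_add]
      simp only [this, Finset.prod_mul_distrib]
      rw [hone, mul_one]
    · have : ∀ i, u i ^ d0 i = u i ^ d i * u i ^ c := by
        intro i
        rw [hc i, pow_add]
      simp only [this, Finset.prod_mul_distrib]
      rw [hone, mul_one]
  have h6 : ∑ d ∈ p.support with val d = val d0, coeff d p * ∏ i, u i ^ d i =
      (∑ d ∈ p.support with val d = val d0, coeff d p) * ∏ i, u i ^ d0 i := by
    rw [Finset.sum_mul]
    exact Finset.sum_congr rfl fun d hd => by rw [h4 d hd]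
  rw [h6, h3 _ hv, zero_mul]

/-! ### Rational families in the torus of a matrix -/

/-- The denominator of the family. -/
noncomputable def dnm (k : ℕ) (t : ℂ) (M : Matrix (Fin r) (Fin r) ℂ) : ℂ :=
  (1 - t • M ^ k).det

/-- The rational family of determinant one matrices commuting with `M`. -/
noncomputable def gMat (k : ℕ) (t : ℂ) (M : Matrix (Fin r) (Fin r) ℂ) :
    Matrix (Fin r) (Fin r) ℂ :=
  (dnm k t M)⁻¹ • (1 - t • M ^ k) ^ r

theorem gMat_det {k : ℕ} {t : ℂ} {M : Matrix (Fin r) (Fin r) ℂ} (h : dnm k t M ≠ 0) :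
    (gMat k t M).det = 1 := by
  unfold gMat
  rw [Matrix.det_smul, Matrix.det_pow, Fintype.card_fin]
  change ((dnm k t M)⁻¹) ^ r * (dnm k t M) ^ r = 1
  rw [← mul_pow, inv_mul_cancel₀ h, one_pow]

theorem gMat_zero (k : ℕ) (M : Matrix (Fin r) (Fin r) ℂ) : gMat k 0 M = 1 := by
  simp [gMat, dnm]

theorem dnm_zero (k : ℕ) (M : Matrix (Fin r) (Fin r) ℂ) : dnm k 0 M = 1 := by
  simp [dnm]

theorem gMat_commute (k : ℕ) (t : ℂ) (M : Matrix (Fin r) (Fin r) ℂ) :
    Commute (gMat k t M) M := by
  unfold gMat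
  refine Commute.smul_left ?_ _
  refine Commute.pow_left ?_ _
  refine Commute.sub_left (Commute.one_left _) ?_
  refine Commute.smul_left ?_ _
  exact Commute.pow_left (Commute.refl M) _

open Classical in
/-- The family in the group; the value is `1` where it is not defined. -/
noncomputable def gS (k : ℕ) (t : ℂ) (M : SLC r) : SLC r :=
  if h : dnm k t (M : Matrix (Fin r) (Fin r) ℂ) ≠ 0 then ⟨gMat k t M, gMat_det h⟩ else 1

theorem gS_neg {k : ℕ} {t : ℂ} {M : SLC r} (h : ¬ dnm k t (M : Matrix (Fin r) (Fin r) ℂ) ≠ 0) :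
    gS k t M = 1 := dif_neg h

theorem gS_pos {k : ℕ} {t : ℂ} {M : SLC r} (h : dnm k t (M : Matrix (Fin r) (Fin r) ℂ) ≠ 0) :
    gS k t M = ⟨gMat k t M, gMat_det h⟩ := dif_pos h

theorem gS_coe {k : ℕ} {t : ℂ} {M : SLC r} (h : dnm k t (M : Matrix (Fin r) (Fin r) ℂ) ≠ 0) :
    ((gS k t M : SLC r) : Matrix (Fin r) (Fin r) ℂ) = gMat k t M := by
  rw [gS_pos h]

theorem gS_zero (k : ℕ) (M : SLC r) : gS k 0 M = 1 := by
  apply Subtype.ext
  rw [gS_coe (by rw [dnm_zero]; exact one_ne_zero), gMat_zero]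
  rfl

theorem gS_commute (k : ℕ) (t : ℂ) (M : SLC r) : Commute (gS k t M) M := by
  by_cases h : dnm k t (M : Matrix (Fin r) (Fin r) ℂ) ≠ 0
  · apply Subtype.ext
    change ((gS k t M : SLC r) : Matrix (Fin r) (Fin r) ℂ) * (M : Matrix (Fin r) (Fin r) ℂ) =
      (M : Matrix (Fin r) (Fin r) ℂ) * ((gS k t M : SLC r) : Matrix (Fin r) (Fin r) ℂ)
    rw [gS_coe h]
    exact gMat_commute k t _
  · rw [gS_neg h]
    exact Commute.one_left M

section Conj

variable {Q Q' : Matrix (Fin r) (Fin r) ℂ}

theorem conjD_mul (h : Q * Q' = 1) (a b : Fin r → ℂ) :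
    (Q * diagonal a * Q') * (Q * diagonal b * Q') = Q * diagonal (fun i => a i * b i) * Q' := by
  have h' : Q' * Q = 1 := mul_eq_one_comm.mp h
  calc (Q * diagonal a * Q') * (Q * diagonal b * Q')
      = Q * diagonal a * (Q' * Q) * diagonal b * Q' := by simp only [Matrix.mul_assoc]
    _ = Q * diagonal (fun i => a i * b i) * Q' := by
      rw [h', Matrix.mul_one, Matrix.mul_assoc Q, Matrix.diagonal_mul_diagonal]

theorem conjD_one (h : Q * Q' = 1) : Q * diagonal (fun _ => (1 : ℂ)) * Q' = 1 := by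
  rw [Matrix.diagonal_one, Matrix.mul_one, h]

theorem conjD_pow (h : Q * Q' = 1) (a : Fin r → ℂ) (k : ℕ) :
    (Q * diagonal a * Q') ^ k = Q * diagonal (fun i => a i ^ k) * Q' := by
  induction k with
  | zero => simpa using (conjD_one h).symm
  | succ k ih =>
    rw [pow_succ, ih, conjD_mul h]
    simp only [pow_succ]

theorem conjD_det (h : Q * Q' = 1) (a : Fin r → ℂ) :
    (Q * diagonal a * Q').det = ∏ i, a i := by
  have h1 : Q.det * Q'.det = 1 := by rw [← Matrix.det_mul, h, Matrix.det_one]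
  rw [Matrix.det_mul, Matrix.det_mul, Matrix.det_diagonal]
  calc Q.det * (∏ i, a i) * Q'.det = (Q.det * Q'.det) * ∏ i, a i := by ring
    _ = ∏ i, a i := by rw [h1, one_mul]

end Conj

/-- The parameter of the family in the torus. -/
noncomputable def uPar (k : ℕ) (t : ℂ) (μ : Fin r → ℂ) (i : Fin r) : ℂ :=
  (∏ j, (1 - t * μ j ^ k))⁻¹ * (1 - t * μ i ^ k) ^ r

theorem dnm_conj {Q Q' : Matrix (Fin r) (Fin r) ℂ} (h : Q * Q' = 1) (μ : Fin r → ℂ) (k : ℕ)
    (t : ℂ) : 1 - t • (Q * diagonal μ * Q') ^ k = Q * diagonal (fun i => 1 - t * μ i ^ k) * Q' := by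
  rw [conjD_pow h]
  conv_lhs => rw [← h]
  have : diagonal (fun i => 1 - t * μ i ^ k) = 1 - t • diagonal (fun i => μ i ^ k) := by
    ext a b
    by_cases hab : a = b
    · subst hab
      simp
    · simp [hab]
  rw [this, Matrix.mul_sub, Matrix.sub_mul, Matrix.mul_one, Matrix.mul_smul, Matrix.smul_mul, h]

theorem gMat_conj {Q Q' : Matrix (Fin r) (Fin r) ℂ} (h : Q * Q' = 1) (μ : Fin r → ℂ) (k : ℕ)
    (t : ℂ) : gMat k t (Q * diagonal μ * Q') = Q * diagonal (uPar k t μ) * Q' := by
  unfold gMat dnm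
  rw [dnm_conj h, conjD_pow h, conjD_det h]
  have : diagonal (uPar k t μ) =
      (∏ j, (1 - t * μ j ^ k))⁻¹ • diagonal (fun i => (1 - t * μ i ^ k) ^ r) := by
    ext a b
    by_cases hab : a = b
    · subst hab
      simp [uPar]
    · simp [hab]
  rw [this, Matrix.mul_smul, Matrix.smul_mul]

theorem uPar_prod (k : ℕ) (t : ℂ) (μ : Fin r → ℂ) (h : ∏ j, (1 - t * μ j ^ k) ≠ 0) :
    ∏ i, uPar k t μ i = 1 := by
  unfold uPar
  rw [Finset.prod_mul_distrib, Finset.prod_const, Finset.prod_pow, Finset.card_univ,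
    Fintype.card_fin, ← mul_pow, inv_mul_cancel₀ h, one_pow]

/-! ### Moves given by words -/

section Moves

variable {ι : Type*} {G : Type*} [Group G]

/-- A tuple with one more entry. -/
def extT (q : ι → G) (h : G) : Option ι → G := fun o => o.elim h q

/-- The tuple obtained from words in the entries of a tuple and one more element. -/
noncomputable def mvAt (mv : ι → FreeGroup (Option ι)) (q : ι → G) (h : G) : ι → G :=
  fun i => FreeGroup.lift (extT q h) (mv i)

end Moves

/-- An element of the torus of a diagonalized matrix. -/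
noncomputable def torusEl {Q Q' : Matrix (Fin r) (Fin r) ℂ} (h : Q * Q' = 1)
    (u : {u : Fin r → ℂ // ∏ i, u i = 1}) : SLC r :=
  ⟨Q * diagonal u.1 * Q', by rw [conjD_det h, u.2]⟩

theorem torusEl_poly {Q Q' : Matrix (Fin r) (Fin r) ℂ} (h : Q * Q' = 1) :
    PolyG (fun (i : Fin r) (u : {u : Fin r → ℂ // ∏ i, u i = 1}) => u.1 i) (torusEl h) := by
  have h1 : PolyM (fun (i : Fin r) (u : {u : Fin r → ℂ // ∏ i, u i = 1}) => u.1 i)
      (fun u => diagonal u.1) := by
    intro a b
    by_cases hab : a = b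
    · subst hab
      simpa using PolyOn.coord (fun (i : Fin r) (u : {u : Fin r → ℂ // ∏ i, u i = 1}) => u.1 i) a
    · simpa [hab] using PolyOn.const (fun (i : Fin r)
        (u : {u : Fin r → ℂ // ∏ i, u i = 1}) => u.1 i) 0
  exact ((PolyM.const _ Q).mul h1).mul (PolyM.const _ Q')

/-- If a polynomial function vanishes after the moves by all the powers of a generic element, it
vanishes after the moves by the rational family in its torus. -/
theorem hull_vanish {ι : Type*} {f : (ι → SLC r) → ℂ} (hf : PolyOn (cS ι r) f)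
    (mv : ι → FreeGroup (Option ι)) (q : ι → SLC r) {M : SLC r} (hM : GenM M)
    (h0 : ∀ s : ℕ, f (mvAt mv q (M ^ s)) = 0) (k : ℕ) (t : ℂ) : f (mvAt mv q (gS k t M)) = 0 := by
  by_cases hD : dnm k t (M : Matrix (Fin r) (Fin r) ℂ) ≠ 0
  · obtain ⟨Q, Q', μ, hQ, hMQ, hμ1, hμ⟩ := hM
    let G : {u : Fin r → ℂ // ∏ i, u i = 1} → ℂ := fun u => f (mvAt mv q (torusEl hQ u))
    have hG : PolyOn (fun (i : Fin r) (u : {u : Fin r → ℂ // ∏ i, u i = 1}) => u.1 i) G := by
      refine hf.comp_tuple fun i => ?_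
      unfold mvAt
      refine polyG_lift (fun o => ?_) (mv i)
      cases o with
      | none => exact torusEl_poly hQ
      | some a => exact PolyG.const _ _
    obtain ⟨p, hp⟩ := hG
    have hpow : ∀ s : ℕ, eval (fun i => μ i ^ s) p = 0 := by
      intro s
      have hu : ∏ i, μ i ^ s = 1 := by rw [Finset.prod_pow, hμ1, one_pow]
      have h1 := hp ⟨fun i => μ i ^ s, hu⟩
      have h2 : torusEl hQ ⟨fun i => μ i ^ s, hu⟩ = M ^ s := by
        apply Subtype.ext
        change Q * diagonal (fun i => μ i ^ s) * Q' = ((M ^ s : SLC r) : Matrix (Fin r) (Fin r) ℂ)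
        rw [Matrix.SpecialLinearGroup.coe_pow, hMQ, conjD_pow hQ]
      simp only [G, h2, h0 s] at h1
      exact h1.symm
    have hD' : ∏ j, (1 - t * μ j ^ k) ≠ 0 := by
      unfold dnm at hD
      rw [hMQ, dnm_conj hQ, conjD_det hQ] at hD
      exact hD
    have hu := uPar_prod k t μ hD'
    have h3 := torus_vanish hμ p hpow hu
    have h4 := hp ⟨uPar k t μ, hu⟩
    have h5 : torusEl hQ ⟨uPar k t μ, hu⟩ = gS k t M := by
      apply Subtype.ext
      rw [gS_coe hD, hMQ, gMat_conj hQ]
      rfl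
    simp only [G, h5] at h4
    rw [h4]
    exact h3
  · have h1 : gS k t M = M ^ 0 := by
      rw [gS_neg hD, pow_zero]
    rw [h1]
    exact h0 0

end Vale.Agent.Lib.P002
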