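import Vale.Agent.Lib.P002.CLocal
import Vale.Agent.Lib.P002.CTorus

/-!
Words in matrices and the rational flows, as smooth maps on tuples of matrices.
-/

open Matrix Filter Topology

namespace Vale.Agent.Lib.P002

attribute [local instance] Matrix.linftyOpNormedAddCommGroup Matrix.linftyOpNormedSpace
  Matrix.linftyOpNormedRing Matrix.linftyOpNormedAlgebra

/-- Square matrices. -/
abbrev MC (r : ℕ) := Matrix (Fin r) (Fin r) ℂ

variable {r : ℕ} {ι : Type*} [DecidableEq ι]

instance completeSpace_MC (r : ℕ) : CompleteSpace (MC r) := FiniteDimensional.complete ℂ _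

/-- The value of a word at a tuple of matrices. -/
noncomputable def mE (q : ι → MC r) (w : FreeGroup ι) : MC r :=
  (w.toWord.map fun x => cond x.2 (q x.1) (q x.1)⁻¹).prod

theorem mE_hom {G : Type*} [Group G] (φ : G →* MC r) (hφ : ∀ g, φ g⁻¹ = (φ g)⁻¹) (q : ι → G)
    (w : FreeGroup ι) : mE (fun i => φ (q i)) w = φ (FreeGroup.lift q w) := by
  conv_rhs => rw [← FreeGroup.mk_toWord (x := w)]
  rw [FreeGroup.lift_mk, map_list_prod, List.map_map]
  unfold mE
  congr 1
  apply List.map_congr_left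
  rintro ⟨i, b⟩ _
  cases b <;> simp [hφ]

theorem mE_units (q : ι → (MC r)ˣ) (w : FreeGroup ι) :
    mE (fun i => ((q i : (MC r)ˣ) : MC r)) w = ((FreeGroup.lift q w : (MC r)ˣ) : MC r) :=
  mE_hom (Units.coeHom (MC r)) (fun g => Matrix.coe_units_inv g) q w

/-- The inclusion of the special linear group. -/
def slHom (r : ℕ) : SLC r →* MC r where
  toFun g := (g : MC r)
  map_one' := rfl
  map_mul' _ _ := rfl

theorem slHom_inv (g : SLC r) : slHom r g⁻¹ = (slHom r g)⁻¹ := by
  have h : (slHom r g⁻¹) * (slHom r g) = 1 := by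
    rw [← map_mul, inv_mul_cancel, map_one]
  exact (Matrix.inv_eq_left_inv h).symm

theorem mE_sl (q : ι → SLC r) (w : FreeGroup ι) :
    mE (fun i => ((q i : SLC r) : MC r)) w = ((FreeGroup.lift q w : SLC r) : MC r) :=
  mE_hom (slHom r) slHom_inv q w

section Smooth

variable {Y : Type*} [NormedAddCommGroup Y] [NormedSpace ℂ Y]

theorem contDiffAt_minv {f : Y → MC r} {y0 : Y} (hf : ContDiffAt ℂ 1 f y0) (hu : IsUnit (f y0)) :
    ContDiffAt ℂ 1 (fun y => (f y)⁻¹) y0 := by
  obtain ⟨u, hu⟩ := hu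
  have h1 : ContDiffAt ℂ 1 (Ring.inverse : MC r → MC r) (f y0) := by
    rw [← hu]
    exact contDiffAt_ringInverse ℂ u
  have h2 := h1.comp y0 hf
  have h3 : (fun y => (f y)⁻¹) = Ring.inverse ∘ f := by
    funext y
    simp [Matrix.nonsing_inv_eq_ringInverse]
  rw [h3]
  exact h2

theorem contDiffAt_entry {f : Y → MC r} {y0 : Y} (hf : ContDiffAt ℂ 1 f y0) (a b : Fin r) :
    ContDiffAt ℂ 1 (fun y => f y a b) y0 := by
  let L : MC r →ₗ[ℂ] ℂ := Matrix.entryLinearMap ℂ ℂ a b
  exact (L.toContinuousLinearMap.contDiff.contDiffAt).comp y0 hf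

theorem contDiffAt_mdet {f : Y → MC r} {y0 : Y} (hf : ContDiffAt ℂ 1 f y0) :
    ContDiffAt ℂ 1 (fun y => (f y).det) y0 := by
  simp only [Matrix.det_apply]
  refine ContDiffAt.sum fun σ _ => ?_
  simp only [Units.smul_def, zsmul_eq_mul]
  exact contDiffAt_const.mul (contDiffAt_prod fun i _ => contDiffAt_entry hf _ _)

theorem contDiffAt_dnm {k : ℕ} {t : Y → ℂ} {M : Y → MC r} {y0 : Y} (ht : ContDiffAt ℂ 1 t y0)
    (hM : ContDiffAt ℂ 1 M y0) : ContDiffAt ℂ 1 (fun y => dnm k (t y) (M y)) y0 := by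
  unfold dnm
  exact contDiffAt_mdet (contDiffAt_const.sub (ht.smul (hM.pow k)))

theorem contDiffAt_gMat {k : ℕ} {t : Y → ℂ} {M : Y → MC r} {y0 : Y} (ht : ContDiffAt ℂ 1 t y0)
    (hM : ContDiffAt ℂ 1 M y0) (h : dnm k (t y0) (M y0) ≠ 0) :
    ContDiffAt ℂ 1 (fun y => gMat k (t y) (M y)) y0 := by
  unfold gMat
  refine ContDiffAt.smul ((contDiffAt_dnm ht hM).inv h) ?_
  exact (contDiffAt_const.sub (ht.smul (hM.pow k))).pow r

theorem contDiffAt_mE {ι' : Type*} [DecidableEq ι'] {Q : Y → ι' → MC r} {y0 : Y}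
    (hQ : ∀ i, ContDiffAt ℂ 1 (fun y => Q y i) y0) (hu : ∀ i, IsUnit (Q y0 i))
    (w : FreeGroup ι') : ContDiffAt ℂ 1 (fun y => mE (Q y) w) y0 := by
  unfold mE
  induction w.toWord with
  | nil => simpa using contDiffAt_const
  | cons x L ih =>
    simp only [List.map_cons, List.prod_cons]
    refine ContDiffAt.mul ?_ ih
    rcases x with ⟨i, b⟩
    cases b
    · exact contDiffAt_minv (hQ i) (hu i)
    · exact hQ i

end Smooth

/-- The rational flow on tuples of matrices. -/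
noncomputable def wFlow (c : FreeGroup ι) (mv : ι → FreeGroup (Option ι)) (k : ℕ)
    (z : ℂ × (ι → MC r)) : ι → MC r :=
  fun i => mE (extT z.2 (gMat k z.1 (mE z.2 c))) (mv i)

theorem isUnit_one_MC : IsUnit (1 : MC r) := isUnit_one

theorem gMat_isUnit {k : ℕ} {t : ℂ} {M : MC r} (h : dnm k t M ≠ 0) : IsUnit (gMat k t M) := by
  rw [Matrix.isUnit_iff_isUnit_det, gMat_det h]
  exact isUnit_one

section Fin

variable [Fintype ι]

theorem wFlow_contDiffAt (c : FreeGroup ι) (mv : ι → FreeGroup (Option ι)) (k : ℕ) {q0 : ι → MC r}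
    (hq0 : ∀ i, IsUnit (q0 i)) : ContDiffAt ℂ 1 (wFlow (r := r) c mv k) (0, q0) := by
  rw [contDiffAt_pi]
  intro i
  have hsnd : ContDiffAt ℂ 1 (fun z : ℂ × (ι → MC r) => z.2) ((0 : ℂ), q0) := contDiffAt_snd
  have hfst : ContDiffAt ℂ 1 (fun z : ℂ × (ι → MC r) => z.1) ((0 : ℂ), q0) := contDiffAt_fst
  have hc : ContDiffAt ℂ 1 (fun z : ℂ × (ι → MC r) => mE z.2 c) ((0 : ℂ), q0) :=
    contDiffAt_mE (fun a => (contDiffAt_pi.mp hsnd) a) hq0 c
  have hd : dnm k (0 : ℂ) (mE q0 c) ≠ 0 := by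
    rw [dnm_zero]
    exact one_ne_zero
  refine contDiffAt_mE (Q := fun z : ℂ × (ι → MC r) => extT z.2 (gMat k z.1 (mE z.2 c))) ?_ ?_ (mv i)
  · intro o
    cases o with
    | none => exact contDiffAt_gMat hfst hc hd
    | some a => exact (contDiffAt_pi.mp hsnd) a
  · intro o
    cases o with
    | none =>
      simp only [extT, Option.elim]
      rw [gMat_zero]
      exact isUnit_one
    | some a => exact hq0 a

/-- Invertibility near a point. -/
theorem eventually_isUnit {q0 : ι → MC r} (hq0 : ∀ i, IsUnit (q0 i)) :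
    ∀ᶠ q in 𝓝 q0, ∀ i, IsUnit (q i) := by
  rw [eventually_all]
  intro i
  have h1 : Continuous fun q : ι → MC r => q i := continuous_apply i
  have h2 : IsOpen {M : MC r | IsUnit M} := by
    have := Units.isOpen (R := MC r)
    exact this
  exact h1.continuousAt.eventually (h2.mem_nhds (hq0 i))

/-- Tuples of units near a tuple of units. -/
noncomputable def toUnits (q : ι → MC r) (h : ∀ i, IsUnit (q i)) : ι → (MC r)ˣ :=
  fun i => (h i).unit

theorem toUnits_coe (q : ι → MC r) (h : ∀ i, IsUnit (q i)) (i : ι) :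
    ((toUnits q h i : (MC r)ˣ) : MC r) = q i := rfl

/-- The flow in terms of the group of units. -/
theorem wFlow_units (c : FreeGroup ι) (mv : ι → FreeGroup (Option ι)) (k : ℕ) (t : ℂ)
    (q : ι → (MC r)ˣ) (h : dnm k t ((FreeGroup.lift q c : (MC r)ˣ) : MC r) ≠ 0) (i : ι) :
    wFlow c mv k (t, fun a => ((q a : (MC r)ˣ) : MC r)) i =
      ((mvAt mv q (gMat_isUnit h).unit i : (MC r)ˣ) : MC r) := by
  unfold wFlow mvAt
  rw [mE_units q c]
  have e : (extT (fun a => ((q a : (MC r)ˣ) : MC r))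
      (gMat k t ((FreeGroup.lift q c : (MC r)ˣ) : MC r))) =
      fun o => ((extT q (gMat_isUnit h).unit o : (MC r)ˣ) : MC r) := by
    funext o
    cases o <;> rfl
  simp only [e]
  exact mE_units _ _

end Fin

end Vale.Agent.Lib.P002
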