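import Vale.Agent.Lib.P002.CTransv

/-!
Functions which are polynomial in given coordinates, for instance polynomial functions of the
entries of tuples of elements of the special linear group.
-/

open Matrix MvPolynomial

namespace Vale.Agent.Lib.P002

variable {Y Y' κ κ' : Type*}

/-- A function is a polynomial in the coordinates `c`. -/
def PolyOn (c : κ → Y → ℂ) (F : Y → ℂ) : Prop :=
  ∃ p : MvPolynomial κ ℂ, ∀ x, F x = eval (fun k => c k x) p

namespace PolyOn

variable {c : κ → Y → ℂ} {F G : Y → ℂ}

theorem const (c : κ → Y → ℂ) (a : ℂ) : PolyOn c (fun _ => a) := ⟨C a, fun x => by simp⟩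

theorem coord (c : κ → Y → ℂ) (k : κ) : PolyOn c (c k) := ⟨MvPolynomial.X k, fun x => by simp⟩

theorem add (hF : PolyOn c F) (hG : PolyOn c G) : PolyOn c (fun x => F x + G x) := by
  obtain ⟨p, hp⟩ := hF
  obtain ⟨q, hq⟩ := hG
  exact ⟨p + q, fun x => by simp [hp, hq]⟩

theorem mul (hF : PolyOn c F) (hG : PolyOn c G) : PolyOn c (fun x => F x * G x) := by
  obtain ⟨p, hp⟩ := hF
  obtain ⟨q, hq⟩ := hG
  exact ⟨p * q, fun x => by simp [hp, hq]⟩

theorem neg (hF : PolyOn c F) : PolyOn c (fun x => -F x) := by
  obtain ⟨p, hp⟩ := hF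
  exact ⟨-p, fun x => by simp [hp]⟩

theorem sub (hF : PolyOn c F) (hG : PolyOn c G) : PolyOn c (fun x => F x - G x) := by
  simpa [sub_eq_add_neg] using hF.add hG.neg

theorem pow (hF : PolyOn c F) (n : ℕ) : PolyOn c (fun x => F x ^ n) := by
  obtain ⟨p, hp⟩ := hF
  exact ⟨p ^ n, fun x => by simp [hp]⟩

theorem sum {ι : Type*} (s : Finset ι) {f : ι → Y → ℂ} (h : ∀ i ∈ s, PolyOn c (f i)) :
    PolyOn c (fun x => ∑ i ∈ s, f i x) := by
  classical
  induction s using Finset.induction_on with
  | empty => simpa using const c 0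
  | insert a s ha ih =>
    simp only [Finset.sum_insert ha]
    exact (h a (Finset.mem_insert_self a s)).add (ih fun i hi => h i (Finset.mem_insert_of_mem hi))

theorem prod {ι : Type*} (s : Finset ι) {f : ι → Y → ℂ} (h : ∀ i ∈ s, PolyOn c (f i)) :
    PolyOn c (fun x => ∏ i ∈ s, f i x) := by
  classical
  induction s using Finset.induction_on with
  | empty => simpa using const c 1
  | insert a s ha ih =>
    simp only [Finset.prod_insert ha]
    exact (h a (Finset.mem_insert_self a s)).mul (ih fun i hi => h i (Finset.mem_insert_of_mem hi))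

/-- Composition with a map which is polynomial in coordinates. -/
theorem comp {c' : κ' → Y' → ℂ} (hF : PolyOn c F) {g : Y' → Y}
    (hg : ∀ k, PolyOn c' (fun x' => c k (g x'))) : PolyOn c' (fun x' => F (g x')) := by
  obtain ⟨p, hp⟩ := hF
  choose q hq using hg
  refine ⟨bind₁ q p, fun x' => ?_⟩
  show F (g x') = _
  rw [hp]
  have h : eval (fun k => c' k x') (bind₁ q p) =
      eval (fun k => eval (fun k' => c' k' x') (q k)) p := by
    simp only [← MvPolynomial.coe_aeval_eq_eval, RingHom.coe_coe]
    exact aeval_bind₁ _ _ _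
  rw [h]
  congr 2
  funext k
  exact hq k x'

/-- Polynomial functions of continuous coordinates are continuous. -/
theorem continuous [TopologicalSpace Y] (hF : PolyOn c F) (hc : ∀ k, Continuous (c k)) :
    Continuous F := by
  obtain ⟨p, hp⟩ := hF
  have h1 : F = fun x => eval (fun k => c k x) p := funext hp
  rw [h1]
  have h2 : Continuous fun x : κ → ℂ => eval x p := MvPolynomial.continuous_eval p
  exact h2.comp (continuous_pi hc)

end PolyOn

/-- A polynomial in one variable vanishing on an infinite set vanishes. -/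
theorem poly_unit_eq_zero {G : ℂ → ℂ} (hG : PolyOn (fun _ : Unit => id) G) {S : Set ℂ}
    (hS : S.Infinite) (h0 : ∀ c ∈ S, G c = 0) (c : ℂ) : G c = 0 := by
  obtain ⟨p, hp⟩ := hG
  have : p = 0 := by
    apply MvPolynomial.funext_set (fun _ : Unit => S) (fun _ => hS)
    intro x hx
    have h1 := hx () (Set.mem_univ _)
    have h2 := h0 _ h1
    rw [hp] at h2
    have e : (fun _ : Unit => id (x ())) = x := by
      funext u
      rfl
    simp only [map_zero]
    rw [← e]
    exact h2
  rw [hp, this, map_zero]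

/-! ### Matrices whose entries are polynomial -/

section PolyM

variable {m n' l : Type*} [Fintype n'] {c : κ → Y → ℂ}

/-- A matrix valued function with polynomial entries. -/
def PolyM (c : κ → Y → ℂ) (M : Y → Matrix m l ℂ) : Prop := ∀ a b, PolyOn c (fun x => M x a b)

theorem PolyM.mul {M : Y → Matrix m n' ℂ} {N : Y → Matrix n' l ℂ} (hM : PolyM c M) (hN : PolyM c N) :
    PolyM c (fun x => M x * N x) := by
  intro a b
  simp only [Matrix.mul_apply]
  exact PolyOn.sum _ fun i _ => (hM a i).mul (hN i b)

theorem PolyM.add {M N : Y → Matrix m l ℂ} (hM : PolyM c M) (hN : PolyM c N) :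
    PolyM c (fun x => M x + N x) := fun a b => (hM a b).add (hN a b)

theorem PolyM.sub {M N : Y → Matrix m l ℂ} (hM : PolyM c M) (hN : PolyM c N) :
    PolyM c (fun x => M x - N x) := fun a b => (hM a b).sub (hN a b)

theorem PolyM.const (c : κ → Y → ℂ) (M : Matrix m l ℂ) : PolyM c (fun _ => M) :=
  fun a b => PolyOn.const c (M a b)

theorem PolyM.smul {M : Y → Matrix m l ℂ} {f : Y → ℂ} (hf : PolyOn c f) (hM : PolyM c M) :
    PolyM c (fun x => f x • M x) := by
  intro a b
  simp only [Matrix.smul_apply, smul_eq_mul]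
  exact hf.mul (hM a b)

theorem PolyM.pow [DecidableEq n'] {M : Y → Matrix n' n' ℂ} (hM : PolyM c M) (k : ℕ) :
    PolyM c (fun x => M x ^ k) := by
  induction k with
  | zero => simpa using PolyM.const c (1 : Matrix n' n' ℂ)
  | succ k ih =>
    simp only [pow_succ]
    exact ih.mul hM

theorem PolyM.trace {M : Y → Matrix n' n' ℂ} (hM : PolyM c M) :
    PolyOn c (fun x => Matrix.trace (M x)) := by
  simp only [Matrix.trace, Matrix.diag_apply]
  exact PolyOn.sum _ fun i _ => hM i i

theorem PolyM.det [DecidableEq n'] {M : Y → Matrix n' n' ℂ} (hM : PolyM c M) :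
    PolyOn c (fun x => Matrix.det (M x)) := by
  simp only [Matrix.det_apply, Units.smul_def, zsmul_eq_mul]
  refine PolyOn.sum _ fun σ _ => ?_
  exact (PolyOn.const c _).mul (PolyOn.prod _ fun i _ => hM _ _)

theorem PolyM.adjugate [DecidableEq n'] {M : Y → Matrix n' n' ℂ} (hM : PolyM c M) :
    PolyM c (fun x => Matrix.adjugate (M x)) := by
  intro a b
  simp only [Matrix.adjugate_apply]
  apply PolyM.det
  intro i j
  by_cases hi : i = b
  · subst hi
    simp only [Matrix.updateRow_self]
    exact PolyOn.const c _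
  · simp only [Matrix.updateRow_ne hi]
    exact hM i j

/-- The coefficients of the characteristic polynomial are polynomial. -/
theorem PolyM.charpoly_coeff [DecidableEq n'] {M : Y → Matrix n' n' ℂ} (hM : PolyM c M) (j : ℕ) :
    PolyOn c (fun x => (M x).charpoly.coeff j) := by
  let gen : Matrix n' n' (MvPolynomial (n' × n') ℂ) := Matrix.of fun a b => MvPolynomial.X (a, b)
  let q := gen.charpoly.coeff j
  have h : ∀ N : Matrix n' n' ℂ, N.charpoly.coeff j = eval (fun p : n' × n' => N p.1 p.2) q := by
    intro N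
    have e : gen.map (eval fun p : n' × n' => N p.1 p.2) = N := by
      ext a b
      simp [gen]
    conv_lhs => rw [← e]
    rw [Matrix.charpoly_map, Polynomial.coeff_map]
  have h2 : PolyOn (fun (p : n' × n') (N : Matrix n' n' ℂ) => N p.1 p.2)
      (fun N => N.charpoly.coeff j) := ⟨q, h⟩
  exact h2.comp (fun k => hM k.1 k.2)

end PolyM

/-! ### Tuples in the special linear group -/

section Tuples

variable {r : ℕ} {ι κ₂ : Type*}

/-- The group `SL_r(ℂ)`. -/
abbrev SLC (r : ℕ) := Matrix.SpecialLinearGroup (Fin r) ℂ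

/-- The entries of a tuple. -/
def cS (ι : Type*) (r : ℕ) : ι × Fin r × Fin r → (ι → SLC r) → ℂ :=
  fun k A => ((A k.1 : SLC r) : Matrix (Fin r) (Fin r) ℂ) k.2.1 k.2.2

/-- A function to the group with polynomial entries. -/
def PolyG (c : κ → Y → ℂ) (g : Y → SLC r) : Prop :=
  PolyM c (fun x => ((g x : SLC r) : Matrix (Fin r) (Fin r) ℂ))

theorem PolyG.mul {c : κ → Y → ℂ} {g h : Y → SLC r} (hg : PolyG c g) (hh : PolyG c h) :
    PolyG c (fun x => g x * h x) := by
  have := PolyM.mul hg hh
  intro a b
  simpa using this a b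

theorem PolyG.inv {c : κ → Y → ℂ} {g : Y → SLC r} (hg : PolyG c g) :
    PolyG c (fun x => (g x)⁻¹) := by
  have := PolyM.adjugate hg
  intro a b
  simpa [Matrix.SpecialLinearGroup.coe_inv] using this a b

theorem PolyG.const (c : κ → Y → ℂ) (g : SLC r) : PolyG c (fun _ => g) :=
  PolyM.const c _

theorem PolyG.pow {c : κ → Y → ℂ} {g : Y → SLC r} (hg : PolyG c g) (k : ℕ) :
    PolyG c (fun x => g x ^ k) := by
  induction k with
  | zero => simpa using PolyG.const c (1 : SLC r)
  | succ k ih =>
    simp only [pow_succ]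
    exact ih.mul hg

theorem polyG_coord (i : ι) : PolyG (cS ι r) (fun A : ι → SLC r => A i) :=
  fun a b => PolyOn.coord (cS ι r) (i, a, b)

/-- A function on tuples, precomposed with a map whose coordinates have polynomial entries. -/
theorem PolyOn.comp_tuple {F : (ι → SLC r) → ℂ} (hF : PolyOn (cS ι r) F) {c : κ → Y → ℂ}
    {g : Y → ι → SLC r} (hg : ∀ i, PolyG c (fun x => g x i)) : PolyOn c (fun x => F (g x)) :=
  hF.comp fun k => hg k.1 k.2.1 k.2.2

theorem continuous_cS (k : ι × Fin r × Fin r) : Continuous (cS ι r k) := by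
  unfold cS
  have h1 : Continuous fun A : ι → SLC r => A k.1 := continuous_apply _
  have h2 : Continuous fun g : SLC r => (g : Matrix (Fin r) (Fin r) ℂ) :=
    continuous_subtype_val
  have h3 : Continuous fun M : Matrix (Fin r) (Fin r) ℂ => M k.2.1 k.2.2 :=
    (continuous_apply _).comp (continuous_apply _)
  exact h3.comp (h2.comp h1)

end Tuples

end Vale.Agent.Lib.P002
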