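import Vale.Agent.Lib.P002.CMat

/-!
Linear algebra at the base point: a monomial matrix and a diagonal matrix.
-/

open Matrix

namespace Vale.Agent.Lib.P002

variable {r : ℕ}

/-- The tangent direction of the rational family. -/
noncomputable def gd (k : ℕ) (M : MC r) : MC r :=
  (Matrix.trace (M ^ k)) • (1 : MC r) - (r : ℂ) • M ^ k

theorem pow_mul_pow_eq_one {x y : MC r} (h : x * y = 1) (m : ℕ) : x ^ m * y ^ m = 1 := by
  induction m with
  | zero => simp
  | succ m ih =>
    calc x ^ (m + 1) * y ^ (m + 1) = x ^ m * (x * y) * y ^ m := by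
          rw [pow_succ x m, pow_succ' y m]
          simp only [Matrix.mul_assoc]
      _ = 1 := by rw [h, Matrix.mul_one, ih]

theorem conj_pow {b b' : MC r} (h1 : b * b' = 1) (h2 : b' * b = 1) (c : MC r) (k : ℕ) :
    (b * c * b') ^ k = b * c ^ k * b' := by
  induction k with
  | zero => simpa using h1.symm
  | succ k ih =>
    rw [pow_succ, ih, pow_succ]
    calc b * c ^ k * b' * (b * c * b') = b * c ^ k * (b' * b) * c * b' := by
          simp only [Matrix.mul_assoc]
      _ = _ := by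
        rw [h2, Matrix.mul_one]
        simp only [Matrix.mul_assoc]

theorem trace_mul_gd (X M : MC r) (k : ℕ) (hX : Matrix.trace X = 0) :
    Matrix.trace (X * gd k M) = -(r : ℂ) * Matrix.trace (X * M ^ k) := by
  unfold gd
  rw [Matrix.mul_sub, Matrix.mul_smul, Matrix.mul_smul, Matrix.mul_one, Matrix.trace_sub,
    Matrix.trace_smul, Matrix.trace_smul, hX]
  simp

theorem gd_commute (M : MC r) (k : ℕ) : Commute (gd k M) M := by
  unfold gd
  refine Commute.sub_left ((Commute.one_left M).smul_left _) ?_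
  exact (Commute.pow_left (Commute.refl M) k).smul_left _

/-- The data of the base point. -/
structure Mono (r : ℕ) where
  σ : Equiv.Perm (Fin r)
  d : ℂ
  hd : d ≠ 0
  l : Fin r → ℂ
  hl : ∀ i, l i ≠ 0
  hfree : ∀ s : ℕ, 0 < s → s < r → ∀ i, (σ ^ s) i ≠ i
  htrans : ∀ i u, i ≠ u → ∃ s : ℕ, 0 < s ∧ s < r ∧ (σ ^ s) i = u
  hint : ∀ k : ℕ, 0 < k → k < r → ∀ i i',
    ∏ s ∈ Finset.range k, l ((σ ^ (s + 1)) i) = ∏ s ∈ Finset.range k, l ((σ ^ (s + 1)) i') → i = i'

namespace Mono

variable (S : Mono r)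

/-- The monomial matrix. -/
def aM : MC r := Matrix.of fun i j => if S.σ i = j then S.d else 0

/-- Its inverse. -/
noncomputable def aI : MC r := Matrix.of fun i j => if S.σ j = i then S.d⁻¹ else 0

/-- The diagonal matrix. -/
def bM : MC r := diagonal S.l

/-- Its inverse. -/
noncomputable def bI : MC r := diagonal fun i => (S.l i)⁻¹

theorem aM_mul_apply (X : MC r) (i j : Fin r) : (S.aM * X) i j = S.d * X (S.σ i) j := by
  simp [aM, Matrix.mul_apply]

theorem aM_mul_aI : S.aM * S.aI = 1 := by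
  ext i j
  rw [S.aM_mul_apply]
  simp only [aI, Matrix.of_apply, Matrix.one_apply, S.σ.injective.eq_iff]
  by_cases h : i = j
  · subst h
    simp [S.hd]
  · have h' : ¬ j = i := fun e => h e.symm
    simp [h, h']

theorem aI_mul_aM : S.aI * S.aM = 1 := mul_eq_one_comm.mp S.aM_mul_aI

theorem bM_mul_bI : S.bM * S.bI = 1 := by
  unfold bM bI
  rw [Matrix.diagonal_mul_diagonal]
  have : (fun i => S.l i * (S.l i)⁻¹) = fun _ => (1 : ℂ) := by
    funext i
    exact mul_inv_cancel₀ (S.hl i)
  rw [this, Matrix.diagonal_one]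

theorem bI_mul_bM : S.bI * S.bM = 1 := mul_eq_one_comm.mp S.bM_mul_bI

theorem bM_pow (m : ℕ) : S.bM ^ m = diagonal fun i => S.l i ^ m := by
  unfold bM
  rw [Matrix.diagonal_pow]
  rfl

theorem cM_apply (m : ℕ) (i j : Fin r) :
    (S.aM * S.bM ^ m) i j = if S.σ i = j then S.d * S.l (S.σ i) ^ m else 0 := by
  rw [S.aM_mul_apply, S.bM_pow, Matrix.diagonal_apply]
  by_cases h : S.σ i = j
  · simp [h]
  · simp [h]

/-- The entries of the powers of `a b ^ m`. -/
theorem cM_pow_apply (m k : ℕ) (i j : Fin r) :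
    ((S.aM * S.bM ^ m) ^ k) i j = if (S.σ ^ k) i = j then
      S.d ^ k * (∏ s ∈ Finset.range k, S.l ((S.σ ^ (s + 1)) i)) ^ m else 0 := by
  induction k generalizing i with
  | zero =>
    simp [Matrix.one_apply]
  | succ k ih =>
    rw [pow_succ', Matrix.mul_apply, Finset.sum_eq_single (S.σ i)]
    · rw [S.cM_apply, if_pos rfl, ih]
      have e1 : (S.σ ^ k) (S.σ i) = (S.σ ^ (k + 1)) i := by
        rw [pow_succ]
        rfl
      rw [e1]
      by_cases h : (S.σ ^ (k + 1)) i = j
      · rw [if_pos h, if_pos h, Finset.prod_range_succ', mul_pow, pow_succ S.d k]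
        have e2 : ∀ s, (S.σ ^ (s + 1)) (S.σ i) = (S.σ ^ (s + 1 + 1)) i := by
          intro s
          rw [pow_succ (S.σ) (s + 1)]
          rfl
        simp only [e2]
        have e3 : (S.σ ^ (0 + 1)) i = S.σ i := by simp
        rw [e3]
        ring
      · rw [if_neg h, if_neg h, mul_zero]
    · intro b _ hb
      rw [S.cM_apply, if_neg (Ne.symm hb), zero_mul]
    · intro h
      exact absurd (Finset.mem_univ _) h

/-- Linear independence of the sequences of powers of distinct numbers. -/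
theorem offdiag_zero (X : MC r)
    (hX : ∀ m k : ℕ, 0 < k → k < r → Matrix.trace ((S.aM * S.bM ^ m) ^ k * X) = 0) {u i : Fin r}
    (hui : i ≠ u) : X u i = 0 := by
  obtain ⟨k, hk0, hkr, rfl⟩ := S.htrans i u hui
  have h1 : ∀ m : ℕ, ∑ a : Fin r, (S.d ^ k * X ((S.σ ^ k) a) a) *
      (∏ s ∈ Finset.range k, S.l ((S.σ ^ (s + 1)) a)) ^ m = 0 := by
    intro m
    have h2 := hX m k hk0 hkr
    rw [Matrix.trace] at h2
    rw [← h2]
    simp only [Matrix.diag_apply, Matrix.mul_apply]
    refine Finset.sum_congr rfl fun a _ => ?_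
    rw [Finset.sum_eq_single ((S.σ ^ k) a)]
    · rw [S.cM_pow_apply, if_pos rfl]
      ring
    · intro b _ hb
      rw [S.cM_pow_apply, if_neg (Ne.symm hb), zero_mul]
    · intro h
      exact absurd (Finset.mem_univ _) h
  have h3 := pow_sum_eq_zero Finset.univ
    (fun a : Fin r => ∏ s ∈ Finset.range k, S.l ((S.σ ^ (s + 1)) a))
    (fun a _ b _ hab => S.hint k hk0 hkr a b hab) _ h1 i (Finset.mem_univ _)
  exact (mul_eq_zero.mp h3).resolve_left (pow_ne_zero _ S.hd)

theorem l_inj (hr : 2 ≤ r) : Function.Injective S.l := by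
  intro i j hij
  have h1 := S.hint 1 one_pos (by omega) (S.σ⁻¹ i) (S.σ⁻¹ j) (by simpa using hij)
  exact S.σ⁻¹.injective h1

/-- Numbers with all weighted power sums zero are zero. -/
theorem diag_zero (hr : 2 ≤ r) (x : Fin r → ℂ)
    (h : ∀ k : ℕ, 0 < k → ∑ i, x i * S.l i ^ k = 0) (i : Fin r) : x i = 0 := by
  have h1 : ∀ m : ℕ, ∑ a : Fin r, (x a * S.l a) * S.l a ^ m = 0 := by
    intro m
    have h2 := h (m + 1) (Nat.succ_pos m)
    rw [← h2]
    refine Finset.sum_congr rfl fun a _ => ?_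
    rw [pow_succ']
    ring
  have h3 := pow_sum_eq_zero Finset.univ S.l (fun a _ b _ hab => S.l_inj hr hab) _ h1 i
    (Finset.mem_univ _)
  exact (mul_eq_zero.mp h3).resolve_right (S.hl i)

theorem trace_mul_bM_pow (X : MC r) (k : ℕ) :
    Matrix.trace (X * S.bM ^ k) = ∑ i, X i i * S.l i ^ k := by
  rw [S.bM_pow, Matrix.trace]
  simp [Matrix.mul_diagonal]

/-- The solution of the difference equation on a cycle. -/
theorem solve_cycle_aux (f : ℕ → ℂ) (r : ℕ) :
    ∑ s ∈ Finset.range r, ((r : ℂ) - 1 - s) * f s -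
      ∑ s ∈ Finset.range r, ((r : ℂ) - 1 - s) * f (s + 1) =
      (r : ℂ) * f 0 - ∑ s ∈ Finset.range r, f s := by
  induction r with
  | zero => simp
  | succ r ih =>
    rw [Finset.sum_range_succ, Finset.sum_range_succ (fun s => ((↑(r + 1) : ℂ) - 1 - s) * f (s + 1)),
      Finset.sum_range_succ (fun s => f s)]
    have h1 : ∑ s ∈ Finset.range r, (((r + 1 : ℕ) : ℂ) - 1 - s) * f s =
        ∑ s ∈ Finset.range r, ((r : ℂ) - 1 - s) * f s + ∑ s ∈ Finset.range r, f s := by
      rw [← Finset.sum_add_distrib]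
      refine Finset.sum_congr rfl fun s _ => ?_
      push_cast
      ring
    have h2 : ∑ s ∈ Finset.range r, (((r + 1 : ℕ) : ℂ) - 1 - s) * f (s + 1) =
        ∑ s ∈ Finset.range r, ((r : ℂ) - 1 - s) * f (s + 1) +
          ∑ s ∈ Finset.range r, f (s + 1) := by
      rw [← Finset.sum_add_distrib]
      refine Finset.sum_congr rfl fun s _ => ?_
      push_cast
      ring
    have h3 := Finset.sum_range_succ (fun s => f s) r
    have h4 : ∑ s ∈ Finset.range r, f (s + 1) = ∑ s ∈ Finset.range r, f s + f r - f 0 := by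
      have := Finset.sum_range_succ' (fun s => f s) r
      rw [Finset.sum_range_succ] at this
      linear_combination -this
    rw [h1, h2, h4]
    push_cast
    linear_combination ih

theorem sum_orbit (hr : 2 ≤ r) (x : Fin r → ℂ) (i : Fin r) :
    ∑ s ∈ Finset.range r, x ((S.σ ^ s) i) = ∑ j, x j := by
  classical
  have hlt : ∀ s s' : ℕ, s < s' → s' < r → (S.σ ^ s) i ≠ (S.σ ^ s') i := by
    intro s s' hlt hs' he
    have h1 : (S.σ ^ (s' - s)) ((S.σ ^ s) i) = (S.σ ^ s) i := by
      rw [← Equiv.Perm.mul_apply, ← pow_add, Nat.sub_add_cancel hlt.le]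
      exact he.symm
    exact S.hfree (s' - s) (by omega) (by omega) _ h1
  have hinj : Set.InjOn (fun s : ℕ => (S.σ ^ s) i) (Finset.range r) := by
    intro s hs s' hs' he
    simp only [Finset.coe_range, Set.mem_Iio] at hs hs'
    by_contra hne
    rcases lt_or_gt_of_ne hne with h | h
    · exact hlt s s' h hs' he
    · exact hlt s' s h hs he.symm
  have himg : (Finset.range r).image (fun s : ℕ => (S.σ ^ s) i) = Finset.univ := by
    apply Finset.eq_univ_of_card
    rw [Finset.card_image_of_injOn hinj]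
    simp
  rw [← himg, Finset.sum_image hinj]

theorem solve_cycle (hr : 2 ≤ r) (x : Fin r → ℂ) (hx : ∑ i, x i = 0) :
    ∃ y : Fin r → ℂ, ∀ i, y i - y (S.σ i) = x i := by
  have hr0 : (r : ℂ) ≠ 0 := by
    have : r ≠ 0 := by omega
    exact_mod_cast this
  refine ⟨fun i => (r : ℂ)⁻¹ * ∑ s ∈ Finset.range r, ((r : ℂ) - 1 - s) * x ((S.σ ^ s) i), fun i => ?_⟩
  have h1 := solve_cycle_aux (fun s => x ((S.σ ^ s) i)) r
  have h2 := S.sum_orbit hr x i
  rw [hx] at h2
  simp only [h2] at h1
  have h3 : ∀ s : ℕ, (S.σ ^ s) (S.σ i) = (S.σ ^ (s + 1)) i := by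
    intro s
    rw [pow_succ]
    rfl
  simp only [h3]
  rw [← mul_sub, h1]
  simp only [pow_zero, Equiv.Perm.coe_one, id_eq, sub_zero]
  field_simp

theorem aM_diag_aI (y : Fin r → ℂ) :
    S.aM * diagonal y * S.aI = diagonal fun i => y (S.σ i) := by
  rw [Matrix.mul_assoc]
  ext i j
  rw [S.aM_mul_apply, Matrix.diagonal_mul, Matrix.diagonal_apply]
  simp only [aI, Matrix.of_apply, S.σ.injective.eq_iff]
  by_cases h : i = j
  · subst h
    have := S.hd
    simp
    field_simp
  · have h' : ¬ j = i := fun e => h e.symm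
    simp [h, h']

theorem bM_diag_bI (y : Fin r → ℂ) : S.bM * diagonal y * S.bI = diagonal y := by
  unfold bM bI
  rw [Matrix.diagonal_mul_diagonal, Matrix.diagonal_mul_diagonal]
  congr 1
  funext i
  have := S.hl i
  field_simp

theorem diag_v (hr : 2 ≤ r) (v : MC r) (hv : Matrix.trace v = 0)
    (hinf : ∀ k : ℕ, 0 < k → Matrix.trace (v * gd k S.bM) = 0) (i : Fin r) : v i i = 0 := by
  have hr0 : (r : ℂ) ≠ 0 := by
    have : r ≠ 0 := by omega
    exact_mod_cast this
  refine S.diag_zero hr (fun i => v i i) (fun k hk => ?_) i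
  have h1 := hinf k hk
  rw [trace_mul_gd _ _ _ hv, S.trace_mul_bM_pow] at h1
  exact (mul_eq_zero.mp h1).resolve_left (neg_ne_zero.mpr hr0)

theorem exists_cobound (hr : 2 ≤ r) (v : MC r) (hvd : ∀ i, v i i = 0) :
    ∃ w : MC r, v = w - S.bM * w * S.bI := by
  refine ⟨Matrix.of fun i j => if i = j then 0 else v i j / (1 - S.l i / S.l j), ?_⟩
  ext i j
  rw [Matrix.sub_apply]
  simp only [bM, bI]
  rw [Matrix.mul_diagonal, Matrix.diagonal_mul]
  by_cases hij : i = j
  · subst hij
    simp [hvd]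
  · have hne : S.l i ≠ S.l j := fun e => hij (S.l_inj hr e)
    have hl := S.hl j
    have hne' : 1 - S.l i / S.l j ≠ 0 := by
      intro h0
      apply hne
      field_simp at h0
      linear_combination -h0
    simp only [Matrix.of_apply, if_neg hij]
    have h2 : S.l j - S.l i ≠ 0 := sub_ne_zero.mpr (Ne.symm hne)
    field_simp

/-- Telescoping. -/
theorem telescope {b b' v w : MC r} (hb'b : b' * b = 1) (hvw : v = w - b * w * b') (m : ℕ)
    (ξ : MC r) : ∑ i ∈ Finset.range m, Matrix.trace (v * (b ^ (i + 1) * ξ * b' ^ (i + 1))) =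
      Matrix.trace (b' ^ m * w * b ^ m * ξ) - Matrix.trace (w * ξ) := by
  have hWstep : ∀ i, b' ^ (i + 1) * v * b ^ (i + 1) =
      b' ^ (i + 1) * w * b ^ (i + 1) - b' ^ i * w * b ^ i := by
    intro i
    rw [hvw, Matrix.mul_sub, Matrix.sub_mul]
    congr 1
    have e1 : b' ^ (i + 1) = b' ^ i * b' := pow_succ b' i
    have e2 : b ^ (i + 1) = b * b ^ i := pow_succ' b i
    rw [e1, e2]
    calc b' ^ i * b' * (b * w * b') * (b * b ^ i)
        = b' ^ i * (b' * b) * w * (b' * b) * b ^ i := by simp only [Matrix.mul_assoc]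
      _ = _ := by rw [hb'b, Matrix.mul_one, Matrix.mul_one]
  have h1 : ∀ i, Matrix.trace (v * (b ^ (i + 1) * ξ * b' ^ (i + 1))) =
      Matrix.trace (b' ^ (i + 1) * w * b ^ (i + 1) * ξ) - Matrix.trace (b' ^ i * w * b ^ i * ξ) := by
    intro i
    rw [← Matrix.trace_sub, ← Matrix.sub_mul, ← hWstep]
    calc Matrix.trace (v * (b ^ (i + 1) * ξ * b' ^ (i + 1)))
        = Matrix.trace ((v * (b ^ (i + 1) * ξ)) * b' ^ (i + 1)) := by
          simp only [Matrix.mul_assoc]
      _ = Matrix.trace (b' ^ (i + 1) * (v * (b ^ (i + 1) * ξ))) := Matrix.trace_mul_comm _ _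
      _ = _ := by simp only [Matrix.mul_assoc]
  simp only [h1]
  rw [Finset.sum_range_sub (fun i => Matrix.trace (b' ^ i * w * b ^ i * ξ)) m]
  simp

/-- Conjugation by the curve does not change the pairing with an element commuting with it. -/
theorem trace_conj_curve {a a' b b' w ξ : MC r} (haa' : a * a' = 1) (hbb' : b * b' = 1) (m : ℕ)
    (hcomm : ξ * (a * b ^ m) = (a * b ^ m) * ξ) :
    Matrix.trace (b' ^ m * w * b ^ m * ξ) = Matrix.trace (a * w * a' * ξ) := by
  have hcc' : (a * b ^ m) * (b' ^ m * a') = 1 := by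
    calc a * b ^ m * (b' ^ m * a') = a * (b ^ m * b' ^ m) * a' := by
          simp only [Matrix.mul_assoc]
      _ = 1 := by
        rw [pow_mul_pow_eq_one hbb' m, Matrix.mul_one, haa']
  have hc'c : (b' ^ m * a') * (a * b ^ m) = 1 := mul_eq_one_comm.mp hcc'
  have h1 : a * w * a' = (a * b ^ m) * (b' ^ m * w * b ^ m) * (b' ^ m * a') := by
    calc a * w * a' = a * (b ^ m * b' ^ m) * w * (b ^ m * b' ^ m) * a' := by
          rw [pow_mul_pow_eq_one hbb' m, Matrix.mul_one, Matrix.mul_one]
      _ = _ := by simp only [Matrix.mul_assoc]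
  rw [h1]
  generalize a * b ^ m = c at *
  generalize b' ^ m * a' = c' at *
  generalize b' ^ m * w * b ^ m = W at *
  calc Matrix.trace (W * ξ) = Matrix.trace (W * (c' * c * ξ)) := by
        rw [hc'c, Matrix.one_mul]
    _ = Matrix.trace (W * (c' * (c * ξ))) := by rw [Matrix.mul_assoc c']
    _ = Matrix.trace (W * (c' * (ξ * c))) := by rw [hcomm]
    _ = Matrix.trace ((W * c' * ξ) * c) := by simp only [Matrix.mul_assoc]
    _ = Matrix.trace (c * (W * c' * ξ)) := Matrix.trace_mul_comm _ _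
    _ = _ := by simp only [Matrix.mul_assoc]

theorem trace_e1 {a a' b b' wt A B : MC r} (ha'a : a' * a = 1) :
    Matrix.trace (wt * b' * a' * (A * b + a * B)) =
      Matrix.trace (b * wt * b' * a' * A) + Matrix.trace (wt * b' * B) := by
  have h1 : Matrix.trace (wt * b' * a' * (A * b)) = Matrix.trace (b * wt * b' * a' * A) := by
    calc Matrix.trace (wt * b' * a' * (A * b)) = Matrix.trace ((wt * b' * a' * A) * b) := by
          rw [Matrix.mul_assoc (wt * b' * a') A b]
      _ = Matrix.trace (b * (wt * b' * a' * A)) := Matrix.trace_mul_comm _ _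
      _ = _ := by simp only [Matrix.mul_assoc]
  have h2 : wt * b' * a' * (a * B) = wt * b' * B := by
    rw [Matrix.mul_assoc (wt * b') a', ← Matrix.mul_assoc a' a B, ha'a, Matrix.one_mul]
  rw [Matrix.mul_add, Matrix.trace_add, h1, h2]

theorem trace_e2 {a a' b b' wt Z : MC r} (ha'a : a' * a = 1) (hb'b : b' * b = 1) :
    wt * b' * a' * ((a * b * a' * b') * Z) = wt * a' * b' * Z := by
  have h1 : b' * a' * (a * b * a' * b') = a' * b' := by
    calc b' * a' * (a * b * a' * b') = b' * (a' * a) * b * a' * b' := by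
          simp only [Matrix.mul_assoc]
      _ = (b' * b) * a' * b' := by
        rw [ha'a, Matrix.mul_one]
      _ = a' * b' := by rw [hb'b, Matrix.one_mul]
  calc wt * b' * a' * ((a * b * a' * b') * Z) = wt * (b' * a' * (a * b * a' * b')) * Z := by
        simp only [Matrix.mul_assoc]
    _ = _ := by rw [h1, Matrix.mul_assoc wt a' b']

theorem trace_e3 {a a' b b' wt A B : MC r} (hb'b : b' * b = 1) :
    Matrix.trace (wt * a' * b' * (B * a + b * A)) =
      Matrix.trace (a * wt * a' * b' * B) + Matrix.trace (wt * a' * A) := by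
  have h1 : Matrix.trace (wt * a' * b' * (B * a)) = Matrix.trace (a * wt * a' * b' * B) := by
    calc Matrix.trace (wt * a' * b' * (B * a)) = Matrix.trace ((wt * a' * b' * B) * a) := by
          rw [Matrix.mul_assoc (wt * a' * b') B a]
      _ = Matrix.trace (a * (wt * a' * b' * B)) := Matrix.trace_mul_comm _ _
      _ = _ := by simp only [Matrix.mul_assoc]
  have h2 : wt * a' * b' * (b * A) = wt * a' * A := by
    rw [Matrix.mul_assoc (wt * a') b', ← Matrix.mul_assoc b' b A, hb'b, Matrix.one_mul]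
  rw [Matrix.mul_add, Matrix.trace_add, h1, h2]

/-- The final trace identity. -/
theorem final_trace {a a' b b' wt A B : MC r} (ha'a : a' * a = 1) (hb'b : b' * b = 1)
    (hL : A * b + a * B = (a * b * a' * b') * (B * a + b * A)) :
    Matrix.trace ((wt - b * wt * b') * a' * A) + Matrix.trace ((a * wt * a' - wt) * b' * B) = 0 := by
  have hfin : Matrix.trace (wt * b' * a' * (A * b + a * B)) =
      Matrix.trace (wt * b' * a' * ((a * b * a' * b') * (B * a + b * A))) := by
    rw [hL]
  rw [trace_e2 ha'a hb'b, trace_e1 ha'a, trace_e3 hb'b] at hfin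
  rw [Matrix.sub_mul, Matrix.sub_mul, Matrix.sub_mul, Matrix.sub_mul, Matrix.trace_sub,
    Matrix.trace_sub]
  generalize Matrix.trace (b * wt * b' * a' * A) = x1 at *
  generalize Matrix.trace (wt * b' * B) = x2 at *
  generalize Matrix.trace (a * wt * a' * b' * B) = x3 at *
  generalize Matrix.trace (wt * a' * A) = x4 at *
  linear_combination -hfin

/-- The element measuring the failure of the functional to factor. -/
theorem main_pair (hr : 2 ≤ r) {v u w : MC r} (hu : Matrix.trace u = 0)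
    (hvw : v = w - S.bM * w * S.bI)
    (hone : ∀ m k : ℕ, 0 < k → Matrix.trace (u * gd k (S.aM * S.bM ^ m)) -
      ∑ i ∈ Finset.range m, Matrix.trace
        (v * (S.bM ^ (i + 1) * gd k (S.aM * S.bM ^ m) * S.bI ^ (i + 1))) = 0) (m k : ℕ)
    (hk : 0 < k) :
    Matrix.trace ((S.aM * S.bM ^ m) ^ k * (u + w - S.aM * w * S.aI)) = 0 := by
  have hr0 : (r : ℂ) ≠ 0 := by
    have : r ≠ 0 := by omega
    exact_mod_cast this
  have htrw : Matrix.trace (S.aM * w * S.aI) = Matrix.trace w := by
    rw [Matrix.trace_mul_comm, ← Matrix.mul_assoc, S.aI_mul_aM, Matrix.one_mul]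
  have htrX : Matrix.trace (u + w - S.aM * w * S.aI) = 0 := by
    rw [Matrix.trace_sub, Matrix.trace_add, hu, htrw]
    ring
  have h1 := hone m k hk
  rw [telescope S.bI_mul_bM hvw, trace_conj_curve S.aM_mul_aI S.bM_mul_bI m (gd_commute _ k).eq]
    at h1
  have h2 : Matrix.trace ((u + w - S.aM * w * S.aI) * gd k (S.aM * S.bM ^ m)) = 0 := by
    rw [Matrix.sub_mul, Matrix.add_mul, Matrix.trace_sub, Matrix.trace_add]
    linear_combination h1
  rw [trace_mul_gd _ _ _ htrX] at h2
  have h3 := (mul_eq_zero.mp h2).resolve_left (neg_ne_zero.mpr hr0)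
  rw [Matrix.trace_mul_comm]
  exact h3

/-- A traceless matrix annihilating the powers of all the curves is a coboundary. -/
theorem exists_diag (hr : 2 ≤ r) {X : MC r} (htr : Matrix.trace X = 0)
    (h : ∀ m k : ℕ, 0 < k → Matrix.trace ((S.aM * S.bM ^ m) ^ k * X) = 0) :
    ∃ y : Fin r → ℂ, X = diagonal y - S.aM * diagonal y * S.aI := by
  have hXoff : ∀ p i : Fin r, i ≠ p → X p i = 0 := fun p i hi =>
    S.offdiag_zero X (fun m k hk _ => h m k hk) hi
  have hXdiag : X = diagonal fun i => X i i := by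
    ext p i
    by_cases h : p = i
    · subst h
      simp
    · rw [Matrix.diagonal_apply_ne _ h]
      exact hXoff p i (Ne.symm h)
  obtain ⟨y, hy⟩ := S.solve_cycle hr (fun i => X i i) htr
  refine ⟨y, ?_⟩
  rw [hXdiag, S.aM_diag_aI, Matrix.diagonal_sub]
  congr 1
  funext i
  exact (hy i).symm

/-- The statement for the twists on the first handle. -/
theorem first_handle (hr : 2 ≤ r) (v u : MC r) (hv : Matrix.trace v = 0)
    (hu : Matrix.trace u = 0)
    (hinf : ∀ k : ℕ, 0 < k → Matrix.trace (v * gd k S.bM) = 0)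
    (hone : ∀ m k : ℕ, 0 < k → Matrix.trace (u * gd k (S.aM * S.bM ^ m)) -
      ∑ i ∈ Finset.range m, Matrix.trace
        (v * (S.bM ^ (i + 1) * gd k (S.aM * S.bM ^ m) * S.bI ^ (i + 1))) = 0)
    (A B : MC r)
    (hL : A * S.bM + S.aM * B =
      (S.aM * S.bM * S.aI * S.bI) * (B * S.aM + S.bM * A)) :
    Matrix.trace (v * S.aI * A) + Matrix.trace (u * S.bI * B) = 0 := by
  obtain ⟨w, hvw⟩ := S.exists_cobound hr v (S.diag_v hr v hv hinf)
  have htrw : Matrix.trace (S.aM * w * S.aI) = Matrix.trace w := by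
    rw [Matrix.trace_mul_comm, ← Matrix.mul_assoc, S.aI_mul_aM, Matrix.one_mul]
  have htrX : Matrix.trace (u + w - S.aM * w * S.aI) = 0 := by
    rw [Matrix.trace_sub, Matrix.trace_add, hu, htrw]
    ring
  obtain ⟨y, hy⟩ := S.exists_diag hr htrX (S.main_pair hr hu hvw hone)
  have hbW : S.bM * diagonal y * S.bI = diagonal y := S.bM_diag_bI y
  have hv' : v = (w - diagonal y) - S.bM * (w - diagonal y) * S.bI := by
    rw [Matrix.mul_sub, Matrix.sub_mul, hbW, hvw]
    abel
  have hu' : u = S.aM * (w - diagonal y) * S.aI - (w - diagonal y) := by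
    have h1 : u = (u + w - S.aM * w * S.aI) - w + S.aM * w * S.aI := by
      abel
    rw [h1, hy, Matrix.mul_sub, Matrix.sub_mul]
    abel
  rw [hv', hu']
  exact final_trace S.aI_mul_aM S.bI_mul_bM hL

/-- The statement for the twists through the new handles. -/
theorem tail_handle (hr : 2 ≤ r) (X : MC r) (hX : Matrix.trace X = 0)
    (h1 : ∀ m k : ℕ, 0 < k → Matrix.trace (X * gd k (S.bM * (S.aM * S.bM ^ m) * S.bI)) = 0)
    (h2 : ∀ k : ℕ, 0 < k → Matrix.trace (X * gd k S.bM) = 0) : X = 0 := by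
  have hr0 : (r : ℂ) ≠ 0 := by
    have : r ≠ 0 := by omega
    exact_mod_cast this
  -- conjugating the first family
  have h3 : ∀ m k : ℕ, 0 < k → Matrix.trace ((S.aM * S.bM ^ m) ^ k * (S.bI * X * S.bM)) = 0 := by
    intro m k hk
    have h4 := h1 m k hk
    rw [trace_mul_gd _ _ _ hX] at h4
    have h5 := (mul_eq_zero.mp h4).resolve_left (neg_ne_zero.mpr hr0)
    have h6 : (S.bM * (S.aM * S.bM ^ m) * S.bI) ^ k = S.bM * (S.aM * S.bM ^ m) ^ k * S.bI :=
      conj_pow S.bM_mul_bI S.bI_mul_bM _ k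
    rw [h6] at h5
    rw [← h5]
    calc Matrix.trace ((S.aM * S.bM ^ m) ^ k * (S.bI * X * S.bM))
        = Matrix.trace (((S.aM * S.bM ^ m) ^ k * (S.bI * X)) * S.bM) := by
          simp only [Matrix.mul_assoc]
      _ = Matrix.trace (S.bM * ((S.aM * S.bM ^ m) ^ k * (S.bI * X))) := Matrix.trace_mul_comm _ _
      _ = Matrix.trace ((S.bM * (S.aM * S.bM ^ m) ^ k * S.bI) * X) := by
          simp only [Matrix.mul_assoc]
      _ = Matrix.trace (X * (S.bM * (S.aM * S.bM ^ m) ^ k * S.bI)) := Matrix.trace_mul_comm _ _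
  have hoff : ∀ p i : Fin r, i ≠ p → X p i = 0 := by
    intro p i hi
    have h4 := S.offdiag_zero (S.bI * X * S.bM) (fun m k hk _ => h3 m k hk) hi
    simp only [bI, bM] at h4
    rw [Matrix.mul_diagonal, Matrix.diagonal_mul] at h4
    have h5 := S.hl i
    have h6 := S.hl p
    have h7 : (S.l p)⁻¹ ≠ 0 := inv_ne_zero h6
    exact (mul_eq_zero.mp ((mul_eq_zero.mp h4).resolve_right h5)).resolve_left h7
  have hdiag : ∀ i, X i i = 0 := by
    refine S.diag_zero hr _ fun k hk => ?_
    have h4 := h2 k hk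
    rw [trace_mul_gd _ _ _ hX, S.trace_mul_bM_pow] at h4
    exact (mul_eq_zero.mp h4).resolve_left (neg_ne_zero.mpr hr0)
  ext p i
  by_cases h : p = i
  · subst h
    exact hdiag p
  · exact hoff p i (Ne.symm h)

end Mono

end Vale.Agent.Lib.P002
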