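import Vale.Agent.Lib.P002.CChain
import Vale.Agent.Lib.P002.CDefs

/-!
The twists on a surface of genus `n + 2`. The handles are indexed by `Fin (n + 2)`: the handle `0`
carries `a, b`; the handles `1, ..., n` carry `t_j, e_j`; the last handle carries `c, d`.
The base tuples are `(x, y, (t_1, 1), ..., (t_n, 1), (y, x))`.
-/

open Matrix

namespace Vale.Agent.Lib.P002

variable {n : ℕ} {G : Type*} [Group G]

/-- The indices of the generators. -/
abbrev Ix (n : ℕ) := Gens (n + 2)

/-- The handle carrying `t_j, e_j`. -/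
def hj (j : Fin n) : Fin (n + 2) := ⟨j.val + 1, by omega⟩

/-- The last handle. -/
def hl (n : ℕ) : Fin (n + 2) := ⟨n + 1, by omega⟩

/-- The letter `a`. -/
def aIx : Ix n := (0, false)

/-- The letter `b`. -/
def bIx : Ix n := (0, true)

/-- The commutator of a handle. -/
def kap (q : Ix n → G) (l : ℕ) : G :=
  if h : l < n + 2 then
    q (⟨l, h⟩, false) * q (⟨l, h⟩, true) * (q (⟨l, h⟩, false))⁻¹ * (q (⟨l, h⟩, true))⁻¹
  else 1

/-- The product of the commutators of the handles `1, ..., l`. -/
def prd (q : Ix n → G) (l : ℕ) : G := ((List.range l).map fun i => kap q (i + 1)).prod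

theorem prd_succ (q : Ix n → G) (l : ℕ) : prd q (l + 1) = prd q l * kap q (l + 1) := by
  unfold prd
  rw [List.prod_range_succ]

theorem prd_zero (q : Ix n → G) : prd q 0 = 1 := by
  simp [prd]

/-- The surface relation. -/
def relG (q : Ix n → G) : G :=
  (List.ofFn fun i : Fin (n + 2) => q (i, false) * q (i, true) * (q (i, false))⁻¹ *
    (q (i, true))⁻¹).prod

theorem relG_eq (q : Ix n → G) : relG q = kap q 0 * prd q n * kap q (n + 1) := by
  have h1 : (fun i : Fin (n + 2) => q (i, false) * q (i, true) * (q (i, false))⁻¹ *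
      (q (i, true))⁻¹) = (fun i : Fin (n + 2) => kap q i.val) := by
    funext i
    have : (i.val) < n + 2 := i.2
    simp [kap, this]
  unfold relG
  rw [h1, List.ofFn_eq_map]
  have h2 : (List.map (fun i : Fin (n + 2) => kap q i.val) (List.finRange (n + 2))) =
      (List.range (n + 2)).map (kap q) := by
    rw [← List.map_coe_finRange_eq_range, List.map_map]
    rfl
  rw [h2, List.prod_range_succ, List.prod_range_succ']
  rfl

theorem kap_map {G' : Type*} [Group G'] (φ : G →* G') (q : Ix n → G) (l : ℕ) :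
    kap (fun i => φ (q i)) l = φ (kap q l) := by
  unfold kap
  split_ifs <;> simp

theorem prd_map {G' : Type*} [Group G'] (φ : G →* G') (q : Ix n → G) (l : ℕ) :
    prd (fun i => φ (q i)) l = φ (prd q l) := by
  induction l with
  | zero => simp [prd_zero]
  | succ l ih => simp [prd_succ, ih, kap_map]

theorem relG_map {G' : Type*} [Group G'] (φ : G →* G') (q : Ix n → G) :
    relG (fun i => φ (q i)) = φ (relG q) := by
  simp [relG_eq, prd_map, kap_map]

/-! ### Words -/

/-- A letter in the words of the moves. -/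
def xL (i : Ix n) : FreeGroup (Option (Ix n)) := FreeGroup.of (some i)

/-- The letter for the element of the centralizer. -/
def hL : FreeGroup (Option (Ix n)) := FreeGroup.of none

/-- The word `K_j`. -/
def wK (l : ℕ) : FreeGroup (Ix n) := prd (FreeGroup.of) l

/-- The moves on the handles other than the handle `0`: conjugation of the handles before the
`j`-th new handle, and the twist on the `j`-th new handle. -/
def tailMv (j : Fin n) (i : Ix n) : FreeGroup (Option (Ix n)) :=
  if i.1.val ≤ j.val ∨ (i.1.val = j.val + 1 ∧ i.2 = false) then hL * xL i * hL⁻¹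
  else if i.1.val = j.val + 1 then xL i * hL⁻¹
  else xL i

/-- The labels of the twists. -/
inductive CLab (n : ℕ) : Type
  /-- Twist along `a b ^ m` with exponent `k`. -/
  | one (m k : ℕ) : CLab n
  /-- Twist along `b` with exponent `k`. -/
  | inf (k : ℕ) : CLab n
  /-- Twist along the curve through the new handle `j`, seen from the basis `a b ^ m, b`. -/
  | two (j : Fin n) (m k : ℕ) : CLab n
  /-- Twist along the curve through the new handle `j`, seen from the basis `a b a⁻¹, a⁻¹`. -/
  | three (j : Fin n) (k : ℕ) : CLab n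

instance : Inhabited (CLab n) := ⟨CLab.inf 0⟩

/-- The curves. -/
noncomputable def cLab : CLab n → FreeGroup (Ix n)
  | CLab.one m _ => FreeGroup.of aIx * FreeGroup.of bIx ^ m
  | CLab.inf _ => FreeGroup.of bIx
  | CLab.two j m _ => (FreeGroup.of bIx * (FreeGroup.of aIx * FreeGroup.of bIx ^ m)⁻¹ *
      (FreeGroup.of bIx)⁻¹ * wK j.val * FreeGroup.of (hj j, false))⁻¹
  | CLab.three j _ => ((FreeGroup.of bIx)⁻¹ * wK j.val * FreeGroup.of (hj j, false))⁻¹

/-- The exponent of a label. -/
def kLab : CLab n → ℕ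
  | CLab.one _ k => k
  | CLab.inf k => k
  | CLab.two _ _ k => k
  | CLab.three _ k => k

open Classical in
/-- The moves. -/
noncomputable def mvLab : CLab n → Ix n → FreeGroup (Option (Ix n))
  | CLab.one m _, i =>
    if i = aIx then xL aIx * xL bIx ^ m * ((xL bIx * hL) ^ m)⁻¹
    else if i = bIx then xL bIx * hL else xL i
  | CLab.inf _, i => if i = aIx then xL aIx * hL else xL i
  | CLab.two j m _, i =>
    if i = aIx then xL aIx * xL bIx ^ m * ((hL * xL bIx) ^ m)⁻¹
    else if i = bIx then hL * xL bIx else tailMv j i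
  | CLab.three j _, i =>
    if i = aIx then xL aIx * hL⁻¹
    else if i = bIx then hL * xL bIx * hL⁻¹ else tailMv j i

/-! ### Values of the moves -/

section Values

variable (q : Ix n → G) (h : G)

@[simp] theorem lift_xL (i : Ix n) : FreeGroup.lift (extT q h) (xL i) = q i := by
  simp [xL, extT]

@[simp] theorem lift_hL : FreeGroup.lift (extT q h) (hL : FreeGroup (Option (Ix n))) = h := by
  simp [hL, extT]

theorem lift_wK (l : ℕ) : FreeGroup.lift q (wK l : FreeGroup (Ix n)) = prd q l := by
  unfold wK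
  rw [← prd_map]
  simp

theorem tailMv_conj {j : Fin n} {i : Ix n} (hi : i.1.val ≤ j.val ∨
    (i.1.val = j.val + 1 ∧ i.2 = false)) :
    FreeGroup.lift (extT q h) (tailMv j i) = h * q i * h⁻¹ := by
  simp [tailMv, hi]

theorem tailMv_twist {j : Fin n} {i : Ix n} (hi : i.1.val = j.val + 1) (hb : i.2 = true) :
    FreeGroup.lift (extT q h) (tailMv j i) = q i * h⁻¹ := by
  have h1 : ¬ (i.1.val ≤ j.val ∨ (i.1.val = j.val + 1 ∧ i.2 = false)) := by
    rw [hb]
    simp
    omega
  unfold tailMv
  rw [if_neg h1, if_pos hi]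
  simp

theorem tailMv_fix {j : Fin n} {i : Ix n} (hi : j.val + 1 < i.1.val) :
    FreeGroup.lift (extT q h) (tailMv j i) = q i := by
  have h1 : ¬ (i.1.val ≤ j.val ∨ (i.1.val = j.val + 1 ∧ i.2 = false)) := by
    simp only [not_or, not_and]
    omega
  have h2 : ¬ (i.1.val = j.val + 1) := by omega
  unfold tailMv
  rw [if_neg h1, if_neg h2]
  simp

end Values

theorem aIx_ne_bIx : (aIx : Ix n) ≠ bIx := by
  simp [aIx, bIx]

theorem ne_aIx_of_val {i : Ix n} (h : i.1.val ≠ 0) : i ≠ aIx := by
  rintro rfl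
  exact h rfl

theorem ne_bIx_of_val {i : Ix n} (h : i.1.val ≠ 0) : i ≠ bIx := by
  rintro rfl
  exact h rfl

theorem mv_one_a (m k : ℕ) (q : Ix n → G) (h : G) :
    mvAt (mvLab (CLab.one m k)) q h aIx = q aIx * q bIx ^ m * ((q bIx * h) ^ m)⁻¹ := by
  simp [mvAt, mvLab]

theorem mv_one_b (m k : ℕ) (q : Ix n → G) (h : G) :
    mvAt (mvLab (CLab.one m k)) q h bIx = q bIx * h := by
  simp [mvAt, mvLab, aIx_ne_bIx.symm]

theorem mv_one_o (m k : ℕ) (q : Ix n → G) (h : G) {i : Ix n} (h1 : i ≠ aIx) (h2 : i ≠ bIx) :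
    mvAt (mvLab (CLab.one m k)) q h i = q i := by
  simp [mvAt, mvLab, h1, h2]

theorem mv_inf_a (k : ℕ) (q : Ix n → G) (h : G) :
    mvAt (mvLab (CLab.inf k)) q h aIx = q aIx * h := by
  simp [mvAt, mvLab]

theorem mv_inf_o (k : ℕ) (q : Ix n → G) (h : G) {i : Ix n} (h1 : i ≠ aIx) :
    mvAt (mvLab (CLab.inf k)) q h i = q i := by
  simp [mvAt, mvLab, h1]

theorem mv_two_a (j : Fin n) (m k : ℕ) (q : Ix n → G) (h : G) :
    mvAt (mvLab (CLab.two j m k)) q h aIx = q aIx * q bIx ^ m * ((h * q bIx) ^ m)⁻¹ := by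
  simp [mvAt, mvLab]

theorem mv_two_b (j : Fin n) (m k : ℕ) (q : Ix n → G) (h : G) :
    mvAt (mvLab (CLab.two j m k)) q h bIx = h * q bIx := by
  simp [mvAt, mvLab, aIx_ne_bIx.symm]

theorem mv_two_o (j : Fin n) (m k : ℕ) (q : Ix n → G) (h : G) {i : Ix n} (hi : i.1.val ≠ 0) :
    mvAt (mvLab (CLab.two j m k)) q h i = FreeGroup.lift (extT q h) (tailMv j i) := by
  simp [mvAt, mvLab, ne_aIx_of_val hi, ne_bIx_of_val hi]

theorem mv_three_a (j : Fin n) (k : ℕ) (q : Ix n → G) (h : G) :
    mvAt (mvLab (CLab.three j k)) q h aIx = q aIx * h⁻¹ := by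
  simp [mvAt, mvLab]

theorem mv_three_b (j : Fin n) (k : ℕ) (q : Ix n → G) (h : G) :
    mvAt (mvLab (CLab.three j k)) q h bIx = h * q bIx * h⁻¹ := by
  simp [mvAt, mvLab, aIx_ne_bIx.symm]

theorem mv_three_o (j : Fin n) (k : ℕ) (q : Ix n → G) (h : G) {i : Ix n} (hi : i.1.val ≠ 0) :
    mvAt (mvLab (CLab.three j k)) q h i = FreeGroup.lift (extT q h) (tailMv j i) := by
  simp [mvAt, mvLab, ne_aIx_of_val hi, ne_bIx_of_val hi]

/-- All the moves with the trivial element are trivial. -/
theorem mv_one_eq (l : CLab n) (q : Ix n → G) : mvAt (mvLab l) q 1 = q := by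
  funext i
  by_cases hi : i.1.val = 0
  · have h0 : i.1 = 0 := Fin.ext hi
    obtain ⟨i1, i2⟩ := i
    cases i2
    · have e : ((i1, false) : Ix n) = aIx := by
        simp only [aIx]
        simp only at h0
        rw [h0]
      rw [e]
      cases l with
      | one m k =>
        rw [mv_one_a]
        simp
      | inf k => simp [mv_inf_a]
      | two j m k =>
        rw [mv_two_a]
        simp
      | three j k => simp [mv_three_a]
    · have e : ((i1, true) : Ix n) = bIx := by
        simp only [bIx]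
        simp only at h0
        rw [h0]
      rw [e]
      cases l with
      | one m k => simp [mv_one_b]
      | inf k => simp [mv_inf_o, aIx_ne_bIx.symm]
      | two j m k => simp [mv_two_b]
      | three j k => simp [mv_three_b]
  · have htail : ∀ j : Fin n, FreeGroup.lift (extT q 1) (tailMv j i) = q i := by
      intro j
      by_cases h1 : i.1.val ≤ j.val ∨ (i.1.val = j.val + 1 ∧ i.2 = false)
      · rw [tailMv_conj q 1 h1]
        simp
      · by_cases h2 : i.1.val = j.val + 1
        · have h3 : i.2 = true := by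
            by_contra h4
            exact h1 (Or.inr ⟨h2, by simpa using h4⟩)
          rw [tailMv_twist q 1 h2 h3]
          simp
        · rw [tailMv_fix q 1]
          simp only [not_or, not_and] at h1
          omega
    cases l with
    | one m k => exact mv_one_o m k q 1 (ne_aIx_of_val hi) (ne_bIx_of_val hi)
    | inf k => exact mv_inf_o k q 1 (ne_aIx_of_val hi)
    | two j m k => rw [mv_two_o j m k q 1 hi, htail]
    | three j k => rw [mv_three_o j k q 1 hi, htail]

/-! ### The moves preserve the relation -/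

/-- Commutators are not changed when the first entry is multiplied by a power of the second. -/
theorem comm_pow_right (a b : G) (m : ℕ) :
    (a * b ^ m) * b * (a * b ^ m)⁻¹ * b⁻¹ = a * b * a⁻¹ * b⁻¹ := by
  have h : b ^ m * b * (b ^ m)⁻¹ = b := by
    rw [← pow_succ, pow_succ', mul_assoc, mul_inv_cancel, mul_one]
  calc (a * b ^ m) * b * (a * b ^ m)⁻¹ * b⁻¹ = a * (b ^ m * b * (b ^ m)⁻¹) * a⁻¹ * b⁻¹ := by group
    _ = _ := by rw [h]

/-- The commutator after the twist with `h` commuting with `a b ^ m`. -/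
theorem comm_one (a b h : G) (m : ℕ) (hc : Commute h (a * b ^ m)) :
    (a * b ^ m * ((b * h) ^ m)⁻¹) * (b * h) * (a * b ^ m * ((b * h) ^ m)⁻¹)⁻¹ * (b * h)⁻¹ =
      a * b * a⁻¹ * b⁻¹ := by
  set A := a * b ^ m with hA
  set X := b * h with hX
  have h1 : ((X ^ m)⁻¹ * X * X ^ m) = X := by
    rw [mul_assoc, ← pow_succ', pow_succ, ← mul_assoc, inv_mul_cancel, one_mul]
  have h2 : (A * (X ^ m)⁻¹) * X * (A * (X ^ m)⁻¹)⁻¹ * X⁻¹ = A * X * A⁻¹ * X⁻¹ := by
    calc (A * (X ^ m)⁻¹) * X * (A * (X ^ m)⁻¹)⁻¹ * X⁻¹ = A * ((X ^ m)⁻¹ * X * X ^ m) * A⁻¹ * X⁻¹ := by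
          group
      _ = _ := by rw [h1]
  rw [h2, ← comm_pow_right a b m, ← hA]
  have h3 : h * A⁻¹ = A⁻¹ * h := (hc.inv_right).eq
  calc A * X * A⁻¹ * X⁻¹ = A * b * (h * A⁻¹) * h⁻¹ * b⁻¹ := by
        rw [hX]
        group
    _ = A * b * (A⁻¹ * h) * h⁻¹ * b⁻¹ := by rw [h3]
    _ = _ := by group

/-- The commutator of the first handle after the twist along a curve through another handle. -/
theorem comm_two (a b h : G) (m : ℕ) :
    (a * b ^ m * ((h * b) ^ m)⁻¹) * (h * b) * (a * b ^ m * ((h * b) ^ m)⁻¹)⁻¹ * (h * b)⁻¹ =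
      (a * b ^ m) * h * (b * (a * b ^ m)⁻¹ * b⁻¹) * h⁻¹ := by
  set A := a * b ^ m with hA
  set X := h * b with hX
  have h1 : ((X ^ m)⁻¹ * X * X ^ m) = X := by
    rw [mul_assoc, ← pow_succ', pow_succ, ← mul_assoc, inv_mul_cancel, one_mul]
  calc (A * (X ^ m)⁻¹) * X * (A * (X ^ m)⁻¹)⁻¹ * X⁻¹ = A * ((X ^ m)⁻¹ * X * X ^ m) * A⁻¹ * X⁻¹ := by
        group
    _ = A * X * A⁻¹ * X⁻¹ := by rw [h1]
    _ = _ := by
      rw [hX]
      group

/-- The general computation for a twist along a curve through a new handle. -/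
theorem rel_tail (j : Fin n) {q q' : Ix n → G} {h X Y : G}
    (hq : ∀ i : Ix n, i.1.val ≠ 0 → q' i = FreeGroup.lift (extT q h) (tailMv j i))
    (h0 : kap q' 0 = X * (h * Y * h⁻¹)) (h1 : kap q 0 = X * Y)
    (hc : Commute h (Y * prd q j.val * q (hj j, false))) : relG q' = relG q := by
  -- the handles before the new handle
  have hbefore : ∀ l : ℕ, l ≤ j.val → prd q' l = h * prd q l * h⁻¹ := by
    intro l
    induction l with
    | zero =>
      intro _
      simp [prd_zero]
    | succ l ih =>
      intro hl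
      rw [prd_succ, prd_succ, ih (by omega)]
      have hl2 : l + 1 < n + 2 := by
        have := j.2
        omega
      have hk : kap q' (l + 1) = h * kap q (l + 1) * h⁻¹ := by
        unfold kap
        rw [dif_pos hl2, dif_pos hl2]
        have hf : ∀ b : Bool, q' (⟨l + 1, hl2⟩, b) = h * q (⟨l + 1, hl2⟩, b) * h⁻¹ := by
          intro b
          rw [hq _ (by simp), tailMv_conj]
          left
          simpa using hl
        rw [hf, hf]
        group
      rw [hk]
      group
  -- the new handle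
  have hnew : kap q 0 * prd q (j.val + 1) = kap q' 0 * prd q' (j.val + 1) := by
    rw [prd_succ, prd_succ, hbefore j.val le_rfl, h0, h1]
    have hl2 : j.val + 1 < n + 2 := by
      have := j.2
      omega
    unfold kap
    rw [dif_pos hl2, dif_pos hl2]
    have e1 : q' (⟨j.val + 1, hl2⟩, false) = h * q (⟨j.val + 1, hl2⟩, false) * h⁻¹ := by
      rw [hq _ (by simp), tailMv_conj]
      right
      exact ⟨rfl, rfl⟩
    have e2 : q' (⟨j.val + 1, hl2⟩, true) = q (⟨j.val + 1, hl2⟩, true) * h⁻¹ := by
      rw [hq _ (by simp), tailMv_twist _ _ rfl rfl]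
    rw [e1, e2]
    have e3 : q (⟨j.val + 1, hl2⟩, false) = q (hj j, false) := rfl
    rw [e3]
    set t := q (hj j, false)
    set e := q (⟨j.val + 1, hl2⟩, true)
    set P := prd q j.val
    have hc' : h * (Y * P * t) * h⁻¹ = Y * P * t := by
      rw [hc.eq]
      group
    calc X * Y * (P * (t * e * t⁻¹ * e⁻¹)) = X * (Y * P * t) * (e * t⁻¹ * e⁻¹) := by group
      _ = X * (h * (Y * P * t) * h⁻¹) * (e * t⁻¹ * e⁻¹) := by rw [hc']
      _ = _ := by group
  have hafter : ∀ l : ℕ, j.val + 1 ≤ l → l ≤ n →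
      kap q 0 * prd q l = kap q' 0 * prd q' l := by
    intro l hl
    induction l, hl using Nat.le_induction with
    | base => exact fun _ => hnew
    | succ l hl ih =>
      intro hl3
      have hl2 : l + 1 < n + 2 := by omega
      have hk : kap q' (l + 1) = kap q (l + 1) := by
        unfold kap
        rw [dif_pos hl2, dif_pos hl2]
        have hf : ∀ b : Bool, q' (⟨l + 1, hl2⟩, b) = q (⟨l + 1, hl2⟩, b) := by
          intro b
          rw [hq _ (by simp), tailMv_fix]
          simp only
          omega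
        rw [hf, hf]
      rw [prd_succ, prd_succ, hk, ← mul_assoc, ← mul_assoc, ih (by omega)]
  have hlast : kap q' (n + 1) = kap q (n + 1) := by
    unfold kap
    have hl2 : n + 1 < n + 2 := by omega
    rw [dif_pos hl2, dif_pos hl2]
    have hf : ∀ b : Bool, q' (⟨n + 1, hl2⟩, b) = q (⟨n + 1, hl2⟩, b) := by
      intro b
      rw [hq _ (by simp), tailMv_fix]
      simp only
      have := j.2
      omega
    rw [hf, hf]
  rw [relG_eq, relG_eq, hlast, ← hafter n (by have := j.2; omega) le_rfl]

/-- The value of the curve of a label. -/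
theorem cLab_two (j : Fin n) (m k : ℕ) (q : Ix n → G) :
    FreeGroup.lift q (cLab (CLab.two j m k)) =
      (q bIx * (q aIx * q bIx ^ m)⁻¹ * (q bIx)⁻¹ * prd q j.val * q (hj j, false))⁻¹ := by
  simp [cLab, lift_wK]

theorem cLab_three (j : Fin n) (k : ℕ) (q : Ix n → G) :
    FreeGroup.lift q (cLab (CLab.three j k)) =
      ((q bIx)⁻¹ * prd q j.val * q (hj j, false))⁻¹ := by
  simp [cLab, lift_wK]

theorem cLab_one (m k : ℕ) (q : Ix n → G) :
    FreeGroup.lift q (cLab (CLab.one m k)) = q aIx * q bIx ^ m := by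
  simp [cLab]

theorem cLab_inf (k : ℕ) (q : Ix n → G) :
    FreeGroup.lift q (cLab (CLab.inf k)) = q bIx := by
  simp [cLab]

theorem kap_zero (q : Ix n → G) : kap q 0 = q aIx * q bIx * (q aIx)⁻¹ * (q bIx)⁻¹ := by
  simp [kap, aIx, bIx]

/-- For the twists acting only on the first handle, the remaining handles are unchanged. -/
theorem rel_first {q q' : Ix n → G} (hq : ∀ i : Ix n, i.1.val ≠ 0 → q' i = q i)
    (h0 : kap q' 0 = kap q 0) : relG q' = relG q := by
  have hk : ∀ l : ℕ, kap q' (l + 1) = kap q (l + 1) := by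
    intro l
    unfold kap
    split_ifs with hl
    · rw [hq (⟨l + 1, hl⟩, false) (by simp), hq (⟨l + 1, hl⟩, true) (by simp)]
    · rfl
  have hp : ∀ l, prd q' l = prd q l := by
    intro l
    induction l with
    | zero => simp [prd_zero]
    | succ l ih => rw [prd_succ, prd_succ, ih, hk]
  rw [relG_eq, relG_eq, h0, hp, hk]

/-- All the moves preserve the relation, when `h` commutes with the curve. -/
theorem mv_rel (l : CLab n) (q : Ix n → G) (h : G)
    (hc : Commute h (FreeGroup.lift q (cLab l))) : relG (mvAt (mvLab l) q h) = relG q := by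
  cases l with
  | one m k =>
    rw [cLab_one] at hc
    refine rel_first (fun i hi => mv_one_o m k q h (ne_aIx_of_val hi) (ne_bIx_of_val hi)) ?_
    rw [kap_zero, kap_zero, mv_one_a, mv_one_b]
    exact comm_one _ _ _ _ hc
  | inf k =>
    rw [cLab_inf] at hc
    refine rel_first (fun i hi => mv_inf_o k q h (ne_aIx_of_val hi)) ?_
    rw [kap_zero, kap_zero, mv_inf_a, mv_inf_o k q h aIx_ne_bIx.symm]
    have h3 : h * (q bIx)⁻¹ = (q bIx)⁻¹ * h := (hc.inv_right).eq
    calc q aIx * h * q bIx * (q aIx * h)⁻¹ * (q bIx)⁻¹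
        = q aIx * h * q bIx * h⁻¹ * (q aIx)⁻¹ * (q bIx)⁻¹ := by group
      _ = q aIx * (h * q bIx) * h⁻¹ * (q aIx)⁻¹ * (q bIx)⁻¹ := by group
      _ = q aIx * (q bIx * h) * h⁻¹ * (q aIx)⁻¹ * (q bIx)⁻¹ := by rw [hc.eq]
      _ = _ := by group
  | two j m k =>
    rw [cLab_two] at hc
    have hc' := hc.inv_right
    rw [inv_inv] at hc'
    refine rel_tail j (X := q aIx * q bIx ^ m) (Y := q bIx * (q aIx * q bIx ^ m)⁻¹ * (q bIx)⁻¹) (h := h)
      (fun i hi => mv_two_o j m k q h hi) ?_ ?_ hc'
    · rw [kap_zero, mv_two_a, mv_two_b, comm_two]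
      group
    · rw [kap_zero, ← comm_pow_right (q aIx) (q bIx) m]
      group
  | three j k =>
    rw [cLab_three] at hc
    have hc' := hc.inv_right
    rw [inv_inv] at hc'
    refine rel_tail j (X := q aIx * q bIx * (q aIx)⁻¹) (Y := (q bIx)⁻¹) (h := h)
      (fun i hi => mv_three_o j k q h hi) ?_ ?_ hc'
    · rw [kap_zero, mv_three_a, mv_three_b]
      group
    · rw [kap_zero]

/-! ### The base tuples -/

/-- The base tuple. -/
def betaG {A : Type*} [One A] (p : Fin (n + 2) → A) (i : Ix n) : A :=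
  if i.1.val = 0 then (if i.2 then p (hl n) else p 0)
  else if i.1.val = n + 1 then (if i.2 then p 0 else p (hl n))
  else (if i.2 then 1 else p i.1)

theorem betaG_a {A : Type*} [One A] (p : Fin (n + 2) → A) : betaG p aIx = p 0 := by
  simp [betaG, aIx]

theorem betaG_b {A : Type*} [One A] (p : Fin (n + 2) → A) : betaG p bIx = p (hl n) := by
  simp [betaG, bIx]

theorem betaG_new {A : Type*} [One A] (p : Fin (n + 2) → A) (j : Fin n) (b : Bool) :
    betaG p (hj j, b) = if b then 1 else p (hj j) := by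
  have h1 := j.2
  have h2 : ¬ (j.val = n) := by omega
  simp [betaG, hj, h2]

theorem betaG_last {A : Type*} [One A] (p : Fin (n + 2) → A) (b : Bool) :
    betaG p (hl n, b) = if b then p 0 else p (hl n) := by
  simp [betaG, hl]

theorem kap_beta_new (p : Fin (n + 2) → G) (l : ℕ) (hl' : l < n) : kap (betaG p) (l + 1) = 1 := by
  unfold kap
  have hl2 : l + 1 < n + 2 := by omega
  rw [dif_pos hl2]
  have e : ∀ b, betaG p (⟨l + 1, hl2⟩, b) = if b then 1 else p (⟨l + 1, hl2⟩) := by
    intro b
    exact betaG_new p ⟨l, hl'⟩ b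
  rw [e, e]
  simp

theorem prd_beta (p : Fin (n + 2) → G) (l : ℕ) (hl' : l ≤ n) : prd (betaG p) l = 1 := by
  induction l with
  | zero => exact prd_zero _
  | succ l ih => rw [prd_succ, ih (by omega), kap_beta_new p l (by omega), one_mul]

theorem rel_beta (p : Fin (n + 2) → G) : relG (betaG p) = 1 := by
  rw [relG_eq, prd_beta p n le_rfl, kap_zero, betaG_a, betaG_b, mul_one]
  have h : kap (betaG p) (n + 1) = p (hl n) * p 0 * (p (hl n))⁻¹ * (p 0)⁻¹ := by
    unfold kap
    have hl2 : n + 1 < n + 2 := by omega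
    rw [dif_pos hl2]
    have e : ∀ b, betaG p (⟨n + 1, hl2⟩, b) = if b then p 0 else p (hl n) := fun b =>
      betaG_last p b
    rw [e, e]
    simp
  rw [h]
  group

/-- The curve of a label takes every value on the base tuples. -/
theorem beta_prim (l : CLab n) (M : G) : ∃ p : Fin (n + 2) → G,
    FreeGroup.lift (betaG p) (cLab l) = M := by
  classical
  cases l with
  | one m k =>
    refine ⟨Function.update 1 0 M, ?_⟩
    rw [cLab_one, betaG_a, betaG_b]
    have h : (hl n) ≠ 0 := by
      intro h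
      have := congrArg Fin.val h
      simp [hl] at this
    simp [h]
  | inf k =>
    refine ⟨Function.update 1 (hl n) M, ?_⟩
    rw [cLab_inf, betaG_b]
    simp
  | two j m k =>
    refine ⟨Function.update 1 (hj j) M⁻¹, ?_⟩
    rw [cLab_two, prd_beta _ _ (by have := j.2; omega), betaG_a, betaG_b, betaG_new]
    have h1 : (hj j) ≠ 0 := by
      intro h
      have := congrArg Fin.val h
      simp [hj] at this
    have h2 : (hj j) ≠ (hl n) := by
      intro h
      have := congrArg Fin.val h
      have h3 := j.2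
      simp [hj, hl] at this
      omega
    simp [h1.symm, h2.symm]
  | three j k =>
    refine ⟨Function.update 1 (hj j) M⁻¹, ?_⟩
    rw [cLab_three, prd_beta _ _ (by have := j.2; omega), betaG_b, betaG_new]
    have h2 : (hj j) ≠ (hl n) := by
      intro h
      have := congrArg Fin.val h
      have h3 := j.2
      simp [hj, hl] at this
      omega
    simp [h2.symm]

/-- The moves do not change the last handle. -/
theorem mv_last (l : CLab n) (q : Ix n → G) (h : G) (b : Bool) :
    mvAt (mvLab l) q h (hl n, b) = q (hl n, b) := by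
  have hi : (hl n, b).1.val ≠ 0 := by simp [hl]
  cases l with
  | one m k => exact mv_one_o m k q h (ne_aIx_of_val hi) (ne_bIx_of_val hi)
  | inf k => exact mv_inf_o k q h (ne_aIx_of_val hi)
  | two j m k =>
    rw [mv_two_o j m k q h hi, tailMv_fix]
    have := j.2
    simp [hl]
  | three j k =>
    rw [mv_three_o j k q h hi, tailMv_fix]
    have := j.2
    simp [hl]

end Vale.Agent.Lib.P002
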