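import Vale.Agent.Lib.P002.CSurf
import Vale.Agent.Lib.P002.CInt

/-!
The system of twists on a closed surface, and the vanishing of polynomials in the traces on the
orbits of the base tuples.
-/

open Matrix

namespace Vale.Agent.Lib.P002

variable {n r : ℕ}

theorem polyG_beta (i : Ix n) :
    PolyG (cS (Fin (n + 2)) r) (fun p : Fin (n + 2) → SLC r => betaG p i) := by
  unfold betaG
  by_cases h1 : i.1.val = 0
  · simp only [h1, if_true]
    cases i.2 <;> simp <;> exact polyG_coord _
  · simp only [h1, if_false]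
    by_cases h2 : i.1.val = n + 1
    · simp only [h2, if_true]
      cases i.2 <;> simp <;> exact polyG_coord _
    · simp only [h2, if_false]
      cases i.2
      · simp only [Bool.false_eq_true, if_false]
        exact polyG_coord _
      · simp only [if_true]
        exact PolyG.const _ _

/-- The system of twists. -/
noncomputable def surfSys (n r : ℕ) : FlowSys (Ix n) (CLab n) (n + 2) r where
  c := cLab
  mv := mvLab
  kk := kLab
  β := betaG
  hβ := polyG_beta
  hprim := fun l M => beta_prim l M
  hone := fun l q => mv_one_eq l q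

theorem relG_aMove (l : CLab n) (s : ℕ) (q : Ix n → SLC r) :
    relG ((surfSys n r).aMove l s q) = relG q := by
  refine mv_rel l q _ ?_
  exact (Commute.refl _).pow_left s

theorem int_aMove (l : CLab n) (s : ℕ) {q : Ix n → SLC r} (hq : ∀ i, q i ∈ IntS r) (i : Ix n) :
    (surfSys n r).aMove l s q i ∈ IntS r := by
  refine lift_mem _ _ (fun o => ?_) _
  cases o with
  | none => exact (IntS r).pow_mem (lift_mem _ _ hq _) s
  | some a => exact hq a

theorem last_aMove (l : CLab n) (s : ℕ) (q : Ix n → SLC r) (b : Bool) :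
    (surfSys n r).aMove l s q (hl n, b) = q (hl n, b) :=
  mv_last l q _ b

/-- The iterated integer moves. -/
noncomputable def foldMoves (L : List (CLab n × ℕ)) (q : Ix n → SLC r) : Ix n → SLC r :=
  L.foldr (fun a q => (surfSys n r).aMove a.1 a.2 q) q

theorem polyG_foldMoves (L : List (CLab n × ℕ)) {Y κ : Type*} {c : κ → Y → ℂ} {q : Y → Ix n → SLC r}
    (hq : ∀ i, PolyG c (fun y => q y i)) (i : Ix n) :
    PolyG c (fun y => foldMoves L (q y) i) := by
  induction L generalizing i with
  | nil => exact hq i
  | cons a L ih =>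
    refine polyG_lift (fun o => ?_) _
    cases o with
    | none => exact (polyG_lift (fun i => ih i) _).pow _
    | some x => exact ih x

theorem relG_foldMoves (L : List (CLab n × ℕ)) (q : Ix n → SLC r) :
    relG (foldMoves L q) = relG q := by
  induction L with
  | nil => rfl
  | cons a L ih =>
    change relG ((surfSys n r).aMove a.1 a.2 (foldMoves L q)) = _
    rw [relG_aMove, ih]

theorem int_foldMoves (L : List (CLab n × ℕ)) {q : Ix n → SLC r} (hq : ∀ i, q i ∈ IntS r)
    (i : Ix n) : foldMoves L q i ∈ IntS r := by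
  induction L generalizing i with
  | nil => exact hq i
  | cons a L ih => exact int_aMove a.1 a.2 ih i

theorem last_foldMoves (L : List (CLab n × ℕ)) (q : Ix n → SLC r) (b : Bool) :
    foldMoves L q (hl n, b) = q (hl n, b) := by
  induction L with
  | nil => rfl
  | cons a L ih =>
    change (surfSys n r).aMove a.1 a.2 (foldMoves L q) (hl n, b) = _
    rw [last_aMove, ih]

theorem isSurfaceRep_iff (A : Ix n → SLC r) : IsSurfaceRep A ↔ relG A = 1 := Iff.rfl

theorem int_beta {p : Fin (n + 2) → SLC r} (hp : ∀ i, p i ∈ IntS r) (i : Ix n) :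
    betaG p i ∈ IntS r := by
  unfold betaG
  split_ifs <;> first | exact hp _ | exact (IntS r).one_mem

theorem isIntRep_of {A : Gens (n + 2) → SLC r} (hA : ∀ i, A i ∈ IntS r) : IsIntRep A :=
  fun w k => charpoly_int (lift_mem _ _ hA w) k

theorem isIrred_of {A : Gens (n + 2) → SLC r} (h : qDet (A (hl n, true)) (A (hl n, false)) ≠ 0) :
    IsIrredRep A :=
  fun U hU => irred_of_qDet h U (hU _) (hU _)

theorem isSS_of_irred {A : Gens (n + 2) → SLC r} (h : IsIrredRep A) : IsSSRep A := by
  intro U hU
  rcases h U hU with rfl | rfl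
  · refine ⟨⊤, fun i x _ => Submodule.mem_top, isCompl_bot_top⟩
  · refine ⟨⊥, fun i x hx => ?_, isCompl_top_bot⟩
    rw [Submodule.mem_bot] at hx ⊢
    rw [hx, Matrix.mulVec_zero]

theorem evalTr_poly {m : ℕ} (w : Fin m → FreeGroup (Gens (n + 2))) (P : MvPolynomial (Fin m) ℂ) :
    PolyOn (cS (Gens (n + 2)) r) (evalTrG w P) := by
  have h : PolyOn (fun (i : Fin m) (A : Gens (n + 2) → SLC r) =>
      Matrix.trace ((rhoG A (w i) : SLC r) : Matrix (Fin r) (Fin r) ℂ)) (evalTrG w P) :=
    ⟨P, fun x => rfl⟩
  refine h.comp fun i => ?_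
  refine PolyM.trace ?_
  exact polyG_lift (q := fun A => A) (fun i => polyG_coord i) (w i)

/-- Polynomials in traces vanishing on integer points vanish on all the orbits. -/
theorem evalTr_mem_J0 (hq : ∃ x y : SLC r, qDet x y ≠ 0) {m : ℕ}
    (w : Fin m → FreeGroup (Gens (n + 2))) (P : MvPolynomial (Fin m) ℂ)
    (hP : ∀ A : Gens (n + 2) → SLC r, IsSurfaceRep A → IsSSRep A → IsIntRep A → evalTrG w P A = 0) :
    evalTrG w P ∈ (surfSys n r).J0 := by
  classical
  refine ⟨evalTr_poly w P, fun L p => ?_⟩
  change evalTrG w P (foldMoves L (betaG p)) = 0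
  revert p
  have hG : PolyOn (cS (Fin (n + 2)) r)
      (fun p : Fin (n + 2) → SLC r => evalTrG w P (foldMoves L (betaG p))) :=
    (evalTr_poly w P).comp_tuple (polyG_foldMoves L polyG_beta)
  have hQ : PolyOn (cS (Fin (n + 2)) r)
      (fun p : Fin (n + 2) → SLC r => qDet (p 0) (p (hl n))) :=
    qDet_poly (polyG_coord _) (polyG_coord _)
  have hzero : ∀ p : Fin (n + 2) → SLC r,
      evalTrG w P (foldMoves L (betaG p)) * qDet (p 0) (p (hl n)) = 0 := by
    intro p
    refine vanish_of_int p (hG.mul hQ) fun p' hp' => ?_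
    by_cases hq0 : qDet (p' 0) (p' (hl n)) = 0
    · rw [hq0, mul_zero]
    · rw [hP _ ?_ ?_ ?_, zero_mul]
      · change relG _ = 1
        rw [relG_foldMoves, rel_beta]
      · apply isSS_of_irred
        apply isIrred_of
        rw [last_foldMoves, last_foldMoves, betaG_last, betaG_last]
        simpa using hq0
      · exact isIntRep_of (int_foldMoves L (int_beta hp'))
  obtain ⟨x, y, hxy⟩ := hq
  have hne : (hl n) ≠ (0 : Fin (n + 2)) := by
    intro h
    have := congrArg Fin.val h
    simp [hl] at this
  have hx0 : qDet ((Function.update (Function.update (1 : Fin (n + 2) → SLC r) 0 x) (hl n) y) 0)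
      ((Function.update (Function.update (1 : Fin (n + 2) → SLC r) 0 x) (hl n) y) (hl n)) ≠ 0 := by
    simpa [hne.symm] using hxy
  have hdense := dense_ne_zero_tuple hQ hx0
  have hcl : IsClosed {p : Fin (n + 2) → SLC r | evalTrG w P (foldMoves L (betaG p)) = 0} :=
    isClosed_eq (hG.continuous continuous_cS) continuous_const
  intro p
  have hsub : {p : Fin (n + 2) → SLC r | qDet (p 0) (p (hl n)) ≠ 0} ⊆
      {p : Fin (n + 2) → SLC r | evalTrG w P (foldMoves L (betaG p)) = 0} := by
    intro p' hp'
    exact (mul_eq_zero.mp (hzero p')).resolve_right hp'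
  exact hcl.closure_subset_iff.mpr hsub (hdense p)

end Vale.Agent.Lib.P002
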