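import Vale.Agent.Lib.P002.CDeriv

/-!
The tangent vectors of the flows at the base point given by a monomial and a diagonal matrix.
-/

open Matrix Filter Topology

namespace Vale.Agent.Lib.P002

attribute [local instance] Matrix.linftyOpNormedAddCommGroup Matrix.linftyOpNormedSpace
  Matrix.linftyOpNormedRing Matrix.linftyOpNormedAlgebra

variable {n r : ℕ}

/-- The value of the curve. -/
noncomputable def Ml (q : Ix n → (MC r)ˣ) (l : CLab n) : MC r :=
  ((FreeGroup.lift q (cLab l) : (MC r)ˣ) : MC r)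

theorem Yf_of (l : CLab n) (q : Ix n → (MC r)ˣ) (i : Ix n) {f : ℂ → MC r} {y : MC r}
    (hf : HasDerivAt f y 0)
    (h : ∀ (t : ℂ) (hd : dnm (kLab l) t (Ml q l) ≠ 0),
      ((mvAt (mvLab l) q (gMat_isUnit hd).unit i : (MC r)ˣ) : MC r) = f t) :
    Yf (fun a => ((q a : (MC r)ˣ) : MC r)) l i = y := by
  have hρ : ∀ a, IsUnit ((q a : (MC r)ˣ) : MC r) := fun a => (q a).isUnit
  have h1 := (hasDerivAt_pi.mp (wF_hasDeriv (ρ := fun a => ((q a : (MC r)ˣ) : MC r)) l hρ)) i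
  have h2 : ∀ᶠ t in 𝓝 (0 : ℂ), dnm (kLab l) t (Ml q l) ≠ 0 := by
    refine (hasDerivAt_dnm (kLab l) (Ml q l)).continuousAt.eventually_ne ?_
    rw [dnm_zero]
    exact one_ne_zero
  have h3 : (fun t => wF l (t, fun a => ((q a : (MC r)ˣ) : MC r)) i) =ᶠ[𝓝 0] f := by
    filter_upwards [h2] with t ht
    rw [wF_units l t q ht i]
    exact h t ht
  exact (h1.congr_of_eventuallyEq h3.symm).unique hf

theorem hasDerivAt_G (q : Ix n → (MC r)ˣ) (l : CLab n) :
    HasDerivAt (fun t => gMat (kLab l) t (Ml q l)) (gd (kLab l) (Ml q l)) 0 := hasDerivAt_gMat _ _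

/-- The derivative of the move on the letter `a` in the twist along `a b ^ m`. -/
theorem deriv_word_a {G : ℂ → MC r} {ξ a b b' : MC r} (hG : HasDerivAt G ξ 0) (h0 : G 0 = 1)
    (hbb' : b * b' = 1) (m : ℕ) :
    HasDerivAt (fun t => a * b ^ m * ((b * G t) ^ m)⁻¹)
      (-(a * ∑ i ∈ Finset.range m, b ^ (i + 1) * ξ * b' ^ (i + 1))) 0 := by
  have h1 : HasDerivAt (fun t => b * G t) (b * ξ) 0 := hG.const_mul b
  have h2 := hasDerivAt_matpow h1 m
  have hb'b : b' * b = 1 := mul_eq_one_comm.mp hbb'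
  have hP0 : (b * G 0) ^ m = b ^ m := by rw [h0, Matrix.mul_one]
  have hu : IsUnit ((b * G 0) ^ m) := by
    rw [hP0]
    exact ((isUnit_iff_exists.mpr ⟨b', hbb', hb'b⟩).pow m)
  have h3 := hasDerivAt_minv h2 hu
  have h4 := h3.const_mul (a * b ^ m)
  refine HasDerivAt.congr_deriv h4 ?_
  have hinv : (b ^ m)⁻¹ = b' ^ m := Matrix.inv_eq_right_inv (pow_mul_pow_eq_one hbb' m)
  simp only [h0, Matrix.mul_one, hinv]
  rw [Matrix.mul_neg]
  congr 1
  have h5 : ∀ i ∈ Finset.range m, b ^ i * (b * ξ) * b ^ (m - 1 - i) * b' ^ m =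
      b ^ (i + 1) * ξ * b' ^ (i + 1) := by
    intro i hi
    have hi' := Finset.mem_range.mp hi
    have e1 : b' ^ m = b' ^ (m - 1 - i) * b' ^ (i + 1) := by
      rw [← pow_add]
      congr 1
      omega
    have e2 : b ^ (m - 1 - i) * b' ^ (m - 1 - i) = 1 := pow_mul_pow_eq_one hbb' _
    rw [e1, pow_succ' b i]
    calc b ^ i * (b * ξ) * b ^ (m - 1 - i) * (b' ^ (m - 1 - i) * b' ^ (i + 1))
        = b ^ i * (b * ξ) * (b ^ (m - 1 - i) * b' ^ (m - 1 - i)) * b' ^ (i + 1) := by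
          simp only [Matrix.mul_assoc]
      _ = _ := by
        rw [e2, Matrix.mul_one]
        simp only [Matrix.mul_assoc]
        rw [← Matrix.mul_assoc, ← Matrix.mul_assoc b, (Commute.pow_left (Commute.refl b) i).eq]
  calc a * b ^ m * (b' ^ m * (∑ i ∈ Finset.range m, b ^ i * (b * ξ) * b ^ (m - 1 - i)) * b' ^ m)
      = a * (b ^ m * b' ^ m) * ((∑ i ∈ Finset.range m, b ^ i * (b * ξ) * b ^ (m - 1 - i)) * b' ^ m) := by
        simp only [Matrix.mul_assoc]
    _ = a * ∑ i ∈ Finset.range m, b ^ i * (b * ξ) * b ^ (m - 1 - i) * b' ^ m := by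
        rw [pow_mul_pow_eq_one hbb' m, Matrix.mul_one, Finset.sum_mul]
    _ = _ := by rw [Finset.sum_congr rfl h5]

/-- The last handle. -/
abbrev hL0 (n : ℕ) : Fin (n + 2) := hl n

theorem hl_ne_zero (n : ℕ) : hl n ≠ 0 := by
  intro h
  have := congrArg Fin.val h
  simp [hl] at this

theorem hj_ne_zero (j : Fin n) : hj j ≠ 0 := by
  intro h
  have := congrArg Fin.val h
  simp [hj] at this

theorem hj_ne_hl (j : Fin n) : hj j ≠ hl n := by
  intro h
  have := congrArg Fin.val h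
  have h3 := j.2
  simp [hj, hl] at this
  omega

namespace Mono

variable (S : Mono r)

/-- The monomial matrix as a unit. -/
noncomputable def aU : (MC r)ˣ := ⟨S.aM, S.aI, S.aM_mul_aI, S.aI_mul_aM⟩

/-- The diagonal matrix as a unit. -/
noncomputable def bU : (MC r)ˣ := ⟨S.bM, S.bI, S.bM_mul_bI, S.bI_mul_bM⟩

/-- The parameter of the base tuple. -/
noncomputable def xU (n : ℕ) : Fin (n + 2) → (MC r)ˣ :=
  fun i => if i = 0 then S.aU else if i = hL0 n then S.bU else 1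

/-- The base tuple, as units. -/
noncomputable def qU (n : ℕ) : Ix n → (MC r)ˣ := betaG (S.xU n)

/-- The parameter of the base tuple. -/
noncomputable def xS (n : ℕ) : Fin (n + 2) → MC r := fun i => ((S.xU n i : (MC r)ˣ) : MC r)

/-- The base tuple. -/
noncomputable def rS (n : ℕ) : Ix n → MC r := fun i => ((S.qU n i : (MC r)ˣ) : MC r)

theorem xU_zero : S.xU n 0 = S.aU := by simp [xU]

theorem xU_hl : S.xU n (hL0 n) = S.bU := by
  simp [xU, hl_ne_zero]

theorem xU_hj (j : Fin n) : S.xU n (hj j) = 1 := by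
  simp [xU, hj_ne_zero, hj_ne_hl]

theorem qU_a : S.qU n aIx = S.aU := by rw [qU, betaG_a, xU_zero]

theorem qU_b : S.qU n bIx = S.bU := by rw [qU, betaG_b, xU_hl]

theorem qU_new (j : Fin n) (b : Bool) : S.qU n (hj j, b) = 1 := by
  rw [qU, betaG_new, xU_hj]
  simp

theorem rS_eq : S.rS n = betaG (S.xS n) := by
  funext i
  unfold rS qU xS betaG
  split_ifs <;> rfl

theorem rS_unit (i : Ix n) : IsUnit (S.rS n i) := (S.qU n i).isUnit

/-- The tangent vector at the base point. -/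
noncomputable def Y (l : CLab n) : Ix n → MC r := Yf (S.rS n) l

theorem prd_qU (j : Fin n) : prd (S.qU n) j.val = 1 := prd_beta _ _ (by have := j.2; omega)

theorem Ml_one (m k : ℕ) : Ml (S.qU n) (CLab.one m k) = S.aM * S.bM ^ m := by
  unfold Ml
  rw [cLab_one, S.qU_a, S.qU_b]
  rfl

theorem Ml_inf (k : ℕ) : Ml (S.qU n) (CLab.inf k) = S.bM := by
  unfold Ml
  rw [cLab_inf, S.qU_b]
  rfl

theorem Ml_two (j : Fin n) (m k : ℕ) :
    Ml (S.qU n) (CLab.two j m k) = S.bM * (S.aM * S.bM ^ m) * S.bI := by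
  unfold Ml
  rw [cLab_two, S.prd_qU, S.qU_new, S.qU_a, S.qU_b]
  have e : (S.bU * (S.aU * S.bU ^ m)⁻¹ * S.bU⁻¹ * 1 * 1)⁻¹ = S.bU * (S.aU * S.bU ^ m) * S.bU⁻¹ := by
    group
  rw [e]
  rw [Units.val_mul, Units.val_mul, Units.val_mul, Units.val_pow_eq_pow_val]
  rfl

theorem Ml_three (j : Fin n) (k : ℕ) : Ml (S.qU n) (CLab.three j k) = S.bM := by
  unfold Ml
  rw [cLab_three, S.prd_qU, S.qU_new, S.qU_b]
  have e : (S.bU⁻¹ * 1 * 1)⁻¹ = S.bU := by
    group
  rw [e]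
  rfl

theorem Y_one_a (m k : ℕ) : S.Y (CLab.one m k) (aIx : Ix n) =
    -(S.aM * ∑ i ∈ Finset.range m, S.bM ^ (i + 1) * gd k (S.aM * S.bM ^ m) * S.bI ^ (i + 1)) := by
  have hG := hasDerivAt_G (S.qU n) (CLab.one m k)
  rw [Ml_one] at hG
  refine Yf_of (CLab.one m k) (S.qU n) aIx
    (deriv_word_a hG (gMat_zero _ _) S.bM_mul_bI m) fun t hd => ?_
  rw [mv_one_a, S.qU_a, S.qU_b, Units.val_mul, Units.val_mul, Units.val_pow_eq_pow_val,
    Matrix.coe_units_inv, Units.val_pow_eq_pow_val, Units.val_mul, unit_gMat_coe hd, Ml_one]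
  rfl

theorem Y_one_b (m k : ℕ) : S.Y (CLab.one m k) (bIx : Ix n) = S.bM * gd k (S.aM * S.bM ^ m) := by
  have hG := hasDerivAt_G (S.qU n) (CLab.one m k)
  rw [Ml_one] at hG
  refine Yf_of (CLab.one m k) (S.qU n) bIx (hG.const_mul S.bM) fun t hd => ?_
  rw [mv_one_b, S.qU_b, Units.val_mul, unit_gMat_coe hd, Ml_one]
  rfl

theorem Y_one_o (m k : ℕ) {i : Ix n} (h1 : i ≠ aIx) (h2 : i ≠ bIx) :
    S.Y (CLab.one m k) i = 0 := by
  refine Yf_of (CLab.one m k) (S.qU n) i (hasDerivAt_const _ ((S.qU n i : (MC r)ˣ) : MC r)) fun t hd => ?_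
  rw [mv_one_o m k _ _ h1 h2]

theorem Y_inf_a (k : ℕ) : S.Y (CLab.inf k) (aIx : Ix n) = S.aM * gd k S.bM := by
  have hG := hasDerivAt_G (S.qU n) (CLab.inf k)
  rw [Ml_inf] at hG
  refine Yf_of (CLab.inf k) (S.qU n) aIx (hG.const_mul S.aM) fun t hd => ?_
  rw [mv_inf_a, S.qU_a, Units.val_mul, unit_gMat_coe hd, Ml_inf]
  rfl

theorem Y_inf_o (k : ℕ) {i : Ix n} (h1 : i ≠ aIx) : S.Y (CLab.inf k) i = 0 := by
  refine Yf_of (CLab.inf k) (S.qU n) i (hasDerivAt_const _ ((S.qU n i : (MC r)ˣ) : MC r)) fun t hd => ?_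
  rw [mv_inf_o k _ _ h1]

/-- The derivative of the inverse of the family. -/
theorem deriv_inv_G {G : ℂ → MC r} {ξ : MC r} (hG : HasDerivAt G ξ 0) (h0 : G 0 = 1) :
    HasDerivAt (fun t => (G t)⁻¹) (-ξ) 0 := by
  have h1 := hasDerivAt_minv hG (by rw [h0]; exact isUnit_one)
  refine HasDerivAt.congr_deriv h1 ?_
  have e : (1 : MC r)⁻¹ = 1 := Matrix.inv_eq_right_inv (Matrix.one_mul 1)
  rw [h0, e, Matrix.one_mul, Matrix.mul_one]

/-- Values of the entries in the new handles, for both kinds of twist through a new handle. -/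
theorem tail_value (j : Fin n) (h : (MC r)ˣ) {i : Ix n} (hi : i.1.val ≠ 0)
    (hne : i ≠ (hj j, true)) :
    FreeGroup.lift (extT (S.qU n) h) (tailMv j i) = S.qU n i := by
  by_cases h1 : i.1.val ≤ j.val ∨ (i.1.val = j.val + 1 ∧ i.2 = false)
  · rw [tailMv_conj _ _ h1]
    have h2 : i.1.val - 1 < n := by
      have := j.2
      rcases h1 with h1 | ⟨h1, _⟩ <;> omega
    have h3 : i.1 = hj ⟨i.1.val - 1, h2⟩ := by
      apply Fin.ext
      simp only [hj]
      omega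
    have h4 : S.qU n i = 1 := by
      obtain ⟨i1, i2⟩ := i
      simp only at h3
      rw [h3, S.qU_new]
    rw [h4]
    simp
  · by_cases h2 : i.1.val = j.val + 1
    · exfalso
      apply hne
      have h3 : i.2 = true := by
        by_contra h4
        exact h1 (Or.inr ⟨h2, by simpa using h4⟩)
      obtain ⟨i1, i2⟩ := i
      simp only at h3 h2
      rw [h3]
      congr 1
      exact Fin.ext h2
    · rw [tailMv_fix]
      simp only [not_or, not_and] at h1
      omega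

theorem Y_two_e (j : Fin n) (m k : ℕ) : S.Y (CLab.two j m k) (hj j, true) =
    -gd k (S.bM * (S.aM * S.bM ^ m) * S.bI) := by
  have hG := hasDerivAt_G (S.qU n) (CLab.two j m k)
  rw [Ml_two] at hG
  refine Yf_of (CLab.two j m k) (S.qU n) (hj j, true) (deriv_inv_G hG (gMat_zero _ _))
    fun t hd => ?_
  rw [mv_two_o _ _ _ _ _ (by simp [hj]), tailMv_twist _ _ rfl rfl, S.qU_new, one_mul,
    Matrix.coe_units_inv, unit_gMat_coe hd, Ml_two]

theorem Y_three_e (j : Fin n) (k : ℕ) : S.Y (CLab.three j k) (hj j, true) = -gd k S.bM := by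
  have hG := hasDerivAt_G (S.qU n) (CLab.three j k)
  rw [Ml_three] at hG
  refine Yf_of (CLab.three j k) (S.qU n) (hj j, true) (deriv_inv_G hG (gMat_zero _ _))
    fun t hd => ?_
  rw [mv_three_o _ _ _ _ (by simp [hj]), tailMv_twist _ _ rfl rfl, S.qU_new, one_mul,
    Matrix.coe_units_inv, unit_gMat_coe hd, Ml_three]

theorem Y_two_o (j : Fin n) (m k : ℕ) {i : Ix n} (hi : i.1.val ≠ 0) (hne : i ≠ (hj j, true)) :
    S.Y (CLab.two j m k) i = 0 := by
  refine Yf_of (CLab.two j m k) (S.qU n) i (hasDerivAt_const _ ((S.qU n i : (MC r)ˣ) : MC r)) fun t hd => ?_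
  rw [mv_two_o _ _ _ _ _ hi, S.tail_value j _ hi hne]

theorem Y_three_o (j : Fin n) (k : ℕ) {i : Ix n} (hi : i.1.val ≠ 0) (hne : i ≠ (hj j, true)) :
    S.Y (CLab.three j k) i = 0 := by
  refine Yf_of (CLab.three j k) (S.qU n) i (hasDerivAt_const _ ((S.qU n i : (MC r)ˣ) : MC r)) fun t hd => ?_
  rw [mv_three_o _ _ _ _ hi, S.tail_value j _ hi hne]

end Mono

end Vale.Agent.Lib.P002
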