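import Mathlib

/-!
Special linear groups over a field are generated by transvections.
-/

open Matrix

namespace Vale.Agent.Lib.P002

variable {n : Type*} [Fintype n] [DecidableEq n] {K : Type*} [Field K]

/-- Being a product of transvections. -/
def IsTProd (N : Matrix n n K) : Prop :=
  ∃ L : List (TransvectionStruct n K), N = (L.map TransvectionStruct.toMatrix).prod

theorem IsTProd.mul {A B : Matrix n n K} (hA : IsTProd A) (hB : IsTProd B) : IsTProd (A * B) := by
  obtain ⟨L, rfl⟩ := hA
  obtain ⟨L', rfl⟩ := hB
  exact ⟨L ++ L', by simp⟩

theorem isTProd_one : IsTProd (1 : Matrix n n K) := ⟨[], by simp⟩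

theorem isTProd_struct (t : TransvectionStruct n K) : IsTProd t.toMatrix := ⟨[t], by simp⟩

theorem isTProd_transvection {i j : n} (h : i ≠ j) (c : K) : IsTProd (transvection i j c) :=
  isTProd_struct ⟨i, j, h, c⟩

/-- The two by two torus inside the group generated by transvections. -/
theorem torus_identity {i j : n} (h : i ≠ j) {d : K} (hd : d ≠ 0) (N : Matrix n n K) :
    transvection i j d * (transvection j i (-d⁻¹) * (transvection i j d *
      (transvection i j (-1) * (transvection j i 1 * (transvection i j (-1) * N))))) =
    diagonal (fun k => if k = i then d else if k = j then d⁻¹ else 1) * N := by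
  have hji : j ≠ i := h.symm
  ext a b
  rw [Matrix.diagonal_mul]
  by_cases hai : a = i
  · rw [hai]
    simp only [transvection_mul_apply_same, transvection_mul_apply_of_ne i j j b hji,
      transvection_mul_apply_of_ne j i i b h, if_true]
    field_simp
    ring
  · by_cases haj : a = j
    · rw [haj]
      simp only [transvection_mul_apply_same, transvection_mul_apply_of_ne i j j b hji,
        transvection_mul_apply_of_ne j i i b h, if_neg hji, if_true]
      field_simp
      ring
    · simp only [transvection_mul_apply_of_ne i j a b hai, transvection_mul_apply_of_ne j i a b haj,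
        if_neg hai, if_neg haj, one_mul]

theorem isTProd_torus {i j : n} (h : i ≠ j) {d : K} (hd : d ≠ 0) :
    IsTProd (diagonal (fun k => if k = i then d else if k = j then d⁻¹ else 1) : Matrix n n K) := by
  have e := torus_identity h hd (1 : Matrix n n K)
  rw [Matrix.mul_one (diagonal _)] at e
  rw [← e]
  refine (isTProd_transvection h _).mul ((isTProd_transvection h.symm _).mul
    ((isTProd_transvection h _).mul ((isTProd_transvection h _).mul
    ((isTProd_transvection h.symm _).mul ((isTProd_transvection h _).mul isTProd_one)))))

theorem isTProd_diag_aux (m : ℕ) : ∀ (s : Finset n) (D : n → K), s.card = m →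
    (∀ i, i ∉ s → D i = 1) → (∏ i ∈ s, D i = 1) → IsTProd (diagonal D) := by
  induction m using Nat.strong_induction_on with
  | _ m ih =>
    intro s D hs h1 hprod
    have hne : ∀ i ∈ s, D i ≠ 0 := by
      intro i hi h0
      rw [Finset.prod_eq_zero hi h0] at hprod
      exact zero_ne_one hprod
    by_cases h2 : 2 ≤ s.card
    · obtain ⟨i, hi, j, hj, hij⟩ := Finset.one_lt_card.mp h2
      let d := D i
      let D' : n → K := fun k => if k = i then 1 else if k = j then D j * d else D k
      have hD : diagonal D =
          diagonal (fun k => if k = i then d else if k = j then d⁻¹ else 1) * diagonal D' := by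
        rw [Matrix.diagonal_mul_diagonal]
        congr 1
        funext k
        by_cases hki : k = i
        · subst hki
          simp [D', d]
        · by_cases hkj : k = j
          · subst hkj
            have : D i ≠ 0 := hne i hi
            simp only [D', d, if_neg hki, if_true]
            field_simp
          · simp [D', hki, hkj]
      rw [hD]
      refine (isTProd_torus hij (hne i hi)).mul ?_
      refine ih (s.erase i).card ?_ (s.erase i) D' rfl ?_ ?_
      · rw [← hs]
        exact Finset.card_erase_lt_of_mem hi
      · intro k hk
        by_cases hki : k = i
        · simp [D', hki]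
        · have hks : k ∉ s := fun h => hk (Finset.mem_erase.mpr ⟨hki, h⟩)
          have hkj : k ≠ j := fun h => hks (h ▸ hj)
          simp only [D', if_neg hki, if_neg hkj]
          exact h1 k hks
      · have hj' : j ∈ s.erase i := Finset.mem_erase.mpr ⟨hij.symm, hj⟩
        rw [← Finset.mul_prod_erase _ _ hj']
        have e1 : ∏ k ∈ (s.erase i).erase j, D' k = ∏ k ∈ (s.erase i).erase j, D k := by
          apply Finset.prod_congr rfl
          intro k hk
          have hk1 := Finset.mem_erase.mp hk
          have hk2 := Finset.mem_erase.mp hk1.2
          simp [D', hk2.1, hk1.1]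
        rw [e1]
        have e2 : D' j = D j * D i := by
          simp [D', hij.symm, d]
        rw [e2, ← hprod, ← Finset.mul_prod_erase s D hi, ← Finset.mul_prod_erase (s.erase i) D hj']
        ring
    · have hc : s.card = 0 ∨ s.card = 1 := by omega
      have hD : D = fun _ => 1 := by
        funext k
        rcases hc with hc | hc
        · rw [Finset.card_eq_zero] at hc
          subst hc
          exact h1 k (by simp)
        · obtain ⟨a, rfl⟩ := Finset.card_eq_one.mp hc
          by_cases hk : k = a
          · subst hk
            simpa using hprod
          · exact h1 k (by simpa using hk)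
      rw [hD]
      have : (diagonal fun _ : n => (1 : K)) = 1 := by simp
      rw [this]
      exact isTProd_one

theorem isTProd_diag (D : n → K) (h : ∏ i, D i = 1) : IsTProd (diagonal D) :=
  isTProd_diag_aux _ Finset.univ D rfl (fun i hi => absurd (Finset.mem_univ i) hi) h

/-- A matrix of determinant one is a product of transvections. -/
theorem isTProd_of_det (M : Matrix n n K) (h : M.det = 1) : IsTProd M := by
  refine Matrix.diagonal_transvection_induction IsTProd M (fun D hD => ?_) isTProd_struct
    (fun A B hA hB => hA.mul hB)
  rw [h, Matrix.det_diagonal] at hD
  exact isTProd_diag D hD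

end Vale.Agent.Lib.P002
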