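import Vale.Agent.Lib.P002.Tri

/-!
Invertible matrices with triangular shape, the frames of the two fans, and the Laurent chart of
tuples of matrices with product one and prescribed triangular diagonals.
-/

open Matrix

namespace Vale.Agent.Lib.P002

variable {R : Type*} [CommRing R] {S : Type*} [CommRing S]

/-- Invertible matrices. -/
abbrev GLm (n : ℕ) (R : Type*) [CommRing R] := (Mat n R)ˣ

/-- Upper triangular with given diagonal. -/
def IsUpD {n : ℕ} (g : GLm n R) (δ : Fin n → Rˣ) : Prop :=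
  IsUp g.val ∧ ∀ i, g.val i i = δ i

/-- Lower triangular with given diagonal. -/
def IsLoD {n : ℕ} (g : GLm n R) (δ : Fin n → Rˣ) : Prop :=
  IsLo g.val ∧ ∀ i, g.val i i = δ i

/-- An invertible matrix from a matrix with unit determinant. -/
noncomputable def toGL {n : ℕ} (M : Mat n R) (h : IsUnit M.det) : GLm n R :=
  Matrix.nonsingInvUnit M h

@[simp] theorem toGL_val {n : ℕ} (M : Mat n R) (h : IsUnit M.det) : (toGL M h).val = M := rfl

theorem isUnit_det_of_up {n : ℕ} {M : Mat n R} (h : IsUp M) (h2 : ∀ i, IsUnit (M i i)) :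
    IsUnit M.det := by
  rw [h.det_eq]
  exact IsUnit.prod_univ_iff.mpr h2

theorem isUnit_det_of_lo {n : ℕ} {M : Mat n R} (h : IsLo M) (h2 : ∀ i, IsUnit (M i i)) :
    IsUnit M.det := by
  rw [h.det_eq]
  exact IsUnit.prod_univ_iff.mpr h2

theorem IsUpD.mul {n : ℕ} {g h : GLm n R} {δ ε : Fin n → Rˣ} (hg : IsUpD g δ) (hh : IsUpD h ε) :
    IsUpD (g * h) (δ * ε) := by
  refine ⟨hg.1.mul hh.1, fun i => ?_⟩
  rw [Units.val_mul, IsUp.mul_diag hg.1 hh.1, hg.2, hh.2]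
  simp

theorem IsLoD.mul {n : ℕ} {g h : GLm n R} {δ ε : Fin n → Rˣ} (hg : IsLoD g δ) (hh : IsLoD h ε) :
    IsLoD (g * h) (δ * ε) := by
  refine ⟨hg.1.mul hh.1, fun i => ?_⟩
  rw [Units.val_mul, IsLo.mul_diag hg.1 hh.1, hg.2, hh.2]
  simp

theorem IsUpD.one {n : ℕ} : IsUpD (1 : GLm n R) 1 :=
  ⟨isUp_one, fun i => by simp⟩

theorem IsLoD.one {n : ℕ} : IsLoD (1 : GLm n R) 1 :=
  ⟨isLo_one, fun i => by simp⟩

theorem isUp_inv {n : ℕ} (g : GLm n R) (hg : IsUp g.val) : IsUp (g⁻¹).val := by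
  have hb : Matrix.BlockTriangular g.val id := fun i j h => hg i j h
  let _ : Invertible g.val := g.invertible
  have h := Matrix.blockTriangular_inv_of_blockTriangular hb
  intro i j hij
  have h2 := h hij
  rw [← Matrix.invOf_eq_nonsing_inv] at h2
  exact h2

theorem isLo_inv {n : ℕ} (g : GLm n R) (hg : IsLo g.val) : IsLo (g⁻¹).val := by
  have hb : Matrix.BlockTriangular g.val OrderDual.toDual := fun i j h => hg i j h
  let _ : Invertible g.val := g.invertible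
  have h := Matrix.blockTriangular_inv_of_blockTriangular hb
  intro i j hij
  have h2 := h (show OrderDual.toDual j < OrderDual.toDual i from hij)
  rw [← Matrix.invOf_eq_nonsing_inv] at h2
  exact h2

theorem IsUpD.inv {n : ℕ} {g : GLm n R} {δ : Fin n → Rˣ} (hg : IsUpD g δ) : IsUpD g⁻¹ δ⁻¹ := by
  have hi := isUp_inv g hg.1
  refine ⟨hi, fun i => ?_⟩
  have h1 : (g⁻¹ * g).val i i = 1 := by simp
  rw [Units.val_mul, IsUp.mul_diag hi hg.1, hg.2] at h1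
  have h2 : ((δ i : Rˣ) : R) * ((δ⁻¹ i : Rˣ) : R) = 1 := by simp
  calc g⁻¹.val i i = g⁻¹.val i i * (((δ i : Rˣ) : R) * ((δ⁻¹ i : Rˣ) : R)) := by rw [h2, mul_one]
    _ = ((δ⁻¹ i : Rˣ) : R) := by rw [← mul_assoc, h1, one_mul]

theorem IsLoD.inv {n : ℕ} {g : GLm n R} {δ : Fin n → Rˣ} (hg : IsLoD g δ) : IsLoD g⁻¹ δ⁻¹ := by
  have hi := isLo_inv g hg.1
  refine ⟨hi, fun i => ?_⟩
  have h1 : (g⁻¹ * g).val i i = 1 := by simp
  rw [Units.val_mul, IsLo.mul_diag hi hg.1, hg.2] at h1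
  have h2 : ((δ i : Rˣ) : R) * ((δ⁻¹ i : Rˣ) : R) = 1 := by simp
  calc g⁻¹.val i i = g⁻¹.val i i * (((δ i : Rˣ) : R) * ((δ⁻¹ i : Rˣ) : R)) := by rw [h2, mul_one]
    _ = ((δ⁻¹ i : Rˣ) : R) := by rw [← mul_assoc, h1, one_mul]

/-- Both upper and lower triangular: diagonal. -/
theorem eq_dg_of_up_lo {n : ℕ} {g : GLm n R} (h1 : IsUp g.val) (h2 : IsLo g.val) (i j : Fin n)
    (hij : i ≠ j) : g.val i j = 0 := by
  rcases lt_or_gt_of_ne hij with h | h
  · exact h2 i j h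
  · exact h1 i j h

/-- The reversal matrix as a unit. -/
def Wg (n : ℕ) : GLm n R := ⟨W n, W n, W_mul_W n, W_mul_W n⟩

@[simp] theorem Wg_val (n : ℕ) : (Wg n : GLm n R).val = W n := rfl

@[simp] theorem Wg_mul_Wg (n : ℕ) : (Wg n : GLm n R) * Wg n = 1 := by
  ext1
  exact W_mul_W n

@[simp] theorem Wg_inv (n : ℕ) : (Wg n : GLm n R)⁻¹ = Wg n := rfl

/-- The diagonal matrix of units. -/
def dg {n : ℕ} (τ : Fin n → Rˣ) : GLm n R :=
  ⟨Matrix.diagonal fun i => (τ i : R), Matrix.diagonal fun i => ((τ i)⁻¹ : Rˣ),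
    by rw [Matrix.diagonal_mul_diagonal]; simp, by rw [Matrix.diagonal_mul_diagonal]; simp⟩

@[simp] theorem dg_val {n : ℕ} (τ : Fin n → Rˣ) :
    (dg τ).val = Matrix.diagonal fun i => (τ i : R) := rfl

theorem dg_mul {n : ℕ} (τ σ : Fin n → Rˣ) : dg (τ * σ) = dg τ * dg σ := by
  ext1
  simp [Matrix.diagonal_mul_diagonal]

theorem dg_one {n : ℕ} : dg (1 : Fin n → Rˣ) = 1 := by
  ext1
  simp

theorem dg_inv {n : ℕ} (τ : Fin n → Rˣ) : dg τ⁻¹ = (dg τ)⁻¹ := by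
  rw [eq_inv_iff_mul_eq_one, ← dg_mul]
  simp [dg_one]

theorem dg_isUpD {n : ℕ} (τ : Fin n → Rˣ) : IsUpD (dg τ) τ :=
  ⟨fun i j h => Matrix.diagonal_apply_ne _ (ne_of_gt h), fun i => by simp⟩

theorem dg_isLoD {n : ℕ} (τ : Fin n → Rˣ) : IsLoD (dg τ) τ :=
  ⟨fun i j h => Matrix.diagonal_apply_ne _ (ne_of_lt h), fun i => by simp⟩

/-- Reversal of a diagonal. -/
def rv {n : ℕ} (τ : Fin n → Rˣ) : Fin n → Rˣ := fun i => τ (Fin.rev i)

@[simp] theorem rv_rv {n : ℕ} (τ : Fin n → Rˣ) : rv (rv τ) = τ := by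
  ext i
  simp [rv]

theorem rv_mul {n : ℕ} (τ σ : Fin n → Rˣ) : rv (τ * σ) = rv τ * rv σ := rfl

theorem rv_inv {n : ℕ} (τ : Fin n → Rˣ) : rv τ⁻¹ = (rv τ)⁻¹ := rfl

theorem prod_rv {n : ℕ} (τ : Fin n → Rˣ) : ∏ i, rv τ i = ∏ i, τ i :=
  Equiv.prod_comp Fin.revPerm τ

theorem Wg_conj_isLoD {n : ℕ} {g : GLm n R} {δ : Fin n → Rˣ} (h : IsLoD g δ) :
    IsUpD (Wg n * g * Wg n) (rv δ) := by
  refine ⟨h.1.W_conj, fun i => ?_⟩
  show ((W n : Mat n R) * g.val * (W n : Mat n R)) i i = _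
  rw [W_conj_apply, h.2]
  rfl

theorem Wg_conj_isUpD {n : ℕ} {g : GLm n R} {δ : Fin n → Rˣ} (h : IsUpD g δ) :
    IsLoD (Wg n * g * Wg n) (rv δ) := by
  refine ⟨h.1.W_conj, fun i => ?_⟩
  show ((W n : Mat n R) * g.val * (W n : Mat n R)) i i = _
  rw [W_conj_apply, h.2]
  rfl

theorem Wg_conj_dg {n : ℕ} (τ : Fin n → Rˣ) : Wg n * dg τ * Wg n = dg (rv τ) := by
  ext i j
  show ((W n : Mat n R) * (dg τ).val * (W n : Mat n R)) i j = (dg (rv τ)).val i j
  rw [W_conj_apply]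
  simp only [dg_val, Matrix.diagonal_apply, rv]
  by_cases h : i = j
  · subst h; simp
  · rw [if_neg (fun e => h (Fin.rev_injective e)), if_neg h]

/-! ### Functoriality -/

/-- Apply a ring homomorphism to an invertible matrix. -/
def mapG {n : ℕ} (φ : R →+* S) : GLm n R →* GLm n S :=
  Units.map (RingHom.mapMatrix φ).toMonoidHom

theorem mapG_val {n : ℕ} (φ : R →+* S) (g : GLm n R) : (mapG φ g).val = g.val.map φ := rfl

/-- Apply a ring homomorphism to a diagonal of units. -/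
def mapD {n : ℕ} (φ : R →+* S) (τ : Fin n → Rˣ) : Fin n → Sˣ :=
  fun i => Units.map φ.toMonoidHom (τ i)

theorem mapD_mul {n : ℕ} (φ : R →+* S) (τ σ : Fin n → Rˣ) :
    mapD φ (τ * σ) = mapD φ τ * mapD φ σ := by
  ext i
  simp [mapD]

theorem mapD_inv {n : ℕ} (φ : R →+* S) (τ : Fin n → Rˣ) : mapD φ τ⁻¹ = (mapD φ τ)⁻¹ := by
  ext i
  simp [mapD]

theorem mapD_rv {n : ℕ} (φ : R →+* S) (τ : Fin n → Rˣ) : mapD φ (rv τ) = rv (mapD φ τ) := rfl

theorem mapG_Wg {n : ℕ} (φ : R →+* S) : mapG φ (Wg n : GLm n R) = Wg n := by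
  ext i j
  show (W n : Mat n R).map φ i j = (W n : Mat n S) i j
  simp only [W, Matrix.map_apply, Matrix.of_apply]
  split_ifs <;> simp

theorem mapG_dg {n : ℕ} (φ : R →+* S) (τ : Fin n → Rˣ) : mapG φ (dg τ) = dg (mapD φ τ) := by
  ext i j
  show (dg τ).val.map φ i j = (dg (mapD φ τ)).val i j
  simp only [dg_val, Matrix.map_apply, Matrix.diagonal_apply, mapD]
  split_ifs <;> simp

/-! ### Triangle data as invertible matrices -/

/-- `u` of the triangle data. -/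
noncomputable def uG {n : ℕ} (arr : ℕ → ℕ → Rˣ) : GLm n R :=
  toGL (td n arr).u (isUnit_det_of_up (td_spec n arr).u_up fun i => by
    rw [(td_spec n arr).u_diag]; exact isUnit_one)

/-- `l` of the triangle data. -/
noncomputable def lG {n : ℕ} (arr : ℕ → ℕ → Rˣ) : GLm n R :=
  toGL (td n arr).l (isUnit_det_of_lo (td_spec n arr).l_lo fun i => by
    rw [(td_spec n arr).l_diag]; exact isUnit_one)

/-- `p` of the triangle data. -/
noncomputable def pG {n : ℕ} (arr : ℕ → ℕ → Rˣ) : GLm n R :=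
  toGL (td n arr).p (isUnit_det_of_up (td_spec n arr).p_up fun i => by
    rw [(td_spec n arr).p_diag]; exact Units.isUnit _)

/-- the diagonal of `p`. -/
def dT {n : ℕ} (arr : ℕ → ℕ → Rˣ) : Fin n → Rˣ := (td n arr).d

theorem uG_up {n : ℕ} (arr : ℕ → ℕ → Rˣ) : IsUpD (uG arr : GLm n R) 1 :=
  ⟨(td_spec n arr).u_up, fun i => by simpa [uG] using (td_spec n arr).u_diag i⟩

theorem lG_lo {n : ℕ} (arr : ℕ → ℕ → Rˣ) : IsLoD (lG arr : GLm n R) 1 :=
  ⟨(td_spec n arr).l_lo, fun i => by simpa [lG] using (td_spec n arr).l_diag i⟩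

theorem pG_up {n : ℕ} (arr : ℕ → ℕ → Rˣ) : IsUpD (pG arr : GLm n R) (dT arr) :=
  ⟨(td_spec n arr).p_up, fun i => (td_spec n arr).p_diag i⟩

theorem uG_rel {n : ℕ} (arr : ℕ → ℕ → Rˣ) : (uG arr : GLm n R) * Wg n = lG arr * pG arr := by
  ext1
  exact (td_spec n arr).rel

/-- Map an array of units. -/
def mapA (φ : R →+* S) (arr : ℕ → ℕ → Rˣ) : ℕ → ℕ → Sˣ :=
  fun a b => Units.map φ.toMonoidHom (arr a b)

theorem uG_map {n : ℕ} (φ : R →+* S) (arr : ℕ → ℕ → Rˣ) :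
    mapG φ (uG arr : GLm n R) = uG (mapA φ arr) := by
  ext1
  show (td n arr).u.map φ = (td n (mapA φ arr)).u
  have h : td n (mapA φ arr) = (td n arr).map φ := td_map φ n arr
  rw [h]
  rfl

theorem lG_map {n : ℕ} (φ : R →+* S) (arr : ℕ → ℕ → Rˣ) :
    mapG φ (lG arr : GLm n R) = lG (mapA φ arr) := by
  ext1
  show (td n arr).l.map φ = (td n (mapA φ arr)).l
  have h : td n (mapA φ arr) = (td n arr).map φ := td_map φ n arr
  rw [h]
  rfl

theorem pG_map {n : ℕ} (φ : R →+* S) (arr : ℕ → ℕ → Rˣ) :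
    mapG φ (pG arr : GLm n R) = pG (mapA φ arr) := by
  ext1
  show (td n arr).p.map φ = (td n (mapA φ arr)).p
  have h : td n (mapA φ arr) = (td n arr).map φ := td_map φ n arr
  rw [h]
  rfl

theorem dT_map {n : ℕ} (φ : R →+* S) (arr : ℕ → ℕ → Rˣ) :
    mapD φ (dT arr : Fin n → Rˣ) = dT (mapA φ arr) := by
  have h : td n (mapA φ arr) = (td n arr).map φ := td_map φ n arr
  show ((td n arr).map φ).d = (td n (mapA φ arr)).d
  rw [h]

/-! ### Frames of a fan -/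

/-- Frames along a fan of triangles. -/
noncomputable def fr {n : ℕ} (A : ℕ → ℕ → ℕ → Rˣ) : ℕ → GLm n R
  | 0 => 1
  | i + 1 => fr A i * uG (A i)

theorem fr_up {n : ℕ} (A : ℕ → ℕ → ℕ → Rˣ) : ∀ i, IsUpD (fr A i : GLm n R) 1
  | 0 => IsUpD.one
  | i + 1 => by
      have h := (fr_up (n := n) A i).mul (uG_up (n := n) (A i))
      rw [one_mul] at h
      exact h

theorem fr_map {n : ℕ} (φ : R →+* S) (A : ℕ → ℕ → ℕ → Rˣ) :
    ∀ i, mapG φ (fr A i : GLm n R) = fr (fun a => mapA φ (A a)) i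
  | 0 => map_one _
  | i + 1 => by
      show mapG φ (fr A i * uG (A i)) = fr (fun a => mapA φ (A a)) i * uG (mapA φ (A i))
      rw [map_mul, fr_map φ A i, uG_map]

theorem fr_congr {n : ℕ} {A B : ℕ → ℕ → ℕ → Rˣ} {m : ℕ} (h : ∀ i < m, A i = B i) :
    ∀ i ≤ m, (fr A i : GLm n R) = fr B i
  | 0, _ => rfl
  | i + 1, hi => by
      show fr A i * uG (A i) = fr B i * uG (B i)
      rw [fr_congr h i (by omega), h i (by omega)]

end Vale.Agent.Lib.P002
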