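import Vale.Agent.Lib.P002.ChartPts

/-!
Complex values of the chart are tuples in the prescribed classes, with product one, and with flags
in general position.
-/

open Matrix

namespace Vale.Agent.Lib.P002

variable {K r : ℕ}

theorem Fl_Gv_Xv (D : ℕ → Fin r → ℂˣ) (A B : ℕ → ℕ → ℕ → ℂˣ) {j : ℕ} (hj : j ≤ K) (m : ℕ) :
    Fl ((Gv K D A B j)⁻¹ * Xv K A (j + 1) : GLm r ℂ).val m =
      Fl (fr B j * Wg r : GLm r ℂ).val m := by
  cases j with
  | zero =>
    show Fl ((1 : GLm r ℂ)⁻¹ * Wg r).val m = Fl ((1 : GLm r ℂ) * Wg r).val m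
    rw [inv_one]
  | succ j =>
    have e : ((Gv K D A B (j + 1))⁻¹ * Xv K A (j + 1 + 1) : GLm r ℂ) =
        nh K B j * (dg (tauH K D A B (j + 1)))⁻¹ := by
      show (nh K A j * dg (tauH K D A B (j + 1)) * (nh K B j)⁻¹)⁻¹ * nh K A j = _
      group
    rw [e, ← dg_inv]
    show Fl ((nh K B j : GLm r ℂ).val * (dg _).val) m = _
    rw [Fl_dg_right]
    exact Fl_nh B (by omega) m

theorem Hprod_chart (D : ℕ → Fin r → ℂˣ) (AA BB : ℕ → ℕ → ℕ → ℂˣ) (A : Fin (K + 2) → SLc r)
    (hA : ∀ v, slG (A v) = Av K D AA BB v.val) :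
    ∀ i, i + 1 ≤ K + 2 → slG (Hprod A (i + 1)) = (Gv K D AA BB i)⁻¹ := by
  intro i
  induction i with
  | zero =>
    intro _
    rw [Hprod_one, map_one]
    show 1 = (1 : GLm r ℂ)⁻¹
    simp
  | succ i ih =>
    intro hi
    have hv : i + 1 < K + 2 := by omega
    rw [Hprod_succ A hv, map_mul, ih (by omega), hA]
    show _ * (Gv K D AA BB i * (Gv K D AA BB (i + 1))⁻¹) = _
    group

/-- A value of the chart at a closing array is in the prescribed classes, has product one, and is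
in general position. -/
theorem chart_point (hK : 0 < K) (l : Fin (K + 2) → Fin r → ℂ)
    (hinj : ∀ i, Function.Injective (l i)) (D : ℕ → Fin r → ℂˣ)
    (hD : ∀ (v : Fin (K + 2)) (j : Fin r), ((D v.val j : ℂˣ) : ℂ) = l v j)
    (AA BB : ℕ → ℕ → ℕ → ℂˣ) (hpin : PinCond K D AA BB) (A : Fin (K + 2) → SLc r)
    (hA : ∀ v, slG (A v) = Av K D AA BB v.val) :
    IsRep A ∧ (∀ v, InClass (A v) (l v)) ∧ IsGenericPt l A := by
  have hdiag : ∀ v : Fin (K + 2), (dg (D v.val) : GLm r ℂ).val = Matrix.diagonal (l v) := by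
    intro v
    rw [dg_val]
    congr 1
    funext j
    exact hD v j
  have hc : ∀ v : Fin (K + 2), ∃ P : GLm r ℂ,
      (A v : Mat r ℂ) = P.val * Matrix.diagonal (l v) * P⁻¹.val ∧
        ∀ m, flagOf (A v) (l v) m = Fl (Xv K AA v.val).val m := by
    intro v
    have hv : v.val ≤ K + 1 := by have := v.isLt; omega
    have h1 := Xv_spec hK D AA BB hpin hv
    have hi : Function.Injective fun i => ((D v.val i : ℂˣ) : ℂ) := by
      intro a b hab
      apply hinj v
      simpa [hD] using hab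
    obtain ⟨c, hc, hg⟩ := class_of_conj_up h1 hi
    refine ⟨Xv K AA v.val * c, ?_, fun m => ?_⟩
    · have e : (A v : Mat r ℂ) = (slG (A v)).val := rfl
      rw [e, hA, hg]
      rw [← hdiag]
      rfl
    · have e : (A v : Mat r ℂ) = (Xv K AA v.val * c).val * Matrix.diagonal (l v) *
          (Xv K AA v.val * c)⁻¹.val := by
        have e : (A v : Mat r ℂ) = (slG (A v)).val := rfl
        rw [e, hA, hg]
        rw [← hdiag]
        rfl
      rw [flagOf_eq (A v) (Xv K AA v.val * c) (l v) (hinj v) e m]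
      exact Fl_mul_up _ c hc m
  refine ⟨?_, fun v => ?_, ?_⟩
  · apply Matrix.SpecialLinearGroup.toGL_injective
    rw [map_one, map_list_prod, List.map_ofFn]
    have h : (⇑Matrix.SpecialLinearGroup.toGL ∘ A) =
        fun v : Fin (K + 2) => (Av K D AA BB v.val : GLm r ℂ) := by
      funext v
      exact hA v
    rw [h]
    exact prod_Av_all K D _ _
  · obtain ⟨P, hP, _⟩ := hc v
    exact ⟨P, hP⟩
  · have hF : ∀ (v : Fin (K + 2)) (m : ℕ), flagOf (A v) (l v) m = Fl (Xv K AA v.val).val m := by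
      intro v m
      obtain ⟨P, _, h⟩ := hc v
      exact h m
    have hT : ∀ (j : ℕ) (hj : j ≤ K) (m : ℕ),
        flagT A l ⟨j + 1, by omega⟩ m = Fl (fr BB j * Wg r : GLm r ℂ).val m := by
      intro j hj m
      unfold flagT
      rw [hF, ← Fl_Gv_Xv D AA BB hj m]
      have e : ((Hprod A (j + 1) : SLc r) : Mat r ℂ) = (slG (Hprod A (j + 1))).val := rfl
      show (Fl (Xv K AA (j + 1)).val m).map (Matrix.toLin' ((Hprod A (j + 1) : SLc r) : Mat r ℂ)) = _
      rw [e, Hprod_chart D AA BB A hA j (by omega), ← Fl_map]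
      rfl
    intro i hi
    constructor
    · intro a b c habc
      have h0 : flagOf (A 0) (l 0) a = Fl (1 : Mat r ℂ) a := by
        rw [hF]
        rfl
      rw [h0, hF, hF]
      show Fl (1 : Mat r ℂ) a ⊔ Fl (Xv K AA (i + 1)).val b ⊔ Fl (Xv K AA (i + 1 + 1)).val c = ⊤
      rw [Fl_Xv AA (by omega), Fl_Xv AA (by omega)]
      exact GenG_fan AA i a b c habc
    · intro a b c habc
      have h0 : flagOf (A 0) (l 0) a = Fl (1 : Mat r ℂ) a := by
        rw [hF]
        rfl
      rw [h0, hT i (by omega), hT (i + 1) (by omega)]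
      exact GenG_fan BB i a b c habc

end Vale.Agent.Lib.P002
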