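import Vale.Agent.Lib.P002.Dominance

/-!
The chart as a map to tuples in `SL_r`, its functoriality, and the fact that its complex values
are in general position and in the prescribed conjugacy classes.
-/

open Matrix

namespace Vale.Agent.Lib.P002

variable {R : Type*} [CommRing R] {S : Type*} [CommRing S] {n : ℕ}

/-- The parameters of the chart. -/
abbrev Idx := Bool × ℕ × ℕ × ℕ

/-- The arrays of the first fan. -/
def arrA (t : Idx → Rˣ) : ℕ → ℕ → ℕ → Rˣ := fun i a b => t (false, i, a, b)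

/-- The arrays of the second fan, before solving the closing condition. -/
def arrB (t : Idx → Rˣ) : ℕ → ℕ → ℕ → Rˣ := fun i a b => t (true, i, a, b)

/-- The determinant of a matrix which is upper triangular after conjugation. -/
theorem det_of_conj_up {g X : GLm n R} {δ : Fin n → Rˣ} (h : IsUpD (X⁻¹ * g * X) δ) :
    g.val.det = ((∏ i, δ i : Rˣ) : R) := by
  have h1 : (X⁻¹ * g * X).val.det = ((∏ i, δ i : Rˣ) : R) := by
    rw [h.1.det_eq]
    simp [h.2]
  have h2 : (X⁻¹ * g * X).val = X⁻¹.val * g.val * X.val := rfl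
  rw [h2, Matrix.det_mul, Matrix.det_mul] at h1
  have h3 : X⁻¹.val.det * X.val.det = 1 := by
    rw [← Matrix.det_mul]
    have : X⁻¹.val * X.val = 1 := by simp
    rw [this, Matrix.det_one]
  calc g.val.det = (X⁻¹.val.det * X.val.det) * g.val.det := by rw [h3, one_mul]
    _ = X⁻¹.val.det * g.val.det * X.val.det := by ring
    _ = _ := h1

section Chart

variable {K k : ℕ}

/-- The chart, with values in invertible matrices. -/
noncomputable def chartG (K k : ℕ) (D : ℕ → Fin (k + 1) → Rˣ) (t : Idx → Rˣ) (v : ℕ) :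
    GLm (k + 1) R :=
  Av K D (arrA t) (pinB K k D (arrA t) (arrB t)) v

theorem chartG_det (hK : 0 < K) (D : ℕ → Fin (k + 1) → Rˣ) (hD : ∀ v, ∏ i, D v i = 1)
    (t : Idx → Rˣ) {v : ℕ} (hv : v ≤ K + 1) : (chartG K k D t v).val.det = 1 := by
  have h := Xv_spec hK D (arrA t) (pinB K k D (arrA t) (arrB t))
    (pinCond_pinB K k D hD (arrA t) (arrB t)) hv
  rw [chartG, det_of_conj_up h, hD]
  rfl

/-- The chart, with values in tuples of elements of `SL_r`. -/
noncomputable def chartSL (hK : 0 < K) (D : ℕ → Fin (k + 1) → Rˣ) (hD : ∀ v, ∏ i, D v i = 1)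
    (t : Idx → Rˣ) (v : Fin (K + 2)) : Matrix.SpecialLinearGroup (Fin (k + 1)) R :=
  ⟨(chartG K k D t v.val).val, chartG_det hK D hD t (by have := v.isLt; omega)⟩

theorem toGL_chartSL (hK : 0 < K) (D : ℕ → Fin (k + 1) → Rˣ) (hD : ∀ v, ∏ i, D v i = 1)
    (t : Idx → Rˣ) (v : Fin (K + 2)) :
    Matrix.SpecialLinearGroup.toGL (chartSL hK D hD t v) = chartG K k D t v.val := by
  ext1
  rfl

theorem prod_chartSL (hK : 0 < K) (D : ℕ → Fin (k + 1) → Rˣ) (hD : ∀ v, ∏ i, D v i = 1)
    (t : Idx → Rˣ) : (List.ofFn (chartSL hK D hD t)).prod = 1 := by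
  apply Matrix.SpecialLinearGroup.toGL_injective
  rw [map_one, map_list_prod, List.map_ofFn]
  have h : (⇑Matrix.SpecialLinearGroup.toGL ∘ chartSL hK D hD t) =
      fun v : Fin (K + 2) => (Av K D (arrA t) (pinB K k D (arrA t) (arrB t)) v.val : GLm (k + 1) R) := by
    funext v
    exact toGL_chartSL hK D hD t v
  rw [h]
  exact prod_Av_all K D _ _

/-- Units of the target of a ring homomorphism. -/
def mapT (φ : R →+* S) (t : Idx → Rˣ) : Idx → Sˣ := fun i => Units.map φ.toMonoidHom (t i)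

theorem chartG_map (φ : R →+* S) (D : ℕ → Fin (k + 1) → Rˣ) (t : Idx → Rˣ) (v : ℕ) :
    mapG φ (chartG K k D t v) = chartG K k (fun u => mapD φ (D u)) (mapT φ t) v := by
  unfold chartG
  rw [Av_map, pinB_map]
  rfl

theorem chartSL_map (φ : R →+* S) (hK : 0 < K) (D : ℕ → Fin (k + 1) → Rˣ)
    (hD : ∀ v, ∏ i, D v i = 1) (hD' : ∀ v, ∏ i, mapD φ (D v) i = 1) (t : Idx → Rˣ)
    (v : Fin (K + 2)) :
    Matrix.SpecialLinearGroup.map φ (chartSL hK D hD t v) =
      chartSL hK (fun u => mapD φ (D u)) hD' (mapT φ t) v := by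
  apply Subtype.ext
  show (chartG K k D t v.val).val.map φ = (chartG K k (fun u => mapD φ (D u)) (mapT φ t) v.val).val
  rw [← chartG_map]
  rfl

end Chart

/-! ### Complex values of the chart -/

section Complex

variable {K r : ℕ}

theorem Fl_dg_right (P : Mat r ℂ) (τ : Fin r → ℂˣ) (m : ℕ) : Fl (P * (dg τ).val) m = Fl P m :=
  Fl_mul_up P (dg τ) (dg_isUpD τ).1 m

theorem Fl_nh (A : ℕ → ℕ → ℕ → ℂˣ) {i : ℕ} (hi : i < K) (m : ℕ) :
    Fl (nh K A i : GLm r ℂ).val m = Fl (fr A (i + 1) * Wg r : GLm r ℂ).val m := by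
  have h1 : (fr A (i + 1) * Wg r : GLm r ℂ) = nh K A i * pG (A i) := by
    have e : (lh K A i : GLm r ℂ) = lG (A i) := if_pos hi
    show fr A i * uG (A i) * Wg r = (fr A i * lh K A i) * pG (A i)
    rw [e, mul_assoc, uG_rel, mul_assoc]
  rw [h1]
  exact (Fl_mul_up _ _ (pG_up (A i)).1 m).symm

/-- The flag at the vertex `i + 1` of a fan. -/
theorem Fl_Xv (A : ℕ → ℕ → ℕ → ℂˣ) {i : ℕ} (hi : i ≤ K) (m : ℕ) :
    Fl (Xv K A (i + 1) : GLm r ℂ).val m = Fl (fr A i * Wg r : GLm r ℂ).val m := by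
  cases i with
  | zero =>
    show Fl (Wg r : GLm r ℂ).val m = Fl ((1 : GLm r ℂ) * Wg r).val m
    rw [one_mul]
  | succ i =>
    exact Fl_nh A (by omega) m

/-- The triple of flags of one triangle of a fan is in general position. -/
theorem GenG_fan (A : ℕ → ℕ → ℕ → ℂˣ) (i : ℕ) :
    GenG (1 : Mat r ℂ) (fr A i * Wg r : GLm r ℂ).val (fr A (i + 1) * Wg r : GLm r ℂ).val := by
  have h0 : GenG (1 : Mat r ℂ) (W r : Mat r ℂ) ((td r (A i)).u * (W r : Mat r ℂ)) :=
    fun a b c habc => td_generic r (A i) a b c habc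
  refine (h0.left_mul (fr A i)).congr (fun m => ?_) (fun m => rfl) (fun m => ?_)
  · rw [Matrix.mul_one]
    have := Fl_mul_up (1 : Mat r ℂ) (fr A i) (fr_up A i).1 m
    rwa [Matrix.one_mul] at this
  · show Fl ((fr A i).val * ((td r (A i)).u * (W r : Mat r ℂ))) m =
      Fl ((fr A i * uG (A i) * Wg r : GLm r ℂ).val) m
    rw [← Matrix.mul_assoc]
    rfl

/-- A matrix conjugate by `X` to an upper triangular matrix with distinct diagonal entries
is conjugate to the diagonal, and its flag is that of `X`. -/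
theorem class_of_conj_up {g X : GLm r ℂ} {δ : Fin r → ℂˣ} (h : IsUpD (X⁻¹ * g * X) δ)
    (hinj : Function.Injective fun i => (δ i : ℂ)) :
    ∃ c : GLm r ℂ, IsUp c.val ∧ g = X * c * dg δ * (X * c)⁻¹ := by
  have hd : Function.Injective fun i => (X⁻¹ * g * X).val i i := by
    intro a b hab
    apply hinj
    simpa [h.2] using hab
  obtain ⟨c, hc, hT⟩ := upper_diagonalize h.1 hd
  refine ⟨c, hc, ?_⟩
  have hT2 : X⁻¹ * g * X = c * dg δ * c⁻¹ := by
    ext1
    rw [hT]
    show _ = c.val * (dg δ).val * c⁻¹.val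
    congr 2
    rw [dg_val]
    congr 1
    funext i
    exact h.2 i
  have : g = X * (X⁻¹ * g * X) * X⁻¹ := by group
  rw [this, hT2]
  group

end Complex

end Vale.Agent.Lib.P002
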