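import Vale.Agent.Lib.P002.TriGen

/-!
The group theoretic core of surjectivity of the chart: a tuple whose flags are given by frames of
the two fans is the value of the chart.
-/

open Matrix

namespace Vale.Agent.Lib.P002

variable {R : Type*} [CommRing R] {n : ℕ}

theorem eq_dg_of_up_lo' {g : GLm n R} {δ δ' : Fin n → Rˣ} (h1 : IsUpD g δ) (h2 : IsLoD g δ') :
    g = dg δ ∧ δ = δ' := by
  constructor
  · ext i j
    by_cases h : i = j
    · subst h
      simp [h1.2 i]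
    · rw [eq_dg_of_up_lo h1.1 h2.1 i j h]
      simp [Matrix.diagonal_apply_ne _ h]
  · ext i
    rw [← h1.2 i, h2.2 i]

theorem exists_diag (b : GLm n R) (hb : IsUp b.val) : ∃ δ : Fin n → Rˣ, IsUpD b δ := by
  have hi := isUp_inv b hb
  have h1 : ∀ i, b.val i i * b⁻¹.val i i = 1 := by
    intro i
    rw [← IsUp.mul_diag hb hi]
    have : b.val * b⁻¹.val = 1 := by simp
    rw [this]
    simp
  have h2 : ∀ i, b⁻¹.val i i * b.val i i = 1 := fun i => by rw [mul_comm]; exact h1 i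
  exact ⟨fun i => ⟨b.val i i, b⁻¹.val i i, h1 i, h2 i⟩, hb, fun i => rfl⟩

theorem side_succ {K : ℕ} (AX : ℕ → ℕ → ℕ → Rˣ) (bX X : GLm n R) {i : ℕ} (hi : i < K)
    (h : X = fr AX (i + 1) * Wg n * bX) : X = nh K AX i * (pG (AX i) * bX) := by
  have h1 : (lh K AX i : GLm n R) = lG (AX i) := if_pos hi
  rw [h]
  show fr AX i * uG (AX i) * Wg n * bX = (fr AX i * lh K AX i) * _
  rw [h1, mul_assoc (fr AX i), uG_rel]
  simp only [mul_assoc]

theorem side_same {K : ℕ} (AX : ℕ → ℕ → ℕ → Rˣ) (bX X : GLm n R) {i : ℕ} (hi : i < K)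
    (h : X = fr AX i * Wg n * bX) :
    X = nh K AX i * Wg n * ((Wg n * lG (AX i) * Wg n)⁻¹ * bX) := by
  have h1 : (lh K AX i : GLm n R) = lG (AX i) := if_pos hi
  rw [h]
  show _ = (fr AX i * lh K AX i) * Wg n * ((Wg n * lG (AX i) * Wg n)⁻¹ * bX)
  rw [h1]
  have hWi : (Wg n : GLm n R)⁻¹ = Wg n := Wg_inv n
  calc fr AX i * Wg n * bX = fr AX i * (Wg n)⁻¹ * bX := by rw [hWi]
    _ = fr AX i * lG (AX i) * Wg n * ((Wg n * lG (AX i) * Wg n)⁻¹ * bX) := by group

theorem eP_up (AX : ℕ → ℕ → ℕ → Rˣ) (i : ℕ) {bX : GLm n R} {δ : Fin n → Rˣ} (h : IsUpD bX δ) :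
    IsUpD ((Wg n * lG (AX i) * Wg n)⁻¹ * bX) δ := by
  have h1 := (Wg_conj_isLoD (lG_lo (n := n) (AX i))).inv.mul h
  have e : (rv (1 : Fin n → Rˣ))⁻¹ * δ = δ := by
    ext j
    simp [rv]
  rwa [e] at h1

theorem cg_move {G : Type*} [Group G] {H N N' X X' : G} (h : H * (N * X) = N' * X') :
    N'⁻¹ * H * N = X' * X⁻¹ := by
  calc N'⁻¹ * H * N = N'⁻¹ * (H * (N * X)) * X⁻¹ := by group
    _ = N'⁻¹ * (N' * X') * X⁻¹ := by rw [h]
    _ = X' * X⁻¹ := by group

theorem cg_add1 {G : Type*} [CommGroup G] (a q b p : G) :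
    (a * q * (b * p)⁻¹)⁻¹ * a * b⁻¹ = p * q⁻¹ := by
  apply Additive.ofMul.injective
  simp only [ofMul_mul, ofMul_inv]
  abel

theorem cg_add2 {G : Type*} [CommGroup G] (p q d : G) : p * q⁻¹ * d⁻¹ = (q * d * p⁻¹)⁻¹ := by
  apply Additive.ofMul.injective
  simp only [ofMul_mul, ofMul_inv]
  abel

theorem cg_add3 {G : Type*} [CommGroup G] (Q E P qk pk : G) :
    Q = E * P * (qk * E * pk⁻¹)⁻¹ * (Q * qk * (P * pk)⁻¹) := by
  apply Additive.ofMul.injective
  simp only [ofMul_mul, ofMul_inv]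
  abel

/-- The group theoretic core of surjectivity of the chart. -/
theorem dominance_core {K : ℕ} (hK : 0 < K) (At : ℕ → GLm n R) (D : ℕ → Fin n → Rˣ)
    (S Hs : ℕ → GLm n R) (AP AQ : ℕ → ℕ → ℕ → Rˣ) (bP bQ : ℕ → GLm n R)
    (δP δQ : ℕ → Fin n → Rˣ)
    (hHs0 : Hs 0 = 1) (hHs : ∀ v, Hs (v + 1) = Hs v * At (v + 1))
    (heig : ∀ i ≤ K, At (i + 1) * S i = S i * dg (D (i + 1)))
    (hA0 : At 0 * Hs (K + 1) = 1) (hA0up : IsUpD (At 0) (D 0))
    (hbP : ∀ i ≤ K, IsUpD (bP i) (δP i)) (hbQ : ∀ i ≤ K, IsUpD (bQ i) (δQ i))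
    (hSP : ∀ i ≤ K, S i = fr AP i * Wg n * bP i)
    (hSQ : ∀ i ≤ K, Hs i * S i = fr AQ i * Wg n * bQ i) :
    PinCond K D AP AQ ∧ ∀ v ≤ K + 1, At v = Av K D AP AQ v := by
  -- the diagonal at the first step
  have h00 : δP 0 = δQ 0 := by
    have h1 := hSP 0 (Nat.zero_le K)
    have h2 := hSQ 0 (Nat.zero_le K)
    rw [hHs0, one_mul, h1] at h2
    have h3 : bP 0 = bQ 0 := by
      have : (fr AP 0 : GLm n R) = 1 := rfl
      have h4 : (fr AQ 0 : GLm n R) = 1 := rfl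
      rw [this, h4, one_mul] at h2
      exact mul_left_cancel h2
    ext i
    rw [← (hbP 0 (Nat.zero_le K)).2 i, ← (hbQ 0 (Nat.zero_le K)).2 i, h3]
  let y : ℕ → Fin n → Rˣ := fun i => rv (δQ i * D (i + 1) * (δP i)⁻¹)
  -- the step relation
  have hstep : ∀ i ≤ K, Hs (i + 1) * S i = fr AQ i * Wg n * bQ i * dg (D (i + 1)) := by
    intro i hi
    rw [hHs, mul_assoc, heig i hi, ← mul_assoc, hSQ i hi]
  have hY : ∀ i, i < K → (nh K AQ i)⁻¹ * Hs (i + 1) * nh K AP i = dg (y i) ∧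
      y i = dT (AQ i) * δQ (i + 1) * (dT (AP i) * δP (i + 1))⁻¹ := by
    intro i hi
    have hi' : i ≤ K := le_of_lt hi
    have hi1 : i + 1 ≤ K := hi
    have hup : IsUpD ((nh K AQ i)⁻¹ * Hs (i + 1) * nh K AP i)
        (dT (AQ i) * δQ (i + 1) * (dT (AP i) * δP (i + 1))⁻¹) := by
      have e1 := side_succ (K := K) AP (bP (i + 1)) (S (i + 1)) hi (hSP (i + 1) hi1)
      have e2 := side_succ (K := K) AQ (bQ (i + 1)) (Hs (i + 1) * S (i + 1)) hi (hSQ (i + 1) hi1)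
      rw [e1] at e2
      rw [cg_move e2]
      exact ((pG_up (AQ i)).mul (hbQ _ hi1)).mul ((pG_up (AP i)).mul (hbP _ hi1)).inv
    have hlo : IsLoD ((nh K AQ i)⁻¹ * Hs (i + 1) * nh K AP i) (y i) := by
      have e1 := side_same (K := K) AP (bP i) (S i) hi (hSP i hi')
      have e2 := side_same (K := K) AQ (bQ i) (fr AQ i * Wg n * bQ i) hi rfl
      have e3 := hstep i hi'
      set eP := (Wg n * lG (AP i) * Wg n)⁻¹ * bP i with heP
      set eQ := (Wg n * lG (AQ i) * Wg n)⁻¹ * bQ i with heQ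
      have hP : IsUpD eP (δP i) := eP_up _ _ (hbP i hi')
      have hQ : IsUpD eQ (δQ i) := eP_up _ _ (hbQ i hi')
      have e4 : Hs (i + 1) * (nh K AP i * (Wg n * eP)) =
          nh K AQ i * (Wg n * (eQ * dg (D (i + 1)))) := by
        rw [← mul_assoc (nh K AP i), ← e1, e3, e2]
        simp only [mul_assoc]
      have e5 := cg_move e4
      rw [e5]
      have e6 : Wg n * (eQ * dg (D (i + 1))) * (Wg n * eP)⁻¹ =
          Wg n * (eQ * dg (D (i + 1)) * eP⁻¹) * Wg n := by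
        simp only [_root_.mul_inv_rev, Wg_inv, mul_assoc]
      rw [e6]
      exact Wg_conj_isUpD ((hQ.mul (dg_isUpD _)).mul hP.inv)
    have h := eq_dg_of_up_lo' hup hlo
    exact ⟨h.1.trans (by rw [h.2]), h.2.symm⟩
  have htau : ∀ i, i < K → tauSeq D AP AQ (i + 1) = (y i)⁻¹ := by
    intro i
    induction i with
    | zero =>
      intro _
      show (rv (D 1))⁻¹ = (y 0)⁻¹
      congr 1
      show rv (D 1) = rv (δQ 0 * D 1 * (δP 0)⁻¹)
      rw [h00]
      congr 1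
      apply Additive.ofMul.injective
      simp only [ofMul_mul, ofMul_inv]
      abel
    | succ i ih =>
      intro hi
      have h1 := ih (by omega)
      have h2 := (hY i (by omega)).2
      show rv (tauSeq D AP AQ (i + 1) * dT (AQ i) * (dT (AP i))⁻¹ * (D (i + 2))⁻¹) = (y (i + 1))⁻¹
      rw [h1, h2, cg_add1, cg_add2]
      rfl
  -- the last gluing matrix
  have hZ : (fr AP K)⁻¹ * At 0 * fr AQ K = dg (D 0) ∧ D 0 = (y K)⁻¹ := by
    have hup : IsUpD ((fr AP K)⁻¹ * At 0 * fr AQ K) (D 0) := by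
      have h := ((fr_up (n := n) AP K).inv.mul hA0up).mul (fr_up (n := n) AQ K)
      simpa using h
    have hinv : ((fr AP K)⁻¹ * At 0 * fr AQ K)⁻¹ =
        Wg n * (bQ K * dg (D (K + 1)) * (bP K)⁻¹) * Wg n := by
      have e1 : Hs (K + 1) = (At 0)⁻¹ := eq_inv_of_mul_eq_one_right hA0
      have e2 := hstep K le_rfl
      rw [hSP K le_rfl, e1] at e2
      have e3 : (At 0)⁻¹ * (fr AP K * (Wg n * bP K)) =
          fr AQ K * (Wg n * (bQ K * dg (D (K + 1)))) := by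
        simpa only [mul_assoc] using e2
      have e4 := cg_move e3
      have e5 : ((fr AP K)⁻¹ * At 0 * fr AQ K)⁻¹ = (fr AQ K)⁻¹ * (At 0)⁻¹ * fr AP K := by group
      rw [e5, e4]
      simp only [_root_.mul_inv_rev, Wg_inv, mul_assoc]
    have hlo : IsLoD ((fr AP K)⁻¹ * At 0 * fr AQ K) (y K)⁻¹ := by
      have h1 : IsLoD (((fr AP K)⁻¹ * At 0 * fr AQ K)⁻¹) (y K) := by
        rw [hinv]
        exact Wg_conj_isUpD (((hbQ K le_rfl).mul (dg_isUpD _)).mul (hbP K le_rfl).inv)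
      have h2 := h1.inv
      rwa [inv_inv] at h2
    exact eq_dg_of_up_lo' hup hlo
  have hG : ∀ j, j ≤ K + 1 → Gv K D AP AQ j = (Hs j)⁻¹ := by
    intro j hj
    cases j with
    | zero =>
      rw [hHs0]
      simp [Gv]
    | succ i =>
      by_cases hi : i < K
      · show nh K AP i * dg (tauH K D AP AQ (i + 1)) * (nh K AQ i)⁻¹ = _
        have e1 : tauH K D AP AQ (i + 1) = tauSeq D AP AQ (i + 1) := if_pos hi
        rw [e1, htau i hi, dg_inv]
        have e2 := (hY i hi).1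
        have e3 : Hs (i + 1) = nh K AQ i * dg (y i) * (nh K AP i)⁻¹ := by
          rw [← e2]
          group
        rw [e3]
        group
      · have hiK : i = K := by omega
        subst hiK
        show nh i AP i * dg (tauH i D AP AQ (i + 1)) * (nh i AQ i)⁻¹ = _
        have e1 : tauH i D AP AQ (i + 1) = D 0 := if_neg (by omega)
        rw [e1, nh_self, nh_self, ← hZ.1]
        have e2 : (Hs (i + 1))⁻¹ = At 0 := (eq_inv_of_mul_eq_one_left hA0).symm
        rw [e2]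
        group
  refine ⟨?_, ?_⟩
  · -- the closing condition
    unfold PinCond
    obtain ⟨i, rfl⟩ : ∃ i, K = i + 1 := ⟨K - 1, by omega⟩
    have hi : i < i + 1 := Nat.lt_succ_self i
    have e0 : i + 1 - 1 = i := rfl
    rw [e0, htau i hi, inv_inv, (hY i hi).2]
    have e1 : rv (D 0) = (δQ (i + 1) * D (i + 1 + 1) * (δP (i + 1))⁻¹)⁻¹ := by
      rw [hZ.2]
      show rv (rv (δQ (i + 1) * D (i + 1 + 1) * (δP (i + 1))⁻¹))⁻¹ = _
      rw [rv_inv, rv_rv]
    rw [e1]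
    exact cg_add3 _ _ _ _ _
  · intro v hv
    cases v with
    | zero =>
      show At 0 = Gv K D AP AQ (K + 1)
      rw [hG (K + 1) le_rfl]
      rw [eq_inv_iff_mul_eq_one]
      exact hA0
    | succ j =>
      show At (j + 1) = Gv K D AP AQ j * (Gv K D AP AQ (j + 1))⁻¹
      rw [hG j (by omega), hG (j + 1) hv, inv_inv, hHs]
      group

end Vale.Agent.Lib.P002
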