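import Mathlib

/-!
Statement definitions for representations of the fundamental group of the projective line minus
`K + 2` points with prescribed regular semisimple local monodromy.
-/

open Matrix

namespace Vale.Agent.Lib.P002

/-- The group `SL_r(ℂ)`. -/
abbrev SLc (r : ℕ) := Matrix.SpecialLinearGroup (Fin r) ℂ

variable {r s : ℕ}

/-- The fundamental group of the line minus `s` points is generated by `γ_0, ..., γ_{s-1}`
with the one relation `γ_0 ⋯ γ_{s-1} = 1`. A tuple `A` of matrices gives the homomorphism from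
the free group on the `γ_i`. -/
def rho (A : Fin s → SLc r) : FreeGroup (Fin s) →* SLc r := FreeGroup.lift A

/-- The tuple satisfies the relation. -/
def IsRep (A : Fin s → SLc r) : Prop := (List.ofFn A).prod = 1

/-- `M` lies in the conjugacy class of `diag(l)`. -/
def InClass (M : SLc r) (l : Fin r → ℂ) : Prop :=
  ∃ P : (Matrix (Fin r) (Fin r) ℂ)ˣ,
    (M : Matrix (Fin r) (Fin r) ℂ) = P.val * Matrix.diagonal l * P⁻¹.val

/-- The representation given by the tuple is semisimple. -/
def IsSS (A : Fin s → SLc r) : Prop :=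
  ∀ U : Submodule ℂ (Fin r → ℂ), (∀ i, ∀ x ∈ U, (A i : Matrix (Fin r) (Fin r) ℂ).mulVec x ∈ U) →
    ∃ U' : Submodule ℂ (Fin r → ℂ),
      (∀ i, ∀ x ∈ U', (A i : Matrix (Fin r) (Fin r) ℂ).mulVec x ∈ U') ∧ IsCompl U U'

/-- The set `Y` of (tuples representing) semisimple representations with local monodromy in the
conjugacy classes of `diag(l i)`. -/
def charVar (l : Fin s → Fin r → ℂ) : Set (Fin s → SLc r) :=
  {A | IsRep A ∧ (∀ i, InClass (A i) (l i)) ∧ IsSS A}

/-- The ring of integers of `L`, as a subset of `ℂ`. -/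
def OL (L : IntermediateField ℚ ℂ) : Set ℂ := {x | x ∈ L ∧ IsIntegral ℤ x}

/-- The point of the character variety given by `A` is `O_L`-integral: all coefficients of all
characteristic polynomials of the elements of the group lie in `O_L`. -/
def IsIntegralPt (L : IntermediateField ℚ ℂ) (A : Fin s → SLc r) : Prop :=
  ∀ (w : FreeGroup (Fin s)) (k : ℕ),
    ((rho A w : SLc r) : Matrix (Fin r) (Fin r) ℂ).charpoly.coeff k ∈ OL L

/-- The invariant flag of `M` attached to the ordering `l` of the eigenvalues: its `k`-th member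
is the sum of the eigenspaces for `l 0, ..., l (k-1)`. -/
def flagOf (M : SLc r) (l : Fin r → ℂ) (k : ℕ) : Submodule ℂ (Fin r → ℂ) :=
  ⨆ (m : Fin r) (_ : m.val < k),
    Module.End.eigenspace (Matrix.toLin' (M : Matrix (Fin r) (Fin r) ℂ)) (l m)

/-- Three flags are in general position: `E a + F b + G c` is everything when `a + b + c = r`. -/
def GenTriple (E F G : ℕ → Submodule ℂ (Fin r → ℂ)) : Prop :=
  ∀ a b c, a + b + c = r → E a ⊔ F b ⊔ G c = ⊤

/-- The partial product `A_1 ⋯ A_{j-1}`. -/
def Hprod (A : Fin s → SLc r) (j : ℕ) : SLc r := (((List.ofFn A).take j).drop 1).prod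

/-- The flag of `A j` moved by `A_1 ⋯ A_{j-1}`: the invariant flag of the conjugate of the
local monodromy seen from the other sheet. -/
def flagT (A : Fin s → SLc r) (l : Fin s → Fin r → ℂ) (j : Fin s) (k : ℕ) :
    Submodule ℂ (Fin r → ℂ) :=
  (flagOf (A j) (l j) k).map (Matrix.toLin' ((Hprod A j.val : SLc r) : Matrix (Fin r) (Fin r) ℂ))

/-- General position of the invariant flags. Cut the sphere along the circle through the `K + 2`
punctures, into two polygons, and triangulate both polygons by the diagonals from the vertex `0`.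
The condition asks that the three flags at the vertices of each triangle, as seen from that
polygon, are in general position. -/
def IsGenericPt {K : ℕ} (l : Fin (K + 2) → Fin r → ℂ) (A : Fin (K + 2) → SLc r) : Prop :=
  ∀ (i : ℕ) (hi : i < K),
    GenTriple (flagOf (A 0) (l 0)) (flagOf (A ⟨i + 1, by omega⟩) (l ⟨i + 1, by omega⟩))
        (flagOf (A ⟨i + 2, by omega⟩) (l ⟨i + 2, by omega⟩)) ∧
      GenTriple (flagOf (A 0) (l 0)) (flagT A l ⟨i + 1, by omega⟩) (flagT A l ⟨i + 2, by omega⟩)

/-- The generic part of `Y`. -/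
def genericLocus {K : ℕ} (l : Fin (K + 2) → Fin r → ℂ) : Set (Fin (K + 2) → SLc r) :=
  {A | A ∈ charVar l ∧ IsGenericPt l A}

/-- The value of a polynomial in the traces of finitely many words at a tuple. -/
noncomputable def evalTr {m : ℕ} (w : Fin m → FreeGroup (Fin s)) (P : MvPolynomial (Fin m) ℂ)
    (A : Fin s → SLc r) : ℂ :=
  MvPolynomial.eval (fun i => Matrix.trace ((rho A (w i) : SLc r) : Matrix (Fin r) (Fin r) ℂ)) P

end Vale.Agent.Lib.P002
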