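import Vale.Agent.Lib.P002.Core

/-!
Eigenflags in terms of columns, diagonalisation of triangular matrices, general position of
triples of matrices, and the frames attached to a sequence of flags.
-/

open Matrix Polynomial

namespace Vale.Agent.Lib.P002

variable {r : ℕ}

theorem cl_mul_diag (P : Mat r ℂ) (l : Fin r → ℂ) (m : Fin r) :
    cl (P * Matrix.diagonal l) m = l m • cl P m := by
  ext i
  simp [cl, Matrix.mul_diagonal, mul_comm]

theorem eigenspace_eq (M : Mat r ℂ) (P : GLm r ℂ) (l : Fin r → ℂ) (hl : Function.Injective l)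
    (hM : M = P.val * Matrix.diagonal l * P⁻¹.val) (m : Fin r) :
    Module.End.eigenspace (Matrix.toLin' M) (l m) = Submodule.span ℂ {cl P.val m} := by
  have hPi : P⁻¹.val * P.val = 1 := by simp
  have hMP : M * P.val = P.val * Matrix.diagonal l := by
    rw [hM, Matrix.mul_assoc, hPi, Matrix.mul_one]
  ext x
  rw [Module.End.mem_eigenspace_iff, Matrix.toLin'_apply, Submodule.mem_span_singleton]
  constructor
  · intro hx
    let y := P⁻¹.val.mulVec x
    have hxy : x = P.val.mulVec y := by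
      show x = P.val.mulVec (P⁻¹.val.mulVec x)
      rw [Matrix.mulVec_mulVec]
      have : P.val * P⁻¹.val = 1 := by simp
      rw [this, Matrix.one_mulVec]
    have h1 : P.val.mulVec ((Matrix.diagonal l).mulVec y) = P.val.mulVec (l m • y) := by
      rw [Matrix.mulVec_mulVec, ← hMP, ← Matrix.mulVec_mulVec, ← hxy, hx, Matrix.mulVec_smul, ← hxy]
    have hinj : Function.Injective P.val.mulVec := by
      intro a b hab
      have := congrArg P⁻¹.val.mulVec hab
      simpa [Matrix.mulVec_mulVec, hPi] using this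
    have h2 := hinj h1
    have h3 : ∀ a, a ≠ m → y a = 0 := by
      intro a ha
      have h4 := congrFun h2 a
      rw [Matrix.mulVec_diagonal] at h4
      simp only [Pi.smul_apply, smul_eq_mul] at h4
      have h5 : (l a - l m) * y a = 0 := by linear_combination h4
      rcases mul_eq_zero.mp h5 with h6 | h6
      · exact absurd (hl (sub_eq_zero.mp h6)) ha
      · exact h6
    refine ⟨y m, ?_⟩
    rw [hxy, mulVec_eq_sum, Finset.sum_eq_single m]
    · intro a _ ha
      rw [h3 a ha, zero_smul]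
    · exact fun h => absurd (Finset.mem_univ _) h
  · rintro ⟨c, rfl⟩
    rw [Matrix.mulVec_smul, ← cl_mul, hMP, cl_mul_diag, smul_comm]

theorem flagOf_eq (M : SLc r) (P : GLm r ℂ) (l : Fin r → ℂ) (hl : Function.Injective l)
    (hM : (M : Mat r ℂ) = P.val * Matrix.diagonal l * P⁻¹.val) (k : ℕ) :
    flagOf M l k = Fl P.val k := by
  unfold flagOf
  apply le_antisymm
  · refine iSup₂_le fun m hm => ?_
    rw [eigenspace_eq _ P l hl hM m, Submodule.span_le, Set.singleton_subset_iff]
    exact cl_mem_Fl _ hm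
  · refine Fl_le fun m hm => ?_
    refine Submodule.mem_iSup_of_mem m (Submodule.mem_iSup_of_mem hm ?_)
    rw [eigenspace_eq _ P l hl hM m]
    exact Submodule.mem_span_singleton_self _

/-! ### Diagonalising triangular matrices -/

theorem IsUp.pow {T : Mat r ℂ} (hT : IsUp T) (n : ℕ) :
    IsUp (T ^ n) ∧ ∀ a, (T ^ n) a a = T a a ^ n := by
  induction n with
  | zero =>
    refine ⟨isUp_one, fun a => ?_⟩
    simp
  | succ n ih =>
    refine ⟨?_, fun a => ?_⟩
    · rw [pow_succ]
      exact ih.1.mul hT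
    · rw [pow_succ, IsUp.mul_diag ih.1 hT, ih.2, pow_succ]

theorem aeval_up {T : Mat r ℂ} (hT : IsUp T) (q : ℂ[X]) :
    IsUp (aeval T q) ∧ ∀ a, (aeval T q) a a = q.eval (T a a) := by
  induction q using Polynomial.induction_on' with
  | add p q hp hq =>
    refine ⟨?_, fun a => ?_⟩
    · intro i j hij
      rw [map_add, Matrix.add_apply, hp.1 i j hij, hq.1 i j hij, add_zero]
    · rw [map_add, Matrix.add_apply, hp.2, hq.2, Polynomial.eval_add]
  | monomial n c =>
    have h := hT.pow n
    rw [Polynomial.aeval_monomial]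
    refine ⟨?_, fun a => ?_⟩
    · intro i j hij
      have e : (algebraMap ℂ (Mat r ℂ)) c * T ^ n = c • T ^ n := by
        rw [Algebra.algebraMap_eq_smul_one, smul_mul_assoc, one_mul]
      rw [e, Matrix.smul_apply, h.1 i j hij, smul_zero]
    · have e : (algebraMap ℂ (Mat r ℂ)) c * T ^ n = c • T ^ n := by
        rw [Algebra.algebraMap_eq_smul_one, smul_mul_assoc, one_mul]
      rw [e, Matrix.smul_apply, h.2, smul_eq_mul, Polynomial.eval_monomial]

/-- An upper triangular matrix with distinct diagonal entries is diagonalised by an upper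
triangular matrix. -/
theorem upper_diagonalize {T : Mat r ℂ} (hT : IsUp T)
    (hd : Function.Injective fun i => T i i) :
    ∃ c : GLm r ℂ, IsUp c.val ∧ T = c.val * Matrix.diagonal (fun i => T i i) * c⁻¹.val := by
  classical
  let q : Fin r → ℂ[X] := fun m => ∏ i ∈ Finset.univ.erase m, (X - C (T i i))
  let Pi_ : Fin r → Mat r ℂ := fun m => aeval T (q m)
  have hchar : T.charpoly = ∏ i, (X - C (T i i)) :=
    Matrix.charpoly_of_isUpperTriangular T (fun _ _ h => hT _ _ h)
  have hq : ∀ m, (X - C (T m m)) * q m = T.charpoly := by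
    intro m
    rw [hchar]
    exact Finset.mul_prod_erase Finset.univ (fun i => X - C (T i i)) (Finset.mem_univ m)
  have hPi : ∀ m, T * Pi_ m = T m m • Pi_ m := by
    intro m
    have h1 : aeval T ((X - C (T m m)) * q m) = 0 := by
      rw [hq, Matrix.aeval_self_charpoly]
    rw [map_mul, map_sub, aeval_X, aeval_C, sub_mul, sub_eq_zero] at h1
    rw [Algebra.algebraMap_eq_smul_one, smul_mul_assoc, one_mul] at h1
    exact h1
  let c0 : Mat r ℂ := Matrix.of fun i m => Pi_ m i m
  have hc0 : IsUp c0 := fun i m hmi => (aeval_up hT (q m)).1 i m hmi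
  have hc0d : ∀ m, c0 m m ≠ 0 := by
    intro m
    show (aeval T (q m) : Mat r ℂ) m m ≠ 0
    rw [(aeval_up hT (q m)).2, Polynomial.eval_prod, Finset.prod_ne_zero_iff]
    intro i hi
    simp only [eval_sub, eval_X, eval_C]
    rw [sub_ne_zero]
    intro e
    exact (Finset.mem_erase.mp hi).1 (hd e).symm
  let c : GLm r ℂ := toGL c0 (isUnit_det_of_up hc0 fun i => (hc0d i).isUnit)
  have hmul : T * c.val = c.val * Matrix.diagonal fun i => T i i := by
    ext i m
    rw [Matrix.mul_diagonal]
    have h1 := congrFun (congrFun (hPi m) i) m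
    rw [Matrix.mul_apply, Matrix.smul_apply, smul_eq_mul] at h1
    rw [Matrix.mul_apply]
    show ∑ a, T i a * (Pi_ m : Mat r ℂ) a m = (Pi_ m : Mat r ℂ) i m * T m m
    rw [h1, mul_comm]
  refine ⟨c, hc0, ?_⟩
  rw [← hmul, Matrix.mul_assoc]
  have : c.val * c⁻¹.val = 1 := by simp
  rw [this, Matrix.mul_one]

/-! ### General position of matrices -/

/-- General position of the flags given by the initial columns of three matrices. -/
def GenG (Q1 Q2 Q3 : Mat r ℂ) : Prop :=
  ∀ a b c, a + b + c = r → Fl Q1 a ⊔ Fl Q2 b ⊔ Fl Q3 c = ⊤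

theorem GenG.left_mul {Q1 Q2 Q3 : Mat r ℂ} (h : GenG Q1 Q2 Q3) (g : GLm r ℂ) :
    GenG (g.val * Q1) (g.val * Q2) (g.val * Q3) := by
  intro a b c habc
  rw [Fl_map, Fl_map, Fl_map, ← Submodule.map_sup, ← Submodule.map_sup, h a b c habc,
    Submodule.map_top, LinearMap.range_eq_top]
  intro x
  refine ⟨g⁻¹.val.mulVec x, ?_⟩
  rw [Matrix.toLin'_apply, Matrix.mulVec_mulVec]
  have : g.val * g⁻¹.val = 1 := by simp
  rw [this, Matrix.one_mulVec]

theorem GenG.congr {Q1 Q2 Q3 Q1' Q2' Q3' : Mat r ℂ} (h : GenG Q1 Q2 Q3)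
    (h1 : ∀ k, Fl Q1 k = Fl Q1' k) (h2 : ∀ k, Fl Q2 k = Fl Q2' k) (h3 : ∀ k, Fl Q3 k = Fl Q3' k) :
    GenG Q1' Q2' Q3' := by
  intro a b c habc
  rw [← h1, ← h2, ← h3]
  exact h a b c habc

/-- Frames for a sequence of flags opposite to the standard flag. -/
theorem exists_frames (S : ℕ → GLm r ℂ) (K : ℕ) (h0 : ∃ b : GLm r ℂ, IsUp b.val ∧ S 0 = Wg r * b)
    (hgen : ∀ i < K, GenG (1 : Mat r ℂ) (S i).val (S (i + 1)).val) :
    ∃ (Arr : ℕ → ℕ → ℕ → ℂˣ) (b : ℕ → GLm r ℂ),
      ∀ i ≤ K, IsUp (b i).val ∧ S i = fr Arr i * Wg r * b i := by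
  induction K with
  | zero =>
    obtain ⟨b0, hb0, hS⟩ := h0
    refine ⟨fun _ _ _ => 1, fun _ => b0, fun i hi => ?_⟩
    obtain rfl : i = 0 := by omega
    refine ⟨hb0, ?_⟩
    show S 0 = 1 * Wg r * b0
    rw [one_mul, hS]
  | succ K ih =>
    obtain ⟨Arr, b, hb⟩ := ih fun i hi => hgen i (by omega)
    obtain ⟨hbK, hSK⟩ := hb K le_rfl
    set f : GLm r ℂ := fr Arr K with hf
    have hfup : IsUpD f 1 := fr_up Arr K
    let T : GLm r ℂ := f⁻¹ * S (K + 1)
    have hG : GenG (1 : Mat r ℂ) (W r : Mat r ℂ) T.val := by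
      have h1 := (hgen K (Nat.lt_succ_self K)).left_mul f⁻¹
      refine h1.congr (fun k => ?_) (fun k => ?_) (fun k => rfl)
      · rw [Matrix.mul_one]
        have := Fl_mul_up (1 : Mat r ℂ) f⁻¹ (isUp_inv f hfup.1) k
        rwa [Matrix.one_mul] at this
      · have e : f⁻¹.val * (S K).val = (W r : Mat r ℂ) * (b K).val := by
          rw [hSK]
          show (f⁻¹ * (f * Wg r * b K)).val = _
          have : f⁻¹ * (f * Wg r * b K) = Wg r * b K := by group
          rw [this]
          rfl
        rw [e]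
        exact Fl_mul_up _ _ hbK k
    have hbig : ∀ a c, a + c = r → Fl (1 : Mat r ℂ) a ⊔ Fl T.val c = ⊤ := by
      intro a c hac
      have := hG a 0 c (by omega)
      rwa [Fl_zero, sup_bot_eq] at this
    obtain ⟨u, c, hu, hc, hT⟩ := bigcell T hbig
    have hG2 : GenG (1 : Mat r ℂ) (W r : Mat r ℂ) (u.val * (W r : Mat r ℂ)) := by
      refine hG.congr (fun _ => rfl) (fun _ => rfl) (fun k => ?_)
      rw [hT]
      exact Fl_mul_up (u.val * (W r : Mat r ℂ)) c hc k
    obtain ⟨arr, harr⟩ := exists_arr r u.val hu.1 (fun i => by simpa using hu.2 i) hG2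
    have huG : (uG arr : GLm r ℂ) = u := by
      ext1
      exact harr
    let Arr' : ℕ → ℕ → ℕ → ℂˣ := fun a => if a = K then arr else Arr a
    have hfr : ∀ i ≤ K, (fr Arr' i : GLm r ℂ) = fr Arr i :=
      fr_congr fun i hi => if_neg (ne_of_lt hi)
    have hfr2 : (fr Arr' (K + 1) : GLm r ℂ) = f * u := by
      show fr Arr' K * uG (Arr' K) = f * u
      have e : Arr' K = arr := if_pos rfl
      rw [hfr K le_rfl, e, huG]
    refine ⟨Arr', fun i => if i = K + 1 then c else b i, fun i hi => ?_⟩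
    by_cases hiK : i = K + 1
    · subst hiK
      simp only [if_true]
      refine ⟨hc, ?_⟩
      rw [hfr2]
      have : S (K + 1) = f * T := by
        show S (K + 1) = f * (f⁻¹ * S (K + 1))
        group
      rw [this, hT]
      group
    · simp only [if_neg hiK]
      obtain ⟨h1, h2⟩ := hb i (by omega)
      exact ⟨h1, by rw [hfr i (by omega)]; exact h2⟩

end Vale.Agent.Lib.P002
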