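import Vale.Agent.Lib.P002.Defs
import Vale.Agent.Lib.P002.Linear

/-!
Under the genericity condition on the eigenvalues there is no proper invariant subspace.
-/

open Matrix

namespace Vale.Agent.Lib.P002

variable {r s : ℕ}

/-- The components of an element of an invariant subspace in a basis of eigenvectors are in it. -/
theorem comp_mem {V ι : Type*} [AddCommGroup V] [Module ℂ V] [DecidableEq ι] (U : Submodule ℂ V)
    (f : V →ₗ[ℂ] V) (hU : ∀ x ∈ U, f x ∈ U) (e : ι → V) (l : ι → ℂ)
    (hl : Function.Injective l) (he : ∀ j, f (e j) = l j • e j) (T : Finset ι) :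
    ∀ c : ι → ℂ, (∑ j ∈ T, c j • e j) ∈ U → ∀ j ∈ T, c j • e j ∈ U := by
  induction T using Finset.induction_on with
  | empty => simp
  | insert a T ha ih =>
    intro c hc
    rw [Finset.sum_insert ha] at hc
    have h1 : (∑ j ∈ T, (c j * (l j - l a)) • e j) ∈ U := by
      have h2 : f (c a • e a + ∑ j ∈ T, c j • e j) - l a • (c a • e a + ∑ j ∈ T, c j • e j) =
          ∑ j ∈ T, (c j * (l j - l a)) • e j := by
        rw [map_add, map_smul, he, map_sum, smul_add, Finset.smul_sum]
        have h3 : ∀ j ∈ T, (c j * (l j - l a)) • e j = f (c j • e j) - l a • (c j • e j) := by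
          intro j _
          rw [map_smul, he, smul_smul, smul_smul, ← sub_smul]
          congr 1
          ring
        rw [Finset.sum_congr rfl h3, Finset.sum_sub_distrib, smul_smul, smul_smul, mul_comm (c a)]
        abel
      rw [← h2]
      exact U.sub_mem (hU _ hc) (U.smul_mem _ hc)
    have h2 := ih _ h1
    have h3 : ∀ j ∈ T, c j • e j ∈ U := by
      intro j hj
      have h4 := U.smul_mem (l j - l a)⁻¹ (h2 j hj)
      have hne : l j - l a ≠ 0 := by
        rw [sub_ne_zero]
        intro h
        exact ha (hl h ▸ hj)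
      rwa [smul_smul, mul_comm (c j), ← mul_assoc, inv_mul_cancel₀ hne, one_mul] at h4
    have h4 : c a • e a ∈ U := by
      have := U.sub_mem hc (U.sum_mem h3)
      simpa using this
    intro j hj
    rcases Finset.mem_insert.mp hj with rfl | hj
    · exact h4
    · exact h3 j hj

/-- Being preserved by a matrix. -/
def Pres (U : Submodule ℂ (Fin r → ℂ)) (M : SLc r) : Prop :=
  ∀ x ∈ U, (M : Matrix (Fin r) (Fin r) ℂ).mulVec x ∈ U

open Classical in
/-- The determinant on an invariant subspace. -/
noncomputable def dU (U : Submodule ℂ (Fin r → ℂ)) (M : SLc r) : ℂ :=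
  if h : Pres U M then
    LinearMap.det (LinearMap.restrict (Matrix.toLin' (M : Matrix (Fin r) (Fin r) ℂ))
      (fun x hx => by simpa using h x hx))
  else 1

theorem Pres.mul {U : Submodule ℂ (Fin r → ℂ)} {M N : SLc r} (hM : Pres U M) (hN : Pres U N) :
    Pres U (M * N) := by
  intro x hx
  have := hM _ (hN x hx)
  rw [Matrix.mulVec_mulVec] at this
  exact this

theorem Pres.one {U : Submodule ℂ (Fin r → ℂ)} : Pres U (1 : SLc r) := by
  intro x hx
  simpa using hx

theorem dU_mul {U : Submodule ℂ (Fin r → ℂ)} {M N : SLc r} (hM : Pres U M) (hN : Pres U N) :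
    dU U (M * N) = dU U M * dU U N := by
  unfold dU
  rw [dif_pos hM, dif_pos hN, dif_pos (hM.mul hN), ← map_mul]
  congr 1
  ext x i
  simp [Matrix.mulVec_mulVec, LinearMap.restrict_apply]

theorem dU_one {U : Submodule ℂ (Fin r → ℂ)} : dU U (1 : SLc r) = 1 := by
  unfold dU
  rw [dif_pos Pres.one]
  have : LinearMap.restrict (Matrix.toLin' ((1 : SLc r) : Matrix (Fin r) (Fin r) ℂ))
      (fun x hx => by simpa using (Pres.one (U := U)) x hx) = LinearMap.id := by
    ext x i
    simp [LinearMap.restrict_apply]
  rw [this, LinearMap.det_id]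

theorem dU_list {U : Submodule ℂ (Fin r → ℂ)} (L : List (SLc r)) (h : ∀ M ∈ L, Pres U M) :
    Pres U L.prod ∧ dU U L.prod = (L.map (dU U)).prod := by
  induction L with
  | nil => exact ⟨Pres.one, dU_one⟩
  | cons a L ih =>
    have ha := h a (List.mem_cons_self)
    obtain ⟨h1, h2⟩ := ih fun M hM => h M (List.mem_cons_of_mem _ hM)
    rw [List.prod_cons, List.map_cons, List.prod_cons]
    exact ⟨ha.mul h1, by rw [dU_mul ha h1, h2]⟩

/-- The determinant on an invariant subspace of a matrix with simple prescribed spectrum. -/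
theorem dU_class (U : Submodule ℂ (Fin r → ℂ)) (M : SLc r) (l : Fin r → ℂ)
    (hl : Function.Injective l) (hM : InClass M l) (hU : Pres U M) :
    ∃ J : Finset (Fin r), J.card = Module.finrank ℂ U ∧ dU U M = ∏ j ∈ J, l j := by
  classical
  obtain ⟨P, hP⟩ := hM
  have hPi : P⁻¹.val * P.val = 1 := by simp
  have hPi2 : P.val * P⁻¹.val = 1 := by simp
  have hMP : (M : Mat r ℂ) * P.val = P.val * Matrix.diagonal l := by
    rw [hP, Matrix.mul_assoc, hPi, Matrix.mul_one]
  let f := Matrix.toLin' (M : Matrix (Fin r) (Fin r) ℂ)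
  have hf : ∀ x ∈ U, f x ∈ U := fun x hx => by simpa [f] using hU x hx
  let e : Fin r → (Fin r → ℂ) := cl P.val
  have he : ∀ j, f (e j) = l j • e j := by
    intro j
    show (M : Mat r ℂ).mulVec (cl P.val j) = _
    rw [← cl_mul, hMP, cl_mul_diag]
  have hex : ∀ x : Fin r → ℂ, x = ∑ j, (P⁻¹.val.mulVec x) j • e j := by
    intro x
    have : P.val.mulVec (P⁻¹.val.mulVec x) = x := by
      rw [Matrix.mulVec_mulVec, hPi2, Matrix.one_mulVec]
    rw [mulVec_eq_sum] at this
    exact this.symm
  let J : Finset (Fin r) := Finset.univ.filter fun j => e j ∈ U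
  -- the vectors `e j` are independent
  have hli : LinearIndependent ℂ e := by
    rw [Fintype.linearIndependent_iff]
    intro g hg j
    have h1 : P.val.mulVec g = 0 := by
      rw [mulVec_eq_sum]
      exact hg
    have h2 : g = P⁻¹.val.mulVec (P.val.mulVec g) := by
      rw [Matrix.mulVec_mulVec, hPi, Matrix.one_mulVec]
    rw [h2, h1, Matrix.mulVec_zero]
    rfl
  let v : J → U := fun j => ⟨e j.val, (Finset.mem_filter.mp j.property).2⟩
  have hliv : LinearIndependent ℂ v := by
    have h1 : LinearIndependent ℂ (fun j : J => e j.val) := hli.comp _ Subtype.val_injective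
    exact LinearIndependent.of_comp U.subtype h1
  have hspan : ⊤ ≤ Submodule.span ℂ (Set.range v) := by
    rintro ⟨x, hx⟩ -
    have h1 : ∀ j ∈ (Finset.univ : Finset (Fin r)), (P⁻¹.val.mulVec x) j • e j ∈ U := by
      apply comp_mem U f hf e l hl he Finset.univ
      rw [← hex x]
      exact hx
    have h2 : (⟨x, hx⟩ : U) = ∑ j : J, (P⁻¹.val.mulVec x) j.val • v j := by
      apply Subtype.ext
      rw [AddSubmonoidClass.coe_finsetSum]
      simp only [SetLike.val_smul, v]
      conv_lhs => rw [hex x]
      rw [Finset.sum_coe_sort J (fun j => (P⁻¹.val.mulVec x) j • e j)]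
      symm
      apply Finset.sum_subset (Finset.subset_univ _)
      intro j _ hj
      by_contra h3
      apply hj
      refine Finset.mem_filter.mpr ⟨Finset.mem_univ _, ?_⟩
      have hc : (P⁻¹.val.mulVec x) j ≠ 0 := by
        intro h0
        apply h3
        rw [h0, zero_smul]
      have := U.smul_mem ((P⁻¹.val.mulVec x) j)⁻¹ (h1 j (Finset.mem_univ _))
      rwa [smul_smul, inv_mul_cancel₀ hc, one_smul] at this
    rw [h2]
    exact Submodule.sum_mem _ fun j _ => Submodule.smul_mem _ _ (Submodule.subset_span ⟨j, rfl⟩)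
  let b : Module.Basis J ℂ U := Module.Basis.mk hliv hspan
  have hcard : J.card = Module.finrank ℂ U := by
    rw [Module.finrank_eq_card_basis b]
    simp
  refine ⟨J, hcard, ?_⟩
  unfold dU
  rw [dif_pos hU, ← LinearMap.det_toMatrix b]
  have hmat : LinearMap.toMatrix b b (LinearMap.restrict (Matrix.toLin' (M : Matrix (Fin r) (Fin r) ℂ))
      (fun x hx => by simpa using hU x hx)) = Matrix.diagonal fun j : J => l j.val := by
    ext a c
    rw [LinearMap.toMatrix_apply]
    have h1 : LinearMap.restrict (Matrix.toLin' (M : Matrix (Fin r) (Fin r) ℂ))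
        (fun x hx => by simpa using hU x hx) (b c) = l c.val • b c := by
      apply Subtype.ext
      rw [Module.Basis.mk_apply]
      show f (e c.val) = l c.val • e c.val
      exact he _
    rw [h1, map_smul, Module.Basis.repr_self, Finsupp.smul_apply, Finsupp.single_apply,
      Matrix.diagonal_apply]
    by_cases hac : c = a
    · subst hac
      simp
    · have : a ≠ c := fun h => hac h.symm
      simp [hac, this]
  rw [hmat, Matrix.det_diagonal]
  exact Finset.prod_coe_sort J (fun j => l j)

/-- The genericity condition on the eigenvalues. -/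
def GenEig (l : Fin s → Fin r → ℂ) : Prop :=
  ∀ (J : Fin s → Finset (Fin r)) (m : ℕ), 0 < m → m < r → (∀ i, (J i).card = m) →
    ∏ i, ∏ j ∈ J i, l i j ≠ 1

/-- Under the genericity condition all tuples in the classes are irreducible. -/
theorem irred_of_gen (l : Fin s → Fin r → ℂ) (hinj : ∀ i, Function.Injective (l i))
    (hgen : GenEig l) (A : Fin s → SLc r) (hrep : IsRep A) (hclass : ∀ i, InClass (A i) (l i))
    (U : Submodule ℂ (Fin r → ℂ)) (hU : ∀ i, ∀ x ∈ U, (A i : Matrix (Fin r) (Fin r) ℂ).mulVec x ∈ U) :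
    U = ⊥ ∨ U = ⊤ := by
  classical
  by_contra hne
  push Not at hne
  have hm0 : 0 < Module.finrank ℂ U := by
    rw [Module.finrank_pos_iff]
    exact Submodule.nontrivial_iff_ne_bot.mpr hne.1
  have hmr : Module.finrank ℂ U < r := by
    have := Submodule.finrank_lt (s := U) hne.2
    simpa using this
  have hd := fun i => dU_class U (A i) (l i) (hinj i) (hclass i) (hU i)
  choose J hJ hJd using hd
  have h1 := dU_list (U := U) (List.ofFn A) (fun M hM => by
    obtain ⟨i, rfl⟩ := (List.mem_ofFn' _ _).mp hM
    exact hU i)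
  have hrep' : (List.ofFn A).prod = 1 := hrep
  rw [hrep', dU_one, List.map_ofFn, List.prod_ofFn] at h1
  apply hgen J _ hm0 hmr hJ
  rw [h1.2]
  exact Finset.prod_congr rfl fun i _ => (hJd i).symm

/-- Under the genericity condition all tuples in the classes are semisimple. -/
theorem ss_of_gen (l : Fin s → Fin r → ℂ) (hinj : ∀ i, Function.Injective (l i))
    (hgen : GenEig l) (A : Fin s → SLc r) (hrep : IsRep A) (hclass : ∀ i, InClass (A i) (l i)) :
    IsSS A := by
  intro U hU
  rcases irred_of_gen l hinj hgen A hrep hclass U hU with rfl | rfl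
  · exact ⟨⊤, fun i x _ => Submodule.mem_top, isCompl_bot_top⟩
  · refine ⟨⊥, fun i x hx => ?_, isCompl_top_bot⟩
    rw [Submodule.mem_bot] at hx ⊢
    rw [hx, Matrix.mulVec_zero]

end Vale.Agent.Lib.P002
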