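import Vale.Agent.Lib.P002.ChartGen
import Vale.Agent.Lib.P002.Irred

/-!
Regular functions on a torus of possibly infinite rank, and the fact that a trace function on the
chart is one of them.
-/

open Matrix MvPolynomial

namespace Vale.Agent.Lib.P002

/-- The values of the coordinates. -/
def cv {I : Type*} (x : I → ℂˣ) : I → ℂ := fun i => (x i : ℂ)

/-- The ring of regular functions on the torus. -/
def Reg (I : Type*) : Subalgebra ℂ ((I → ℂˣ) → ℂ) :=
  Algebra.adjoin ℂ ((Set.range fun i : I => fun x : I → ℂˣ => (x i : ℂ)) ∪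
    Set.range fun i : I => fun x : I → ℂˣ => ((x i)⁻¹ : ℂˣ).val)

variable {I : Type*}

/-- Every regular function is a quotient of polynomials with nowhere vanishing denominator. -/
theorem reg_rep (f : (I → ℂˣ) → ℂ) (hf : f ∈ Reg I) :
    ∃ q d : MvPolynomial I ℂ, (∀ x : I → ℂˣ, eval (cv x) d ≠ 0) ∧
      ∀ x : I → ℂˣ, f x * eval (cv x) d = eval (cv x) q := by
  induction hf using Algebra.adjoin_induction with
  | mem g hg =>
    rcases hg with ⟨i, rfl⟩ | ⟨i, rfl⟩
    · exact ⟨X i, 1, fun x => by simp, fun x => by simp [cv]⟩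
    · refine ⟨1, X i, fun x => by simp [cv], fun x => ?_⟩
      simp [cv]
  | algebraMap c =>
    exact ⟨C c, 1, fun x => by simp, fun x => by simp [Algebra.algebraMap_eq_smul_one]⟩
  | add f g _ _ hf hg =>
    obtain ⟨q1, d1, h1, h2⟩ := hf
    obtain ⟨q2, d2, h3, h4⟩ := hg
    refine ⟨q1 * d2 + q2 * d1, d1 * d2, fun x => ?_, fun x => ?_⟩
    · rw [map_mul]
      exact mul_ne_zero (h1 x) (h3 x)
    · simp only [map_add, map_mul, Pi.add_apply, ← h2, ← h4]
      ring
  | mul f g _ _ hf hg =>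
    obtain ⟨q1, d1, h1, h2⟩ := hf
    obtain ⟨q2, d2, h3, h4⟩ := hg
    refine ⟨q1 * q2, d1 * d2, fun x => ?_, fun x => ?_⟩
    · rw [map_mul]
      exact mul_ne_zero (h1 x) (h3 x)
    · simp only [map_mul, Pi.mul_apply, ← h2, ← h4]
      ring

/-- A regular function vanishing on a product of infinite sets vanishes. -/
theorem reg_vanish (S : Set ℂˣ) (hS : S.Infinite) (f : (I → ℂˣ) → ℂ) (hf : f ∈ Reg I)
    (h0 : ∀ x : I → ℂˣ, (∀ i, x i ∈ S) → f x = 0) : ∀ x, f x = 0 := by
  obtain ⟨q, d, hd, hq⟩ := reg_rep f hf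
  have hq0 : q = 0 := by
    apply MvPolynomial.funext_set (fun _ : I => (fun u : ℂˣ => (u : ℂ)) '' S)
      (fun _ => hS.image (Units.val_injective.injOn))
    intro y hy
    have hy' : ∀ i, ∃ u ∈ S, (u : ℂ) = y i := fun i => hy i (Set.mem_univ i)
    choose u hu hu2 using hy'
    have e : y = cv u := by
      funext i
      exact (hu2 i).symm
    rw [e, ← hq, h0 u hu]
    simp
  intro x
  have h1 := hq x
  rw [hq0, map_zero] at h1
  exact (mul_eq_zero.mp h1).resolve_right (hd x)

/-- The coordinate as a unit of the ring of regular functions. -/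
def tU (i : I) : (Reg I)ˣ where
  val := ⟨fun x => (x i : ℂ), Algebra.subset_adjoin (Or.inl ⟨i, rfl⟩)⟩
  inv := ⟨fun x => ((x i)⁻¹ : ℂˣ).val, Algebra.subset_adjoin (Or.inr ⟨i, rfl⟩)⟩
  val_inv := by
    apply Subtype.ext
    funext x
    simp
  inv_val := by
    apply Subtype.ext
    funext x
    simp

/-- Evaluation at a point of the torus. -/
def evR (x : I → ℂˣ) : Reg I →+* ℂ :=
  (Pi.evalRingHom (fun _ => ℂ) x).comp (Reg I).val.toRingHom

theorem evR_apply (x : I → ℂˣ) (f : Reg I) : evR x f = f.val x := rfl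

/-- The constants. -/
def cstR : ℂ →+* Reg I := algebraMap ℂ (Reg I)

theorem evR_cst (x : I → ℂˣ) (c : ℂ) : evR x (cstR c) = c := rfl

end Vale.Agent.Lib.P002
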