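import Vale.Agent.Lib.P002.Linear

/-!
Every tuple in general position is conjugate to a value of the chart.
-/

open Matrix

namespace Vale.Agent.Lib.P002

variable {K : ℕ}

/-- The matrix of an element of `SL_r` as an invertible matrix. -/
abbrev slG {r : ℕ} : SLc r →* GLm r ℂ := Matrix.SpecialLinearGroup.toGL

theorem Hprod_one {r : ℕ} (A : Fin (K + 2) → SLc r) : Hprod A 1 = 1 := by
  unfold Hprod
  rw [List.ofFn_succ]
  simp

theorem Hprod_succ {r : ℕ} (A : Fin (K + 2) → SLc r) {i : ℕ} (hi : i + 1 < K + 2) :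
    Hprod A (i + 2) = Hprod A (i + 1) * A ⟨i + 1, hi⟩ := by
  unfold Hprod
  have h1 : (List.ofFn A).take (i + 2) = (List.ofFn A).take (i + 1) ++ [A ⟨i + 1, hi⟩] := by
    rw [List.take_add_one]
    congr 1
    have hlen : i + 1 < (List.ofFn A).length := by simpa using hi
    rw [List.getElem?_eq_getElem hlen, List.getElem_ofFn]
    rfl
  rw [h1, List.drop_append_of_le_length, List.prod_append, List.prod_singleton]
  simp

theorem prod_eq_Hprod {r : ℕ} (A : Fin (K + 2) → SLc r) :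
    (List.ofFn A).prod = A 0 * Hprod A (K + 2) := by
  unfold Hprod
  rw [List.take_of_length_le (by simp), List.ofFn_succ]
  simp

theorem dominance {r : ℕ} (hK : 0 < K) (l : Fin (K + 2) → Fin r → ℂ)
    (hinj : ∀ i, Function.Injective (l i)) (D : ℕ → Fin r → ℂˣ)
    (hD : ∀ (v : Fin (K + 2)) (j : Fin r), ((D v.val j : ℂˣ) : ℂ) = l v j)
    (A : Fin (K + 2) → SLc r) (hrep : IsRep A) (hclass : ∀ v, InClass (A v) (l v))
    (hgen : IsGenericPt l A) :
    ∃ (AP AQ : ℕ → ℕ → ℕ → ℂˣ) (h : GLm r ℂ), PinCond K D AP AQ ∧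
      ∀ v : Fin (K + 2), h⁻¹ * slG (A v) * h = Av K D AP AQ v.val := by
  choose P hP using hclass
  have hdg : ∀ v : Fin (K + 2), Matrix.diagonal (l v) = (dg (D v.val)).val := by
    intro v
    rw [dg_val]
    congr 1
    funext j
    rw [hD]
  have heig0 : ∀ v : Fin (K + 2), slG (A v) * P v = P v * dg (D v.val) := by
    intro v
    ext1
    show (A v : Mat r ℂ) * (P v).val = (P v).val * (dg (D v.val)).val
    rw [hP v, ← hdg, Matrix.mul_assoc]
    have : (P v)⁻¹.val * (P v).val = 1 := by simp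
    rw [this, Matrix.mul_one]
  have hF : ∀ (v : Fin (K + 2)) (m : ℕ), flagOf (A v) (l v) m = Fl (P v).val m :=
    fun v m => flagOf_eq (A v) (P v) (l v) (hinj v) (hP v) m
  let i1 : Fin (K + 2) := ⟨1, by omega⟩
  -- general position in terms of the matrices
  have hG1 : ∀ (i : ℕ) (hi : i < K), GenG (P 0).val (P ⟨i + 1, by omega⟩).val (P ⟨i + 2, by omega⟩).val := by
    intro i hi a b c habc
    have := (hgen i hi).1 a b c habc
    rwa [hF, hF, hF] at this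
  have hG2 : ∀ (i : ℕ) (hi : i < K), GenG (P 0).val
      ((Hprod A (i + 1) : Mat r ℂ) * (P ⟨i + 1, by omega⟩).val)
      ((Hprod A (i + 2) : Mat r ℂ) * (P ⟨i + 2, by omega⟩).val) := by
    intro i hi a b c habc
    have := (hgen i hi).2 a b c habc
    unfold flagT at this
    rw [hF, hF, hF, ← Fl_map, ← Fl_map] at this
    exact this
  -- the base frame
  have hopp : ∀ a b, a + b = r → Fl (1 : Mat r ℂ) a ⊔ Fl ((P 0)⁻¹ * P i1).val b = ⊤ := by
    intro a b hab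
    have h1 := (hG1 0 hK).left_mul (P 0)⁻¹ a b 0 (by omega)
    rw [Fl_zero, sup_bot_eq] at h1
    have e : (P 0)⁻¹.val * (P 0).val = 1 := by simp
    rw [e] at h1
    exact h1
  obtain ⟨u0, c0, hu0, hc0, hS0⟩ := bigcell ((P 0)⁻¹ * P i1) hopp
  let h : GLm r ℂ := P 0 * u0
  -- indexing by natural numbers
  let P0 : ℕ → GLm r ℂ := fun v => if hv : v < K + 2 then P ⟨v, hv⟩ else 1
  let g0 : ℕ → GLm r ℂ := fun v => if hv : v < K + 2 then slG (A ⟨v, hv⟩) else 1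
  have hP0 : ∀ (v : ℕ) (hv : v < K + 2), P0 v = P ⟨v, hv⟩ := fun v hv => dif_pos hv
  have hg0 : ∀ (v : ℕ) (hv : v < K + 2), g0 v = slG (A ⟨v, hv⟩) := fun v hv => dif_pos hv
  let At : ℕ → GLm r ℂ := fun v => h⁻¹ * g0 v * h
  let S : ℕ → GLm r ℂ := fun i => h⁻¹ * P0 (i + 1)
  let Hs : ℕ → GLm r ℂ := fun v => Nat.rec 1 (fun m x => x * At (m + 1)) v
  have hHs0 : Hs 0 = 1 := rfl
  have hHs : ∀ v, Hs (v + 1) = Hs v * At (v + 1) := fun v => rfl
  have heig : ∀ i ≤ K, At (i + 1) * S i = S i * dg (D (i + 1)) := by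
    intro i hi
    have hv : i + 1 < K + 2 := by omega
    show h⁻¹ * g0 (i + 1) * h * (h⁻¹ * P0 (i + 1)) = h⁻¹ * P0 (i + 1) * dg (D (i + 1))
    rw [hg0 _ hv, hP0 _ hv]
    have := heig0 ⟨i + 1, hv⟩
    calc h⁻¹ * slG (A ⟨i + 1, hv⟩) * h * (h⁻¹ * P ⟨i + 1, hv⟩)
        = h⁻¹ * (slG (A ⟨i + 1, hv⟩) * P ⟨i + 1, hv⟩) := by group
      _ = h⁻¹ * (P ⟨i + 1, hv⟩ * dg (D (i + 1))) := by rw [this]
      _ = _ := by group
  -- the partial products
  have hHprod : ∀ i, i + 1 ≤ K + 2 → slG (Hprod A (i + 1)) = h * Hs i * h⁻¹ := by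
    intro i
    induction i with
    | zero =>
      intro _
      rw [Hprod_one, map_one]
      show 1 = h * 1 * h⁻¹
      group
    | succ i ih =>
      intro hi
      have hv : i + 1 < K + 2 := by omega
      rw [Hprod_succ A hv, map_mul, ih (by omega), hHs]
      show _ = h * (Hs i * (h⁻¹ * g0 (i + 1) * h)) * h⁻¹
      rw [hg0 _ hv]
      group
  have hA0 : At 0 * Hs (K + 1) = 1 := by
    have h1 := congrArg slG (prod_eq_Hprod A)
    rw [hrep, map_one, map_mul, hHprod (K + 1) le_rfl] at h1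
    show h⁻¹ * g0 0 * h * Hs (K + 1) = 1
    rw [hg0 0 (by omega)]
    have e : h⁻¹ * slG (A 0) * h * Hs (K + 1) = h⁻¹ * (slG (A 0) * (h * Hs (K + 1) * h⁻¹)) * h := by
      group
    have e2 : (⟨0, by omega⟩ : Fin (K + 2)) = 0 := rfl
    rw [e2, e, ← h1]
    group
  have hA0up : IsUpD (At 0) (D 0) := by
    have e : At 0 = u0⁻¹ * dg (D 0) * u0 := by
      show h⁻¹ * g0 0 * h = _
      rw [hg0 0 (by omega)]
      have e2 : (⟨0, by omega⟩ : Fin (K + 2)) = 0 := rfl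
      rw [e2]
      have e3 : slG (A 0) = P 0 * dg (D 0) * (P 0)⁻¹ := by
        have h00 : slG (A 0) * P 0 = P 0 * dg (D 0) := heig0 0
        rw [← h00]
        group
      rw [e3]
      show (P 0 * u0)⁻¹ * (P 0 * dg (D 0) * (P 0)⁻¹) * (P 0 * u0) = _
      group
    rw [e]
    have h1 := (hu0.inv.mul (dg_isUpD (D 0))).mul hu0
    simpa using h1
  -- first frames
  have hS0' : S 0 = Wg r * c0 := by
    show h⁻¹ * P0 1 = _
    rw [hP0 1 (by omega)]
    have : (P 0 * u0)⁻¹ * P i1 = u0⁻¹ * ((P 0)⁻¹ * P i1) := by group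
    show (P 0 * u0)⁻¹ * P i1 = _
    rw [this, hS0]
    group
  have hone : ∀ m, Fl (h⁻¹.val * (P 0).val) m = Fl (1 : Mat r ℂ) m := by
    intro m
    have e : h⁻¹.val * (P 0).val = (1 : Mat r ℂ) * u0⁻¹.val := by
      show (h⁻¹ * P 0).val = _
      have : h⁻¹ * P 0 = u0⁻¹ := by
        show (P 0 * u0)⁻¹ * P 0 = _
        group
      rw [this, Matrix.one_mul]
    rw [e]
    exact Fl_mul_up _ u0⁻¹ (isUp_inv u0 hu0.1) m
  have hgenP : ∀ i < K, GenG (1 : Mat r ℂ) (S i).val (S (i + 1)).val := by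
    intro i hi
    have h1 := (hG1 i hi).left_mul h⁻¹
    refine h1.congr hone (fun m => ?_) (fun m => ?_)
    · show _ = Fl (h⁻¹ * P0 (i + 1)).val m
      rw [hP0 (i + 1) (by omega)]
      rfl
    · show _ = Fl (h⁻¹ * P0 (i + 1 + 1)).val m
      rw [hP0 (i + 1 + 1) (by omega)]
      rfl
  let S' : ℕ → GLm r ℂ := fun i => Hs i * S i
  have hgenQ : ∀ i < K, GenG (1 : Mat r ℂ) (S' i).val (S' (i + 1)).val := by
    intro i hi
    have h1 := (hG2 i hi).left_mul h⁻¹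
    have key : ∀ (j : ℕ) (hj : j + 1 < K + 2) , h⁻¹.val * ((Hprod A (j + 1) : Mat r ℂ) * (P ⟨j + 1, hj⟩).val) = (S' j).val := by
      intro j hj
      have e1 : ((Hprod A (j + 1) : SLc r) : Mat r ℂ) = (slG (Hprod A (j + 1))).val := rfl
      rw [e1, hHprod j (by omega)]
      show (h⁻¹ * (h * Hs j * h⁻¹ * P ⟨j + 1, hj⟩)).val = (Hs j * (h⁻¹ * P0 (j + 1))).val
      rw [hP0 (j + 1) hj]
      congr 1
      group
    refine h1.congr hone (fun m => ?_) (fun m => ?_)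
    · rw [key i (by omega)]
    · rw [key (i + 1) (by omega)]
  obtain ⟨AP, bP, hbP⟩ := exists_frames S K ⟨c0, hc0, hS0'⟩ hgenP
  have hS'0 : S' 0 = Wg r * c0 := by
    show Hs 0 * S 0 = _
    rw [hHs0, one_mul, hS0']
  obtain ⟨AQ, bQ, hbQ⟩ := exists_frames S' K ⟨c0, hc0, hS'0⟩ hgenQ
  have hdP : ∀ i, ∃ δ : Fin r → ℂˣ, i ≤ K → IsUpD (bP i) δ := by
    intro i
    by_cases hi : i ≤ K
    · obtain ⟨δ, hδ⟩ := exists_diag (bP i) (hbP i hi).1
      exact ⟨δ, fun _ => hδ⟩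
    · exact ⟨1, fun h' => absurd h' hi⟩
  have hdQ : ∀ i, ∃ δ : Fin r → ℂˣ, i ≤ K → IsUpD (bQ i) δ := by
    intro i
    by_cases hi : i ≤ K
    · obtain ⟨δ, hδ⟩ := exists_diag (bQ i) (hbQ i hi).1
      exact ⟨δ, fun _ => hδ⟩
    · exact ⟨1, fun h' => absurd h' hi⟩
  choose δP hδP using hdP
  choose δQ hδQ using hdQ
  obtain ⟨hpin, hAv⟩ := dominance_core hK At D S Hs AP AQ bP bQ δP δQ hHs0 hHs heig hA0 hA0up
    hδP hδQ (fun i hi => (hbP i hi).2) (fun i hi => (hbQ i hi).2)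
  refine ⟨AP, AQ, h, hpin, fun v => ?_⟩
  have := hAv v.val (by have := v.isLt; omega)
  rw [← this]
  show _ = h⁻¹ * g0 v.val * h
  rw [hg0 v.val v.isLt]

end Vale.Agent.Lib.P002
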