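import Vale.Agent.Lib.P002.Pin
import Vale.Agent.Lib.P002.Defs

/-!
Flags spanned by initial columns of a matrix, and the big cell.
-/

open Matrix

namespace Vale.Agent.Lib.P002

variable {r : ℕ}

/-- The `m`-th column. -/
def cl (P : Mat r ℂ) (m : Fin r) : Fin r → ℂ := fun i => P i m

/-- The span of the first `k` columns. -/
def Fl (P : Mat r ℂ) (k : ℕ) : Submodule ℂ (Fin r → ℂ) :=
  Submodule.span ℂ {v | ∃ m : Fin r, m.val < k ∧ v = cl P m}

theorem cl_mul (P Q : Mat r ℂ) (m : Fin r) : cl (P * Q) m = P.mulVec (cl Q m) := by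
  ext i
  simp [cl, Matrix.mul_apply, Matrix.mulVec, dotProduct]

theorem mulVec_eq_sum (P : Mat r ℂ) (x : Fin r → ℂ) : P.mulVec x = ∑ a, x a • cl P a := by
  ext i
  simp [cl, Matrix.mulVec, dotProduct, Finset.sum_apply, mul_comm]

theorem cl_mem_Fl (P : Mat r ℂ) {m : Fin r} {k : ℕ} (h : m.val < k) : cl P m ∈ Fl P k :=
  Submodule.subset_span ⟨m, h, rfl⟩

theorem Fl_le {P : Mat r ℂ} {k : ℕ} {V : Submodule ℂ (Fin r → ℂ)}
    (h : ∀ m : Fin r, m.val < k → cl P m ∈ V) : Fl P k ≤ V := by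
  refine Submodule.span_le.mpr ?_
  rintro v ⟨m, hm, rfl⟩
  exact h m hm

theorem Fl_mono (P : Mat r ℂ) {k k' : ℕ} (h : k ≤ k') : Fl P k ≤ Fl P k' :=
  Fl_le fun _ hm => cl_mem_Fl P (lt_of_lt_of_le hm h)

theorem Fl_zero (P : Mat r ℂ) : Fl P 0 = ⊥ := by
  refine le_bot_iff.mp (Fl_le fun m hm => absurd hm (Nat.not_lt_zero _))

theorem mulVec_mem_Fl (P : Mat r ℂ) {k : ℕ} {x : Fin r → ℂ} (hx : ∀ i : Fin r, k ≤ i.val → x i = 0) :
    P.mulVec x ∈ Fl P k := by
  rw [mulVec_eq_sum]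
  refine Submodule.sum_mem _ fun a _ => ?_
  by_cases h : k ≤ a.val
  · rw [hx a h, zero_smul]
    exact Submodule.zero_mem _
  · exact Submodule.smul_mem _ _ (cl_mem_Fl P (not_le.mp h))

theorem Fl_mul_up_le (P : Mat r ℂ) {b : Mat r ℂ} (hb : IsUp b) (k : ℕ) : Fl (P * b) k ≤ Fl P k := by
  refine Fl_le fun m hm => ?_
  rw [cl_mul]
  refine mulVec_mem_Fl P fun i hi => ?_
  exact hb i m (show m.val < i.val from lt_of_lt_of_le hm hi)

theorem Fl_mul_up (P : Mat r ℂ) (b : GLm r ℂ) (hb : IsUp b.val) (k : ℕ) :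
    Fl (P * b.val) k = Fl P k := by
  refine le_antisymm (Fl_mul_up_le P hb k) ?_
  have h := Fl_mul_up_le (P * b.val) (isUp_inv b hb) k
  have e : P * b.val * b⁻¹.val = P := by
    rw [Matrix.mul_assoc]
    have : b.val * b⁻¹.val = 1 := by simp
    rw [this, Matrix.mul_one]
  rwa [e] at h

theorem Fl_map (g P : Mat r ℂ) (k : ℕ) :
    Fl (g * P) k = (Fl P k).map (Matrix.toLin' g) := by
  unfold Fl
  rw [Submodule.map_span]
  congr 1
  ext v
  constructor
  · rintro ⟨m, hm, rfl⟩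
    exact ⟨cl P m, ⟨m, hm, rfl⟩, by rw [cl_mul, Matrix.toLin'_apply]⟩
  · rintro ⟨_, ⟨m, hm, rfl⟩, rfl⟩
    exact ⟨m, hm, by rw [cl_mul, Matrix.toLin'_apply]⟩

theorem Fl_mono_mul (g P : Mat r ℂ) (k : ℕ) {V : Submodule ℂ (Fin r → ℂ)}
    (h : Fl P k ≤ V) : Fl (g * P) k ≤ V.map (Matrix.toLin' g) := by
  rw [Fl_map]
  exact Submodule.map_mono h

theorem mem_Fl_one {k : ℕ} {x : Fin r → ℂ} : x ∈ Fl (1 : Mat r ℂ) k ↔ ∀ i : Fin r, k ≤ i.val → x i = 0 := by
  constructor
  · intro hx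
    induction hx using Submodule.span_induction with
    | mem v hv =>
      obtain ⟨m, hm, rfl⟩ := hv
      intro i hi
      have : i ≠ m := fun e => by
        rw [e] at hi
        omega
      exact Matrix.one_apply_ne this
    | zero => intro _ _; rfl
    | add a b _ _ ha hb =>
      intro i hi
      simp [ha i hi, hb i hi]
    | smul c a _ ha =>
      intro i hi
      simp [ha i hi]
  · intro hx
    have := mulVec_mem_Fl (1 : Mat r ℂ) hx
    rwa [Matrix.one_mulVec] at this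

theorem cl_W (m : Fin r) (i : Fin r) : cl (W r : Mat r ℂ) m i = if i = Fin.rev m then 1 else 0 := rfl

theorem cl_W_eq (m : Fin r) : cl (W r : Mat r ℂ) m = cl (1 : Mat r ℂ) (Fin.rev m) := by
  ext i
  rw [cl_W]
  simp [cl, Matrix.one_apply]

theorem cl_one_eq (m : Fin r) : cl (1 : Mat r ℂ) m = cl (W r : Mat r ℂ) (Fin.rev m) := by
  rw [cl_W_eq, Fin.rev_rev]

theorem mem_Fl_W {b : ℕ} {x : Fin r → ℂ} :
    x ∈ Fl (W r : Mat r ℂ) b ↔ ∀ i : Fin r, i.val + b < r → x i = 0 := by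
  constructor
  · intro hx
    induction hx using Submodule.span_induction with
    | mem v hv =>
      obtain ⟨m, hm, rfl⟩ := hv
      intro i hi
      rw [cl_W, if_neg]
      intro e
      rw [e, Fin.val_rev] at hi
      omega
    | zero => intro _ _; rfl
    | add a b _ _ ha hb =>
      intro i hi
      simp [ha i hi, hb i hi]
    | smul c a _ ha =>
      intro i hi
      simp [ha i hi]
  · intro hx
    have h : x = ∑ a, x a • cl (1 : Mat r ℂ) a := by
      rw [← mulVec_eq_sum, Matrix.one_mulVec]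
    rw [h]
    refine Submodule.sum_mem _ fun a _ => ?_
    by_cases h1 : a.val + b < r
    · rw [hx a h1, zero_smul]
      exact Submodule.zero_mem _
    · refine Submodule.smul_mem _ _ ?_
      rw [cl_one_eq]
      refine cl_mem_Fl _ ?_
      rw [Fin.val_rev]
      omega

theorem Fl_one_top : Fl (1 : Mat r ℂ) r = ⊤ := by
  rw [eq_top_iff]
  intro x _
  rw [mem_Fl_one]
  intro i hi
  exact absurd i.isLt (not_lt.mpr hi)

/-- A subspace containing all standard basis vectors is everything. -/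
theorem top_of_cl_one {V : Submodule ℂ (Fin r → ℂ)} (h : ∀ i, cl (1 : Mat r ℂ) i ∈ V) : V = ⊤ := by
  rw [eq_top_iff, ← Fl_one_top]
  exact Fl_le fun m _ => h m

theorem finrank_Fl (g : GLm r ℂ) {k : ℕ} (hk : k ≤ r) :
    Module.finrank ℂ (Fl g.val k) = k := by
  have hli : LinearIndependent ℂ g.val.col :=
    Matrix.linearIndependent_cols_iff_isUnit.mpr g.isUnit
  let b : {m : Fin r // m.val < k} → (Fin r → ℂ) := fun m => g.val.col m.val
  have hb : LinearIndependent ℂ b := hli.comp _ Subtype.val_injective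
  have hs : Fl g.val k = Submodule.span ℂ (Set.range b) := by
    unfold Fl
    congr 1
    ext v
    constructor
    · rintro ⟨m, hm, rfl⟩
      exact ⟨⟨m, hm⟩, rfl⟩
    · rintro ⟨⟨m, hm⟩, rfl⟩
      exact ⟨m, hm, rfl⟩
  rw [hs, finrank_span_eq_card hb, Fintype.card_subtype]
  have := Fin.card_filter_val_lt (n := r) (m := k)
  rw [min_eq_right hk] at this
  exact this

theorem finrank_Fl_one {k : ℕ} (hk : k ≤ r) : Module.finrank ℂ (Fl (1 : Mat r ℂ) k) = k :=
  finrank_Fl 1 hk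

theorem inf_eq_bot_of_sup {V V' : Submodule ℂ (Fin r → ℂ)} (h : V ⊔ V' = ⊤)
    (hd : Module.finrank ℂ V + Module.finrank ℂ V' = r) : V ⊓ V' = ⊥ := by
  have h1 := Submodule.finrank_sup_add_finrank_inf_eq V V'
  rw [h, finrank_top, Module.finrank_fin_fun, hd] at h1
  have h2 : Module.finrank ℂ (V ⊓ V' : Submodule ℂ (Fin r → ℂ)) = 0 := by omega
  exact Submodule.finrank_eq_zero.mp h2

theorem mem_Fl_iff (S : GLm r ℂ) {k : ℕ} {x : Fin r → ℂ} :
    x ∈ Fl S.val k ↔ ∀ i : Fin r, k ≤ i.val → (S⁻¹.val.mulVec x) i = 0 := by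
  constructor
  · intro hx
    have h := Fl_map S⁻¹.val S.val k
    have e : S⁻¹.val * S.val = 1 := by simp
    rw [e] at h
    have h2 : S⁻¹.val.mulVec x ∈ Fl (1 : Mat r ℂ) k := by
      rw [h]
      exact ⟨x, hx, by rw [Matrix.toLin'_apply]⟩
    exact mem_Fl_one.mp h2
  · intro hx
    have h := mulVec_mem_Fl S.val hx
    rw [Matrix.mulVec_mulVec] at h
    have e : S.val * S⁻¹.val = 1 := by simp
    rwa [e, Matrix.one_mulVec] at h

/-- The big cell: a flag opposite to the standard flag. -/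
theorem bigcell (S : GLm r ℂ) (h : ∀ a b, a + b = r → Fl (1 : Mat r ℂ) a ⊔ Fl S.val b = ⊤) :
    ∃ u c : GLm r ℂ, IsUpD u 1 ∧ IsUp c.val ∧ S = u * Wg r * c := by
  have hv : ∀ j : Fin r, ∃ v : Fin r → ℂ, v ∈ Fl (1 : Mat r ℂ) (j.val + 1) ∧
      v ∈ Fl S.val (r - j.val) ∧ v j = 1 := by
    intro j
    have hj := j.isLt
    have h1 := h j.val (r - j.val) (by omega)
    have h2 : Fl (1 : Mat r ℂ) j.val ⊓ Fl S.val (r - j.val) = ⊥ := by
      refine inf_eq_bot_of_sup h1 ?_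
      rw [finrank_Fl_one (by omega), finrank_Fl S (by omega)]
      omega
    have h3 : Fl (1 : Mat r ℂ) (j.val + 1) ⊔ Fl S.val (r - j.val) = ⊤ := by
      rw [eq_top_iff, ← h1]
      exact sup_le_sup_right (Fl_mono _ (by omega)) _
    have h4 := Submodule.finrank_sup_add_finrank_inf_eq
      (Fl (1 : Mat r ℂ) (j.val + 1)) (Fl S.val (r - j.val))
    rw [h3, finrank_top, Module.finrank_fin_fun, finrank_Fl_one (by omega),
      finrank_Fl S (by omega)] at h4
    have h5 : Fl (1 : Mat r ℂ) (j.val + 1) ⊓ Fl S.val (r - j.val) ≠ ⊥ := by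
      intro e
      rw [e, finrank_bot] at h4
      omega
    obtain ⟨v, hv1, hv2⟩ := Submodule.exists_mem_ne_zero_of_ne_bot h5
    have hvj : v j ≠ 0 := by
      intro h0
      apply hv2
      have hv3 : v ∈ Fl (1 : Mat r ℂ) j.val ⊓ Fl S.val (r - j.val) := by
        refine ⟨mem_Fl_one.mpr fun i hi => ?_, hv1.2⟩
        rcases Nat.lt_or_ge j.val i.val with h6 | h6
        · exact mem_Fl_one.mp hv1.1 i h6
        · have : i = j := Fin.ext (by omega)
          rw [this, h0]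
      rw [h2] at hv3
      exact (Submodule.mem_bot ℂ).mp hv3
    refine ⟨(v j)⁻¹ • v, Submodule.smul_mem _ _ hv1.1, Submodule.smul_mem _ _ hv1.2, ?_⟩
    simp [hvj]
  choose v hv1 hv2 hv3 using hv
  let u0 : Mat r ℂ := Matrix.of fun i j => v j i
  have hu0 : IsUp u0 := fun i j hji => mem_Fl_one.mp (hv1 j) i hji
  have hu0d : ∀ i, u0 i i = 1 := fun i => hv3 i
  let u : GLm r ℂ := toGL u0 (isUnit_det_of_up hu0 fun i => by rw [hu0d]; exact isUnit_one)
  have hu : IsUpD u 1 := ⟨hu0, fun i => by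
    show u0 i i = _
    rw [hu0d]
    simp⟩
  let c0 : GLm r ℂ := S⁻¹ * u * Wg r
  have hc0 : IsUp c0.val := by
    intro i m hmi
    have h1 : cl (u0 * W r) m = v (Fin.rev m) := by
      ext x
      show (u0 * (W r : Mat r ℂ) : Mat r ℂ) x m = _
      rw [mul_W_apply]
      rfl
    have h2 : v (Fin.rev m) ∈ Fl S.val (m.val + 1) := by
      have h3 := hv2 (Fin.rev m)
      have h4 : r - (Fin.rev m).val = m.val + 1 := by
        rw [Fin.val_rev]
        have := m.isLt
        omega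
      rwa [h4] at h3
    have h5 := (mem_Fl_iff S).mp h2 i hmi
    rw [← h1] at h5
    have h6 : c0.val i m = (S⁻¹.val.mulVec (cl (u0 * W r) m)) i := by
      rw [← cl_mul]
      show (S⁻¹.val * u0 * (W r : Mat r ℂ) : Mat r ℂ) i m = _
      rw [Matrix.mul_assoc]
      rfl
    rw [h6, h5]
  refine ⟨u, c0⁻¹, hu, isUp_inv c0 hc0, ?_⟩
  show S = u * Wg r * (S⁻¹ * u * Wg r)⁻¹
  group

end Vale.Agent.Lib.P002
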