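import Vale.Agent.Lib.P002.Density

/-!
Integral points on the generic part of the character variety of the punctured sphere are dense.
-/

open Matrix MvPolynomial

namespace Vale.Agent.Lib.P002

section Congr

variable {R : Type*} [CommRing R] {n : ℕ}

theorem uG_td {a b : ℕ → ℕ → Rˣ} (h : td n a = td n b) : (uG a : GLm n R) = uG b := by
  ext1
  show (td n a).u = (td n b).u
  rw [h]

theorem lG_td {a b : ℕ → ℕ → Rˣ} (h : td n a = td n b) : (lG a : GLm n R) = lG b := by
  ext1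
  show (td n a).l = (td n b).l
  rw [h]

theorem dT_td {a b : ℕ → ℕ → Rˣ} (h : td n a = td n b) : (dT a : Fin n → Rˣ) = dT b := by
  show (td n a).d = (td n b).d
  rw [h]

variable {K : ℕ} (D : ℕ → Fin n → Rˣ) (A : ℕ → ℕ → ℕ → Rˣ) {B B' : ℕ → ℕ → ℕ → Rˣ}

theorem fr_td (h : ∀ i, td n (B i) = td n (B' i)) : ∀ i, (fr B i : GLm n R) = fr B' i
  | 0 => rfl
  | i + 1 => by
      show fr B i * uG (B i) = fr B' i * uG (B' i)
      rw [fr_td h i, uG_td (h i)]

theorem lh_td (h : ∀ i, td n (B i) = td n (B' i)) (i : ℕ) : (lh K B i : GLm n R) = lh K B' i := by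
  unfold lh
  split_ifs
  · exact lG_td (h i)
  · rfl

theorem nh_td (h : ∀ i, td n (B i) = td n (B' i)) (i : ℕ) : (nh K B i : GLm n R) = nh K B' i := by
  unfold nh
  rw [fr_td h, lh_td h]

theorem tauSeq_td (h : ∀ i, td n (B i) = td n (B' i)) : ∀ v, tauSeq D A B v = tauSeq D A B' v
  | 0 => rfl
  | 1 => rfl
  | v + 2 => by
      show rv (tauSeq D A B (v + 1) * dT (B v) * (dT (A v))⁻¹ * (D (v + 2))⁻¹) =
        rv (tauSeq D A B' (v + 1) * dT (B' v) * (dT (A v))⁻¹ * (D (v + 2))⁻¹)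
      rw [tauSeq_td h (v + 1), dT_td (h v)]

theorem tauH_td (h : ∀ i, td n (B i) = td n (B' i)) (v : ℕ) :
    tauH K D A B v = tauH K D A B' v := by
  unfold tauH
  split_ifs
  · exact tauSeq_td D A h v
  · rfl

theorem Gv_td (h : ∀ i, td n (B i) = td n (B' i)) : ∀ v, (Gv K D A B v : GLm n R) = Gv K D A B' v
  | 0 => rfl
  | v + 1 => by
      show nh K A v * dg (tauH K D A B (v + 1)) * (nh K B v)⁻¹ =
        nh K A v * dg (tauH K D A B' (v + 1)) * (nh K B' v)⁻¹
      rw [tauH_td D A h, nh_td h]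

theorem Av_td (h : ∀ i, td n (B i) = td n (B' i)) : ∀ v, (Av K D A B v : GLm n R) = Av K D A B' v
  | 0 => by
      show Gv K D A B (K + 1) = Gv K D A B' (K + 1)
      exact Gv_td D A h _
  | v + 1 => by
      show Gv K D A B v * (Gv K D A B (v + 1))⁻¹ = Gv K D A B' v * (Gv K D A B' (v + 1))⁻¹
      rw [Gv_td D A h, Gv_td D A h]

end Congr

section Free

variable {R : Type*} [CommRing R] {S : Type*} [CommRing S] {s r : ℕ}

/-- The homomorphism attached to a tuple over a ring. -/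
def rhoR (A : Fin s → Matrix.SpecialLinearGroup (Fin r) R) :
    FreeGroup (Fin s) →* Matrix.SpecialLinearGroup (Fin r) R := FreeGroup.lift A

theorem rhoR_map (φ : R →+* S) (A : Fin s → Matrix.SpecialLinearGroup (Fin r) R)
    (g : FreeGroup (Fin s)) :
    Matrix.SpecialLinearGroup.map φ (rhoR A g) =
      rhoR (fun v => Matrix.SpecialLinearGroup.map φ (A v)) g := by
  have h : (Matrix.SpecialLinearGroup.map φ).comp (rhoR A) =
      rhoR (fun v => Matrix.SpecialLinearGroup.map φ (A v)) := by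
    apply FreeGroup.ext_hom
    intro v
    simp [rhoR]
  exact DFunLike.congr_fun h g

theorem trace_map_sl (φ : R →+* S) (M : Matrix.SpecialLinearGroup (Fin r) R) :
    Matrix.trace ((Matrix.SpecialLinearGroup.map φ M : Matrix.SpecialLinearGroup (Fin r) S) :
      Matrix (Fin r) (Fin r) S) = φ (Matrix.trace (M : Matrix (Fin r) (Fin r) R)) := by
  simp [Matrix.trace, map_sum]

/-- Conjugate tuples give conjugate representations. -/
theorem rho_conj (h : GLm r ℂ) (A A' : Fin s → SLc r)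
    (hA : ∀ v, slG (A' v) = h⁻¹ * slG (A v) * h) (g : FreeGroup (Fin s)) :
    slG (rho A' g) = h⁻¹ * slG (rho A g) * h := by
  have h1 : slG.comp (rho A') = (MulAut.conj h⁻¹).toMonoidHom.comp (slG.comp (rho A)) := by
    apply FreeGroup.ext_hom
    intro v
    simp [rho, hA]
  have := DFunLike.congr_fun h1 g
  simpa using this

theorem trace_rho_conj (h : GLm r ℂ) (A A' : Fin s → SLc r)
    (hA : ∀ v, slG (A' v) = h⁻¹ * slG (A v) * h) (g : FreeGroup (Fin s)) :
    Matrix.trace ((rho A' g : SLc r) : Matrix (Fin r) (Fin r) ℂ) =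
      Matrix.trace ((rho A g : SLc r) : Matrix (Fin r) (Fin r) ℂ) := by
  have h1 : ((rho A' g : SLc r) : Matrix (Fin r) (Fin r) ℂ) =
      h⁻¹.val * ((rho A g : SLc r) : Matrix (Fin r) (Fin r) ℂ) * h.val := by
    have := congrArg Units.val (rho_conj h A A' hA g)
    exact this
  rw [h1, Matrix.trace_mul_comm, ← Matrix.mul_assoc]
  have : h.val * h⁻¹.val = 1 := by simp
  rw [this, Matrix.one_mul]

theorem evalTr_conj {m : ℕ} (w : Fin m → FreeGroup (Fin s)) (P : MvPolynomial (Fin m) ℂ)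
    (h : GLm r ℂ) (A A' : Fin s → SLc r) (hA : ∀ v, slG (A' v) = h⁻¹ * slG (A v) * h) :
    evalTr w P A' = evalTr w P A := by
  unfold evalTr
  congr 2
  funext i
  exact trace_rho_conj h A A' hA (w i)

end Free

section Chart

variable {K k : ℕ}

theorem chartSL_congr (hK : 0 < K) {R : Type*} [CommRing R] {D D' : ℕ → Fin (k + 1) → Rˣ}
    {hD : ∀ v, ∏ i, D v i = 1} {hD' : ∀ v, ∏ i, D' v i = 1} {t t' : Idx → Rˣ}
    (h1 : D = D') (h2 : t = t') (v : Fin (K + 2)) :
    chartSL hK D hD t v = chartSL hK D' hD' t' v := by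
  subst h1
  subst h2
  rfl

/-- The universal eigenvalues. -/
def DU (D : ℕ → Fin (k + 1) → ℂˣ) : ℕ → Fin (k + 1) → (Reg Idx)ˣ :=
  fun v => mapD cstR (D v)

theorem prod_mapD {R S : Type*} [CommRing R] [CommRing S] (φ : R →+* S) {n : ℕ}
    (τ : Fin n → Rˣ) : ∏ i, mapD φ τ i = Units.map φ.toMonoidHom (∏ i, τ i) := by
  rw [map_prod]
  rfl

theorem prod_DU (D : ℕ → Fin (k + 1) → ℂˣ) (hD : ∀ v, ∏ i, D v i = 1) (v : ℕ) :
    ∏ i, DU D v i = 1 := by
  unfold DU
  rw [prod_mapD, hD, map_one]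

theorem mapD_DU (D : ℕ → Fin (k + 1) → ℂˣ) (x : Idx → ℂˣ) :
    (fun u => mapD (evR x) (DU D u)) = D := by
  funext u j
  ext
  rfl

theorem mapT_tU (x : Idx → ℂˣ) : mapT (evR x) (tU (I := Idx)) = x := by
  funext i
  ext
  rfl

theorem chartSL_univ (hK : 0 < K) (D : ℕ → Fin (k + 1) → ℂˣ) (hD : ∀ v, ∏ i, D v i = 1)
    (x : Idx → ℂˣ) (v : Fin (K + 2)) :
    Matrix.SpecialLinearGroup.map (evR x) (chartSL hK (DU D) (prod_DU D hD) tU v) =
      chartSL hK D hD x v := by
  have hD' : ∀ v, ∏ i, mapD (evR x) (DU D v) i = 1 := by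
    intro v
    have := congrFun (mapD_DU D x) v
    rw [this]
    exact hD v
  rw [chartSL_map (evR x) hK (DU D) (prod_DU D hD) hD' tU v]
  exact chartSL_congr hK (mapD_DU D x) (mapT_tU x) v

/-- A trace function along the chart is a regular function. -/
theorem evalTr_chart_reg (hK : 0 < K) (D : ℕ → Fin (k + 1) → ℂˣ) (hD : ∀ v, ∏ i, D v i = 1)
    {m : ℕ} (w : Fin m → FreeGroup (Fin (K + 2))) (P : MvPolynomial (Fin m) ℂ) :
    (fun x : Idx → ℂˣ => evalTr w P (chartSL hK D hD x)) ∈ Reg Idx := by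
  let T : Fin m → Reg Idx := fun i =>
    Matrix.trace ((rhoR (chartSL hK (DU D) (prod_DU D hD) tU) (w i) :
      Matrix.SpecialLinearGroup (Fin (k + 1)) (Reg Idx)) : Matrix (Fin (k + 1)) (Fin (k + 1)) (Reg Idx))
  let F : Reg Idx := MvPolynomial.eval₂ cstR T P
  have key : (fun x : Idx → ℂˣ => evalTr w P (chartSL hK D hD x)) = F.val := by
    funext x
    show _ = evR x F
    have h1 : evR x F = MvPolynomial.eval₂ ((evR x).comp cstR) (evR x ∘ T) P :=
      MvPolynomial.eval₂_comp_left (evR x) cstR T P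
    have h2 : (evR x).comp cstR = RingHom.id ℂ := by
      ext c
      rfl
    rw [h1, h2]
    unfold evalTr
    rw [MvPolynomial.eval, MvPolynomial.coe_eval₂Hom]
    congr 1
    funext i
    show _ = evR x (T i)
    show _ = evR x (Matrix.trace _)
    rw [← trace_map_sl, rhoR_map]
    have h3 : (fun v => Matrix.SpecialLinearGroup.map (evR x)
        (chartSL hK (DU D) (prod_DU D hD) tU v)) = chartSL hK D hD x := by
      funext v
      exact chartSL_univ hK D hD x v
    rw [h3]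
    rfl
  rw [key]
  exact F.property

/-- Integrality of the values of the chart at units of a subring. -/
theorem charpoly_chart_mem (hK : 0 < K) (O : Subring ℂ) (DO : ℕ → Fin (k + 1) → Oˣ)
    (hDO : ∀ v, ∏ i, DO v i = 1) (D : ℕ → Fin (k + 1) → ℂˣ) (hD : ∀ v, ∏ i, D v i = 1)
    (hDD : (fun u => mapD O.subtype (DO u)) = D) (tO : Idx → Oˣ) (x : Idx → ℂˣ)
    (hx : mapT O.subtype tO = x) (g : FreeGroup (Fin (K + 2))) (j : ℕ) :
    ((rho (chartSL hK D hD x) g : SLc (k + 1)) :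
      Matrix (Fin (k + 1)) (Fin (k + 1)) ℂ).charpoly.coeff j ∈ O := by
  have h1 : rho (chartSL hK D hD x) g =
      Matrix.SpecialLinearGroup.map O.subtype (rhoR (chartSL hK DO hDO tO) g) := by
    rw [rhoR_map]
    have h3 : (fun v => Matrix.SpecialLinearGroup.map O.subtype (chartSL hK DO hDO tO v)) =
        chartSL hK D hD x := by
      funext v
      have hD' : ∀ v, ∏ i, mapD O.subtype (DO v) i = 1 := by
        intro v
        have := congrFun hDD v
        rw [this]
        exact hD v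
      rw [chartSL_map O.subtype hK DO hDO hD' tO v]
      exact chartSL_congr hK hDD hx v
    rw [h3]
    rfl
  rw [h1]
  have h2 : ((Matrix.SpecialLinearGroup.map O.subtype (rhoR (chartSL hK DO hDO tO) g) :
      SLc (k + 1)) : Matrix (Fin (k + 1)) (Fin (k + 1)) ℂ) =
      ((rhoR (chartSL hK DO hDO tO) g : Matrix.SpecialLinearGroup (Fin (k + 1)) O) :
        Matrix (Fin (k + 1)) (Fin (k + 1)) O).map O.subtype := rfl
  rw [h2, Matrix.charpoly_map, Polynomial.coeff_map]
  exact SetLike.coe_mem _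

/-- Density of the points of the chart with coordinates in an infinite set of units of a
subring inside the generic locus. -/
theorem density_core (hK : 0 < K) (l : Fin (K + 2) → Fin (k + 1) → ℂ)
    (hinj : ∀ i, Function.Injective (l i))
    (D : ℕ → Fin (k + 1) → ℂˣ) (hDv : ∀ v, ∏ i, D v i = 1)
    (hDl : ∀ (v : Fin (K + 2)) (j : Fin (k + 1)), ((D v.val j : ℂˣ) : ℂ) = l v j)
    (S : Set ℂˣ) (hS : S.Infinite) {m : ℕ} (w : Fin m → FreeGroup (Fin (K + 2)))
    (P : MvPolynomial (Fin m) ℂ)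
    (hvan : ∀ x : Idx → ℂˣ, (∀ i, x i ∈ S) → evalTr w P (chartSL hK D hDv x) = 0) :
    ∀ A ∈ genericLocus l, evalTr w P A = 0 := by
  intro A hA
  obtain ⟨⟨hrep, hcl, _⟩, hg⟩ := hA
  obtain ⟨AP, AQ, h, hpin, hAv⟩ := dominance hK l hinj D hDl A hrep hcl hg
  let t0 : Idx → ℂˣ := fun i => if i.1 then AQ i.2.1 i.2.2.1 i.2.2.2 else AP i.2.1 i.2.2.1 i.2.2.2
  have h1 : arrA t0 = AP := rfl
  have h2 : arrB t0 = AQ := rfl
  have hch : ∀ v : Fin (K + 2), slG (chartSL hK D hDv t0 v) = h⁻¹ * slG (A v) * h := by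
    intro v
    rw [hAv v, toGL_chartSL]
    unfold chartG
    rw [h1, h2]
    exact Av_td D AP (dT_pinB_of_pinCond K k D AP AQ hpin) v.val
  rw [← evalTr_conj w P h A _ hch]
  exact reg_vanish S hS _ (evalTr_chart_reg hK D hDv w P) hvan t0

end Chart

section Field

variable {K r : ℕ}

/-- The ring of integers of `L` as a subring of `ℂ`. -/
def OLs (L : IntermediateField ℚ ℂ) : Subring ℂ where
  carrier := OL L
  mul_mem' := fun ha hb => ⟨L.mul_mem ha.1 hb.1, ha.2.mul hb.2⟩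
  one_mem' := ⟨L.one_mem, isIntegral_one⟩
  add_mem' := fun ha hb => ⟨L.add_mem ha.1 hb.1, ha.2.add hb.2⟩
  zero_mem' := ⟨L.zero_mem, isIntegral_zero⟩
  neg_mem' := fun ha => ⟨L.neg_mem ha.1, ha.2.neg⟩

/-- The theorem for every field containing the eigenvalues and a unit of infinite order. -/
theorem main_field (hK : 0 < K) (hr : 0 < r) (l : Fin (K + 2) → Fin r → ℂ)
    (hinj : ∀ i, Function.Injective (l i)) (hgen : GenEig l) (hdet : ∀ i, ∏ j, l i j = 1)
    (L : IntermediateField ℚ ℂ) (hl : ∀ i j, l i j ∈ OL L) (ε : ℂ) (hε : ε ∈ OL L)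
    (hε' : ε⁻¹ ∈ OL L) (hε0 : ε ≠ 0) (hroot : ∀ n : ℕ, 0 < n → ε ^ n ≠ 1) :
    (genericLocus l).Nonempty ∧
      ∀ (m : ℕ) (w : Fin m → FreeGroup (Fin (K + 2))) (P : MvPolynomial (Fin m) ℂ),
        (∀ A ∈ genericLocus l, IsIntegralPt L A → evalTr w P A = 0) →
        ∀ A ∈ genericLocus l, evalTr w P A = 0 := by
  obtain ⟨k, rfl⟩ : ∃ k, r = k + 1 := ⟨r - 1, by omega⟩
  classical
  have hl0 : ∀ i j, l i j ≠ 0 := by
    intro i j h0
    have := hdet i
    rw [Finset.prod_eq_zero (Finset.mem_univ j) h0] at this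
    exact zero_ne_one this
  let O := OLs L
  -- the eigenvalues as units
  let D : ℕ → Fin (k + 1) → ℂˣ := fun v j =>
    if h : v < K + 2 then Units.mk0 (l ⟨v, h⟩ j) (hl0 _ _) else 1
  have hDl : ∀ (v : Fin (K + 2)) (j : Fin (k + 1)), ((D v.val j : ℂˣ) : ℂ) = l v j := by
    intro v j
    show ((if h : v.val < K + 2 then Units.mk0 (l ⟨v.val, h⟩ j) (hl0 _ _) else 1 : ℂˣ) : ℂ) = _
    rw [dif_pos v.isLt]
    rfl
  have hDv : ∀ v, ∏ i, D v i = 1 := by
    intro v
    ext
    rw [Units.coe_prod]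
    by_cases h : v < K + 2
    · have := hDl ⟨v, h⟩
      simp only at this
      simp only [this]
      exact hdet _
    · have : ∀ j, D v j = 1 := fun j => dif_neg h
      simp [this]
  have hunit : ∀ (i : Fin (K + 2)) (j : Fin (k + 1)), IsUnit (⟨l i j, hl i j⟩ : O) := by
    intro i j
    have h1 : (∏ a, (⟨l i a, hl i a⟩ : O)) = 1 := by
      apply Subtype.ext
      rw [← O.subtype_apply, map_prod]
      exact hdet i
    refine isUnit_of_dvd_one ?_
    rw [← h1]
    exact Finset.dvd_prod_of_mem _ (Finset.mem_univ j)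
  let DO : ℕ → Fin (k + 1) → Oˣ := fun v j =>
    if h : v < K + 2 then (hunit ⟨v, h⟩ j).unit else 1
  have hDD : (fun u => mapD O.subtype (DO u)) = D := by
    funext v j
    ext
    by_cases h : v < K + 2
    · show (O.subtype ((if h : v < K + 2 then (hunit ⟨v, h⟩ j).unit else 1 : Oˣ) : O)) =
        ((if h : v < K + 2 then Units.mk0 (l ⟨v, h⟩ j) (hl0 _ _) else 1 : ℂˣ) : ℂ)
      rw [dif_pos h, dif_pos h]
      rfl
    · show (O.subtype ((if h : v < K + 2 then (hunit ⟨v, h⟩ j).unit else 1 : Oˣ) : O)) =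
        ((if h : v < K + 2 then Units.mk0 (l ⟨v, h⟩ j) (hl0 _ _) else 1 : ℂˣ) : ℂ)
      rw [dif_neg h, dif_neg h]
      rfl
  have hDO : ∀ v, ∏ i, DO v i = 1 := by
    intro v
    have hinjU : Function.Injective (Units.map O.subtype.toMonoidHom) := by
      apply Units.map_injective
      exact Subtype.val_injective
    apply hinjU
    rw [map_one, map_prod]
    rw [← hDv v, ← hDD]
    rfl
  -- the chart points
  have hpoint : ∀ x : Idx → ℂˣ, chartSL hK D hDv x ∈ genericLocus l := by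
    intro x
    obtain ⟨h1, h2, h3⟩ := chart_point hK l hinj D hDl (arrA x) (pinB K k D (arrA x) (arrB x))
      (pinCond_pinB K k D hDv _ _) (chartSL hK D hDv x) (toGL_chartSL hK D hDv x)
    exact ⟨⟨h1, h2, ss_of_gen l hinj hgen _ h1 h2⟩, h3⟩
  refine ⟨⟨_, hpoint fun _ => 1⟩, fun m w P hP => ?_⟩
  let εO : Oˣ := ⟨⟨ε, hε⟩, ⟨ε⁻¹, hε'⟩, Subtype.ext (mul_inv_cancel₀ hε0), Subtype.ext (inv_mul_cancel₀ hε0)⟩
  let εc : ℂˣ := Units.map O.subtype.toMonoidHom εO
  let S : Set ℂˣ := Set.range fun n : ℕ => εc ^ n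
  have hS : S.Infinite := by
    apply Set.infinite_range_of_injective
    rw [injective_pow_iff_not_isOfFinOrder, isOfFinOrder_iff_pow_eq_one]
    rintro ⟨n, hn, h⟩
    apply hroot n hn
    have := congrArg Units.val h
    simpa [εc, εO] using this
  apply density_core hK l hinj D hDv hDl S hS w P
  intro x hx
  apply hP _ (hpoint x)
  intro g j
  choose n hn using hx
  let tO : Idx → Oˣ := fun i => εO ^ n i
  have htO : mapT O.subtype tO = x := by
    funext i
    rw [← hn i]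
    show Units.map O.subtype.toMonoidHom (εO ^ n i) = _
    rw [map_pow]
  exact charpoly_chart_mem hK O DO hDO D hDv hDD tO x htO g j

/-- The theorem with an explicit number field. -/
theorem main_exists (hK : 0 < K) (hr : 0 < r) (l : Fin (K + 2) → Fin r → ℂ)
    (hint : ∀ i j, IsIntegral ℤ (l i j))
    (hinj : ∀ i, Function.Injective (l i)) (hgen : GenEig l) (hdet : ∀ i, ∏ j, l i j = 1) :
    ∃ L : IntermediateField ℚ ℂ, FiniteDimensional ℚ L ∧ (∀ i j, l i j ∈ L) ∧
      (genericLocus l).Nonempty ∧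
      ∀ (m : ℕ) (w : Fin m → FreeGroup (Fin (K + 2))) (P : MvPolynomial (Fin m) ℂ),
        (∀ A ∈ genericLocus l, IsIntegralPt L A → evalTr w P A = 0) →
        ∀ A ∈ genericLocus l, evalTr w P A = 0 := by
  let s2 : ℂ := ((Real.sqrt 2 : ℝ) : ℂ)
  have hs2 : s2 * s2 = 2 := by
    have : Real.sqrt 2 * Real.sqrt 2 = 2 := Real.mul_self_sqrt (by norm_num)
    show ((Real.sqrt 2 : ℝ) : ℂ) * ((Real.sqrt 2 : ℝ) : ℂ) = 2
    rw [← Complex.ofReal_mul, this]
    norm_num
  have hs2int : IsIntegral ℤ s2 := by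
    apply IsIntegral.of_pow (n := 2) (by norm_num)
    rw [pow_two, hs2]
    exact_mod_cast isIntegral_algebraMap (R := ℤ) (A := ℂ) (x := (2 : ℤ))
  let T : Set ℂ := insert s2 (Set.range fun p : Fin (K + 2) × Fin r => l p.1 p.2)
  have hTint : ∀ x ∈ T, IsIntegral ℚ x := by
    rintro x (rfl | ⟨p, rfl⟩)
    · exact hs2int.tower_top
    · exact (hint p.1 p.2).tower_top
  have hTfin : T.Finite := (Set.finite_range _).insert _
  let L : IntermediateField ℚ ℂ := IntermediateField.adjoin ℚ T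
  have hfin : FiniteDimensional ℚ L := by
    have : Finite T := hTfin
    exact IntermediateField.finiteDimensional_adjoin hTint
  have hT : ∀ x ∈ T, x ∈ L := fun x hx => IntermediateField.subset_adjoin ℚ T hx
  have hlL : ∀ i j, l i j ∈ L := fun i j => hT _ (Or.inr ⟨(i, j), rfl⟩)
  have hs2L : s2 ∈ L := hT _ (Or.inl rfl)
  have hinv : (1 + s2)⁻¹ = s2 - 1 :=
    (eq_inv_of_mul_eq_one_left (by linear_combination hs2)).symm
  have hne : (1 + s2) ≠ 0 := by
    intro h
    have h2 : s2 = -1 := by linear_combination h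
    rw [h2] at hs2
    norm_num at hs2
  refine ⟨L, hfin, hlL, ?_⟩
  have hr1 : (1 : ℝ) < 1 + Real.sqrt 2 := by
    have : 0 < Real.sqrt 2 := Real.sqrt_pos.mpr (by norm_num)
    linarith
  refine main_field hK hr l hinj hgen hdet L (fun i j => ⟨hlL i j, hint i j⟩) (1 + s2)
    ⟨L.add_mem L.one_mem hs2L, isIntegral_one.add hs2int⟩ ?_ hne ?_
  · rw [hinv]
    exact ⟨L.sub_mem hs2L L.one_mem, hs2int.sub isIntegral_one⟩
  · intro n hn h
    have h1 : ((1 + Real.sqrt 2 : ℝ) : ℂ) ^ n = 1 := by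
      simpa [s2] using h
    have h2 : (1 + Real.sqrt 2 : ℝ) ^ n = 1 := by exact_mod_cast h1
    exact absurd h2 (ne_of_gt (one_lt_pow₀ hr1 (by omega)))

end Field

end Vale.Agent.Lib.P002
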