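import Vale.Agent.Lib.P002.Poly

/-!
Solving the closing condition by a monomial formula for the top level of the last triangle,
and functoriality of the whole chart.
-/

open Matrix

namespace Vale.Agent.Lib.P002

variable {R : Type*} [CommRing R] {S : Type*} [CommRing S]

theorem prod_d_eq {n : ℕ} {D : TD n R} (h : IsTD D) :
    (((∏ i, D.d i : Rˣ)) : R) = (W n : Mat n R).det := by
  have h1 := congrArg Matrix.det h.rel
  rw [Matrix.det_mul, Matrix.det_mul, h.u_up.det_eq, h.l_lo.det_eq, h.p_up.det_eq] at h1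
  simp only [h.u_diag, h.l_diag, h.p_diag, Finset.prod_const_one, one_mul] at h1
  rw [h1]
  simp

theorem prod_d_eq' {n : ℕ} {D D' : TD n R} (h : IsTD D) (h' : IsTD D') :
    ∏ i, D.d i = ∏ i, D'.d i := by
  ext
  rw [prod_d_eq h, prod_d_eq h']

/-- The recursion for the solution of the closing condition. -/
def zs (k : ℕ) (tgt : Fin (k + 1) → Rˣ) (δ : Fin k → Rˣ) : ℕ → Rˣ
  | 0 => -1
  | b + 1 => if h : b < k then -(zs k tgt δ b) * tgt ⟨b, by omega⟩ * (δ ⟨b, h⟩)⁻¹ else 1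

/-- The top level array solving the closing condition. -/
def solveZ (k : ℕ) (tgt : Fin (k + 1) → Rˣ) (δ : Fin k → Rˣ) : ℕ → Rˣ :=
  fun b => zs k tgt δ (b + 1)

theorem zeta_solve (k : ℕ) (tgt : Fin (k + 1) → Rˣ) (δ : Fin k → Rˣ) {i : ℕ} (hi : i ≤ k) :
    zeta k (solveZ k tgt δ) i = zs k tgt δ i := by
  cases i with
  | zero => simp [zeta, zs]
  | succ b =>
    have : b + 1 ≤ k := hi
    simp [zeta, this, solveZ]

theorem step_d_solve {k : ℕ} (tgt : Fin (k + 1) → Rˣ) {D : TD k R}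
    (hprod : ∏ i, tgt i = ∏ i, (step (solveZ k tgt D.d) D).d i) :
    (step (solveZ k tgt D.d) D).d = tgt := by
  have hc : ∀ i : Fin k, (step (solveZ k tgt D.d) D).d i.castSucc = tgt i.castSucc := by
    intro i
    rw [step_d_castSucc, zeta_solve k tgt D.d i.isLt, zeta_solve k tgt D.d (le_of_lt i.isLt)]
    show -(zs k tgt D.d (i.val + 1)) * _ * _ = _
    have h1 : zs k tgt D.d (i.val + 1) =
        -(zs k tgt D.d i.val) * tgt ⟨i.val, by omega⟩ * (D.d ⟨i.val, i.isLt⟩)⁻¹ := by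
      show (if h : i.val < k then _ else _) = _
      rw [dif_pos i.isLt]
    rw [h1]
    have h2 : (⟨i.val, by omega⟩ : Fin (k + 1)) = i.castSucc := rfl
    have h3 : (⟨i.val, i.isLt⟩ : Fin k) = i := rfl
    rw [h2, h3]
    simp only [neg_mul, neg_neg]
    calc zs k tgt D.d i.val * tgt i.castSucc * (D.d i)⁻¹ * (zs k tgt D.d i.val)⁻¹ * D.d i
        = tgt i.castSucc * (zs k tgt D.d i.val * (zs k tgt D.d i.val)⁻¹) * ((D.d i)⁻¹ * D.d i) := by
          simp only [mul_comm, mul_left_comm, mul_assoc]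
      _ = tgt i.castSucc := by simp
  ext1 i
  revert i
  refine Fin.lastCases ?_ (fun i => by rw [hc i])
  rw [Fin.prod_univ_castSucc, Fin.prod_univ_castSucc] at hprod
  simp only [hc] at hprod
  exact (mul_left_cancel hprod).symm

theorem td_congr {arr arr' : ℕ → ℕ → Rˣ} : ∀ (n : ℕ), (∀ a < n, arr a = arr' a) →
    td n arr = td n arr'
  | 0, _ => rfl
  | k + 1, h => by
      show step (arr k) (td k arr) = step (arr' k) (td k arr')
      rw [h k (Nat.lt_succ_self k), td_congr k (fun a ha => h a (by omega))]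

/-- Replace the top level of an array by the solution of the closing condition. -/
def pinArr (k : ℕ) (tgt : Fin (k + 1) → Rˣ) (base : ℕ → ℕ → Rˣ) : ℕ → ℕ → Rˣ :=
  fun a => if a = k then solveZ k tgt (td k base).d else base a

theorem td_pinArr (k : ℕ) (tgt : Fin (k + 1) → Rˣ) (base : ℕ → ℕ → Rˣ) :
    td (k + 1) (pinArr k tgt base) = step (solveZ k tgt (td k base).d) (td k base) := by
  show step (pinArr k tgt base k) (td k (pinArr k tgt base)) = _
  have h1 : pinArr k tgt base k = solveZ k tgt (td k base).d := if_pos rfl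
  have h2 : td k (pinArr k tgt base) = td k base :=
    td_congr k (fun a ha => if_neg (ne_of_lt ha))
  rw [h1, h2]

theorem dT_pinArr (k : ℕ) (tgt : Fin (k + 1) → Rˣ) (base : ℕ → ℕ → Rˣ)
    (hprod : ∏ i, tgt i = ∏ i, (td (k + 1) base).d i) :
    (dT (pinArr k tgt base) : Fin (k + 1) → Rˣ) = tgt := by
  show (td (k + 1) (pinArr k tgt base)).d = tgt
  rw [td_pinArr]
  refine step_d_solve tgt ?_
  rw [hprod]
  exact prod_d_eq' (td_spec _ _) (step_spec _ (td_spec k base))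

theorem zeta_congr {k : ℕ} {z z' : ℕ → Rˣ} (h : ∀ b < k, z b = z' b) : zeta k z = zeta k z' := by
  funext i
  unfold zeta
  split_ifs with h1 h2
  · rfl
  · exact h _ (by omega)
  · rfl

theorem step_congr {k : ℕ} {z z' : ℕ → Rˣ} (h : ∀ b < k, z b = z' b) (D : TD k R) :
    step z D = step z' D := by
  have hz := zeta_congr h
  have hy : yRow z D.p = yRow z' D.p := by
    funext j
    exact Finset.sum_congr rfl fun c _ => by rw [h c.val c.isLt]
  simp only [step, Pz, Lz, Sz, hz, hy]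

/-- Uniqueness of the solution of the closing condition. -/
theorem td_pinArr_eq (k : ℕ) (tgt : Fin (k + 1) → Rˣ) (base : ℕ → ℕ → Rˣ)
    (h : (dT base : Fin (k + 1) → Rˣ) = tgt) :
    td (k + 1) (pinArr k tgt base) = td (k + 1) base := by
  rw [td_pinArr]
  show _ = step (base k) (td k base)
  refine step_congr (fun b hb => ?_) _
  have key : ∀ i, i ≤ k → zs k tgt (td k base).d i = zeta k (base k) i := by
    intro i
    induction i with
    | zero => intro _; simp [zs, zeta]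
    | succ b ih =>
      intro hi
      have hb : b < k := hi
      have h1 := congrFun h ⟨b, by omega⟩
      have h2 : (⟨b, by omega⟩ : Fin (k + 1)) = (⟨b, hb⟩ : Fin k).castSucc := rfl
      rw [h2] at h1
      have h3 : (dT base : Fin (k + 1) → Rˣ) (⟨b, hb⟩ : Fin k).castSucc =
          -(zeta k (base k) (b + 1)) * (zeta k (base k) b)⁻¹ * (td k base).d ⟨b, hb⟩ :=
        step_d_castSucc (base k) (td k base) ⟨b, hb⟩
      rw [h3] at h1
      show (if h : b < k then _ else _) = _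
      rw [dif_pos hb, ih (by omega)]
      show -zeta k (base k) b * tgt (⟨b, hb⟩ : Fin k).castSucc * _ = _
      rw [← h1]
      simp only [neg_mul, mul_neg, neg_neg]
      calc zeta k (base k) b * (zeta k (base k) (b + 1) * (zeta k (base k) b)⁻¹ * (td k base).d ⟨b, hb⟩) *
            ((td k base).d ⟨b, hb⟩)⁻¹
          = zeta k (base k) (b + 1) * (zeta k (base k) b * (zeta k (base k) b)⁻¹) *
            ((td k base).d ⟨b, hb⟩ * ((td k base).d ⟨b, hb⟩)⁻¹) := by
              simp only [mul_comm, mul_left_comm, mul_assoc]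
        _ = _ := by simp
  have h1 := key (b + 1) hb
  rw [zeta_succ k (base k) hb] at h1
  exact h1

section Main

variable {n : ℕ}

theorem tauSeq_congr (D : ℕ → Fin n → Rˣ) (A : ℕ → ℕ → ℕ → Rˣ) {B B' : ℕ → ℕ → ℕ → Rˣ} :
    ∀ v, (∀ i, i + 1 < v → B i = B' i) → tauSeq D A B v = tauSeq D A B' v
  | 0, _ => rfl
  | 1, _ => rfl
  | v + 2, h => by
      show rv (tauSeq D A B (v + 1) * dT (B v) * (dT (A v))⁻¹ * (D (v + 2))⁻¹) =
        rv (tauSeq D A B' (v + 1) * dT (B' v) * (dT (A v))⁻¹ * (D (v + 2))⁻¹)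
      rw [tauSeq_congr D A (v + 1) (fun i hi => h i (by omega)), h v (by omega)]

theorem prod_dT_eq (a b : ℕ → ℕ → Rˣ) : ∏ i, (dT a : Fin n → Rˣ) i = ∏ i, (dT b : Fin n → Rˣ) i :=
  prod_d_eq' (td_spec n a) (td_spec n b)

theorem prod_tauSeq (D : ℕ → Fin n → Rˣ) (hD : ∀ v, ∏ i, D v i = 1) (A B : ℕ → ℕ → ℕ → Rˣ) :
    ∀ v, ∏ i, tauSeq D A B v i = 1
  | 0 => by simp [tauSeq]
  | 1 => by
      show ∏ i, ((rv (D 1))⁻¹) i = 1
      simp only [Pi.inv_apply, Finset.prod_inv_distrib]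
      rw [prod_rv, hD 1, inv_one]
  | v + 2 => by
      show ∏ i, rv (tauSeq D A B (v + 1) * dT (B v) * (dT (A v))⁻¹ * (D (v + 2))⁻¹) i = 1
      rw [prod_rv]
      simp only [Pi.mul_apply, Pi.inv_apply, Finset.prod_mul_distrib, Finset.prod_inv_distrib]
      rw [prod_tauSeq D hD A B (v + 1), hD (v + 2), prod_dT_eq (B v) (A v)]
      simp

/-- The value forced by the closing condition. -/
noncomputable def tgtOf (K : ℕ) (D : ℕ → Fin n → Rˣ) (A B : ℕ → ℕ → ℕ → Rˣ) : Fin n → Rˣ :=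
  D (K + 1) * dT (A (K - 1)) * rv (D 0) * (tauSeq D A B K)⁻¹

theorem prod_tgtOf (K : ℕ) (D : ℕ → Fin n → Rˣ) (hD : ∀ v, ∏ i, D v i = 1)
    (A B : ℕ → ℕ → ℕ → Rˣ) (a : ℕ → ℕ → Rˣ) :
    ∏ i, tgtOf K D A B i = ∏ i, (dT a : Fin n → Rˣ) i := by
  unfold tgtOf
  simp only [Pi.mul_apply, Pi.inv_apply, Finset.prod_mul_distrib, Finset.prod_inv_distrib]
  rw [prod_rv, hD, hD, prod_tauSeq D hD, prod_dT_eq (A (K - 1)) a]
  simp

end Main

/-- Arrays with the closing condition solved. -/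
noncomputable def pinB (K k : ℕ) (D : ℕ → Fin (k + 1) → Rˣ) (A B : ℕ → ℕ → ℕ → Rˣ) :
    ℕ → ℕ → ℕ → Rˣ :=
  fun i => if i = K - 1 then pinArr k (tgtOf K D A B) (B i) else B i

theorem tauSeq_pinB (K k : ℕ) (D : ℕ → Fin (k + 1) → Rˣ) (A B : ℕ → ℕ → ℕ → Rˣ) :
    tauSeq D A (pinB K k D A B) K = tauSeq D A B K :=
  tauSeq_congr D A K fun i hi => if_neg (by omega)

theorem pinCond_pinB (K k : ℕ) (D : ℕ → Fin (k + 1) → Rˣ) (hD : ∀ v, ∏ i, D v i = 1)
    (A B : ℕ → ℕ → ℕ → Rˣ) : PinCond K D A (pinB K k D A B) := by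
  unfold PinCond
  rw [tauSeq_pinB]
  have h1 : pinB K k D A B (K - 1) = pinArr k (tgtOf K D A B) (B (K - 1)) := if_pos rfl
  rw [h1, dT_pinArr k _ _ (prod_tgtOf K D hD A B _)]
  rfl

/-- If the closing condition already holds, pinning changes nothing in the triangle data. -/
theorem dT_pinB_of_pinCond (K k : ℕ) (D : ℕ → Fin (k + 1) → Rˣ) (A B : ℕ → ℕ → ℕ → Rˣ)
    (h : PinCond K D A B) : ∀ i, td (k + 1) (pinB K k D A B i) = td (k + 1) (B i) := by
  intro i
  by_cases hi : i = K - 1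
  · subst hi
    have h1 : pinB K k D A B (K - 1) = pinArr k (tgtOf K D A B) (B (K - 1)) := if_pos rfl
    rw [h1]
    exact td_pinArr_eq k _ _ h
  · have h1 : pinB K k D A B i = B i := if_neg hi
    rw [h1]

/-! ### Functoriality of the chart -/

section Map

variable {n : ℕ} (φ : R →+* S)

theorem lh_map (K : ℕ) (A : ℕ → ℕ → ℕ → Rˣ) (i : ℕ) :
    mapG φ (lh K A i : GLm n R) = lh K (fun a => mapA φ (A a)) i := by
  unfold lh
  split_ifs
  · exact lG_map φ _
  · exact map_one _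

theorem nh_map (K : ℕ) (A : ℕ → ℕ → ℕ → Rˣ) (i : ℕ) :
    mapG φ (nh K A i : GLm n R) = nh K (fun a => mapA φ (A a)) i := by
  unfold nh
  rw [map_mul, fr_map, lh_map]

theorem tauSeq_map (D : ℕ → Fin n → Rˣ) (A B : ℕ → ℕ → ℕ → Rˣ) : ∀ v,
    mapD φ (tauSeq D A B v) =
      tauSeq (fun u => mapD φ (D u)) (fun a => mapA φ (A a)) (fun a => mapA φ (B a)) v
  | 0 => by
      ext i
      simp [tauSeq, mapD]
  | 1 => by
      show mapD φ (rv (D 1))⁻¹ = (rv (mapD φ (D 1)))⁻¹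
      rw [mapD_inv, mapD_rv]
  | v + 2 => by
      show mapD φ (rv (tauSeq D A B (v + 1) * dT (B v) * (dT (A v))⁻¹ * (D (v + 2))⁻¹)) =
        rv (tauSeq (fun u => mapD φ (D u)) (fun a => mapA φ (A a)) (fun a => mapA φ (B a)) (v + 1) *
          dT (mapA φ (B v)) * (dT (mapA φ (A v)))⁻¹ * (mapD φ (D (v + 2)))⁻¹)
      rw [mapD_rv, mapD_mul, mapD_mul, mapD_mul, mapD_inv, mapD_inv, tauSeq_map D A B (v + 1),
        dT_map, dT_map]

theorem tauH_map (K : ℕ) (D : ℕ → Fin n → Rˣ) (A B : ℕ → ℕ → ℕ → Rˣ) (v : ℕ) :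
    mapD φ (tauH K D A B v) =
      tauH K (fun u => mapD φ (D u)) (fun a => mapA φ (A a)) (fun a => mapA φ (B a)) v := by
  unfold tauH
  split_ifs
  · exact tauSeq_map φ D A B v
  · rfl

theorem Gv_map (K : ℕ) (D : ℕ → Fin n → Rˣ) (A B : ℕ → ℕ → ℕ → Rˣ) : ∀ v,
    mapG φ (Gv K D A B v) =
      Gv K (fun u => mapD φ (D u)) (fun a => mapA φ (A a)) (fun a => mapA φ (B a)) v
  | 0 => map_one _
  | v + 1 => by
      show mapG φ (nh K A v * dg (tauH K D A B (v + 1)) * (nh K B v)⁻¹) = nh K _ v * dg (tauH K _ _ _ (v + 1)) * (nh K _ v)⁻¹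
      rw [map_mul, map_mul, map_inv, mapG_dg, nh_map, nh_map, tauH_map]

theorem Av_map (K : ℕ) (D : ℕ → Fin n → Rˣ) (A B : ℕ → ℕ → ℕ → Rˣ) : ∀ v,
    mapG φ (Av K D A B v) =
      Av K (fun u => mapD φ (D u)) (fun a => mapA φ (A a)) (fun a => mapA φ (B a)) v
  | 0 => Gv_map φ K D A B (K + 1)
  | v + 1 => by
      show mapG φ (Gv K D A B v * (Gv K D A B (v + 1))⁻¹) = Gv K _ _ _ v * (Gv K _ _ _ (v + 1))⁻¹
      rw [map_mul, map_inv, Gv_map, Gv_map]

end Map

theorem zs_map (φ : R →+* S) (k : ℕ) (tgt : Fin (k + 1) → Rˣ) (δ : Fin k → Rˣ) : ∀ b,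
    Units.map φ.toMonoidHom (zs k tgt δ b) = zs k (mapD φ tgt) (mapD φ δ) b
  | 0 => by
      simp only [zs]
      ext
      simp
  | b + 1 => by
      simp only [zs]
      split_ifs with h
      · have hneg : Units.map φ.toMonoidHom (-zs k tgt δ b) = -(Units.map φ.toMonoidHom (zs k tgt δ b)) := by
          ext; simp
        rw [map_mul, map_mul, hneg, map_inv, zs_map φ k tgt δ b]
        rfl
      · simp

theorem pinArr_map (φ : R →+* S) (k : ℕ) (tgt : Fin (k + 1) → Rˣ) (base : ℕ → ℕ → Rˣ) :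
    mapA φ (pinArr k tgt base) = pinArr k (mapD φ tgt) (mapA φ base) := by
  funext a b
  unfold mapA pinArr
  by_cases h : a = k
  · subst h
    simp only [if_true, solveZ]
    rw [zs_map]
    have : (td a (fun x y => Units.map φ.toMonoidHom (base x y))) = (td a base).map φ :=
      td_map φ a base
    rw [this]
    rfl
  · simp [h]

theorem tgtOf_map (φ : R →+* S) {n : ℕ} (K : ℕ) (D : ℕ → Fin n → Rˣ) (A B : ℕ → ℕ → ℕ → Rˣ) :
    mapD φ (tgtOf K D A B) =
      tgtOf K (fun u => mapD φ (D u)) (fun a => mapA φ (A a)) (fun a => mapA φ (B a)) := by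
  unfold tgtOf
  rw [mapD_mul, mapD_mul, mapD_mul, mapD_inv, mapD_rv, dT_map, tauSeq_map]

theorem pinB_map (φ : R →+* S) (K k : ℕ) (D : ℕ → Fin (k + 1) → Rˣ) (A B : ℕ → ℕ → ℕ → Rˣ) :
    (fun a => mapA φ (pinB K k D A B a)) =
      pinB K k (fun u => mapD φ (D u)) (fun a => mapA φ (A a)) (fun a => mapA φ (B a)) := by
  funext i
  unfold pinB
  split_ifs
  · rw [pinArr_map, tgtOf_map]
  · rfl

end Vale.Agent.Lib.P002
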