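import Vale.Agent.Lib.P002.Chart

/-!
The two fans glued along the boundary: the chart for tuples with product one.
-/

open Matrix

namespace Vale.Agent.Lib.P002

variable {R : Type*} [CommRing R] {S : Type*} [CommRing S]

section Frames

variable {n : ℕ}

/-- The lower factor at the end of a fan is trivial. -/
noncomputable def lh (K : ℕ) (A : ℕ → ℕ → ℕ → Rˣ) (i : ℕ) : GLm n R :=
  if i < K then lG (A i) else 1

/-- The frame of a boundary edge. -/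
noncomputable def nh (K : ℕ) (A : ℕ → ℕ → ℕ → Rˣ) (i : ℕ) : GLm n R :=
  fr A i * lh K A i

/-- The upper triangular transition at a corner. -/
noncomputable def ch (K : ℕ) (A : ℕ → ℕ → ℕ → Rˣ) (i : ℕ) : GLm n R :=
  pG (A i) * (Wg n * lh K A (i + 1) * Wg n)

theorem lh_lo (K : ℕ) (A : ℕ → ℕ → ℕ → Rˣ) (i : ℕ) : IsLoD (lh K A i : GLm n R) 1 := by
  unfold lh
  split_ifs
  · exact lG_lo _
  · exact IsLoD.one

theorem ch_up (K : ℕ) (A : ℕ → ℕ → ℕ → Rˣ) (i : ℕ) :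
    IsUpD (ch K A i : GLm n R) (dT (A i)) := by
  have h := (pG_up (n := n) (A i)).mul (Wg_conj_isLoD (lh_lo (n := n) K A (i + 1)))
  have e : dT (A i) * rv (1 : Fin n → Rˣ) = dT (A i) := by
    ext j
    simp [rv]
  rw [e] at h
  exact h

theorem nh_succ (K : ℕ) (A : ℕ → ℕ → ℕ → Rˣ) {i : ℕ} (hi : i < K) :
    (nh K A (i + 1) : GLm n R) = nh K A i * ch K A i * Wg n := by
  have h1 : (lh K A i : GLm n R) = lG (A i) := if_pos hi
  have h2 : (uG (A i) : GLm n R) = lG (A i) * pG (A i) * Wg n := by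
    rw [← uG_rel, mul_assoc, Wg_mul_Wg, mul_one]
  show (fr A i * uG (A i)) * lh K A (i + 1) = (fr A i * lh K A i) * (pG (A i) * (Wg n * lh K A (i + 1) * Wg n)) * Wg n
  rw [h1, h2]
  simp only [mul_assoc, Wg_mul_Wg, mul_one]

theorem nh_self (K : ℕ) (A : ℕ → ℕ → ℕ → Rˣ) : (nh K A K : GLm n R) = fr A K := by
  have h1 : (lh K A K : GLm n R) = 1 := if_neg (lt_irrefl K)
  rw [nh, h1, mul_one]

theorem nh_zero {K : ℕ} (hK : 0 < K) (A : ℕ → ℕ → ℕ → Rˣ) : (nh K A 0 : GLm n R) = lG (A 0) := by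
  have h1 : (lh K A 0 : GLm n R) = lG (A 0) := if_pos hK
  rw [nh, h1]
  show 1 * lG (A 0) = lG (A 0)
  rw [one_mul]

/-- The twist parameters. -/
noncomputable def tauSeq (D : ℕ → Fin n → Rˣ) (A B : ℕ → ℕ → ℕ → Rˣ) : ℕ → Fin n → Rˣ
  | 0 => 1
  | 1 => (rv (D 1))⁻¹
  | v + 2 => rv (tauSeq D A B (v + 1) * dT (B v) * (dT (A v))⁻¹ * (D (v + 2))⁻¹)

/-- The twist parameters, with the last one equal to the eigenvalues at the apex. -/
noncomputable def tauH (K : ℕ) (D : ℕ → Fin n → Rˣ) (A B : ℕ → ℕ → ℕ → Rˣ) (v : ℕ) : Fin n → Rˣ :=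
  if v ≤ K then tauSeq D A B v else D 0

/-- The gluing matrices of the paired boundary edges. -/
noncomputable def Gv (K : ℕ) (D : ℕ → Fin n → Rˣ) (A B : ℕ → ℕ → ℕ → Rˣ) : ℕ → GLm n R
  | 0 => 1
  | v + 1 => nh K A v * dg (tauH K D A B (v + 1)) * (nh K B v)⁻¹

/-- The local monodromies. -/
noncomputable def Av (K : ℕ) (D : ℕ → Fin n → Rˣ) (A B : ℕ → ℕ → ℕ → Rˣ) : ℕ → GLm n R
  | 0 => Gv K D A B (K + 1)
  | v + 1 => Gv K D A B v * (Gv K D A B (v + 1))⁻¹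

/-- The frame in which the local monodromy is triangular. -/
noncomputable def Xv (K : ℕ) (A : ℕ → ℕ → ℕ → Rˣ) : ℕ → GLm n R
  | 0 => 1
  | 1 => Wg n
  | i + 2 => nh K A i

/-- The closing condition. -/
def PinCond (K : ℕ) (D : ℕ → Fin n → Rˣ) (A B : ℕ → ℕ → ℕ → Rˣ) : Prop :=
  dT (B (K - 1)) = D (K + 1) * dT (A (K - 1)) * rv (D 0) * (tauSeq D A B K)⁻¹

theorem Xv_spec_zero (K : ℕ) (D : ℕ → Fin n → Rˣ) (A B : ℕ → ℕ → ℕ → Rˣ) :
    IsUpD ((Xv K A 0)⁻¹ * Av K D A B 0 * Xv K A 0 : GLm n R) (D 0) := by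
  have h1 : (Av K D A B 0 : GLm n R) = fr A K * dg (D 0) * (fr B K)⁻¹ := by
    show nh K A K * dg (tauH K D A B (K + 1)) * (nh K B K)⁻¹ = _
    rw [nh_self, nh_self]
    have : tauH K D A B (K + 1) = D 0 := if_neg (by omega)
    rw [this]
  show IsUpD ((1 : GLm n R)⁻¹ * Av K D A B 0 * 1) (D 0)
  rw [h1]
  simp only [inv_one, one_mul, mul_one]
  have h := ((fr_up (n := n) A K).mul (dg_isUpD (D 0))).mul (fr_up (n := n) B K).inv
  simpa using h

theorem Xv_spec_one {K : ℕ} (hK : 0 < K) (D : ℕ → Fin n → Rˣ) (A B : ℕ → ℕ → ℕ → Rˣ) :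
    IsUpD ((Xv K A 1)⁻¹ * Av K D A B 1 * Xv K A 1 : GLm n R) (D 1) := by
  have h1 : (Av K D A B 1 : GLm n R) = lG (B 0) * dg (rv (D 1)) * (lG (A 0))⁻¹ := by
    show 1 * (nh K A 0 * dg (tauH K D A B 1) * (nh K B 0)⁻¹)⁻¹ = _
    rw [nh_zero hK, nh_zero hK]
    have : tauH K D A B 1 = (rv (D 1))⁻¹ := if_pos (by omega)
    rw [this, dg_inv]
    simp [mul_assoc]
  show IsUpD ((Wg n)⁻¹ * Av K D A B 1 * Wg n) (D 1)
  rw [h1, Wg_inv]
  have h := Wg_conj_isLoD (((lG_lo (n := n) (B 0)).mul (dg_isLoD (rv (D 1)))).mul (lG_lo (n := n) (A 0)).inv)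
  have e : rv ((1 : Fin n → Rˣ) * rv (D 1) * 1⁻¹) = D 1 := by
    simp
  rw [e] at h
  exact h

theorem vertex_group {G : Type*} [Group G] (N N' c c' W' t tx : G) :
    N⁻¹ * ((N * t * N'⁻¹) * ((N * c * W') * tx * (N' * c' * W')⁻¹)⁻¹) * N =
      t * c' * (W' * tx⁻¹ * W'⁻¹) * c⁻¹ := by
  group

theorem comm_cancel {G : Type*} [CommGroup G] (a b c D : G) :
    a * b * (a * b * c⁻¹ * D⁻¹)⁻¹ * c⁻¹ = D := by
  simp only [mul_inv, inv_inv]
  calc a * b * (a⁻¹ * b⁻¹ * c * D) * c⁻¹ = (a * a⁻¹) * (b * b⁻¹) * (c * c⁻¹) * D := by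
        simp only [mul_comm, mul_left_comm, mul_assoc]
    _ = D := by simp

theorem comm_cancel2 {G : Type*} [CommGroup G] (t E d r : G) :
    t * (E * d * r * t⁻¹) * r⁻¹ * d⁻¹ = E := by
  calc t * (E * d * r * t⁻¹) * r⁻¹ * d⁻¹ = E * (t * t⁻¹) * (d * d⁻¹) * (r * r⁻¹) := by
        simp only [mul_comm, mul_left_comm, mul_assoc]
    _ = E := by simp

theorem Xv_spec_step {K : ℕ} (D : ℕ → Fin n → Rˣ) (A B : ℕ → ℕ → ℕ → Rˣ) (hpin : PinCond K D A B)
    {i : ℕ} (hi : i < K) :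
    IsUpD ((Xv K A (i + 2))⁻¹ * Av K D A B (i + 2) * Xv K A (i + 2) : GLm n R) (D (i + 2)) := by
  show IsUpD ((nh K A i)⁻¹ * (Gv K D A B (i + 1) * (Gv K D A B (i + 2))⁻¹) * nh K A i) (D (i + 2))
  have h1 : (Gv K D A B (i + 1) : GLm n R) = nh K A i * dg (tauH K D A B (i + 1)) * (nh K B i)⁻¹ := rfl
  have h2 : (Gv K D A B (i + 2) : GLm n R) =
      (nh K A i * ch K A i * Wg n) * dg (tauH K D A B (i + 2)) * (nh K B i * ch K B i * Wg n)⁻¹ := by
    show nh K A (i + 1) * dg (tauH K D A B (i + 2)) * (nh K B (i + 1))⁻¹ = _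
    rw [nh_succ K A hi, nh_succ K B hi]
  rw [h1, h2, vertex_group, Wg_inv]
  have h3 : (Wg n * (dg (tauH K D A B (i + 2)))⁻¹ * Wg n : GLm n R) =
      (dg (rv (tauH K D A B (i + 2))))⁻¹ := by
    rw [← dg_inv, Wg_conj_dg, rv_inv, dg_inv]
  rw [h3]
  have h4 := (((dg_isUpD (tauH K D A B (i + 1))).mul (ch_up (n := n) K B i)).mul
    (dg_isUpD (rv (tauH K D A B (i + 2)))).inv).mul (ch_up (n := n) K A i).inv
  have h5 : tauH K D A B (i + 1) * dT (B i) * (rv (tauH K D A B (i + 2)))⁻¹ * (dT (A i))⁻¹ =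
      D (i + 2) := by
    have e1 : tauH K D A B (i + 1) = tauSeq D A B (i + 1) := if_pos (by omega)
    rw [e1]
    by_cases hc : i + 2 ≤ K
    · have e2 : tauH K D A B (i + 2) = tauSeq D A B (i + 2) := if_pos hc
      rw [e2]
      show _ * _ * (rv (rv (tauSeq D A B (i + 1) * dT (B i) * (dT (A i))⁻¹ * (D (i + 2))⁻¹)))⁻¹ * _ = _
      rw [rv_rv]
      exact comm_cancel _ _ _ _
    · have hi2 : i + 1 = K := by omega
      have e2 : tauH K D A B (i + 2) = D 0 := if_neg hc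
      rw [e2]
      have e3 : K - 1 = i := by omega
      unfold PinCond at hpin
      rw [e3] at hpin
      rw [hpin, hi2, show i + 2 = K + 1 by omega]
      exact comm_cancel2 _ _ _ _
  rw [h5] at h4
  exact h4

theorem Xv_spec {K : ℕ} (hK : 0 < K) (D : ℕ → Fin n → Rˣ) (A B : ℕ → ℕ → ℕ → Rˣ)
    (hpin : PinCond K D A B) {v : ℕ} (hv : v ≤ K + 1) :
    IsUpD ((Xv K A v)⁻¹ * Av K D A B v * Xv K A v : GLm n R) (D v) := by
  match v, hv with
  | 0, _ => exact Xv_spec_zero K D A B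
  | 1, _ => exact Xv_spec_one hK D A B
  | i + 2, h => exact Xv_spec_step D A B hpin (by omega)

/-- The telescoping product of the local monodromies. -/
theorem prod_Av (K : ℕ) (D : ℕ → Fin n → Rˣ) (A B : ℕ → ℕ → ℕ → Rˣ) (m : ℕ) :
    (List.ofFn fun i : Fin m => (Av K D A B (i.val + 1) : GLm n R)).prod = (Gv K D A B m)⁻¹ := by
  induction m with
  | zero =>
    simp [Gv]
  | succ m ih =>
    rw [List.ofFn_succ', List.concat_eq_append, List.prod_append]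
    simp only [Fin.val_castSucc, Fin.val_last, List.prod_cons, List.prod_nil, mul_one]
    rw [ih]
    show (Gv K D A B m)⁻¹ * (Gv K D A B m * (Gv K D A B (m + 1))⁻¹) = _
    group

theorem prod_Av_all (K : ℕ) (D : ℕ → Fin n → Rˣ) (A B : ℕ → ℕ → ℕ → Rˣ) :
    (List.ofFn fun i : Fin (K + 2) => (Av K D A B i.val : GLm n R)).prod = 1 := by
  rw [List.ofFn_succ, List.prod_cons]
  have h := prod_Av K D A B (K + 1) (n := n)
  simp only [Fin.val_zero, Fin.val_succ]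
  rw [h]
  show Gv K D A B (K + 1) * _ = 1
  simp

end Frames

end Vale.Agent.Lib.P002
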