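import Mathlib

/-!
Burnside's theorem: an irreducible monoid of matrices over `ℂ` spans all matrices.
-/

open Matrix

namespace Vale.Agent.Lib.P002

variable {r : ℕ}

/-- The column vectors. -/
abbrev VV (r : ℕ) := Fin r → ℂ

theorem burnside (hr : 0 < r) {Γ : Type*} [Monoid Γ] (ρ : Γ →* Matrix (Fin r) (Fin r) ℂ)
    (hirr : ∀ U : Submodule ℂ (Fin r → ℂ), (∀ γ, ∀ x ∈ U, (ρ γ).mulVec x ∈ U) → U = ⊥ ∨ U = ⊤) :
    Submodule.span ℂ (Set.range ρ) = ⊤ := by
  classical
  have : Nonempty (Fin r) := ⟨⟨0, hr⟩⟩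
  let e : Matrix (Fin r) (Fin r) ℂ ≃ₐ[ℂ] Module.End ℂ (VV r) := Matrix.toLinAlgEquiv'
  let ρ' : Γ →* Module.End ℂ (VV r) := (e.toAlgHom : _ →* _).comp ρ
  let 𝔅 : Subalgebra ℂ (Module.End ℂ (VV r)) := Algebra.adjoin ℂ (Set.range ρ')
  have hinv : ∀ N : Submodule 𝔅 (VV r), N = ⊥ ∨ N = ⊤ := by
    intro N
    let U : Submodule ℂ (VV r) := N.restrictScalars ℂ
    have hU : ∀ γ, ∀ x ∈ U, (ρ γ).mulVec x ∈ U := by
      intro γ x hx
      have h1 : ρ' γ ∈ 𝔅 := Algebra.subset_adjoin ⟨γ, rfl⟩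
      have h2 : (⟨ρ' γ, h1⟩ : 𝔅) • x ∈ N := N.smul_mem _ hx
      exact h2
    rcases hirr U hU with h | h
    · left
      exact (Submodule.restrictScalars_eq_bot_iff ℂ 𝔅 (VV r)).mp h
    · right
      exact (Submodule.restrictScalars_eq_top_iff ℂ 𝔅 (VV r)).mp h
  have : IsSimpleOrder (Submodule 𝔅 (VV r)) := ⟨hinv⟩
  have hS : IsSimpleModule 𝔅 (VV r) := {}
  -- Schur's lemma
  have hschur : ∀ ψ : Module.End 𝔅 (VV r), ∃ μ : ℂ, ∀ v, ψ v = μ • v := by
    intro ψ
    let ψ' : Module.End ℂ (VV r) := ψ.restrictScalars ℂ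
    obtain ⟨μ, hμ⟩ := Module.End.exists_eigenvalue ψ'
    refine ⟨μ, ?_⟩
    let K : Submodule ℂ (VV r) := Module.End.eigenspace ψ' μ
    have hK : ∀ γ, ∀ x ∈ K, (ρ γ).mulVec x ∈ K := by
      intro γ x hx
      rw [Module.End.mem_eigenspace_iff] at hx ⊢
      have h1 : ρ' γ ∈ 𝔅 := Algebra.subset_adjoin ⟨γ, rfl⟩
      have h2 := ψ.map_smul (⟨ρ' γ, h1⟩ : 𝔅) x
      have h3 : ψ' ((ρ γ).mulVec x) = ρ' γ (ψ' x) := h2
      rw [h3, hx, map_smul]
      rfl
    rcases hirr K hK with h | h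
    · exact absurd h hμ
    · intro v
      have hv : v ∈ K := by
        rw [h]
        trivial
      exact Module.End.mem_eigenspace_iff.mp hv
  -- every linear map is in the algebra
  have htop : ∀ φ : Module.End ℂ (VV r), φ ∈ 𝔅 := by
    intro φ
    let f : Module.End (Module.End 𝔅 (VV r)) (VV r) :=
      { toFun := φ
        map_add' := φ.map_add
        map_smul' := by
          intro ψ v
          obtain ⟨μ, hμ⟩ := hschur ψ
          show φ (ψ v) = ψ (φ v)
          rw [hμ, hμ, map_smul] }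
    let s : Finset (VV r) := Finset.univ.image fun i : Fin r => (Pi.single i 1 : VV r)
    obtain ⟨b, hb⟩ := jacobson_density (R := 𝔅) (M := VV r) f s
    have hbφ : (b : Module.End ℂ (VV r)) = φ := by
      apply LinearMap.pi_ext'
      intro i
      ext
      have h1 := hb (Pi.single i 1) (Finset.mem_image.mpr ⟨i, Finset.mem_univ _, rfl⟩)
      have h2 : φ (Pi.single i 1) = (b : Module.End ℂ (VV r)) (Pi.single i 1) := h1
      simp only [LinearMap.coe_comp, Function.comp_apply, LinearMap.coe_single]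
      rw [← h2]
    rw [← hbφ]
    exact b.property
  -- the span
  have hspan : Subalgebra.toSubmodule 𝔅 ≤
      (Submodule.span ℂ (Set.range ρ)).map e.toLinearEquiv.toLinearMap := by
    have h1 : Subalgebra.toSubmodule 𝔅 = Submodule.span ℂ (Submonoid.closure (Set.range ρ') : Set _) :=
      Algebra.adjoin_eq_span ℂ (Set.range ρ')
    have h2 : (Submonoid.closure (Set.range ρ') : Set (Module.End ℂ (VV r))) = Set.range ρ' := by
      have : Set.range ρ' = (MonoidHom.mrange ρ' : Set _) := (MonoidHom.coe_mrange ρ').symm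
      rw [this, Submonoid.closure_eq]
    intro x hx
    have hx2 : x ∈ Subalgebra.toSubmodule 𝔅 := hx
    rw [h1, h2] at hx2
    rw [Submodule.map_span]
    refine (Submodule.span_mono ?_) hx2
    rintro _ ⟨γ, rfl⟩
    exact ⟨ρ γ, ⟨γ, rfl⟩, rfl⟩
  rw [eq_top_iff]
  intro M _
  have h1 : e M ∈ Subalgebra.toSubmodule 𝔅 := htop (e M)
  obtain ⟨y, hy, hy2⟩ := hspan h1
  have : y = M := e.injective hy2
  rwa [← this]

end Vale.Agent.Lib.P002
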