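import Vale.Agent.Lib.P002.RWalk

/-!
The chart of the representation variety of the punctured surface: parameters, closing condition at
the big vertex, and functoriality.
-/

open Matrix

namespace Vale.Agent.Lib.P002

variable {R : Type*} [CommRing R] {S : Type*} [CommRing S]

/-- The coordinates of the chart. -/
abbrev PI := (ℕ × ℕ × ℕ) ⊕ (Bool × ℕ × ℕ)

/-- Units of the target of a ring homomorphism. -/
def mapP (φ : R →+* S) (x : PI → Rˣ) : PI → Sˣ := fun i => Units.map φ.toMonoidHom (x i)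

/-- The triangle coordinates. -/
def arrF (x : PI → Rˣ) : ℕ → ℕ → ℕ → Rˣ := fun m a b => x (Sum.inl (m, a, b))

theorem arrF_map (φ : R →+* S) (x : PI → Rˣ) :
    (fun a => mapA φ (arrF x a)) = arrF (mapP φ x) := rfl

section Nu

variable {k : ℕ}

/-- A diagonal whose product is the determinant of the reversal matrix. -/
noncomputable def nu (y : Fin (k + 1) → Rˣ) : Fin (k + 1) → Rˣ :=
  Fin.lastCases (om (k + 1) R * (∏ j : Fin k, y j.castSucc)⁻¹) (fun j => y j.castSucc)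

theorem prH_nu (y : Fin (k + 1) → Rˣ) : prH (nu y) = om (k + 1) R := by
  rw [prH_apply, Fin.prod_univ_castSucc]
  simp [nu]

theorem nu_of_prod {y : Fin (k + 1) → Rˣ} (hy : prH y = om (k + 1) R) : nu y = y := by
  funext i
  revert i
  refine Fin.lastCases ?_ (fun j => by simp [nu])
  simp only [nu, Fin.lastCases_last]
  rw [prH_apply, Fin.prod_univ_castSucc] at hy
  rw [← hy]
  simp

theorem om_map (φ : R →+* S) {n : ℕ} : Units.map φ.toMonoidHom (om n R) = om n S := by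
  unfold om
  rw [map_prod]
  exact Finset.prod_congr rfl fun i _ => congrFun (kapR_map φ) i

theorem nu_map (φ : R →+* S) (y : Fin (k + 1) → Rˣ) : mapD φ (nu y) = nu (mapD φ y) := by
  funext i
  revert i
  refine Fin.lastCases ?_ (fun j => by simp [nu, mapD])
  simp only [nu, Fin.lastCases_last, mapD]
  rw [map_mul, map_inv, om_map, map_prod]

/-- The twist coordinates of the sides `a`. -/
noncomputable def xaF (x : PI → Rˣ) (t : ℕ) : Fin (k + 1) → Rˣ :=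
  nu fun i => x (Sum.inr (false, t, i.val))

/-- The twist coordinates of the sides `b`. -/
noncomputable def xbF (x : PI → Rˣ) (t : ℕ) : Fin (k + 1) → Rˣ :=
  nu fun i => x (Sum.inr (true, t, i.val))

theorem xaF_map (φ : R →+* S) (x : PI → Rˣ) (t : ℕ) :
    mapD φ (xaF (k := k) x t) = xaF (mapP φ x) t := nu_map φ _

theorem xbF_map (φ : R →+* S) (x : PI → Rˣ) (t : ℕ) :
    mapD φ (xbF (k := k) x t) = xbF (mapP φ x) t := nu_map φ _

/-- The twist coordinates of the sides at the small punctures. -/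
noncomputable def rhoF (g : ℕ) (A : ℕ → ℕ → ℕ → Rˣ) (D : ℕ → Fin (k + 1) → Rˣ) (j : ℕ) :
    Fin (k + 1) → Rˣ :=
  rv (D j * dCf A (4 * g + 2 * j + 1))

/-- The value at the corner `2` forced by the closing condition at the big vertex. -/
noncomputable def tgtF (g s : ℕ) (D : ℕ → Fin (k + 1) → Rˣ) (x : PI → Rˣ) : Fin (k + 1) → Rˣ :=
  (D s)⁻¹ * dUu g (dp (dCf (arrF x))) (xaF x) (xbF x) (rhoF g (arrF x) D) s

/-- The arrays with the closing condition solved. -/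
noncomputable def arrP (g s : ℕ) (D : ℕ → Fin (k + 1) → Rˣ) (x : PI → Rˣ) : ℕ → ℕ → ℕ → Rˣ :=
  fun m => if m = 0 then pinArr k (tgtF g s D x) (arrF x 0) else arrF x m

theorem prH_dCf (A : ℕ → ℕ → ℕ → Rˣ) (i : ℕ) : prH (dCf A i : Fin (k + 1) → Rˣ) = om (k + 1) R := by
  match i with
  | 0 =>
    show prH (rv kapR) = _
    rw [prH_rv]
    rfl
  | 1 =>
    show prH kapR⁻¹ = _
    rw [map_inv]
    show (om (k + 1) R)⁻¹ = _
    exact om_inv
  | i + 2 => exact prod_dT (A i)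

theorem prH_rhoF (g : ℕ) (A : ℕ → ℕ → ℕ → Rˣ) (D : ℕ → Fin (k + 1) → Rˣ) (hD : ∀ v, prH (D v) = 1)
    (j : ℕ) : prH (rhoF g A D j) = om (k + 1) R := by
  unfold rhoF
  rw [prH_rv, map_mul, hD, prH_dCf, one_mul]

theorem prH_tgtF {g s : ℕ} (hgs : 1 ≤ g ∨ 2 ≤ s) (D : ℕ → Fin (k + 1) → Rˣ)
    (hD : ∀ v, prH (D v) = 1) (x : PI → Rˣ) : prH (tgtF g s D x) = om (k + 1) R := by
  unfold tgtF
  have h1 := dUu_pin g (dCf (arrF x) : ℕ → Fin (k + 1) → Rˣ) (xaF x) (xbF x) (rhoF g (arrF x) D) hgs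
  have h2 := dUu_pr g (dCf (arrF x) : ℕ → Fin (k + 1) → Rˣ) (xaF x) (xbF x) (rhoF g (arrF x) D)
    (prH_dCf _) (fun _ => prH_nu _) (fun _ => prH_nu _) (prH_rhoF g _ D hD) s
  rw [h1, map_mul, map_inv, prH_dCf, om_inv] at h2
  rw [map_mul, map_inv, hD, inv_one, one_mul]
  calc _ = om (k + 1) R * (om (k + 1) R * prH (dUu g (dp (dCf (arrF x))) (xaF x) (xbF x)
        (rhoF g (arrF x) D) s)) := by
        rw [← mul_assoc, om_sq, one_mul]
    _ = om (k + 1) R := by rw [h2, mul_one]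

theorem arrP_ne (g s : ℕ) (D : ℕ → Fin (k + 1) → Rˣ) (x : PI → Rˣ) {m : ℕ} (hm : m ≠ 0) :
    arrP g s D x m = arrF x m := if_neg hm

theorem dCf_arrP_ne (g s : ℕ) (D : ℕ → Fin (k + 1) → Rˣ) (x : PI → Rˣ) {i : ℕ} (hi : i ≠ 2) :
    (dCf (arrP g s D x) i : Fin (k + 1) → Rˣ) = dCf (arrF x) i := by
  match i, hi with
  | 0, _ => rfl
  | 1, _ => rfl
  | 2, h => exact absurd rfl h
  | i + 3, _ =>
    show dT (arrP g s D x (i + 1)) = dT (arrF x (i + 1))
    rw [arrP_ne g s D x (by omega)]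

theorem dCf_arrP_two {g s : ℕ} (hgs : 1 ≤ g ∨ 2 ≤ s) (D : ℕ → Fin (k + 1) → Rˣ)
    (hD : ∀ v, prH (D v) = 1) (x : PI → Rˣ) :
    (dCf (arrP g s D x) 2 : Fin (k + 1) → Rˣ) = tgtF g s D x := by
  show dT (arrP g s D x 0) = _
  have h : arrP g s D x 0 = pinArr k (tgtF g s D x) (arrF x 0) := if_pos rfl
  rw [h]
  refine dT_pinArr k _ _ ?_
  show prH _ = prH (dT (arrF x 0))
  rw [prH_tgtF hgs D hD]
  exact (prod_dT _).symm

theorem dp_dCf_arrP (g s : ℕ) (D : ℕ → Fin (k + 1) → Rˣ) (x : PI → Rˣ) :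
    dp (dCf (arrP g s D x)) = (dp (dCf (arrF x)) : ℕ → Fin (k + 1) → Rˣ) := by
  funext i
  by_cases hi : i = 2
  · rw [hi, dp_two, dp_two]
  · rw [dp_of_ne _ hi, dp_of_ne _ hi, dCf_arrP_ne g s D x hi]

theorem rhoF_arrP (g s : ℕ) (D : ℕ → Fin (k + 1) → Rˣ) (x : PI → Rˣ) :
    rhoF g (arrP g s D x) D = rhoF g (arrF x) D := by
  funext j
  unfold rhoF
  rw [dCf_arrP_ne g s D x (by omega)]

/-- The closing condition at the big vertex holds. -/
theorem dUu_arrP {g s : ℕ} (hgs : 1 ≤ g ∨ 2 ≤ s) (D : ℕ → Fin (k + 1) → Rˣ)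
    (hD : ∀ v, prH (D v) = 1) (x : PI → Rˣ) :
    dUu g (dCf (arrP g s D x)) (xaF x) (xbF x) (rhoF g (arrP g s D x) D) s = D s := by
  rw [dUu_pin g _ _ _ _ hgs, dp_dCf_arrP, rhoF_arrP, dCf_arrP_two hgs D hD]
  unfold tgtF
  simp

end Nu

/-! ### Functoriality of the diagonals -/

section MapD

variable {n : ℕ} (φ : R →+* S)

theorem dUh_map (d : ℕ → Fin n → Rˣ) (xa xb : Fin n → Rˣ) (p : ℕ) :
    mapD φ (dUh d xa xb p) = dUh (fun i => mapD φ (d i)) (mapD φ xa) (mapD φ xb) p := by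
  unfold dUh
  simp only [mapD_mul, mapD_inv, mapD_rv]

theorem dUw_map (d : ℕ → Fin n → Rˣ) (xa xb : ℕ → Fin n → Rˣ) : ∀ t,
    mapD φ (dUw d xa xb t) =
      dUw (fun i => mapD φ (d i)) (fun i => mapD φ (xa i)) (fun i => mapD φ (xb i)) t
  | 0 => by
      funext i
      simp [dUw, mapD]
  | t + 1 => by
      show mapD φ (dUh d (xa t) (xb t) (4 * t) * dUw d xa xb t) = dUh _ _ _ _ * dUw _ _ _ t
      rw [mapD_mul, dUh_map, dUw_map d xa xb t]

theorem dUu_map (g : ℕ) (d : ℕ → Fin n → Rˣ) (xa xb ρ : ℕ → Fin n → Rˣ) : ∀ j,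
    mapD φ (dUu g d xa xb ρ j) =
      dUu g (fun i => mapD φ (d i)) (fun i => mapD φ (xa i)) (fun i => mapD φ (xb i))
        (fun i => mapD φ (ρ i)) j
  | 0 => dUw_map φ d xa xb g
  | j + 1 => by
      show mapD φ (((ρ j)⁻¹ * (d (4 * g + 2 * j))⁻¹) * dUu g d xa xb ρ j) =
        (((mapD φ (ρ j))⁻¹ * (mapD φ (d (4 * g + 2 * j)))⁻¹) * dUu g _ _ _ _ j)
      rw [mapD_mul, mapD_mul, mapD_inv, mapD_inv, dUu_map g d xa xb ρ j]

theorem dp_map (d : ℕ → Fin n → Rˣ) :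
    (fun i => mapD φ (dp d i)) = dp (fun i => mapD φ (d i)) := by
  funext i a
  by_cases hi : i = 2
  · subst hi
    rw [dp_two, dp_two]
    simp [mapD]
  · rw [dp_of_ne _ hi, dp_of_ne _ hi]

theorem dCf_map' (A : ℕ → ℕ → ℕ → Rˣ) :
    (fun i => mapD φ (dCf A i : Fin n → Rˣ)) = dCf (fun a => mapA φ (A a)) := by
  funext i
  exact dCf_map φ A i

end MapD

section MapChart

variable {k : ℕ} (φ : R →+* S)

theorem rhoF_map (g : ℕ) (A : ℕ → ℕ → ℕ → Rˣ) (D : ℕ → Fin (k + 1) → Rˣ) :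
    (fun j => mapD φ (rhoF g A D j)) =
      rhoF g (fun a => mapA φ (A a)) (fun v => mapD φ (D v)) := by
  funext j
  unfold rhoF
  rw [mapD_rv, mapD_mul, dCf_map]

theorem tgtF_map (g s : ℕ) (D : ℕ → Fin (k + 1) → Rˣ) (x : PI → Rˣ) :
    mapD φ (tgtF g s D x) = tgtF g s (fun v => mapD φ (D v)) (mapP φ x) := by
  unfold tgtF
  rw [mapD_mul, mapD_inv, dUu_map, dp_map, dCf_map', rhoF_map]
  have e1 : (fun i => mapD φ (xaF (k := k) x i)) = xaF (mapP φ x) := by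
    funext i
    exact xaF_map φ x i
  have e2 : (fun i => mapD φ (xbF (k := k) x i)) = xbF (mapP φ x) := by
    funext i
    exact xbF_map φ x i
  rw [e1, e2]
  rfl

theorem arrP_map (g s : ℕ) (D : ℕ → Fin (k + 1) → Rˣ) (x : PI → Rˣ) :
    (fun a => mapA φ (arrP g s D x a)) = arrP g s (fun v => mapD φ (D v)) (mapP φ x) := by
  funext m
  unfold arrP
  split_ifs
  · rw [pinArr_map, tgtF_map]
    rfl
  · rfl

end MapChart

end Vale.Agent.Lib.P002
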