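import Mathlib

/-!
Statement definitions for representations of the fundamental group of a closed orientable surface
of genus `g` minus `s + 1` points, with regular local monodromy.

The surface is cut along arcs into a polygon with `4 g + 2 s` sides and boundary word
`a₀ b₀ a₀⁻¹ b₀⁻¹ ⋯ x₀ x₀⁻¹ ⋯`; the fold vertex of `x_j x_j⁻¹` is the puncture `j < s`, all other
vertices are the puncture `s`.
-/

open Matrix Polynomial

namespace Vale.Agent.Lib.P002

/-- The group `SL_r(ℂ)`. -/
abbrev SLr (r : ℕ) := Matrix.SpecialLinearGroup (Fin r) ℂ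

/-- The generators: `a_t = inl (t, false)`, `b_t = inl (t, true)`, `c_j = inr j`. -/
abbrev PGens (g s : ℕ) := (Fin g × Bool) ⊕ Fin (s + 1)

variable {g s r : ℕ}

/-- The generator `a_t`, with a natural number as index. -/
def aN (A : PGens g s → SLr r) (t : ℕ) : SLr r :=
  if h : t < g then A (Sum.inl (⟨t, h⟩, false)) else 1

/-- The generator `b_t`, with a natural number as index. -/
def bN (A : PGens g s → SLr r) (t : ℕ) : SLr r :=
  if h : t < g then A (Sum.inl (⟨t, h⟩, true)) else 1

/-- The generator `c_j`, with a natural number as index. -/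
def cN (A : PGens g s → SLr r) (j : ℕ) : SLr r :=
  if h : j < s + 1 then A (Sum.inr ⟨j, h⟩) else 1

/-- The surface relation `[a₀, b₀] ⋯ [a_{g-1}, b_{g-1}] c₀ ⋯ c_s = 1`. -/
def IsPRep (A : PGens g s → SLr r) : Prop :=
  (List.ofFn fun t : Fin g => A (Sum.inl (t, false)) * A (Sum.inl (t, true)) *
      (A (Sum.inl (t, false)))⁻¹ * (A (Sum.inl (t, true)))⁻¹).prod *
    (List.ofFn fun j : Fin (s + 1) => A (Sum.inr j)).prod = 1

/-- `M` is regular (all eigenspaces have dimension at most one) with eigenvalues `l` counted with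
multiplicity: this is the regular conjugacy class with characteristic polynomial `∏ (X - l i)`. -/
def IsRegular (M : Matrix (Fin r) (Fin r) ℂ) (l : Fin r → ℂ) : Prop :=
  M.charpoly = ∏ i, (X - C (l i)) ∧
    ∀ μ : ℂ, Module.finrank ℂ (LinearMap.ker (Matrix.toLin' (M - μ • (1 : Matrix (Fin r) (Fin r) ℂ)))) ≤ 1

/-- The invariant flag of a regular matrix attached to the ordering `l` of its eigenvalues: the
`k`-th member is the kernel of `∏_{i < k} (M - l i)`, of dimension `k`. -/
noncomputable def regFlag (M : Matrix (Fin r) (Fin r) ℂ) (l : Fin r → ℂ) (k : ℕ) :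
    Submodule ℂ (Fin r → ℂ) :=
  LinearMap.ker (Matrix.toLin'
    (aeval M (∏ i ∈ Finset.univ.filter (fun i : Fin r => i.val < k), (X - C (l i)))))

/-- The product `[b_{t-1}, a_{t-1}] ⋯ [b₀, a₀]`. -/
def wT (A : PGens g s → SLr r) : ℕ → SLr r
  | 0 => 1
  | t + 1 => bN A t * aN A t * (bN A t)⁻¹ * (aN A t)⁻¹ * wT A t

/-- The product `c_{j-1}⁻¹ ⋯ c₀⁻¹ [b_{g-1}, a_{g-1}] ⋯ [b₀, a₀]`. -/
def uT (A : PGens g s → SLr r) : ℕ → SLr r
  | 0 => wT A g
  | j + 1 => (cN A j)⁻¹ * uT A j

/-- The group element carrying the polygon corner `0` to the polygon corner `i`, for the corners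
at the puncture `s`, walking around this puncture through the polygon. -/
def cornerEl (A : PGens g s → SLr r) (i : ℕ) : SLr r :=
  if i < 4 * g then
    if i % 4 = 0 then wT A (i / 4)
    else if i % 4 = 1 then aN A (i / 4) * (bN A (i / 4))⁻¹ * (aN A (i / 4))⁻¹ * wT A (i / 4)
    else if i % 4 = 2 then (bN A (i / 4))⁻¹ * (aN A (i / 4))⁻¹ * wT A (i / 4)
    else (aN A (i / 4))⁻¹ * wT A (i / 4)
  else uT A ((i - 4 * g) / 2)

/-- The invariant flag of the local monodromy at the puncture `j`. -/
noncomputable def cFlag (A : PGens g s → SLr r) (l : Fin (s + 1) → Fin r → ℂ) (j k : ℕ) :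
    Submodule ℂ (Fin r → ℂ) :=
  if h : j < s + 1 then
    regFlag ((A (Sum.inr ⟨j, h⟩) : SLr r) : Matrix (Fin r) (Fin r) ℂ) (l ⟨j, h⟩) k
  else ⊥

/-- The flag at the polygon corner `i`: at a fold vertex it is the invariant flag of `c_j`, and at
the other corners it is the invariant flag of `c_s` carried to this corner. -/
noncomputable def cornerFlag (A : PGens g s → SLr r) (l : Fin (s + 1) → Fin r → ℂ) (i k : ℕ) :
    Submodule ℂ (Fin r → ℂ) :=
  if 4 * g ≤ i ∧ (i - 4 * g) % 2 = 1 then cFlag A l ((i - 4 * g) / 2) k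
  else (cFlag A l s k).map (Matrix.toLin' ((cornerEl A i : SLr r) : Matrix (Fin r) (Fin r) ℂ))

/-- Three flags are in general position: `E a + F b + G c` is everything when `a + b + c = r`. -/
def GenFlags (E F G : ℕ → Submodule ℂ (Fin r → ℂ)) : Prop :=
  ∀ a b c, a + b + c = r → E a ⊔ F b ⊔ G c = ⊤

/-- General position: triangulate the polygon by the diagonals from the corner `0`; the three flags
at the corners of each triangle are in general position. -/
def IsGenPos (A : PGens g s → SLr r) (l : Fin (s + 1) → Fin r → ℂ) : Prop :=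
  ∀ m, m + 2 < 4 * g + 2 * s →
    GenFlags (cornerFlag A l 0) (cornerFlag A l (m + 1)) (cornerFlag A l (m + 2))

/-- The part of the representation variety with local monodromy `c_j` in the regular class with
eigenvalues `l j`, and with invariant flags in general position. -/
def YStar (l : Fin (s + 1) → Fin r → ℂ) : Set (PGens g s → SLr r) :=
  {A | IsPRep A ∧ (∀ j, IsRegular ((A (Sum.inr j) : SLr r) : Matrix (Fin r) (Fin r) ℂ) (l j)) ∧
    IsGenPos A l}

/-- The representation given by the tuple is irreducible. -/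
def IsIrredP (A : PGens g s → SLr r) : Prop :=
  ∀ U : Submodule ℂ (Fin r → ℂ),
    (∀ i, ∀ x ∈ U, ((A i : SLr r) : Matrix (Fin r) (Fin r) ℂ).mulVec x ∈ U) → U = ⊥ ∨ U = ⊤

/-- All entries of all matrices of the tuple lie in the ring of integers of `L`, so the tuple
defines an `O_L`-point of the character variety. -/
def IsOLTuple (L : IntermediateField ℚ ℂ) (A : PGens g s → SLr r) : Prop :=
  ∀ i a b, ((A i : SLr r) : Matrix (Fin r) (Fin r) ℂ) a b ∈ L ∧
    IsIntegral ℤ (((A i : SLr r) : Matrix (Fin r) (Fin r) ℂ) a b)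

/-- The homomorphism from the free group on the generators given by a tuple of matrices. -/
def rhoP (A : PGens g s → SLr r) : FreeGroup (PGens g s) →* SLr r := FreeGroup.lift A

/-- The value of a polynomial in the traces of finitely many words at a tuple. -/
noncomputable def evalTrP {m : ℕ} (w : Fin m → FreeGroup (PGens g s))
    (P : MvPolynomial (Fin m) ℂ) (A : PGens g s → SLr r) : ℂ :=
  MvPolynomial.eval
    (fun i => Matrix.trace ((rhoP A (w i) : SLr r) : Matrix (Fin r) (Fin r) ℂ)) P

end Vale.Agent.Lib.P002
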