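import Vale.Agent.Lib.P002.RPts

/-!
Every tuple in the generic locus is conjugate to a value of the chart.
-/

open Matrix

namespace Vale.Agent.Lib.P002

section Side

variable {R : Type*} [CommRing R] {n : ℕ}

/-- A group element carrying the flags at the ends of a side to the flags at the ends of another
side is a gluing matrix. -/
theorem side_diag (B : ℕ → GLm n R) {i i' : ℕ} {C C' e e1 e' e1' U U' g Si Si1 Si' Si'1 : GLm n R}
    {dC de de1' dU : Fin n → Rˣ}
    (hB : B (i + 1) * Wg n = B i * C) (hB' : B (i' + 1) * Wg n = B i' * C')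
    (hSi : Si = B i * e) (hSi1 : Si1 = B (i + 1) * e1) (hSi' : Si' = B i' * e')
    (hSi'1 : Si'1 = B (i' + 1) * e1')
    (h1 : g * Si = Si'1 * U) (h2 : g⁻¹ * Si' = Si1 * U')
    (hC : IsUpD C dC) (he : IsUpD e de) (he1' : IsUpD e1' de1') (hU : IsUpD U dU)
    (hC' : IsUp C'.val) (he1 : IsUp e1.val) (he' : IsUp e'.val) (hU' : IsUp U'.val) :
    ∃ τ, g = glue B i i' τ ∧ rv τ = de1' * dU * de⁻¹ * dC := by
  set Q := Wg n * (B (i' + 1))⁻¹ * g * B (i + 1) with hQ
  have hup : IsUp Q.val := by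
    have e2 : Wg n * (B (i' + 1))⁻¹ = C'⁻¹ * (B i')⁻¹ := by
      have h3 : (B (i' + 1) * Wg n)⁻¹ = Wg n * (B (i' + 1))⁻¹ := by
        rw [_root_.mul_inv_rev, Wg_inv]
      rw [← h3, hB', _root_.mul_inv_rev]
    have e3 : g * B (i + 1) = B i' * e' * U'⁻¹ * e1⁻¹ := by
      have h3 : g * Si1 = Si' * U'⁻¹ := by
        have : Si' = g * (Si1 * U') := by
          rw [← h2]
          group
        rw [this]
        group
      rw [hSi1, hSi'] at h3
      calc g * B (i + 1) = g * (B (i + 1) * e1) * e1⁻¹ := by group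
        _ = _ := by rw [h3]
    have e4 : Q = C'⁻¹ * e' * U'⁻¹ * e1⁻¹ := by
      rw [hQ, e2, mul_assoc, e3]
      group
    rw [e4]
    exact ((( isUp_inv _ hC').mul he').mul (isUp_inv _ hU')).mul (isUp_inv _ he1)
  have hQ' : Wg n * Q * Wg n = e1' * U * e⁻¹ * C := by
    have e2 : Wg n * Q * Wg n = (B (i' + 1))⁻¹ * g * (B (i + 1) * Wg n) := by
      rw [hQ]
      have hW : (Wg n : GLm n R) * Wg n = 1 := Wg_mul_Wg n
      calc Wg n * (Wg n * (B (i' + 1))⁻¹ * g * B (i + 1)) * Wg n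
          = (Wg n * Wg n) * ((B (i' + 1))⁻¹ * g * (B (i + 1) * Wg n)) := by group
        _ = _ := by rw [hW, one_mul]
    rw [e2, hB]
    calc (B (i' + 1))⁻¹ * g * (B i * C) = (B (i' + 1))⁻¹ * (g * (B i * e)) * e⁻¹ * C := by group
      _ = (B (i' + 1))⁻¹ * (B (i' + 1) * e1' * U) * e⁻¹ * C := by
          rw [← hSi, h1, hSi'1]
      _ = _ := by group
  have hQ'up : IsUpD (Wg n * Q * Wg n) (de1' * dU * de⁻¹ * dC) := by
    rw [hQ']
    exact ((he1'.mul hU).mul he.inv).mul hC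
  have hlo : IsLoD Q (rv (de1' * dU * de⁻¹ * dC)) := by
    have h3 := Wg_conj_isUpD hQ'up
    have e2 : Wg n * (Wg n * Q * Wg n) * Wg n = Q := by
      have hW : (Wg n : GLm n R) * Wg n = 1 := Wg_mul_Wg n
      calc Wg n * (Wg n * Q * Wg n) * Wg n = (Wg n * Wg n) * Q * (Wg n * Wg n) := by group
        _ = Q := by rw [hW, one_mul, mul_one]
    rwa [e2] at h3
  obtain ⟨δ, hδ⟩ := exists_diag Q hup
  obtain ⟨h4, h5⟩ := eq_dg_of_up_lo' hδ hlo
  refine ⟨δ, ?_, ?_⟩
  · unfold glue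
    rw [← h4, hQ]
    have hW : (Wg n : GLm n R) * Wg n = 1 := Wg_mul_Wg n
    calc g = (B (i' + 1)) * 1 * (B (i' + 1))⁻¹ * g * (B (i + 1) * (B (i + 1))⁻¹) := by group
      _ = B (i' + 1) * (Wg n * Wg n) * (B (i' + 1))⁻¹ * g * (B (i + 1) * (B (i + 1))⁻¹) := by
          rw [hW]
      _ = _ := by group
  · rw [h5, rv_rv]

theorem glue_det_eq (B : ℕ → GLm n R) (hB : ∀ i, (B i).val.det = 1) (i i' : ℕ) (τ : Fin n → Rˣ) :
    (glue B i i' τ).val.det = ((om n R * prH τ : Rˣ) : R) := by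
  have h1 : (B (i + 1))⁻¹.val.det = 1 := by
    have h2 : (B (i + 1))⁻¹.val.det * (B (i + 1)).val.det = 1 := by
      rw [← Matrix.det_mul]
      have : (B (i + 1))⁻¹.val * (B (i + 1)).val = 1 := by simp
      rw [this, Matrix.det_one]
    rwa [hB, mul_one] at h2
  have h3 : (glue B i i' τ).val = (B (i' + 1)).val * (W n : Mat n R) * (dg τ).val *
      (B (i + 1))⁻¹.val := rfl
  rw [h3, Matrix.det_mul, Matrix.det_mul, Matrix.det_mul, hB, h1, dg_val, Matrix.det_diagonal]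
  have h4 : (∏ a, ((τ a : Rˣ) : R)) = ((prH τ : Rˣ) : R) := by
    rw [prH_apply, Units.coe_prod]
  rw [h4, one_mul, mul_one, Units.val_mul, om_val]

theorem prH_of_det (B : ℕ → GLm n R) (hB : ∀ i, (B i).val.det = 1) {i i' : ℕ} {τ : Fin n → Rˣ}
    (h : (glue B i i' τ).val.det = 1) : prH τ = om n R := by
  rw [glue_det_eq B hB] at h
  have h2 : om n R * prH τ = 1 := Units.ext h
  calc prH τ = (om n R * om n R) * prH τ := by rw [om_sq, one_mul]
    _ = om n R * (om n R * prH τ) := mul_assoc _ _ _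
    _ = om n R := by rw [h2, mul_one]

theorem Bf_td {K : ℕ} {A A' : ℕ → ℕ → ℕ → Rˣ} (h : ∀ m, td n (A m) = td n (A' m)) (i : ℕ) :
    (Bf K A i : GLm n R) = Bf K A' i := by
  match i with
  | 0 => exact fr_td h K
  | 1 => rfl
  | i + 2 => exact nh_td h i

end Side

section Frames

variable {G : Type*} [Group G]

/-- The frames at the corners of the polygon. -/
noncomputable def Sf (a b c : ℕ → G) (Pn : ℕ → G) (g s i : ℕ) : G :=
  if 4 * g ≤ i ∧ (i - 4 * g) % 2 = 1 then Pn ((i - 4 * g) / 2) else cornerG a b c g i * Pn s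

variable (a b c Pn : ℕ → G) {g s : ℕ}

theorem Sf_not {i : ℕ} (h : ¬ (4 * g ≤ i ∧ (i - 4 * g) % 2 = 1)) :
    Sf a b c Pn g s i = cornerG a b c g i * Pn s := if_neg h

theorem Sf_0 {t : ℕ} (ht : t < g) : Sf a b c Pn g s (4 * t) = HwG a b t * Pn s := by
  rw [Sf_not _ _ _ _ (by omega), cornerG_0 _ _ _ ht]

theorem Sf_1 {t : ℕ} (ht : t < g) :
    Sf a b c Pn g s (4 * t + 1) = a t * (b t)⁻¹ * (a t)⁻¹ * HwG a b t * Pn s := by
  rw [Sf_not _ _ _ _ (by omega), cornerG_1 _ _ _ ht]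

theorem Sf_2 {t : ℕ} (ht : t < g) :
    Sf a b c Pn g s (4 * t + 2) = (b t)⁻¹ * (a t)⁻¹ * HwG a b t * Pn s := by
  rw [Sf_not _ _ _ _ (by omega), cornerG_2 _ _ _ ht]

theorem Sf_3 {t : ℕ} (ht : t < g) :
    Sf a b c Pn g s (4 * t + 3) = (a t)⁻¹ * HwG a b t * Pn s := by
  rw [Sf_not _ _ _ _ (by omega), cornerG_3 _ _ _ ht]

theorem Sf_even (j : ℕ) :
    Sf a b c Pn g s (4 * g + 2 * j) = HuG c (HwG a b g) j * Pn s := by
  rw [Sf_not _ _ _ _ (by omega), cornerG_fold]

theorem Sf_odd (j : ℕ) : Sf a b c Pn g s (4 * g + 2 * j + 1) = Pn j := by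
  unfold Sf
  rw [if_pos (by omega), show (4 * g + 2 * j + 1 - 4 * g) / 2 = j by omega]

theorem Sf_4 {t : ℕ} (ht : t ≤ g) : Sf a b c Pn g s (4 * t) = HwG a b t * Pn s := by
  rcases Nat.lt_or_ge t g with h | h
  · exact Sf_0 _ _ _ _ h
  · have : t = g := by omega
    subst this
    exact Sf_even a b c Pn 0

theorem Sf_zero : Sf a b c Pn g s 0 = Pn s := by
  have := Sf_4 a b c Pn (g := g) (s := s) (t := 0) (Nat.zero_le g)
  simpa [HwG] using this

end Frames


section Core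

variable {k g s : ℕ}

/-- The coordinates of a given point of the chart. -/
def paramOf (Arr : ℕ → ℕ → ℕ → ℂˣ) (xa xb : ℕ → Fin (k + 1) → ℂˣ) : PI → ℂˣ
  | Sum.inl (m, a, b) => Arr m a b
  | Sum.inr (false, t, i) => if h : i < k + 1 then xa t ⟨i, h⟩ else 1
  | Sum.inr (true, t, i) => if h : i < k + 1 then xb t ⟨i, h⟩ else 1

theorem arrF_paramOf (Arr : ℕ → ℕ → ℕ → ℂˣ) (xa xb : ℕ → Fin (k + 1) → ℂˣ) :
    arrF (paramOf Arr xa xb) = Arr := rfl

theorem xaF_paramOf (Arr : ℕ → ℕ → ℕ → ℂˣ) (xa xb : ℕ → Fin (k + 1) → ℂˣ)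
    (h : ∀ t, prH (xa t) = om (k + 1) ℂ) (t : ℕ) : xaF (paramOf Arr xa xb) t = xa t := by
  unfold xaF
  have e : (fun i : Fin (k + 1) => paramOf Arr xa xb (Sum.inr (false, t, i.val))) = xa t := by
    funext i
    show (if h : i.val < k + 1 then xa t ⟨i.val, h⟩ else 1) = _
    rw [dif_pos i.isLt]
  rw [e]
  exact nu_of_prod (h t)

theorem xbF_paramOf (Arr : ℕ → ℕ → ℕ → ℂˣ) (xa xb : ℕ → Fin (k + 1) → ℂˣ)
    (h : ∀ t, prH (xb t) = om (k + 1) ℂ) (t : ℕ) : xbF (paramOf Arr xa xb) t = xb t := by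
  unfold xbF
  have e : (fun i : Fin (k + 1) => paramOf Arr xa xb (Sum.inr (true, t, i.val))) = xb t := by
    funext i
    show (if h : i.val < k + 1 then xb t ⟨i.val, h⟩ else 1) = _
    rw [dif_pos i.isLt]
  rw [e]
  exact nu_of_prod (h t)

/-- The group theoretic core of surjectivity of the chart. -/
theorem dom_core (hgs : 1 ≤ g ∨ 2 ≤ s) (D : ℕ → Fin (k + 1) → ℂˣ)
    (a b c Pn : ℕ → GLm (k + 1) ℂ) (L : ℕ → GLm (k + 1) ℂ)
    (hadet : ∀ t, (a t).val.det = 1) (hbdet : ∀ t, (b t).val.det = 1)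
    (hcP : ∀ j, j ≤ s → c j * Pn j = Pn j * L j) (hL : ∀ j, j ≤ s → IsUpD (L j) (D j))
    (hbig : c s = HuG c (HwG a b g) s)
    (hgen : ∀ m, m + 2 < 4 * g + 2 * s → GenG (Sf a b c Pn g s 0).val (Sf a b c Pn g s (m + 1)).val
      (Sf a b c Pn g s (m + 2)).val) :
    ∃ (x : PI → ℂˣ) (h : GLm (k + 1) ℂ),
      (∀ t, t < g → aP g s D x t = h⁻¹ * a t * h) ∧ (∀ t, t < g → bP g s D x t = h⁻¹ * b t * h) ∧
      (∀ j, j < s → cPr g s D x j = h⁻¹ * c j * h) ∧
      HuG (cPr g s D x) (HwG (aP g s D x) (bP g s D x) g) s = h⁻¹ * c s * h := by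
  have hN : 4 ≤ 4 * g + 2 * s := by omega
  set K := 4 * g + 2 * s - 2 with hK
  have hKN : K + 2 = 4 * g + 2 * s := by omega
  set S := Sf a b c Pn g s with hS
  -- relations between the frames
  have hra : ∀ t, t < g → (a t)⁻¹ * S (4 * t) = S (4 * t + 3) := by
    intro t ht
    rw [hS, Sf_0 _ _ _ _ ht, Sf_3 _ _ _ _ ht]
    group
  have hrb : ∀ t, t < g → (b t)⁻¹ * S (4 * t + 3) = S (4 * t + 2) := by
    intro t ht
    rw [hS, Sf_3 _ _ _ _ ht, Sf_2 _ _ _ _ ht]
    group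
  have hra2 : ∀ t, t < g → a t * S (4 * t + 2) = S (4 * t + 1) := by
    intro t ht
    rw [hS, Sf_2 _ _ _ _ ht, Sf_1 _ _ _ _ ht]
    group
  have hrb2 : ∀ t, t < g → b t * S (4 * t + 1) = S (4 * t + 4) := by
    intro t ht
    have e : 4 * t + 4 = 4 * (t + 1) := by ring
    rw [e, hS, Sf_1 _ _ _ _ ht, Sf_4 _ _ _ _ (show t + 1 ≤ g by omega)]
    show _ = (b t * a t * (b t)⁻¹ * (a t)⁻¹ * HwG a b t) * Pn s
    group
  have hrc : ∀ j, j < s → (c j)⁻¹ * S (4 * g + 2 * j) = S (4 * g + 2 * j + 2) := by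
    intro j _
    have e : 4 * g + 2 * j + 2 = 4 * g + 2 * (j + 1) := by ring
    rw [e, hS, Sf_even, Sf_even]
    show _ = ((c j)⁻¹ * HuG c (HwG a b g) j) * Pn s
    group
  have hrc2 : ∀ j, j < s → c j * S (4 * g + 2 * j + 1) = S (4 * g + 2 * j + 1) * L j := by
    intro j hj
    rw [hS, Sf_odd]
    exact hcP j (by omega)
  have hS0 : S 0 = Pn s := Sf_zero _ _ _ _
  have hSN : S (4 * g + 2 * s) = S 0 * L s := by
    have e := Sf_even a b c Pn (g := g) (s := s) s
    rw [hS0, ← hcP s le_rfl, hbig]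
    exact e
  -- normalisation
  have hopp : ∀ p q, p + q = k + 1 → Fl (1 : Mat (k + 1) ℂ) p ⊔ Fl ((S 0)⁻¹ * S 1).val q = ⊤ := by
    intro p q hpq
    have h1 := (hgen 0 (by omega)).left_mul (S 0)⁻¹ p q 0 (by omega)
    rw [Fl_zero, sup_bot_eq] at h1
    have e : (S 0)⁻¹.val * (S 0).val = 1 := by simp
    rw [e] at h1
    exact h1
  obtain ⟨u0, c0, hu0, hc0, hS1⟩ := bigcell ((S 0)⁻¹ * S 1) hopp
  set h : GLm (k + 1) ℂ := S 0 * u0 with hh
  let S' : ℕ → GLm (k + 1) ℂ := fun i => h⁻¹ * S i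
  have hS'0 : S' 0 = u0⁻¹ := by
    show (S 0 * u0)⁻¹ * S 0 = _
    group
  have hS'1 : S' 1 = Wg (k + 1) * c0 := by
    show (S 0 * u0)⁻¹ * S 1 = _
    have : (S 0 * u0)⁻¹ * S 1 = u0⁻¹ * ((S 0)⁻¹ * S 1) := by group
    rw [this, hS1]
    group
  have hone : ∀ m, Fl (h⁻¹.val * (S 0).val) m = Fl (1 : Mat (k + 1) ℂ) m := by
    intro m
    have e : h⁻¹.val * (S 0).val = (1 : Mat (k + 1) ℂ) * u0⁻¹.val := by
      rw [Matrix.one_mul, ← hS'0]
      rfl
    rw [e]
    exact Fl_mul_up _ u0⁻¹ (isUp_inv u0 hu0.1) m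
  have hgenP : ∀ i, i < K → GenG (1 : Mat (k + 1) ℂ) (S' (i + 1)).val (S' (i + 1 + 1)).val := by
    intro i hi
    have h1 := (hgen i (by omega)).left_mul h⁻¹
    exact h1.congr hone (fun m => rfl) (fun m => rfl)
  obtain ⟨Arr, bb, hbb⟩ := exists_frames (fun i => S' (i + 1)) K ⟨c0, hc0, hS'1⟩ hgenP
  set B : ℕ → GLm (k + 1) ℂ := Bf K Arr with hB
  have hrel : ∀ i, i < 4 * g + 2 * s → B (i + 1) * Wg (k + 1) = B i * Cf K Arr i := by
    intro i hi
    exact Bf_rel (by omega) Arr (by omega)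
  have hBdet : ∀ i, (B i).val.det = 1 := fun i => Bf_det Arr i
  -- the frames in terms of the corners
  have hfr : ∀ i, ∃ (e : GLm (k + 1) ℂ) (δ : Fin (k + 1) → ℂˣ), IsUpD e δ ∧
      (i ≤ K + 2 → S' i = B i * e) := by
    intro i
    by_cases hi : i ≤ K + 2
    · have hex : ∃ e : GLm (k + 1) ℂ, IsUp e.val ∧ S' i = B i * e := by
        match i, hi with
        | 0, _ =>
          refine ⟨(fr Arr K)⁻¹ * u0⁻¹, ((fr_up Arr K).inv.mul hu0.inv).1, ?_⟩
          rw [hS'0]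
          show _ = fr Arr K * _
          group
        | 1, _ =>
          have h1 := (hbb 0 (Nat.zero_le K)).2
          refine ⟨(dg kapR)⁻¹ * bb 0,
            IsUp.mul (isUp_inv _ (dg_isUpD _).1) (hbb 0 (Nat.zero_le K)).1, ?_⟩
          show S' (0 + 1) = (Wg (k + 1) * dg kapR) * ((dg kapR)⁻¹ * bb 0)
          rw [h1]
          show 1 * Wg (k + 1) * bb 0 = _
          group
        | m + 2, hm =>
          by_cases hmK : m < K
          · refine ⟨pG (Arr m) * bb (m + 1), IsUp.mul (pG_up (Arr m)).1 (hbb (m + 1) hmK).1, ?_⟩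
            exact side_succ Arr (bb (m + 1)) (S' (m + 1 + 1)) hmK (hbb (m + 1) hmK).2
          · have hmK' : m = K := by omega
            subst hmK'
            refine ⟨(fr Arr K)⁻¹ * u0⁻¹ * L s, ?_, ?_⟩
            · exact IsUp.mul ((fr_up Arr K).inv.mul hu0.inv).1 (hL s le_rfl).1
            · have e : S' (K + 2) = u0⁻¹ * L s := by
                show h⁻¹ * S (K + 2) = _
                rw [hKN, hSN, ← mul_assoc, ← hS'0]
              rw [e]
              show _ = nh K Arr K * _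
              rw [nh_self]
              group
      obtain ⟨e, he, he2⟩ := hex
      obtain ⟨δ, hδ⟩ := exists_diag e he
      exact ⟨e, δ, hδ, fun _ => he2⟩
    · exact ⟨1, 1, IsUpD.one, fun h1 => absurd h1 hi⟩
  choose e δ he heS using hfr
  -- the conjugated generators
  let a' : ℕ → GLm (k + 1) ℂ := fun t => h⁻¹ * a t * h
  let b' : ℕ → GLm (k + 1) ℂ := fun t => h⁻¹ * b t * h
  let c' : ℕ → GLm (k + 1) ℂ := fun t => h⁻¹ * c t * h
  have hconj : ∀ {X Y Z : GLm (k + 1) ℂ}, X * Y = Z → (h⁻¹ * X * h) * (h⁻¹ * Y) = h⁻¹ * Z := by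
    intro X Y Z hXY
    rw [← hXY]
    group
  have hconjI : ∀ {X Y Z : GLm (k + 1) ℂ}, X⁻¹ * Y = Z → (h⁻¹ * X * h)⁻¹ * (h⁻¹ * Y) = h⁻¹ * Z := by
    intro X Y Z hXY
    rw [← hXY]
    group
  have hCup : ∀ i, IsUpD (Cf K Arr i : GLm (k + 1) ℂ) (dCf Arr i) := fun i => Cf_up K Arr i
  -- the generators are gluing matrices
  have hxa : ∀ t, ∃ τ : Fin (k + 1) → ℂˣ, prH τ = om (k + 1) ℂ ∧
      (t < g → (a' t)⁻¹ = glue B (4 * t) (4 * t + 2) τ) := by
    intro t
    by_cases ht : t < g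
    · obtain ⟨τ, h1, _⟩ := side_diag B (i := 4 * t) (i' := 4 * t + 2)
        (hrel _ (by omega)) (hrel _ (by omega))
        (heS (4 * t) (by omega)) (heS (4 * t + 1) (by omega)) (heS (4 * t + 2) (by omega))
        (heS (4 * t + 3) (by omega))
        (g := (a' t)⁻¹) (U := 1) (U' := 1)
        (by rw [mul_one]; exact hconjI (hra t ht))
        (by rw [mul_one, inv_inv]; exact hconj (hra2 t ht))
        (hCup _) (he _) (he _) IsUpD.one (hCup _).1 (he _).1 (he _).1 isUp_one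
      refine ⟨τ, ?_, fun _ => h1⟩
      refine prH_of_det B hBdet (i := 4 * t) (i' := 4 * t + 2) ?_
      rw [← h1]
      have h2 : ((a' t)⁻¹ * a' t).val.det = 1 := by simp
      rw [Units.val_mul, Matrix.det_mul] at h2
      have h3 : (a' t).val.det = 1 := by
        show (h⁻¹.val * (a t).val * h.val).det = 1
        rw [Matrix.det_mul, Matrix.det_mul, hadet, mul_one, ← Matrix.det_mul]
        have : h⁻¹.val * h.val = 1 := by simp
        rw [this, Matrix.det_one]
      rwa [h3, mul_one] at h2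
    · exact ⟨kapR, rfl, fun h1 => absurd h1 ht⟩
  have hxb : ∀ t, ∃ τ : Fin (k + 1) → ℂˣ, prH τ = om (k + 1) ℂ ∧
      (t < g → b' t = glue B (4 * t + 1) (4 * t + 3) τ) := by
    intro t
    by_cases ht : t < g
    · obtain ⟨τ, h1, _⟩ := side_diag B (i := 4 * t + 1) (i' := 4 * t + 3)
        (hrel _ (by omega)) (hrel _ (by omega))
        (heS (4 * t + 1) (by omega)) (heS (4 * t + 2) (by omega)) (heS (4 * t + 3) (by omega))
        (heS (4 * t + 4) (by omega))
        (g := b' t) (U := 1) (U' := 1)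
        (by rw [mul_one]; exact hconj (hrb2 t ht))
        (by rw [mul_one]; exact hconjI (hrb t ht))
        (hCup _) (he _) (he _) IsUpD.one (hCup _).1 (he _).1 (he _).1 isUp_one
      refine ⟨τ, ?_, fun _ => h1⟩
      refine prH_of_det B hBdet (i := 4 * t + 1) (i' := 4 * t + 3) ?_
      rw [← h1]
      show (h⁻¹.val * (b t).val * h.val).det = 1
      rw [Matrix.det_mul, Matrix.det_mul, hbdet, mul_one, ← Matrix.det_mul]
      have : h⁻¹.val * h.val = 1 := by simp
      rw [this, Matrix.det_one]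
    · exact ⟨kapR, rfl, fun h1 => absurd h1 ht⟩
  choose xa hxa1 hxa2 using hxa
  choose xb hxb1 hxb2 using hxb
  have hc'j : ∀ j, j < s → c' j = cE g B (rhoF g Arr D) j := by
    intro j hj
    have hq : 4 * g + 2 * j + 2 ≤ K + 2 := by omega
    have hdE : δ (4 * g + 2 * j + 1) * D j * (δ (4 * g + 2 * j + 1))⁻¹ = D j := by
      simp
    obtain ⟨τ, h1, h2⟩ := side_diag B (i := 4 * g + 2 * j + 1) (i' := 4 * g + 2 * j)
      (hrel _ (by omega)) (hrel _ (by omega))
      (heS (4 * g + 2 * j + 1) (by omega)) (heS (4 * g + 2 * j + 2) hq)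
      (heS (4 * g + 2 * j) (by omega)) (heS (4 * g + 2 * j + 1) (by omega))
      (g := c' j) (U := h⁻¹ * h * L j) (U' := 1) (dU := D j)
      (by
        have := hconj (hrc2 j hj)
        rw [this]
        show h⁻¹ * (S (4 * g + 2 * j + 1) * L j) = h⁻¹ * S (4 * g + 2 * j + 1) * (h⁻¹ * h * L j)
        group)
      (by rw [mul_one]; exact hconjI (hrc j hj))
      (hCup _) (he _) (he _) (by
        have e0 : h⁻¹ * h * L j = L j := by group
        rw [e0]
        exact hL j (by omega)) (hCup _).1 (he _).1 (he _).1 isUp_one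
    rw [hdE] at h2
    have e1 : τ = rhoF g Arr D j := by
      show τ = rv (D j * dCf Arr (4 * g + 2 * j + 1))
      rw [← h2, rv_rv]
    rw [h1, e1]
    rfl
  have ha' : ∀ t, t < g → a' t = aE B xa t := by
    intro t ht
    have h1 := hxa2 t ht
    have h2 : a' t = (glue B (4 * t) (4 * t + 2) (xa t))⁻¹ := by
      rw [← h1, inv_inv]
    rw [h2, glue_inv]
    rfl
  have hb' : ∀ t, t < g → b' t = bE B xb t := fun t ht => hxb2 t ht
  -- the closing condition
  have hconjHw : ∀ t, t ≤ g → h⁻¹ * HwG a b t * h = HwG (aE B xa) (bE B xb) t := by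
    intro t ht
    have h1 := HwG_hom (MulAut.conj h⁻¹).toMonoidHom a b t
    simp only [MulAut.conj_apply, MulEquiv.coe_toMonoidHom, inv_inv] at h1
    rw [h1]
    exact HwG_congr ha' hb' t ht
  have hconjHu : h⁻¹ * c s * h = HuG (cE g B (rhoF g Arr D)) (HwG (aE B xa) (bE B xb) g) s := by
    rw [hbig]
    have h1 := HuG_hom (MulAut.conj h⁻¹).toMonoidHom c (HwG a b g) s
    simp only [MulAut.conj_apply, MulEquiv.coe_toMonoidHom, inv_inv] at h1
    rw [h1, hconjHw g le_rfl]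
    exact HuG_congr hc'j s le_rfl
  have hclose : dUu g (dCf Arr) xa xb (rhoF g Arr D) s = D s := by
    have h1 := Hu_corner B (Cf K Arr) xa xb (rhoF g Arr D) (g := g) (s := s) hrel le_rfl
    have h2 : B (4 * g + 2 * s) = B 0 := by
      rw [← hKN]
      exact Bf_top K Arr
    rw [h2, ← hconjHu] at h1
    have h3 : (h⁻¹ * c s * h) * B 0 = B 0 * (e 0 * L s * (e 0)⁻¹) := by
      have h4 : (h⁻¹ * c s * h) * (h⁻¹ * S 0) = h⁻¹ * (S 0 * L s) := by
        rw [hS0]
        exact hconj (hcP s le_rfl)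
      have h5 : S' 0 = B 0 * e 0 := heS 0 (by omega)
      have h6 : h⁻¹ * S 0 = B 0 * e 0 := h5
      rw [h6] at h4
      have h7 : h⁻¹ * (S 0 * L s) = B 0 * e 0 * L s := by
        rw [← mul_assoc, h6]
      rw [h7] at h4
      calc (h⁻¹ * c s * h) * B 0 = (h⁻¹ * c s * h) * (B 0 * e 0) * (e 0)⁻¹ := by group
        _ = B 0 * e 0 * L s * (e 0)⁻¹ := by rw [h4]
        _ = _ := by group
    have h8 : Uu g (Cf K Arr) xa xb (rhoF g Arr D) s = e 0 * L s * (e 0)⁻¹ :=
      mul_left_cancel (h1.symm.trans h3)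
    have h9 := Uu_up hCup g xa xb (rhoF g Arr D) s
    rw [h8] at h9
    have h10 := ((he 0).mul (hL s le_rfl)).mul (he 0).inv
    have h13 : δ 0 * D s * (δ 0)⁻¹ = D s := by
      simp
    funext i
    apply Units.ext
    have h14 := (h9.2 i).symm.trans (h10.2 i)
    rw [h13] at h14
    exact h14
  -- the parameters of the chart
  let x : PI → ℂˣ := paramOf Arr xa xb
  have hxa' : xaF x = xa := funext (xaF_paramOf Arr xa xb hxa1)
  have hxb' : xbF x = xb := funext (xbF_paramOf Arr xa xb hxb1)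
  have harr : arrF x = Arr := rfl
  have htgt : (dT (Arr 0) : Fin (k + 1) → ℂˣ) = tgtF g s D x := by
    unfold tgtF
    rw [harr, hxa', hxb']
    have h1 := dUu_pin g (dCf Arr) xa xb (rhoF g Arr D) hgs
    rw [hclose] at h1
    have h2 : (dCf Arr 2 : Fin (k + 1) → ℂˣ) = dT (Arr 0) := rfl
    rw [h2] at h1
    rw [h1]
    simp
  have htd : ∀ m, td (k + 1) (arrP g s D x m) = td (k + 1) (Arr m) := by
    intro m
    by_cases hm : m = 0
    · subst hm
      have h1 : arrP g s D x 0 = pinArr k (tgtF g s D x) (arrF x 0) := if_pos rfl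
      rw [h1]
      exact td_pinArr_eq k _ _ htgt
    · rw [arrP_ne g s D x hm]
      rfl
  have hf : fP g s D x = B := by
    funext i
    exact Bf_td htd i
  have hr : rP g s D x = rhoF g Arr D := rhoF_arrP g s D x
  have haP : aP g s D x = aE B xa := by
    show aE (fP g s D x) (xaF x) = _
    rw [hf, hxa']
  have hbP : bP g s D x = bE B xb := by
    show bE (fP g s D x) (xbF x) = _
    rw [hf, hxb']
  have hcP' : cPr g s D x = cE g B (rhoF g Arr D) := by
    show cE g (fP g s D x) (rP g s D x) = _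
    rw [hf, hr]
  refine ⟨x, h, fun t ht => ?_, fun t ht => ?_, fun j hj => ?_, ?_⟩
  · rw [haP]
    exact (ha' t ht).symm
  · rw [hbP]
    exact (hb' t ht).symm
  · rw [hcP']
    exact (hc'j j hj).symm
  · rw [haP, hbP, hcP']
    exact hconjHu.symm

end Core


section Dom

variable {k g s : ℕ}

theorem aN_fin (A : PGens g s → SLr (k + 1)) (t : Fin g) : aN A t.val = A (Sum.inl (t, false)) := by
  unfold aN
  rw [dif_pos t.isLt]

theorem bN_fin (A : PGens g s → SLr (k + 1)) (t : Fin g) : bN A t.val = A (Sum.inl (t, true)) := by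
  unfold bN
  rw [dif_pos t.isLt]

theorem cN_fin (A : PGens g s → SLr (k + 1)) (j : Fin (s + 1)) : cN A j.val = A (Sum.inr j) := by
  unfold cN
  rw [dif_pos j.isLt]

/-- The surface relation expresses the last generator in the others. -/
theorem cN_last {A : PGens g s → SLr (k + 1)} (hA : IsPRep A) :
    cN A s = HuG (cN A) (HwG (aN A) (bN A) g) s := by
  have h1 : (List.ofFn fun t : Fin g => A (Sum.inl (t, false)) * A (Sum.inl (t, true)) *
      (A (Sum.inl (t, false)))⁻¹ * (A (Sum.inl (t, true)))⁻¹).prod = (HwG (aN A) (bN A) g)⁻¹ := by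
    rw [← prod_comm_eq]
    congr 2
    funext t
    rw [aN_fin, bN_fin]
  have h2 : (List.ofFn fun j : Fin (s + 1) => A (Sum.inr j)).prod =
      (List.ofFn fun j : Fin s => cN A j.val).prod * cN A s := by
    rw [List.ofFn_succ', List.concat_eq_append, List.prod_append]
    simp only [List.prod_cons, List.prod_nil, mul_one]
    congr 1
    · congr 2
      funext j
      exact (cN_fin A j.castSucc).symm
    · exact (cN_fin A (Fin.last s)).symm
  have h3 := hA
  unfold IsPRep at h3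
  rw [h1, h2, ← mul_assoc, prod_c_eq] at h3
  exact (inv_mul_eq_one.mp h3).symm

variable (hgs : 1 ≤ g ∨ 2 ≤ s) (l : Fin (s + 1) → Fin (k + 1) → ℂ) (D : ℕ → Fin (k + 1) → ℂˣ)
  (hD : ∀ v, prH (D v) = 1) (hDl : ∀ (v : Fin (s + 1)) (i : Fin (k + 1)), ((D v.val i : ℂˣ) : ℂ) = l v i)

include hgs hDl in
/-- Every tuple in the generic locus is conjugate to a value of the chart. -/
theorem dom_YStar {A : PGens g s → SLr (k + 1)} (hA : A ∈ YStar l) :
    ∃ (x : PI → ℂˣ) (h : GLm (k + 1) ℂ), ∀ v,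
      Matrix.SpecialLinearGroup.toGL (chP g s D hD x v) =
        h⁻¹ * Matrix.SpecialLinearGroup.toGL (A v) * h := by
  obtain ⟨hrep, hreg, hgen⟩ := hA
  have hex := fun j => exists_adapted (hreg j)
  choose P0 L0 hL0 hL0d hMP hFl using hex
  let Pn : ℕ → GLm (k + 1) ℂ := fun j => if h : j < s + 1 then P0 ⟨j, h⟩ else 1
  have hPn : ∀ (j : ℕ) (h : j < s + 1), Pn j = P0 ⟨j, h⟩ := fun j h => dif_pos h
  let a : ℕ → GLm (k + 1) ℂ := fun t => slG (aN A t)
  let b : ℕ → GLm (k + 1) ℂ := fun t => slG (bN A t)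
  let c : ℕ → GLm (k + 1) ℂ := fun t => slG (cN A t)
  let L : ℕ → GLm (k + 1) ℂ := fun j => (Pn j)⁻¹ * c j * Pn j
  have hcP : ∀ j, j ≤ s → c j * Pn j = Pn j * L j := by
    intro j _
    show c j * Pn j = Pn j * ((Pn j)⁻¹ * c j * Pn j)
    group
  have hLup : ∀ j, j ≤ s → IsUpD (L j) (D j) := by
    intro j hj
    have hj' : j < s + 1 := by omega
    have e : (L j).val = L0 ⟨j, hj'⟩ := by
      show ((Pn j)⁻¹ * c j * Pn j).val = _
      rw [hPn j hj']
      have hc : (c j).val = ((A (Sum.inr ⟨j, hj'⟩) : SLr (k + 1)) : Mat (k + 1) ℂ) := by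
        show ((cN A j : SLr (k + 1)) : Mat (k + 1) ℂ) = _
        rw [show cN A j = A (Sum.inr ⟨j, hj'⟩) from cN_fin A ⟨j, hj'⟩]
      show (P0 ⟨j, hj'⟩)⁻¹.val * (c j).val * (P0 ⟨j, hj'⟩).val = _
      rw [hc, Matrix.mul_assoc, hMP, ← Matrix.mul_assoc]
      have : (P0 ⟨j, hj'⟩)⁻¹.val * (P0 ⟨j, hj'⟩).val = 1 := by simp
      rw [this, Matrix.one_mul]
    refine ⟨?_, fun i => ?_⟩
    · rw [IsUp, e]
      exact hL0 _
    · rw [e, hL0d, ← hDl ⟨j, hj'⟩]
  have hbig : c s = HuG c (HwG a b g) s := by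
    have h1 := congrArg slG (cN_last hrep)
    rw [HuG_hom, HwG_hom] at h1
    exact h1
  have hcorner : ∀ (i : ℕ), i < 4 * g + 2 * s → ∀ m,
      cornerFlag A l i m = Fl (Sf a b c Pn g s i).val m := by
    intro i hi m
    unfold cornerFlag
    split_ifs with hf
    · have hj : (i - 4 * g) / 2 < s + 1 := by omega
      unfold cFlag
      rw [dif_pos hj, hFl]
      unfold Sf
      rw [if_pos hf, hPn _ hj]
    · unfold cFlag
      rw [dif_pos (Nat.lt_succ_self s), hFl, Sf_not _ _ _ _ hf, ← Fl_map]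
      have e1 : ((cornerEl A i : SLr (k + 1)) : Mat (k + 1) ℂ) = (cornerG a b c g i).val := by
        have h1 : slG (cornerEl A i) = cornerG a b c g i := by
          rw [cornerEl_eq, cornerG_hom]
        exact congrArg Units.val h1
      rw [e1, hPn s (Nat.lt_succ_self s)]
      rfl
  have hgenS : ∀ m, m + 2 < 4 * g + 2 * s → GenG (Sf a b c Pn g s 0).val
      (Sf a b c Pn g s (m + 1)).val (Sf a b c Pn g s (m + 2)).val := by
    intro m hm p q w hpqw
    rw [← hcorner 0 (by omega), ← hcorner (m + 1) (by omega), ← hcorner (m + 2) hm]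
    exact hgen m hm p q w hpqw
  have hdet : ∀ X : SLr (k + 1), (slG X).val.det = 1 := fun X => X.property
  obtain ⟨x, h, h1, h2, h3, h4⟩ := dom_core hgs D a b c Pn L (fun t => hdet _) (fun t => hdet _)
    hcP hLup hbig hgenS
  refine ⟨x, h, fun v => ?_⟩
  match v with
  | Sum.inl (t, false) =>
    show slG (aS g s D x t.val) = h⁻¹ * slG (A (Sum.inl (t, false))) * h
    rw [← aN_fin A t, show slG (aS g s D x t.val) = aP g s D x t.val from toGL_aS D x t.val]
    exact h1 t.val t.isLt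
  | Sum.inl (t, true) =>
    show slG (bS g s D x t.val) = h⁻¹ * slG (A (Sum.inl (t, true))) * h
    rw [← bN_fin A t, show slG (bS g s D x t.val) = bP g s D x t.val from toGL_bS D x t.val]
    exact h2 t.val t.isLt
  | Sum.inr j =>
    rw [← cN_fin A j]
    show slG (if j.val < s then cSr g s D hD x j.val else cbS g s D hD x) = h⁻¹ * c j.val * h
    split_ifs with hj
    · rw [show slG (cSr g s D hD x j.val) = cPr g s D x j.val from toGL_cS D hD x j.val]
      exact h3 j.val hj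
    · have hj' : j.val = s := by have := j.isLt; omega
      rw [show slG (cbS g s D hD x) = _ from toGL_cbS D hD x, hj']
      exact h4

include hgs in
/-- The triangular forms of a value of the chart conjugate to a tuple with regular local
monodromy are regular. -/
theorem regular_of_conj {A : PGens g s → SLr (k + 1)} (hA : A ∈ YStar l) {x : PI → ℂˣ}
    {h : GLm (k + 1) ℂ} (hc : ∀ v, Matrix.SpecialLinearGroup.toGL (chP g s D hD x v) =
        h⁻¹ * Matrix.SpecialLinearGroup.toGL (A v) * h) (j : ℕ) (hj : j ≤ s) :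
    IsRegular (Tv g s D x j).val (l ⟨j, by omega⟩) := by
  have h1 := Tv_corner hgs D hD x hj
  rw [hc] at h1
  have h2 : Tv g s D x j = ((Xf g s D x j)⁻¹ * h⁻¹) * slG (A (Sum.inr ⟨j, by omega⟩)) *
      ((Xf g s D x j)⁻¹ * h⁻¹)⁻¹ := by
    calc Tv g s D x j = (Xf g s D x j)⁻¹ * (Xf g s D x j * Tv g s D x j) := by group
      _ = (Xf g s D x j)⁻¹ * ((h⁻¹ * slG (A (Sum.inr ⟨j, by omega⟩)) * h) * Xf g s D x j) := by
          rw [← h1]
      _ = _ := by group
  have h3 := (hA.2.1 ⟨j, by omega⟩).conj ((Xf g s D x j)⁻¹ * h⁻¹)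
  have e : (Tv g s D x j).val = ((Xf g s D x j)⁻¹ * h⁻¹).val *
      ((A (Sum.inr ⟨j, by omega⟩) : SLr (k + 1)) : Mat (k + 1) ℂ) *
      ((Xf g s D x j)⁻¹ * h⁻¹)⁻¹.val := congrArg Units.val h2
  rw [e]
  exact h3

end Dom

end Vale.Agent.Lib.P002
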