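import Vale.Agent.Lib.P002.Flags
import Vale.Agent.Lib.P002.RDefs

/-!
Linear algebra of regular matrices: dimension of the invariant flag, adapted bases, and the
relation with triangular matrices.
-/

open Matrix Polynomial

namespace Vale.Agent.Lib.P002

variable {r : ℕ}

/-- The polynomial defining the flag. -/
noncomputable def pk (l : Fin r → ℂ) (k : ℕ) : ℂ[X] :=
  ∏ i ∈ Finset.univ.filter (fun i : Fin r => i.val < k), (X - C (l i))

theorem regFlag_eq (M : Mat r ℂ) (l : Fin r → ℂ) (k : ℕ) :
    regFlag M l k = LinearMap.ker (Matrix.toLin' (aeval M (pk l k))) := rfl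

theorem pk_zero (l : Fin r → ℂ) : pk l 0 = 1 := by
  unfold pk
  rw [Finset.prod_eq_one]
  intro i hi
  exact absurd (Finset.mem_filter.mp hi).2 (Nat.not_lt_zero _)

theorem pk_succ (l : Fin r → ℂ) {k : ℕ} (hk : k < r) :
    pk l (k + 1) = pk l k * (X - C (l ⟨k, hk⟩)) := by
  unfold pk
  have h : Finset.univ.filter (fun i : Fin r => i.val < k + 1) =
      insert (⟨k, hk⟩ : Fin r) (Finset.univ.filter (fun i : Fin r => i.val < k)) := by
    ext i
    simp only [Finset.mem_filter, Finset.mem_univ, true_and, Finset.mem_insert, Fin.ext_iff]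
    omega
  rw [h, Finset.prod_insert (by simp), mul_comm]

theorem pk_top (l : Fin r → ℂ) {k : ℕ} (hk : r ≤ k) : pk l k = ∏ i, (X - C (l i)) := by
  unfold pk
  congr 1
  ext i
  simp only [Finset.mem_filter, Finset.mem_univ, true_and, iff_true]
  have := i.isLt
  omega

theorem finrank_ker_comp_le {V : Type*} [AddCommGroup V] [Module ℂ V] [FiniteDimensional ℂ V]
    (f h : V →ₗ[ℂ] V) :
    Module.finrank ℂ (LinearMap.ker (f ∘ₗ h)) ≤
      Module.finrank ℂ (LinearMap.ker f) + Module.finrank ℂ (LinearMap.ker h) := by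
  let φ : LinearMap.ker (f ∘ₗ h) →ₗ[ℂ] V := h.comp (LinearMap.ker (f ∘ₗ h)).subtype
  have h1 := φ.finrank_range_add_finrank_ker
  have h2 : Module.finrank ℂ (LinearMap.range φ) ≤ Module.finrank ℂ (LinearMap.ker f) := by
    apply Submodule.finrank_mono
    rintro _ ⟨⟨x, hx⟩, rfl⟩
    exact hx
  have h3 : Module.finrank ℂ (LinearMap.ker φ) ≤ Module.finrank ℂ (LinearMap.ker h) := by
    let ψ : LinearMap.ker φ →ₗ[ℂ] LinearMap.ker h :=
      LinearMap.codRestrict _ ((LinearMap.ker (f ∘ₗ h)).subtype.comp (LinearMap.ker φ).subtype)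
        (fun x => by
          have := x.2
          rw [LinearMap.mem_ker] at this ⊢
          exact this)
    apply LinearMap.finrank_le_finrank_of_injective (f := ψ)
    intro x y hxy
    apply Subtype.ext
    apply Subtype.ext
    have := congrArg Subtype.val hxy
    exact this
  omega

/-- Dimension of the flag of a regular matrix. -/
theorem finrank_regFlag {M : Mat r ℂ} {l : Fin r → ℂ} (hM : IsRegular M l) {k : ℕ} (hk : k ≤ r) :
    Module.finrank ℂ (regFlag M l k) = k := by
  have hstep : ∀ k, (hk : k < r) → Module.finrank ℂ (regFlag M l (k + 1)) ≤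
      Module.finrank ℂ (regFlag M l k) + 1 := by
    intro k hk
    rw [regFlag_eq, regFlag_eq, pk_succ l hk, map_mul]
    have e : Matrix.toLin' (aeval M (pk l k) * aeval M (X - C (l ⟨k, hk⟩))) =
        (Matrix.toLin' (aeval M (pk l k))) ∘ₗ (Matrix.toLin' (aeval M (X - C (l ⟨k, hk⟩)))) :=
      Matrix.toLin'_mul _ _
    rw [e]
    refine (finrank_ker_comp_le _ _).trans (Nat.add_le_add_left ?_ _)
    have := hM.2 (l ⟨k, hk⟩)
    have e2 : aeval M (X - C (l ⟨k, hk⟩)) = M - l ⟨k, hk⟩ • (1 : Mat r ℂ) := by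
      rw [map_sub, aeval_X, aeval_C, Algebra.algebraMap_eq_smul_one]
    rw [e2]
    exact this
  have hle : ∀ k, k ≤ r → Module.finrank ℂ (regFlag M l k) ≤ k := by
    intro k
    induction k with
    | zero =>
      intro _
      rw [regFlag_eq, pk_zero, map_one, Matrix.toLin'_one, LinearMap.ker_id]
      simp
    | succ k ih =>
      intro hk
      have := hstep k (by omega)
      have := ih (by omega)
      omega
  have hge : ∀ j, j ≤ r - k → Module.finrank ℂ (regFlag M l (k + j)) ≤
      Module.finrank ℂ (regFlag M l k) + j := by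
    intro j
    induction j with
    | zero => intro _; simp
    | succ j ih =>
      intro hj
      have h1 := ih (by omega)
      have h2 := hstep (k + j) (by omega)
      rw [← add_assoc]
      omega
  have htop : regFlag M l r = ⊤ := by
    rw [regFlag_eq, pk_top l le_rfl, ← hM.1, Matrix.aeval_self_charpoly]
    simp
  have h1 := hge (r - k) le_rfl
  rw [show k + (r - k) = r by omega, htop, finrank_top, Module.finrank_fin_fun] at h1
  have h2 := hle k hk
  omega

theorem regFlag_mono (M : Mat r ℂ) (l : Fin r → ℂ) {k : ℕ} :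
    regFlag M l k ≤ regFlag M l (k + 1) := by
  intro x hx
  by_cases hk : k < r
  · rw [regFlag_eq, LinearMap.mem_ker] at hx ⊢
    rw [pk_succ l hk, mul_comm, map_mul, Matrix.toLin'_mul, LinearMap.comp_apply, hx, map_zero]
  · have e : pk l (k + 1) = pk l k := by
      rw [pk_top l (by omega), pk_top l (by omega)]
    rw [regFlag_eq] at hx ⊢
    rwa [e]

theorem regFlag_sub (M : Mat r ℂ) (l : Fin r → ℂ) {k : ℕ} (hk : k < r) {x : Fin r → ℂ}
    (hx : x ∈ regFlag M l (k + 1)) : (M - l ⟨k, hk⟩ • (1 : Mat r ℂ)).mulVec x ∈ regFlag M l k := by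
  rw [regFlag_eq, LinearMap.mem_ker] at hx ⊢
  rw [pk_succ l hk, map_mul] at hx
  have e2 : aeval M (X - C (l ⟨k, hk⟩)) = M - l ⟨k, hk⟩ • (1 : Mat r ℂ) := by
    rw [map_sub, aeval_X, aeval_C, Algebra.algebraMap_eq_smul_one]
  rw [e2, Matrix.toLin'_mul, LinearMap.comp_apply, Matrix.toLin'_apply _ x] at hx
  exact hx

theorem regFlag_inv (M : Mat r ℂ) (l : Fin r → ℂ) (k : ℕ) {x : Fin r → ℂ}
    (hx : x ∈ regFlag M l k) : M.mulVec x ∈ regFlag M l k := by
  rw [regFlag_eq, LinearMap.mem_ker] at hx ⊢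
  have hc : aeval M (pk l k) * M = M * aeval M (pk l k) := by
    calc aeval M (pk l k) * M = aeval M (pk l k * X) := by rw [map_mul, aeval_X]
      _ = aeval M (X * pk l k) := by rw [mul_comm]
      _ = M * aeval M (pk l k) := by rw [map_mul, aeval_X]
  rw [Matrix.toLin'_apply] at hx ⊢
  rw [Matrix.mulVec_mulVec, hc, ← Matrix.mulVec_mulVec, hx, Matrix.mulVec_zero]

/-- An adapted basis for the flag of a regular matrix. -/
theorem exists_adapted {M : Mat r ℂ} {l : Fin r → ℂ} (hM : IsRegular M l) :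
    ∃ (P : GLm r ℂ) (L : Mat r ℂ), IsUp L ∧ (∀ i, L i i = l i) ∧ M * P.val = P.val * L ∧
      ∀ k, regFlag M l k = Fl P.val k := by
  classical
  have hlt : ∀ m : Fin r, ∃ v : Fin r → ℂ, v ∈ regFlag M l (m.val + 1) ∧ v ∉ regFlag M l m.val := by
    intro m
    have h1 : regFlag M l m.val < regFlag M l (m.val + 1) := by
      refine lt_of_le_of_ne (regFlag_mono M l) fun e => ?_
      have h2 := finrank_regFlag hM (k := m.val) (le_of_lt m.isLt)
      have h3 := finrank_regFlag hM (k := m.val + 1) m.isLt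
      rw [← e, h2] at h3
      omega
    exact SetLike.exists_of_lt h1
  choose v hv1 hv2 using hlt
  let P0 : Mat r ℂ := Matrix.of fun i m => v m i
  have hcl : ∀ m, cl P0 m = v m := fun m => rfl
  have hmono : ∀ {a b : ℕ}, a ≤ b → regFlag M l a ≤ regFlag M l b := by
    intro a b hab
    induction hab with
    | refl => exact le_rfl
    | step _ ih => exact ih.trans (regFlag_mono M l)
  have hle : ∀ k, Fl P0 k ≤ regFlag M l k := by
    intro k
    refine Fl_le fun m hm => ?_
    rw [hcl]
    exact hmono (by omega) (hv1 m)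
  have hge : ∀ k, k ≤ r → regFlag M l k ≤ Fl P0 k := by
    intro k
    induction k with
    | zero =>
      intro _
      have h0 := finrank_regFlag hM (k := 0) (Nat.zero_le r)
      rw [Submodule.finrank_eq_zero.mp h0]
      exact bot_le
    | succ k ih =>
      intro hk
      have hk' : k < r := hk
      let m : Fin r := ⟨k, hk'⟩
      have h1 : regFlag M l k ⊔ Submodule.span ℂ {v m} ≤ regFlag M l (k + 1) := by
        refine sup_le (regFlag_mono M l) ?_
        rw [Submodule.span_singleton_le_iff_mem]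
        exact hv1 m
      have h2 : regFlag M l k < regFlag M l k ⊔ Submodule.span ℂ {v m} := by
        refine lt_of_le_of_ne le_sup_left fun e => hv2 m ?_
        have : v m ∈ regFlag M l k ⊔ Submodule.span ℂ {v m} :=
          Submodule.mem_sup_right (Submodule.mem_span_singleton_self _)
        rw [← e] at this
        exact this
      have h3 := Submodule.finrank_lt_finrank_of_lt h2
      rw [finrank_regFlag hM (le_of_lt hk')] at h3
      have h4 : regFlag M l k ⊔ Submodule.span ℂ {v m} = regFlag M l (k + 1) := by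
        refine Submodule.eq_of_le_of_finrank_le h1 ?_
        rw [finrank_regFlag hM hk]
        exact h3
      rw [← h4]
      refine sup_le ((ih (le_of_lt hk')).trans (Fl_mono P0 (by omega))) ?_
      rw [Submodule.span_singleton_le_iff_mem, ← hcl]
      exact cl_mem_Fl P0 (show m.val < k + 1 by simp [m])
  have htop : regFlag M l r = ⊤ := by
    rw [regFlag_eq, pk_top l le_rfl, ← hM.1, Matrix.aeval_self_charpoly]
    simp
  have hspan : Fl P0 r = ⊤ := by
    rw [eq_top_iff, ← htop]
    exact hge r le_rfl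
  have hunit : IsUnit P0 := by
    rw [← Matrix.mulVec_surjective_iff_isUnit]
    intro x
    have hx : x ∈ Fl P0 r := by
      rw [hspan]
      trivial
    have hx2 : x ∈ LinearMap.range P0.mulVecLin := by
      refine (Submodule.span_le.mpr ?_) hx
      rintro _ ⟨m, _, rfl⟩
      refine ⟨Pi.single m 1, ?_⟩
      ext i
      simp [cl]
    obtain ⟨y, rfl⟩ := hx2
    exact ⟨y, rfl⟩
  have hdet : IsUnit P0.det := (Matrix.isUnit_iff_isUnit_det P0).mp hunit
  let P : GLm r ℂ := toGL P0 hdet
  have hFl : ∀ k, regFlag M l k = Fl P.val k := by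
    intro k
    by_cases hk : k ≤ r
    · exact le_antisymm (hge k hk) (hle k)
    · have h1 : regFlag M l k = ⊤ := by
        rw [eq_top_iff, ← htop]
        exact hmono (by omega)
      have h2 : Fl P.val k = ⊤ := by
        rw [eq_top_iff, ← hspan]
        exact Fl_mono _ (by omega)
      rw [h1, h2]
  have hPi : P⁻¹.val * P.val = 1 := by simp
  have hPi2 : P.val * P⁻¹.val = 1 := by simp
  refine ⟨P, P⁻¹.val * M * P.val, ?_, ?_, ?_, hFl⟩
  · intro i m hmi
    have h1 : M.mulVec (v m) ∈ Fl P.val (m.val + 1) := by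
      rw [← hFl]
      exact regFlag_inv M l _ (hv1 m)
    have h2 := (mem_Fl_iff P).mp h1 i hmi
    have h3 : (P⁻¹.val * M * P.val) i m = (P⁻¹.val.mulVec (M.mulVec (v m))) i := by
      rw [Matrix.mulVec_mulVec, ← hcl, ← cl_mul, Matrix.mul_assoc]
      show (P⁻¹.val * (M * P0)) i m = cl (P⁻¹.val * M * P0) m i
      rw [Matrix.mul_assoc]
      rfl
    rw [h3, h2]
  · intro m
    have h1 : (M - l m • (1 : Mat r ℂ)).mulVec (v m) ∈ Fl P.val m.val := by
      rw [← hFl]
      exact regFlag_sub M l m.isLt (hv1 m)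
    have h2 := (mem_Fl_iff P).mp h1 m le_rfl
    have h3 : (P⁻¹.val.mulVec (v m)) m = 1 := by
      rw [← hcl, ← cl_mul]
      show (P⁻¹.val * P.val) m m = 1
      rw [hPi]
      simp
    have h4 : (P⁻¹.val * M * P.val) m m = (P⁻¹.val.mulVec (M.mulVec (v m))) m := by
      rw [Matrix.mulVec_mulVec, ← hcl, ← cl_mul, Matrix.mul_assoc]
      show (P⁻¹.val * (M * P0)) m m = cl (P⁻¹.val * M * P0) m m
      rw [Matrix.mul_assoc]
      rfl
    rw [h4]
    rw [Matrix.sub_mulVec, Matrix.smul_mulVec, Matrix.one_mulVec, Matrix.mulVec_sub,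
      Matrix.mulVec_smul, Pi.sub_apply, Pi.smul_apply, h3, smul_eq_mul, mul_one] at h2
    linear_combination h2
  · rw [← Matrix.mul_assoc, ← Matrix.mul_assoc, hPi2, Matrix.one_mul]


/-! ### Triangular matrices -/

/-- Equal eigenvalues are adjacent in the list. -/
def AdjEq (l : Fin r → ℂ) : Prop := ∀ a b c : Fin r, a ≤ b → b ≤ c → l a = l c → l b = l a

/-- The entries just above the diagonal do not vanish between equal eigenvalues. -/
def SupNZ (T : Mat r ℂ) (l : Fin r → ℂ) : Prop :=
  ∀ (k : ℕ) (hk : k + 1 < r), l ⟨k, by omega⟩ = l ⟨k + 1, hk⟩ → T ⟨k, by omega⟩ ⟨k + 1, hk⟩ ≠ 0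

theorem row_eval {T : Mat r ℂ} (hT : IsUp T) {x : Fin r → ℂ} {p : Fin r}
    (hx : ∀ j, p < j → x j = 0) : (T.mulVec x) p = T p p * x p := by
  show ∑ j, T p j * x j = _
  refine Finset.sum_eq_single p (fun j _ hj => ?_) (fun h => absurd (Finset.mem_univ _) h)
  rcases lt_or_gt_of_ne hj with h | h
  · rw [hT p j h, zero_mul]
  · rw [hx j h, mul_zero]

theorem row_eval2 {T : Mat r ℂ} (hT : IsUp T) {x : Fin r → ℂ} {q p : Fin r}
    (hqp : q.val + 1 = p.val) (hx : ∀ j, p < j → x j = 0) :
    (T.mulVec x) q = T q q * x q + T q p * x p := by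
  show ∑ j, T q j * x j = _
  have hne : q ≠ p := fun h => by
    rw [h] at hqp
    omega
  rw [← Finset.add_sum_erase _ _ (Finset.mem_univ q),
    ← Finset.add_sum_erase _ _ (Finset.mem_erase.mpr ⟨hne.symm, Finset.mem_univ p⟩)]
  rw [Finset.sum_eq_zero, add_zero]
  intro j hj
  have hj1 := (Finset.mem_erase.mp hj).1
  have hj2 := (Finset.mem_erase.mp (Finset.mem_erase.mp hj).2).1
  rcases lt_or_gt_of_ne hj2 with h | h
  · rw [hT q j h, zero_mul]
  · have : p < j := by
      rcases lt_or_gt_of_ne hj1 with h3 | h3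
      · have h4 : q.val < j.val := h
        have h5 : j.val < p.val := h3
        omega
      · exact h3
    rw [hx j this, mul_zero]

theorem exists_top {x : Fin r → ℂ} (hx : x ≠ 0) : ∃ p, x p ≠ 0 ∧ ∀ j, p < j → x j = 0 := by
  classical
  have hne : (Finset.univ.filter fun i => x i ≠ 0).Nonempty := by
    obtain ⟨i, hi⟩ := Function.ne_iff.mp hx
    exact ⟨i, Finset.mem_filter.mpr ⟨Finset.mem_univ _, hi⟩⟩
  refine ⟨_, (Finset.mem_filter.mp (Finset.max'_mem _ hne)).2, fun j hj => ?_⟩
  by_contra h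
  exact absurd (Finset.le_max' _ j (Finset.mem_filter.mpr ⟨Finset.mem_univ _, h⟩)) (not_le.mpr hj)

theorem sub_smul_mulVec (T : Mat r ℂ) (μ : ℂ) (x : Fin r → ℂ) (i : Fin r) :
    ((T - μ • (1 : Mat r ℂ)).mulVec x) i = (T.mulVec x) i - μ * x i := by
  rw [Matrix.sub_mulVec, Matrix.smul_mulVec, Matrix.one_mulVec]
  rfl

/-- The top coordinate of a vector in an eigenspace is at the first occurrence of the eigenvalue. -/
theorem top_of_mem_ker {T : Mat r ℂ} {l : Fin r → ℂ} (hT : IsUp T) (hd : ∀ i, T i i = l i)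
    (hadj : AdjEq l) (hs : SupNZ T l) {μ : ℂ} {x : Fin r → ℂ}
    (hx : (T - μ • (1 : Mat r ℂ)).mulVec x = 0) {p : Fin r} (hp : x p ≠ 0)
    (htop : ∀ j, p < j → x j = 0) : l p = μ ∧ ∀ i, i < p → l i ≠ μ := by
  have h1 : l p = μ := by
    have := congrFun hx p
    rw [sub_smul_mulVec, row_eval hT htop, hd] at this
    have h2 : (l p - μ) * x p = 0 := by
      simpa [sub_mul] using this
    rcases mul_eq_zero.mp h2 with h3 | h3
    · exact sub_eq_zero.mp h3
    · exact absurd h3 hp
  refine ⟨h1, fun i hi hli => ?_⟩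
  have hpos : 0 < p.val := lt_of_le_of_lt (Nat.zero_le _) hi
  obtain ⟨k, hk⟩ : ∃ k, p.val = k + 1 := ⟨p.val - 1, by omega⟩
  have hkr : k + 1 < r := by
    have := p.isLt
    omega
  let q : Fin r := ⟨k, by omega⟩
  have hqp : q.val + 1 = p.val := hk.symm
  have hq : l q = μ := by
    have hiq : i ≤ q := by
      have h2 : i.val < p.val := hi
      show i.val ≤ k
      omega
    have hqp' : q ≤ p := by
      show k ≤ p.val
      omega
    have := hadj i q p hiq hqp' (hli.trans h1.symm)
    rw [this, hli]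
  have hpe : p = ⟨k + 1, hkr⟩ := Fin.ext hk
  have hs1 : T q p ≠ 0 := by
    rw [hpe]
    apply hs k hkr
    show l q = l ⟨k + 1, hkr⟩
    rw [← hpe, hq, h1]
  have h2 := congrFun hx q
  rw [sub_smul_mulVec, row_eval2 hT hqp htop, hd, hq] at h2
  have h3 : T q p * x p = 0 := by
    simpa using h2
  exact (mul_ne_zero hs1 hp) h3

/-- A triangular matrix with nonzero entries above the diagonal between equal eigenvalues is
regular. -/
theorem isRegular_of_up {T : Mat r ℂ} {l : Fin r → ℂ} (hT : IsUp T) (hd : ∀ i, T i i = l i)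
    (hadj : AdjEq l) (hs : SupNZ T l) : IsRegular T l := by
  classical
  constructor
  · rw [Matrix.charpoly_of_isUpperTriangular T (fun _ _ h => hT _ _ h)]
    exact Finset.prod_congr rfl fun i _ => by rw [hd]
  · intro μ
    set K := LinearMap.ker (Matrix.toLin' (T - μ • (1 : Mat r ℂ))) with hK
    have hmem : ∀ x, x ∈ K ↔ (T - μ • (1 : Mat r ℂ)).mulVec x = 0 := by
      intro x
      rw [hK, LinearMap.mem_ker, Matrix.toLin'_apply]
    by_cases hbot : K = ⊥
    · rw [hbot]
      simp
    obtain ⟨v, hv, hv0⟩ := Submodule.exists_mem_ne_zero_of_ne_bot hbot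
    refine finrank_le_one (⟨v, hv⟩ : K) ?_
    rintro ⟨w, hw⟩
    by_cases hw0 : w = 0
    · exact ⟨0, Subtype.ext (by simp [hw0])⟩
    obtain ⟨p, hp, hp2⟩ := exists_top hv0
    obtain ⟨q, hq, hq2⟩ := exists_top hw0
    obtain ⟨h1, h2⟩ := top_of_mem_ker hT hd hadj hs ((hmem v).mp hv) hp hp2
    obtain ⟨h3, h4⟩ := top_of_mem_ker hT hd hadj hs ((hmem w).mp hw) hq hq2
    have hpq : p = q := by
      rcases lt_trichotomy p q with h | h | h
      · exact absurd h1 (h4 p h)
      · exact h
      · exact absurd h3 (h2 q h)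
    subst hpq
    refine ⟨w p / v p, Subtype.ext ?_⟩
    show (w p / v p) • v = w
    by_contra hne
    set y := w - (w p / v p) • v with hy
    have hy0 : y ≠ 0 := fun h => hne (sub_eq_zero.mp h).symm
    have hyK : y ∈ K := K.sub_mem hw (K.smul_mem _ hv)
    obtain ⟨q', hq', hq2'⟩ := exists_top hy0
    obtain ⟨h5, _⟩ := top_of_mem_ker hT hd hadj hs ((hmem y).mp hyK) hq' hq2'
    have hq'p : q' < p := by
      by_contra hle
      rcases eq_or_lt_of_le (not_lt.mp hle) with h | h
      · apply hq'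
        rw [← h, hy]
        simp only [Pi.sub_apply, Pi.smul_apply, smul_eq_mul]
        field_simp
        ring
      · apply hq'
        rw [hy]
        simp only [Pi.sub_apply, Pi.smul_apply, smul_eq_mul]
        rw [hq2 q' h, hp2 q' h]
        ring
    exact h2 q' hq'p h5

/-- A regular triangular matrix has nonzero entries above the diagonal between equal
eigenvalues. -/
theorem supNZ_of_regular {T : Mat r ℂ} {l : Fin r → ℂ} (hT : IsUp T) (hd : ∀ i, T i i = l i)
    (hreg : IsRegular T l) : SupNZ T l := by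
  intro k hk hl h0
  set μ := l ⟨k + 1, hk⟩ with hμ
  let V : Submodule ℂ (Fin r → ℂ) := Fl (1 : Mat r ℂ) (k + 2)
  have hV : Module.finrank ℂ V = k + 2 := finrank_Fl_one (by omega)
  let f := Matrix.toLin' (T - μ • (1 : Mat r ℂ))
  let φ : V →ₗ[ℂ] (Fin r → ℂ) := f.comp V.subtype
  have h1 := φ.finrank_range_add_finrank_ker
  have hrange : Module.finrank ℂ (LinearMap.range φ) ≤ k := by
    have h2 : LinearMap.range φ ≤ Fl (1 : Mat r ℂ) k := by
      rintro _ ⟨⟨x, hx⟩, rfl⟩
      have hx0 := mem_Fl_one.mp hx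
      refine mem_Fl_one.mpr fun i hi => ?_
      show ((T - μ • (1 : Mat r ℂ)).mulVec x) i = 0
      rw [sub_smul_mulVec]
      by_cases h3 : k + 2 ≤ i.val
      · rw [row_eval hT (fun j hj => hx0 j (le_trans h3 (le_of_lt hj))), hx0 i h3]
        ring
      · by_cases h4 : i.val = k + 1
        · have hi' : i = ⟨k + 1, hk⟩ := Fin.ext h4
          subst hi'
          rw [row_eval hT (fun j hj => hx0 j (by
            have : k + 1 < j.val := hj
            omega)), hd]
          ring
        · have hkr : k < r := by omega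
          have hi' : i = ⟨k, hkr⟩ := Fin.ext (show i.val = k by omega)
          subst hi'
          rw [row_eval2 hT (p := ⟨k + 1, hk⟩) rfl (fun j hj => hx0 j (by
            have : k + 1 < j.val := hj
            omega)), h0, hd, hl]
          ring
    have h3 := Submodule.finrank_mono h2
    rwa [finrank_Fl_one (by omega)] at h3
  have hker : Module.finrank ℂ (LinearMap.ker φ) ≤ 1 := by
    refine le_trans ?_ (hreg.2 μ)
    let ψ : LinearMap.ker φ →ₗ[ℂ] LinearMap.ker f :=
      LinearMap.codRestrict _ (V.subtype.comp (LinearMap.ker φ).subtype)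
        (fun x => by
          have := x.2
          rw [LinearMap.mem_ker] at this ⊢
          exact this)
    apply LinearMap.finrank_le_finrank_of_injective (f := ψ)
    intro x y hxy
    apply Subtype.ext
    apply Subtype.ext
    have := congrArg Subtype.val hxy
    exact this
  rw [hV] at h1
  omega

/-- Regularity is invariant under conjugation. -/
theorem IsRegular.conj {T : Mat r ℂ} {l : Fin r → ℂ} (h : IsRegular T l) (B : GLm r ℂ) :
    IsRegular (B.val * T * B⁻¹.val) l := by
  constructor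
  · rw [Matrix.coe_units_inv, Matrix.charpoly_units_conj]
    exact h.1
  · intro μ
    refine le_trans ?_ (h.2 μ)
    have hPi : B⁻¹.val * B.val = 1 := by simp
    have hPi2 : B.val * B⁻¹.val = 1 := by simp
    let ψ : LinearMap.ker (Matrix.toLin' (B.val * T * B⁻¹.val - μ • (1 : Mat r ℂ))) →ₗ[ℂ]
        LinearMap.ker (Matrix.toLin' (T - μ • (1 : Mat r ℂ))) :=
      LinearMap.codRestrict _ ((Matrix.toLin' B⁻¹.val).comp (Submodule.subtype _))
        (fun x => by
          have hx := x.2
          rw [LinearMap.mem_ker, Matrix.toLin'_apply] at hx ⊢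
          simp only [LinearMap.comp_apply, Submodule.subtype_apply, Matrix.toLin'_apply]
          have h1 : B⁻¹.val * (B.val * T * B⁻¹.val - μ • (1 : Mat r ℂ)) =
              (T - μ • (1 : Mat r ℂ)) * B⁻¹.val := by
            rw [Matrix.mul_sub, Matrix.sub_mul, Matrix.mul_smul, Matrix.smul_mul, Matrix.mul_one,
              Matrix.one_mul, ← Matrix.mul_assoc, ← Matrix.mul_assoc, hPi, Matrix.one_mul]
          rw [Matrix.mulVec_mulVec, ← h1, ← Matrix.mulVec_mulVec, hx, Matrix.mulVec_zero])
    apply LinearMap.finrank_le_finrank_of_injective (f := ψ)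
    intro x y hxy
    apply Subtype.ext
    have h2 : B⁻¹.val.mulVec x.val = B⁻¹.val.mulVec y.val := congrArg Subtype.val hxy
    have h3 := congrArg B.val.mulVec h2
    simpa [Matrix.mulVec_mulVec, hPi2] using h3

/-- The flag of a matrix triangular in a given basis. -/
theorem regFlag_of_up {M T : Mat r ℂ} {l : Fin r → ℂ} (B : GLm r ℂ) (hT : IsUp T)
    (hd : ∀ i, T i i = l i) (hMB : M * B.val = B.val * T) (hreg : IsRegular M l) (k : ℕ) :
    regFlag M l k = Fl B.val k := by
  have hPi : B⁻¹.val * B.val = 1 := by simp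
  have hPi2 : B.val * B⁻¹.val = 1 := by simp
  have hstep : ∀ (k : ℕ) (hk : k < r) (x : Fin r → ℂ), x ∈ Fl B.val (k + 1) →
      (M - l ⟨k, hk⟩ • (1 : Mat r ℂ)).mulVec x ∈ Fl B.val k := by
    intro k hk x hx
    have hx0 := (mem_Fl_iff B).mp hx
    refine (mem_Fl_iff B).mpr fun i hi => ?_
    have h1 : B⁻¹.val * (M - l ⟨k, hk⟩ • (1 : Mat r ℂ)) =
        (T - l ⟨k, hk⟩ • (1 : Mat r ℂ)) * B⁻¹.val := by
      rw [Matrix.mul_sub, Matrix.sub_mul, Matrix.mul_smul, Matrix.smul_mul, Matrix.mul_one,
        Matrix.one_mul]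
      congr 1
      calc B⁻¹.val * M = B⁻¹.val * M * (B.val * B⁻¹.val) := by rw [hPi2, Matrix.mul_one]
        _ = B⁻¹.val * (M * B.val) * B⁻¹.val := by simp only [Matrix.mul_assoc]
        _ = T * B⁻¹.val := by
          rw [hMB, ← Matrix.mul_assoc, hPi, Matrix.one_mul]
    rw [Matrix.mulVec_mulVec, h1, ← Matrix.mulVec_mulVec, sub_smul_mulVec]
    by_cases h2 : i.val = k
    · have hi' : i = ⟨k, hk⟩ := Fin.ext h2
      subst hi'
      rw [row_eval hT (fun j hj => hx0 j hj), hd]
      ring
    · have h3 : k + 1 ≤ i.val := by omega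
      rw [row_eval hT (fun j hj => hx0 j (le_trans h3 (le_of_lt hj))), hx0 i h3]
      ring
  have hle : ∀ k, k ≤ r → Fl B.val k ≤ regFlag M l k := by
    intro k
    induction k with
    | zero =>
      intro _
      rw [Fl_zero]
      exact bot_le
    | succ k ih =>
      intro hk x hx
      have hk' : k < r := hk
      have h1 := ih (le_of_lt hk') (hstep k hk' x hx)
      rw [regFlag_eq, LinearMap.mem_ker, Matrix.toLin'_apply] at h1 ⊢
      rw [pk_succ l hk', map_mul]
      have e2 : aeval M (X - C (l ⟨k, hk'⟩)) = M - l ⟨k, hk'⟩ • (1 : Mat r ℂ) := by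
        rw [map_sub, aeval_X, aeval_C, Algebra.algebraMap_eq_smul_one]
      rw [e2, ← Matrix.mulVec_mulVec]
      exact h1
  by_cases hk : k ≤ r
  · refine (Submodule.eq_of_le_of_finrank_le (hle k hk) ?_).symm
    rw [finrank_regFlag hreg hk, finrank_Fl B hk]
  · have h1 : regFlag M l k = ⊤ := by
      rw [regFlag_eq, pk_top l (by omega), ← hreg.1, Matrix.aeval_self_charpoly]
      simp
    have h2 : Fl B.val k = ⊤ := by
      have h3 : Fl B.val r = ⊤ := by
        refine Submodule.eq_top_of_finrank_eq ?_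
        rw [finrank_Fl B le_rfl, Module.finrank_fin_fun]
      rw [eq_top_iff, ← h3]
      exact Fl_mono _ (by omega)
    rw [h1, h2]

end Vale.Agent.Lib.P002
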