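import Vale.Agent.Lib.P002.RUniv

/-!
Irreducibility: invariance under words, a Zariski open condition on the chart, and the case of
generic eigenvalues.
-/

open Matrix

namespace Vale.Agent.Lib.P002

variable {g s r : ℕ}

theorem pres_inv {U : Submodule ℂ (Fin r → ℂ)} {M : SLr r} (h : Pres U M) : Pres U M⁻¹ := by
  intro x hx
  let f : U →ₗ[ℂ] U := LinearMap.restrict (Matrix.toLin' (M : Matrix (Fin r) (Fin r) ℂ))
    (fun y hy => by simpa using h y hy)
  have hMi : ((M⁻¹ : SLr r) : Matrix (Fin r) (Fin r) ℂ) * (M : Matrix (Fin r) (Fin r) ℂ) = 1 := by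
    have : ((M⁻¹ * M : SLr r) : Matrix (Fin r) (Fin r) ℂ) = 1 := by simp
    rwa [Matrix.SpecialLinearGroup.coe_mul] at this
  have hinj : Function.Injective f := by
    intro y z hyz
    apply Subtype.ext
    have h1 : (M : Matrix (Fin r) (Fin r) ℂ).mulVec y.val = (M : Matrix (Fin r) (Fin r) ℂ).mulVec z.val :=
      congrArg Subtype.val hyz
    have h2 := congrArg ((M⁻¹ : SLr r) : Matrix (Fin r) (Fin r) ℂ).mulVec h1
    rwa [Matrix.mulVec_mulVec, Matrix.mulVec_mulVec, hMi, Matrix.one_mulVec, Matrix.one_mulVec] at h2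
  obtain ⟨y, hy⟩ := (LinearMap.injective_iff_surjective.mp hinj) ⟨x, hx⟩
  have h1 : (M : Matrix (Fin r) (Fin r) ℂ).mulVec y.val = x := congrArg Subtype.val hy
  rw [← h1, Matrix.mulVec_mulVec, hMi, Matrix.one_mulVec]
  exact y.property

/-- A subspace invariant under the generators is invariant under all words. -/
theorem pres_word {U : Submodule ℂ (Fin r → ℂ)} {A : PGens g s → SLr r}
    (hU : ∀ i, Pres U (A i)) (w : FreeGroup (PGens g s)) : Pres U (rhoP A w) := by
  induction w using FreeGroup.induction_on with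
  | C1 =>
    rw [map_one]
    exact Pres.one
  | of x =>
    have : rhoP A (FreeGroup.of x) = A x := by simp [rhoP]
    rw [this]
    exact hU x
  | inv_of x h =>
    rw [map_inv]
    exact pres_inv h
  | mul x y hx hy =>
    rw [map_mul]
    exact hx.mul hy

/-- The words span all matrices for an irreducible tuple. -/
theorem span_words (hr : 0 < r) {A : PGens g s → SLr r} (hA : IsIrredP A) :
    Submodule.span ℂ (Set.range fun w : FreeGroup (PGens g s) =>
      ((rhoP A w : SLr r) : Matrix (Fin r) (Fin r) ℂ)) = ⊤ := by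
  let ρ : FreeGroup (PGens g s) →* Matrix (Fin r) (Fin r) ℂ :=
    { toFun := fun w => ((rhoP A w : SLr r) : Matrix (Fin r) (Fin r) ℂ)
      map_one' := by simp
      map_mul' := fun x y => by simp }
  refine burnside hr ρ fun U hU => hA U fun i x hx => ?_
  have := hU (FreeGroup.of i) x hx
  have e : ρ (FreeGroup.of i) = ((A i : SLr r) : Matrix (Fin r) (Fin r) ℂ) := by
    show ((rhoP A (FreeGroup.of i) : SLr r) : Matrix (Fin r) (Fin r) ℂ) = _
    simp [rhoP]
  rwa [e] at this

/-- A family of words with nonzero determinant of entries, for an irreducible tuple. -/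
theorem exists_words (hr : 0 < r) {A : PGens g s → SLr r} (hA : IsIrredP A) :
    ∃ w : (Fin r × Fin r) → FreeGroup (PGens g s),
      Matrix.det (Matrix.of fun a (p : Fin r × Fin r) =>
        ((rhoP A (w a) : SLr r) : Matrix (Fin r) (Fin r) ℂ) p.1 p.2) ≠ 0 := by
  classical
  let T : Set (Matrix (Fin r) (Fin r) ℂ) := Set.range fun w : FreeGroup (PGens g s) =>
      ((rhoP A w : SLr r) : Matrix (Fin r) (Fin r) ℂ)
  obtain ⟨b, hbT, hspan, hli⟩ := exists_linearIndependent ℂ T
  rw [span_words hr hA] at hspan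
  let B : Module.Basis b ℂ (Matrix (Fin r) (Fin r) ℂ) := Module.Basis.mk hli (by rw [Subtype.range_coe]; exact hspan.ge)
  let e : (Fin r × Fin r) ≃ b := (Matrix.stdBasis ℂ (Fin r) (Fin r)).indexEquiv B
  have hex : ∀ a, ∃ w : FreeGroup (PGens g s),
      ((rhoP A w : SLr r) : Matrix (Fin r) (Fin r) ℂ) = (e a).val := fun a => hbT (e a).property
  choose w hw using hex
  refine ⟨w, ?_⟩
  let fl : Matrix (Fin r) (Fin r) ℂ →ₗ[ℂ] ((Fin r × Fin r) → ℂ) :=
    { toFun := fun E p => E p.1 p.2
      map_add' := fun _ _ => rfl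
      map_smul' := fun _ _ => rfl }
  have hfl : LinearMap.ker fl = ⊥ := by
    rw [LinearMap.ker_eq_bot]
    intro E E' h
    ext i j
    exact congrFun h (i, j)
  have hrows : LinearIndependent ℂ (Matrix.of fun a (p : Fin r × Fin r) =>
      ((rhoP A (w a) : SLr r) : Matrix (Fin r) (Fin r) ℂ) p.1 p.2).row := by
    have h1 : LinearIndependent ℂ (fun a => (e a).val) := hli.comp e e.injective
    have h2 := h1.map' fl hfl
    have h3 : (fl ∘ fun a => (e a).val) = (Matrix.of fun a (p : Fin r × Fin r) =>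
      ((rhoP A (w a) : SLr r) : Matrix (Fin r) (Fin r) ℂ) p.1 p.2).row := by
      funext a p
      show (e a).val p.1 p.2 = ((rhoP A (w a) : SLr r) : Matrix (Fin r) (Fin r) ℂ) p.1 p.2
      rw [hw]
    rwa [h3] at h2
  have hunit := Matrix.linearIndependent_rows_iff_isUnit.mp hrows
  exact ((Matrix.isUnit_iff_isUnit_det _).mp hunit).ne_zero

/-- A tuple with nonzero determinant of entries of words is irreducible. -/
theorem irred_of_det {A : PGens g s → SLr r} (w : (Fin r × Fin r) → FreeGroup (PGens g s))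
    (h : Matrix.det (Matrix.of fun a (p : Fin r × Fin r) =>
        ((rhoP A (w a) : SLr r) : Matrix (Fin r) (Fin r) ℂ) p.1 p.2) ≠ 0) : IsIrredP A := by
  classical
  intro U hU
  by_cases hbot : U = ⊥
  · exact Or.inl hbot
  right
  obtain ⟨u, hu, hu0⟩ := Submodule.exists_mem_ne_zero_of_ne_bot hbot
  obtain ⟨i0, hi0⟩ := Function.ne_iff.mp hu0
  set M : Matrix (Fin r × Fin r) (Fin r × Fin r) ℂ := Matrix.of fun a (p : Fin r × Fin r) =>
        ((rhoP A (w a) : SLr r) : Matrix (Fin r) (Fin r) ℂ) p.1 p.2 with hM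
  have hMu : IsUnit M.det := isUnit_iff_ne_zero.mpr h
  have hall : ∀ E : Matrix (Fin r) (Fin r) ℂ, E.mulVec u ∈ U := by
    intro E
    let v : (Fin r × Fin r) → ℂ := fun p => E p.1 p.2
    let c : (Fin r × Fin r) → ℂ := Matrix.vecMul v M⁻¹
    have hc : Matrix.vecMul c M = v := by
      show Matrix.vecMul (Matrix.vecMul v M⁻¹) M = v
      rw [Matrix.vecMul_vecMul, Matrix.nonsing_inv_mul _ hMu, Matrix.vecMul_one]
    have hE : E = ∑ a, c a • ((rhoP A (w a) : SLr r) : Matrix (Fin r) (Fin r) ℂ) := by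
      ext i j
      have h1 := congrFun hc (i, j)
      rw [Matrix.sum_apply]
      simp only [Matrix.smul_apply, smul_eq_mul]
      exact h1.symm
    rw [hE, Matrix.sum_mulVec]
    refine Submodule.sum_mem _ fun a _ => ?_
    rw [Matrix.smul_mulVec]
    exact U.smul_mem _ (pres_word (fun i x hx => hU i x hx) (w a) u hu)
  rw [eq_top_iff]
  intro y _
  let E : Matrix (Fin r) (Fin r) ℂ := Matrix.of fun i j => if j = i0 then y i * (u i0)⁻¹ else 0
  have hEy : E.mulVec u = y := by
    ext i
    show ∑ j, E i j * u j = y i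
    rw [Finset.sum_eq_single i0]
    · simp only [E, Matrix.of_apply, if_true]
      have hi0' : u i0 ≠ 0 := hi0
      field_simp
    · intro j _ hj
      simp [E, hj]
    · exact fun h => absurd (Finset.mem_univ _) h
  rw [← hEy]
  exact hall E

/-- Irreducibility is invariant under conjugation. -/
theorem irred_conj (h : GLm r ℂ) {A A' : PGens g s → SLr r}
    (hA : ∀ v, slG (A' v) = h⁻¹ * slG (A v) * h) (hirr : IsIrredP A) : IsIrredP A' := by
  intro U hU
  have hm : ∀ (v : PGens g s), (A' v : Mat r ℂ) = h⁻¹.val * (A v : Mat r ℂ) * h.val :=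
    fun v => congrArg Units.val (hA v)
  have hhi : h.val * h⁻¹.val = 1 := by simp
  have hih : h⁻¹.val * h.val = 1 := by simp
  let U' : Submodule ℂ (Fin r → ℂ) := U.map (Matrix.toLin' h.val)
  have hU' : ∀ i, ∀ x ∈ U', (A i : Mat r ℂ).mulVec x ∈ U' := by
    rintro i _ ⟨y, hy, rfl⟩
    refine ⟨(A' i : Mat r ℂ).mulVec y, hU i y hy, ?_⟩
    rw [Matrix.toLin'_apply, Matrix.toLin'_apply, Matrix.mulVec_mulVec, Matrix.mulVec_mulVec, hm]
    congr 1
    rw [← Matrix.mul_assoc, ← Matrix.mul_assoc, hhi, Matrix.one_mul]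
  have hinj : Function.Injective (Matrix.toLin' h.val) := by
    intro a b hab
    have h1 := congrArg h⁻¹.val.mulVec hab
    simpa [Matrix.toLin'_apply, Matrix.mulVec_mulVec, hih] using h1
  have hsurj : Function.Surjective (Matrix.toLin' h.val) := by
    intro a
    refine ⟨h⁻¹.val.mulVec a, ?_⟩
    rw [Matrix.toLin'_apply, Matrix.mulVec_mulVec, hhi, Matrix.one_mulVec]
  rcases hirr U' hU' with h1 | h1
  · left
    rw [eq_bot_iff]
    intro y hy
    have hy' : Matrix.toLin' h.val y ∈ U' := ⟨y, hy, rfl⟩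
    rw [h1, Submodule.mem_bot] at hy'
    have : Matrix.toLin' h.val y = Matrix.toLin' h.val 0 := by rw [hy', map_zero]
    rw [Submodule.mem_bot]
    exact hinj this
  · right
    rw [eq_top_iff]
    intro y _
    have hy : Matrix.toLin' h.val y ∈ U' := by
      rw [h1]
      trivial
    obtain ⟨z, hz, hzy⟩ := hy
    rwa [← hinj hzy]

end Vale.Agent.Lib.P002
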