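import Vale.Agent.Lib.P002.RIrr

/-!
Density of integral points on the generic part of the representation variety of a punctured
surface with regular local monodromy.
-/

open Matrix

namespace Vale.Agent.Lib.P002

variable {g s k : ℕ}

section Core

variable (hgs : 1 ≤ g ∨ 2 ≤ s) (l : Fin (s + 1) → Fin (k + 1) → ℂ) (D : ℕ → Fin (k + 1) → ℂˣ)
  (hD : ∀ v, prH (D v) = 1) (hDl : ∀ (v : Fin (s + 1)) (i : Fin (k + 1)), ((D v.val i : ℂˣ) : ℂ) = l v i)

include hgs hD hDl in
theorem reg_of_supF (hadj : ∀ j, AdjEq (l j)) {x : PI → ℂˣ} (hx : supF g s D x ≠ 0) :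
    ∀ j (hj : j ≤ s), IsRegular (Tv g s D x j).val (l ⟨j, by omega⟩) := by
  intro j hj
  have hup := Tv_up hgs D hD x hj
  refine isRegular_of_up hup.1 (fun i => ?_) (hadj _) ?_
  · rw [hup.2, ← hDl ⟨j, by omega⟩]
  · intro q hq hll
    have hq' : q < k := by omega
    have h1 := (supF_ne_zero D).mp hx j hj ⟨q, hq'⟩ (by
      apply Units.ext
      have h2 := hDl ⟨j, by omega⟩ ⟨q, by omega⟩
      have h3 := hDl ⟨j, by omega⟩ ⟨q + 1, hq⟩
      exact h2.trans (hll.trans h3.symm))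
    exact h1

include hgs hD hDl in
theorem supF_of_reg {x : PI → ℂˣ}
    (hreg : ∀ j (hj : j ≤ s), IsRegular (Tv g s D x j).val (l ⟨j, by omega⟩)) :
    supF g s D x ≠ 0 := by
  refine (supF_ne_zero D).mpr fun j hj p hp => ?_
  have hup := Tv_up hgs D hD x hj
  have h1 := supNZ_of_regular (T := (Tv g s D x j).val) (l := l ⟨j, by omega⟩) hup.1 (fun i => ?_)
    (hreg j hj)
  · refine h1 p.val (by omega) ?_
    have h2 := hDl ⟨j, by omega⟩ ⟨p.val, by omega⟩
    have h3 := hDl ⟨j, by omega⟩ ⟨p.val + 1, by omega⟩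
    refine h2.symm.trans (Eq.trans ?_ h3)
    exact congrArg Units.val hp
  · rw [hup.2, ← hDl ⟨j, by omega⟩]

include hgs hDl in
/-- Density of the points of the chart with coordinates in an infinite set. -/
theorem main_core (S : Set ℂˣ) (hS : S.Infinite) {m : ℕ}
    (w : Fin m → FreeGroup (PGens g s)) (P : MvPolynomial (Fin m) ℂ)
    (hvan : ∀ x : PI → ℂˣ, (∀ i, x i ∈ S) → supF g s D x ≠ 0 →
      evalTrP w P (chP g s D hD x) = 0) :
    ∀ A ∈ YStar l, evalTrP w P A = 0 := by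
  have hf := (Reg PI).mul_mem (evalTrP_chart_reg D hD (g := g) (s := s) w P) (supF_reg D (g := g) (s := s))
  have h0 := reg_vanish S hS _ hf (fun x hx => by
    show evalTrP w P (chP g s D hD x) * supF g s D x = 0
    by_cases h : supF g s D x = 0
    · rw [h, mul_zero]
    · rw [hvan x hx h, zero_mul])
  intro A hA
  obtain ⟨x, h, hc⟩ := dom_YStar hgs l D hD hDl hA
  have hreg := regular_of_conj hgs l D hD hA hc
  have hsup := supF_of_reg hgs l D hD hDl hreg
  rw [← evalTrP_conj w P h A _ hc]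
  have h1 : evalTrP w P (chP g s D hD x) * supF g s D x = 0 := h0 x
  exact (mul_eq_zero.mp h1).resolve_right hsup

include hgs hDl in
/-- Density of the irreducible points of the chart with coordinates in an infinite set. -/
theorem main_core_irr (S : Set ℂˣ) (hS : S.Infinite) {m : ℕ}
    (w : Fin m → FreeGroup (PGens g s)) (P : MvPolynomial (Fin m) ℂ)
    {A0 : PGens g s → SLr (k + 1)} (hA0 : A0 ∈ YStar l) (hirr : IsIrredP A0)
    (hvan : ∀ x : PI → ℂˣ, (∀ i, x i ∈ S) → supF g s D x ≠ 0 → IsIrredP (chP g s D hD x) →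
      evalTrP w P (chP g s D hD x) = 0) :
    ∀ A ∈ YStar l, evalTrP w P A = 0 := by
  obtain ⟨x0, h0, hc0⟩ := dom_YStar hgs l D hD hDl hA0
  have hsup0 := supF_of_reg hgs l D hD hDl (regular_of_conj hgs l D hD hA0 hc0)
  have hirr0 : IsIrredP (chP g s D hD x0) := irred_conj h0 hc0 hirr
  obtain ⟨wd, hwd⟩ := exists_words (Nat.succ_pos k) hirr0
  have hG := (Reg PI).mul_mem (supF_reg D (g := g) (s := s)) (wordDet_reg D hD wd)
  have hf := evalTrP_chart_reg D hD (g := g) (s := s) w P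
  have hF := (Reg PI).mul_mem hf hG
  have hv := reg_vanish S hS _ hF (fun x hx => by
    show evalTrP w P (chP g s D hD x) * (supF g s D x * wordDet D hD wd x) = 0
    by_cases h : supF g s D x = 0
    · rw [h, zero_mul, mul_zero]
    · by_cases h' : wordDet D hD wd x = 0
      · rw [h', mul_zero, mul_zero]
      · rw [hvan x hx h (irred_of_det wd h'), zero_mul])
  have hdom := reg_domain _ _ hf hG hv
  rcases hdom with h1 | h1
  · intro A hA
    obtain ⟨x, h, hc⟩ := dom_YStar hgs l D hD hDl hA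
    rw [← evalTrP_conj w P h A _ hc]
    exact h1 x
  · exact absurd (h1 x0) (mul_ne_zero hsup0 hwd)

include hgs hDl in
/-- Every value of the chart with nonzero entries above the diagonal lies in the generic locus. -/
theorem chart_mem (hadj : ∀ j, AdjEq (l j)) {x : PI → ℂˣ} (hx : supF g s D x ≠ 0) :
    chP g s D hD x ∈ YStar l :=
  chP_mem hgs l D hD hDl x (reg_of_supF hgs l D hD hDl hadj hx)

end Core

section Field

/-- The theorem for every field containing the eigenvalues and a unit of infinite order. -/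
theorem main_regfield (hgs : 1 ≤ g ∨ 2 ≤ s) (l : Fin (s + 1) → Fin (k + 1) → ℂ)
    (hdet : ∀ j, ∏ i, l j i = 1) (hadj : ∀ j, AdjEq (l j))
    (L : IntermediateField ℚ ℂ) (hl : ∀ j i, l j i ∈ OL L) (ε : ℂ) (hε : ε ∈ OL L)
    (hε' : ε⁻¹ ∈ OL L) (hε0 : ε ≠ 0) (hroot : ∀ n : ℕ, 0 < n → ε ^ n ≠ 1)
    {m : ℕ} (w : Fin m → FreeGroup (PGens g s)) (P : MvPolynomial (Fin m) ℂ) :
    ((∀ A ∈ YStar l, IsOLTuple L A → evalTrP w P A = 0) → ∀ A ∈ YStar l, evalTrP w P A = 0) ∧
    ((∃ A : PGens g s → SLr (k + 1), A ∈ YStar l ∧ IsIrredP A) →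
      (∀ A ∈ YStar l, IsIrredP A → IsOLTuple L A → evalTrP w P A = 0) →
      ∀ A ∈ YStar l, evalTrP w P A = 0) := by
  classical
  have hl0 : ∀ i j, l i j ≠ 0 := by
    intro i j h0
    have := hdet i
    rw [Finset.prod_eq_zero (Finset.mem_univ j) h0] at this
    exact zero_ne_one this
  let O := OLs L
  let D : ℕ → Fin (k + 1) → ℂˣ := fun v j =>
    if h : v < s + 1 then Units.mk0 (l ⟨v, h⟩ j) (hl0 _ _) else 1
  have hDl : ∀ (v : Fin (s + 1)) (j : Fin (k + 1)), ((D v.val j : ℂˣ) : ℂ) = l v j := by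
    intro v j
    show ((if h : v.val < s + 1 then Units.mk0 (l ⟨v.val, h⟩ j) (hl0 _ _) else 1 : ℂˣ) : ℂ) = _
    rw [dif_pos v.isLt]
    rfl
  have hDv : ∀ v, prH (D v) = 1 := by
    intro v
    rw [prH_apply]
    ext
    rw [Units.coe_prod]
    by_cases h : v < s + 1
    · have := hDl ⟨v, h⟩
      simp only at this
      simp only [this]
      exact hdet _
    · have : ∀ j, D v j = 1 := fun j => dif_neg h
      simp [this]
  have hunit : ∀ (i : Fin (s + 1)) (j : Fin (k + 1)), IsUnit (⟨l i j, hl i j⟩ : O) := by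
    intro i j
    have h1 : (∏ a, (⟨l i a, hl i a⟩ : O)) = 1 := by
      apply Subtype.ext
      rw [← O.subtype_apply, map_prod]
      exact hdet i
    refine isUnit_of_dvd_one ?_
    rw [← h1]
    exact Finset.dvd_prod_of_mem _ (Finset.mem_univ j)
  let DO : ℕ → Fin (k + 1) → Oˣ := fun v j =>
    if h : v < s + 1 then (hunit ⟨v, h⟩ j).unit else 1
  have hDD : (fun u => mapD O.subtype (DO u)) = D := by
    funext v j
    ext
    by_cases h : v < s + 1
    · show (O.subtype ((if h : v < s + 1 then (hunit ⟨v, h⟩ j).unit else 1 : Oˣ) : O)) =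
        ((if h : v < s + 1 then Units.mk0 (l ⟨v, h⟩ j) (hl0 _ _) else 1 : ℂˣ) : ℂ)
      rw [dif_pos h, dif_pos h]
      rfl
    · show (O.subtype ((if h : v < s + 1 then (hunit ⟨v, h⟩ j).unit else 1 : Oˣ) : O)) =
        ((if h : v < s + 1 then Units.mk0 (l ⟨v, h⟩ j) (hl0 _ _) else 1 : ℂˣ) : ℂ)
      rw [dif_neg h, dif_neg h]
      rfl
  have hDO : ∀ v, prH (DO v) = 1 := by
    intro v
    have hinjU : Function.Injective (Units.map O.subtype.toMonoidHom) := by
      apply Units.map_injective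
      exact Subtype.val_injective
    apply hinjU
    rw [map_one]
    have h1 := hDv v
    rw [prH_apply] at h1 ⊢
    rw [map_prod, ← h1, ← hDD]
    rfl
  -- the infinite set of units
  let εO : Oˣ := ⟨⟨ε, hε⟩, ⟨ε⁻¹, hε'⟩, Subtype.ext (mul_inv_cancel₀ hε0),
    Subtype.ext (inv_mul_cancel₀ hε0)⟩
  let εc : ℂˣ := Units.map O.subtype.toMonoidHom εO
  let S : Set ℂˣ := Set.range fun n : ℕ => εc ^ n
  have hS : S.Infinite := by
    apply Set.infinite_range_of_injective
    rw [injective_pow_iff_not_isOfFinOrder, isOfFinOrder_iff_pow_eq_one]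
    rintro ⟨n, hn, h⟩
    apply hroot n hn
    have := congrArg Units.val h
    simpa [εc, εO] using this
  have hint : ∀ x : PI → ℂˣ, (∀ i, x i ∈ S) → IsOLTuple L (chP g s D hDv x) := by
    intro x hx v a b
    choose n hn using hx
    let tO : PI → Oˣ := fun i => εO ^ n i
    have htO : mapP O.subtype tO = x := by
      funext i
      rw [← hn i]
      show Units.map O.subtype.toMonoidHom (εO ^ n i) = _
      rw [map_pow]
    have hD' : ∀ v, prH (mapD O.subtype (DO v)) = 1 := by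
      intro v
      have := congrFun hDD v
      rw [this]
      exact hDv v
    have h1 : Matrix.SpecialLinearGroup.map O.subtype (chP g s DO hDO tO v) =
        chP g s D hDv x v := by
      rw [chP_map O.subtype g s DO hDO hD' tO v]
      exact chP_congr hDD htO v
    have h2 : ((chP g s D hDv x v : SLr (k + 1)) : Mat (k + 1) ℂ) a b =
        O.subtype (((chP g s DO hDO tO v : Matrix.SpecialLinearGroup (Fin (k + 1)) O) :
          Matrix (Fin (k + 1)) (Fin (k + 1)) O) a b) := by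
      rw [← h1]
      rfl
    rw [h2]
    exact SetLike.coe_mem (((chP g s DO hDO tO v : Matrix.SpecialLinearGroup (Fin (k + 1)) O) :
          Matrix (Fin (k + 1)) (Fin (k + 1)) O) a b)
  constructor
  · intro h
    apply main_core hgs l D hDv hDl S hS w P
    intro x hx hsup
    exact h _ (chart_mem hgs l D hDv hDl hadj hsup) (hint x hx)
  · rintro ⟨A0, hA0, hirr⟩ h
    apply main_core_irr hgs l D hDv hDl S hS w P hA0 hirr
    intro x hx hsup hirr'
    exact h _ (chart_mem hgs l D hDv hDl hadj hsup) hirr' (hint x hx)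

/-- The theorem with an explicit number field. -/
theorem main_regular {r : ℕ} (hgs : 1 ≤ g ∨ 2 ≤ s) (hr : 0 < r) (l : Fin (s + 1) → Fin r → ℂ)
    (hint : ∀ j i, IsIntegral ℤ (l j i)) (hdet : ∀ j, ∏ i, l j i = 1) (hadj : ∀ j, AdjEq (l j)) :
    ∃ L : IntermediateField ℚ ℂ, FiniteDimensional ℚ L ∧ (∀ j i, l j i ∈ L) ∧
      ∀ (m : ℕ) (w : Fin m → FreeGroup (PGens g s)) (P : MvPolynomial (Fin m) ℂ),
        ((∀ A ∈ YStar l, IsOLTuple L A → evalTrP w P A = 0) → ∀ A ∈ YStar l, evalTrP w P A = 0) ∧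
        ((∃ A : PGens g s → SLr r, A ∈ YStar l ∧ IsIrredP A) →
          (∀ A ∈ YStar l, IsIrredP A → IsOLTuple L A → evalTrP w P A = 0) →
          ∀ A ∈ YStar l, evalTrP w P A = 0) := by
  obtain ⟨k, rfl⟩ : ∃ k, r = k + 1 := ⟨r - 1, by omega⟩
  let s2 : ℂ := ((Real.sqrt 2 : ℝ) : ℂ)
  have hs2 : s2 * s2 = 2 := by
    have : Real.sqrt 2 * Real.sqrt 2 = 2 := Real.mul_self_sqrt (by norm_num)
    show ((Real.sqrt 2 : ℝ) : ℂ) * ((Real.sqrt 2 : ℝ) : ℂ) = 2
    rw [← Complex.ofReal_mul, this]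
    norm_num
  have hs2int : IsIntegral ℤ s2 := by
    apply IsIntegral.of_pow (n := 2) (by norm_num)
    rw [pow_two, hs2]
    exact_mod_cast isIntegral_algebraMap (R := ℤ) (A := ℂ) (x := (2 : ℤ))
  let T : Set ℂ := insert s2 (Set.range fun p : Fin (s + 1) × Fin (k + 1) => l p.1 p.2)
  have hTint : ∀ x ∈ T, IsIntegral ℚ x := by
    rintro x (rfl | ⟨p, rfl⟩)
    · exact hs2int.tower_top
    · exact (hint p.1 p.2).tower_top
  have hTfin : T.Finite := (Set.finite_range _).insert _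
  let L : IntermediateField ℚ ℂ := IntermediateField.adjoin ℚ T
  have hfin : FiniteDimensional ℚ L := by
    have : Finite T := hTfin
    exact IntermediateField.finiteDimensional_adjoin hTint
  have hT : ∀ x ∈ T, x ∈ L := fun x hx => IntermediateField.subset_adjoin ℚ T hx
  have hlL : ∀ i j, l i j ∈ L := fun i j => hT _ (Or.inr ⟨(i, j), rfl⟩)
  have hs2L : s2 ∈ L := hT _ (Or.inl rfl)
  have hinv : (1 + s2)⁻¹ = s2 - 1 :=
    (eq_inv_of_mul_eq_one_left (by linear_combination hs2)).symm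
  have hne : (1 + s2) ≠ 0 := by
    intro h
    have h2 : s2 = -1 := by linear_combination h
    rw [h2] at hs2
    norm_num at hs2
  refine ⟨L, hfin, hlL, fun m w P => ?_⟩
  have hr1 : (1 : ℝ) < 1 + Real.sqrt 2 := by
    have : 0 < Real.sqrt 2 := Real.sqrt_pos.mpr (by norm_num)
    linarith
  refine main_regfield hgs l hdet hadj L (fun i j => ⟨hlL i j, hint i j⟩) (1 + s2)
    ⟨L.add_mem L.one_mem hs2L, isIntegral_one.add hs2int⟩ ?_ hne ?_ w P
  · rw [hinv]
    exact ⟨L.sub_mem hs2L L.one_mem, hs2int.sub isIntegral_one⟩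
  · intro n hn h
    have h1 : ((1 + Real.sqrt 2 : ℝ) : ℂ) ^ n = 1 := by
      simpa [s2] using h
    have h2 : (1 + Real.sqrt 2 : ℝ) ^ n = 1 := by exact_mod_cast h1
    exact absurd h2 (ne_of_gt (one_lt_pow₀ hr1 (by omega)))

end Field

section Generic

variable {r : ℕ}

/-- A regular matrix with simple spectrum is conjugate to a diagonal matrix. -/
theorem inClass_of_regular {M : SLr r} {l : Fin r → ℂ} (hl : Function.Injective l)
    (hM : IsRegular (M : Matrix (Fin r) (Fin r) ℂ) l) : InClass M l := by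
  obtain ⟨P, T, hT, hd, hMP, _⟩ := exists_adapted hM
  have hinj : Function.Injective fun i => T i i := by
    intro a b hab
    apply hl
    have h1 : T a a = T b b := hab
    rwa [hd, hd] at h1
  obtain ⟨c, _, hc⟩ := upper_diagonalize hT hinj
  have hTd : (fun i => T i i) = l := funext hd
  rw [hTd] at hc
  refine ⟨P * c, ?_⟩
  have hPi : P.val * P⁻¹.val = 1 := by simp
  calc (M : Matrix (Fin r) (Fin r) ℂ) = (M : Matrix (Fin r) (Fin r) ℂ) * (P.val * P⁻¹.val) := by
        rw [hPi, Matrix.mul_one]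
    _ = (M : Matrix (Fin r) (Fin r) ℂ) * P.val * P⁻¹.val := by rw [Matrix.mul_assoc]
    _ = P.val * T * P⁻¹.val := by rw [hMP]
    _ = P.val * (c.val * Matrix.diagonal l * c⁻¹.val) * P⁻¹.val := by rw [← hc]
    _ = (P * c).val * Matrix.diagonal l * (P * c)⁻¹.val := by
        simp only [Units.val_mul, _root_.mul_inv_rev, Matrix.mul_assoc]

theorem dU_inv {U : Submodule ℂ (Fin r → ℂ)} {M : SLr r} (hM : Pres U M) :
    dU U M⁻¹ * dU U M = 1 := by
  rw [← dU_mul (pres_inv hM) hM, inv_mul_cancel, dU_one]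

theorem dU_comm {U : Submodule ℂ (Fin r → ℂ)} {M N : SLr r} (hM : Pres U M) (hN : Pres U N) :
    Pres U (M * N * M⁻¹ * N⁻¹) ∧ dU U (M * N * M⁻¹ * N⁻¹) = 1 := by
  have h1 := pres_inv hM
  have h2 := pres_inv hN
  refine ⟨((hM.mul hN).mul h1).mul h2, ?_⟩
  rw [dU_mul ((hM.mul hN).mul h1) h2, dU_mul (hM.mul hN) h1, dU_mul hM hN]
  have h3 := dU_inv hM
  have h4 := dU_inv hN
  calc dU U M * dU U N * dU U M⁻¹ * dU U N⁻¹ = (dU U M⁻¹ * dU U M) * (dU U N⁻¹ * dU U N) := by ring
    _ = 1 := by rw [h3, h4, one_mul]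

/-- For generic simple eigenvalues every point is irreducible. -/
theorem irred_of_generic (l : Fin (s + 1) → Fin r → ℂ) (hinj : ∀ j, Function.Injective (l j))
    (hgen : ∀ (J : Fin (s + 1) → Finset (Fin r)) (m : ℕ), 0 < m → m < r →
      (∀ i, (J i).card = m) → ∏ i, ∏ j ∈ J i, l i j ≠ 1)
    {A : PGens g s → SLr r} (hrep : IsPRep A)
    (hreg : ∀ j, IsRegular ((A (Sum.inr j) : SLr r) : Matrix (Fin r) (Fin r) ℂ) (l j)) :
    IsIrredP A := by
  classical
  intro U hU
  by_contra hne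
  push Not at hne
  have hm0 : 0 < Module.finrank ℂ U := by
    rw [Module.finrank_pos_iff]
    exact Submodule.nontrivial_iff_ne_bot.mpr hne.1
  have hmr : Module.finrank ℂ U < r := by
    have := Submodule.finrank_lt (s := U) hne.2
    simpa using this
  have hP : ∀ i, Pres U (A i) := hU
  have hd := fun j => dU_class U (A (Sum.inr j)) (l j) (hinj j)
    (inClass_of_regular (hinj j) (hreg j)) (hP _)
  choose J hJ hJd using hd
  apply hgen J _ hm0 hmr hJ
  have h1 := dU_list (U := U) (List.ofFn fun t : Fin g =>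
    A (Sum.inl (t, false)) * A (Sum.inl (t, true)) *
      (A (Sum.inl (t, false)))⁻¹ * (A (Sum.inl (t, true)))⁻¹) (fun M hM => by
    obtain ⟨t, rfl⟩ := (List.mem_ofFn' _ _).mp hM
    exact (dU_comm (hP _) (hP _)).1)
  have h2 := dU_list (U := U) (List.ofFn fun j : Fin (s + 1) => A (Sum.inr j)) (fun M hM => by
    obtain ⟨t, rfl⟩ := (List.mem_ofFn' _ _).mp hM
    exact hP _)
  have h3 : dU U ((List.ofFn fun t : Fin g =>
    A (Sum.inl (t, false)) * A (Sum.inl (t, true)) *
      (A (Sum.inl (t, false)))⁻¹ * (A (Sum.inl (t, true)))⁻¹).prod) = 1 := by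
    rw [h1.2, List.map_ofFn, List.prod_ofFn]
    exact Finset.prod_eq_one fun t _ => (dU_comm (hP _) (hP _)).2
  have h4 := dU_mul h1.1 h2.1
  have hrep' : (List.ofFn fun t : Fin g => A (Sum.inl (t, false)) * A (Sum.inl (t, true)) *
      (A (Sum.inl (t, false)))⁻¹ * (A (Sum.inl (t, true)))⁻¹).prod *
    (List.ofFn fun j : Fin (s + 1) => A (Sum.inr j)).prod = 1 := hrep
  rw [hrep', dU_one, h3, one_mul, h2.2, List.map_ofFn, List.prod_ofFn] at h4
  rw [h4]
  exact Finset.prod_congr rfl fun i _ => (hJd i).symm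

/-- The eigenvalues as units. -/
theorem exists_D {k : ℕ} (l : Fin (s + 1) → Fin (k + 1) → ℂ) (hdet : ∀ j, ∏ i, l j i = 1) :
    ∃ D : ℕ → Fin (k + 1) → ℂˣ, (∀ v, prH (D v) = 1) ∧
      ∀ (v : Fin (s + 1)) (i : Fin (k + 1)), ((D v.val i : ℂˣ) : ℂ) = l v i := by
  have hl0 : ∀ i j, l i j ≠ 0 := by
    intro i j h0
    have := hdet i
    rw [Finset.prod_eq_zero (Finset.mem_univ j) h0] at this
    exact zero_ne_one this
  let D : ℕ → Fin (k + 1) → ℂˣ := fun v j =>
    if h : v < s + 1 then Units.mk0 (l ⟨v, h⟩ j) (hl0 _ _) else 1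
  have hDl : ∀ (v : Fin (s + 1)) (j : Fin (k + 1)), ((D v.val j : ℂˣ) : ℂ) = l v j := by
    intro v j
    show ((if h : v.val < s + 1 then Units.mk0 (l ⟨v.val, h⟩ j) (hl0 _ _) else 1 : ℂˣ) : ℂ) = _
    rw [dif_pos v.isLt]
    rfl
  refine ⟨D, ?_, hDl⟩
  intro v
  rw [prH_apply]
  ext
  rw [Units.coe_prod]
  by_cases h : v < s + 1
  · have := hDl ⟨v, h⟩
    simp only at this
    simp only [this]
    exact hdet _
  · have : ∀ j, D v j = 1 := fun j => dif_neg h
    simp [this]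

/-- For simple eigenvalues the generic locus is nonempty. -/
theorem nonempty_of_simple {k : ℕ} (hgs : 1 ≤ g ∨ 2 ≤ s) (l : Fin (s + 1) → Fin (k + 1) → ℂ)
    (hdet : ∀ j, ∏ i, l j i = 1) (hinj : ∀ j, Function.Injective (l j)) :
    (YStar l : Set (PGens g s → SLr (k + 1))).Nonempty := by
  classical
  obtain ⟨D, hD, hDl⟩ := exists_D l hdet
  have hadj : ∀ j, AdjEq (l j) := by
    intro j a b c hab hbc hac
    have : a = c := hinj j hac
    subst this
    have : b = a := le_antisymm hbc hab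
    rw [this]
  refine ⟨_, chart_mem hgs l D hD hDl hadj (x := fun _ => 1) ?_⟩
  refine (supF_ne_zero D).mpr fun j hj p hp => ?_
  exfalso
  have h2 := hDl ⟨j, by omega⟩ p.castSucc
  have h3 := hDl ⟨j, by omega⟩ p.succ
  have h4 : l ⟨j, by omega⟩ p.castSucc = l ⟨j, by omega⟩ p.succ := by
    rw [← h2, ← h3]
    exact congrArg Units.val hp
  have h5 := hinj _ h4
  have h6 : p.val = p.val + 1 := congrArg Fin.val h5
  omega

end Generic

/-- The theorem on regular local monodromy. -/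
theorem regular_thm {r : ℕ} (hgs : 1 ≤ g ∨ 2 ≤ s) (hr : 2 ≤ r) (l : Fin (s + 1) → Fin r → ℂ)
    (hint : ∀ j i, IsIntegral ℤ (l j i)) (hdet : ∀ j, ∏ i, l j i = 1)
    (hadj : ∀ j a b c, a ≤ b → b ≤ c → l j a = l j c → l j b = l j a) :
    (((∀ j, Function.Injective (l j)) ∧
        ∀ (J : Fin (s + 1) → Finset (Fin r)) (m : ℕ), 0 < m → m < r →
          (∀ i, (J i).card = m) → ∏ i, ∏ j ∈ J i, l i j ≠ 1) →
      (YStar l : Set (PGens g s → SLr r)).Nonempty ∧
        ∀ A : PGens g s → SLr r, A ∈ YStar l → IsIrredP A) ∧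
    ∃ L : IntermediateField ℚ ℂ, FiniteDimensional ℚ L ∧ (∀ j i, l j i ∈ L) ∧
      ∀ (m : ℕ) (w : Fin m → FreeGroup (PGens g s)) (P : MvPolynomial (Fin m) ℂ),
        ((∀ A ∈ YStar l, IsOLTuple L A → evalTrP w P A = 0) → ∀ A ∈ YStar l, evalTrP w P A = 0) ∧
        ((∃ A : PGens g s → SLr r, A ∈ YStar l ∧ IsIrredP A) →
          (∀ A ∈ YStar l, IsIrredP A → IsOLTuple L A → evalTrP w P A = 0) →
          ∀ A ∈ YStar l, evalTrP w P A = 0) := by
  refine ⟨?_, main_regular hgs (by omega) l hint hdet (fun j a b c => hadj j a b c)⟩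
  rintro ⟨hinj, hgen⟩
  obtain ⟨k, rfl⟩ : ∃ k, r = k + 1 := ⟨r - 1, by omega⟩
  exact ⟨nonempty_of_simple hgs l hdet hinj, fun A hA => irred_of_generic l hinj hgen hA.1 hA.2.1⟩

end Vale.Agent.Lib.P002
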