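import Vale.Agent.Lib.P002.Main
import Vale.Agent.Lib.P002.RFlag

/-!
The polygon with side pairings: the frames at the corners, the gluing matrices, and the walk around
the vertices of the polygon.
-/

open Matrix

namespace Vale.Agent.Lib.P002

variable {R : Type*} [CommRing R] {S : Type*} [CommRing S] {n : ℕ}

/-- The constant array. -/
def oneArr : ℕ → ℕ → Rˣ := fun _ _ => 1

/-- A diagonal with the determinant of the reversal matrix. -/
noncomputable def kapR : Fin n → Rˣ := dT oneArr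

/-- The determinant of the reversal matrix as a unit. -/
noncomputable def om (n : ℕ) (R : Type*) [CommRing R] : Rˣ := ∏ i, (kapR : Fin n → Rˣ) i

theorem prod_dT (a : ℕ → ℕ → Rˣ) : ∏ i, (dT a : Fin n → Rˣ) i = om n R :=
  prod_d_eq' (td_spec n a) (td_spec n oneArr)

theorem om_val : ((om n R : Rˣ) : R) = (W n : Mat n R).det := prod_d_eq (td_spec n oneArr)

theorem om_sq : om n R * om n R = 1 := by
  ext
  rw [Units.val_mul, om_val, ← Matrix.det_mul, W_mul_W, Matrix.det_one]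
  rfl

theorem om_inv : (om n R)⁻¹ = om n R := by
  rw [inv_eq_iff_mul_eq_one]
  exact om_sq

theorem mapA_one (φ : R →+* S) : mapA φ oneArr = oneArr := by
  funext a b
  simp [mapA, oneArr]

theorem kapR_map (φ : R →+* S) : mapD φ (kapR : Fin n → Rˣ) = kapR := by
  unfold kapR
  rw [dT_map, mapA_one]

/-- The frames at the corners of the polygon. -/
noncomputable def Bf (K : ℕ) (A : ℕ → ℕ → ℕ → Rˣ) : ℕ → GLm n R
  | 0 => fr A K
  | 1 => Wg n * dg kapR
  | i + 2 => nh K A i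

/-- The triangular transition at the corners of the polygon. -/
noncomputable def Cf (K : ℕ) (A : ℕ → ℕ → ℕ → Rˣ) : ℕ → GLm n R
  | 0 => (fr A K)⁻¹ * dg (rv kapR)
  | 1 => (dg kapR)⁻¹ * (Wg n * lG (A 0) * Wg n)
  | i + 2 => ch K A i

/-- The diagonal of the transition at the corners of the polygon. -/
noncomputable def dCf (A : ℕ → ℕ → ℕ → Rˣ) : ℕ → Fin n → Rˣ
  | 0 => rv kapR
  | 1 => kapR⁻¹
  | i + 2 => dT (A i)

theorem Bf_rel {K : ℕ} (hK : 0 < K) (A : ℕ → ℕ → ℕ → Rˣ) {i : ℕ} (hi : i ≤ K + 1) :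
    (Bf K A (i + 1) : GLm n R) * Wg n = Bf K A i * Cf K A i := by
  match i, hi with
  | 0, _ =>
    show (Wg n * dg kapR) * Wg n = fr A K * ((fr A K)⁻¹ * dg (rv kapR))
    rw [Wg_conj_dg]
    group
  | 1, _ =>
    show nh K A 0 * Wg n = (Wg n * dg kapR) * ((dg kapR)⁻¹ * (Wg n * lG (A 0) * Wg n))
    rw [nh_zero hK]
    have e : (Wg n : GLm n R) * Wg n = 1 := Wg_mul_Wg n
    calc lG (A 0) * Wg n = (Wg n * Wg n) * lG (A 0) * Wg n := by rw [e, one_mul]
      _ = _ := by group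
  | i + 2, hi =>
    show nh K A (i + 1) * Wg n = nh K A i * ch K A i
    rw [nh_succ K A (show i < K by omega)]
    simp only [mul_assoc, Wg_mul_Wg, mul_one]

theorem Cf_up (K : ℕ) (A : ℕ → ℕ → ℕ → Rˣ) (i : ℕ) :
    IsUpD (Cf K A i : GLm n R) (dCf A i) := by
  match i with
  | 0 =>
    have h := (fr_up (n := n) A K).inv.mul (dg_isUpD (rv kapR))
    simpa [Cf, dCf] using h
  | 1 =>
    have h := (dg_isUpD (n := n) (kapR : Fin n → Rˣ)).inv.mul
      (Wg_conj_isLoD (lG_lo (n := n) (A 0)))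
    have e : (kapR : Fin n → Rˣ)⁻¹ * rv (1 : Fin n → Rˣ) = kapR⁻¹ := by
      ext j
      simp [rv]
    rw [e] at h
    exact h
  | i + 2 => exact ch_up K A i

theorem Bf_top (K : ℕ) (A : ℕ → ℕ → ℕ → Rˣ) : (Bf K A (K + 2) : GLm n R) = Bf K A 0 := nh_self K A

/-! ### Functoriality -/

theorem Bf_map (φ : R →+* S) (K : ℕ) (A : ℕ → ℕ → ℕ → Rˣ) (i : ℕ) :
    mapG φ (Bf K A i : GLm n R) = Bf K (fun a => mapA φ (A a)) i := by
  match i with
  | 0 => exact fr_map φ A K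
  | 1 =>
    show mapG φ (Wg n * dg kapR) = Wg n * dg kapR
    rw [map_mul, mapG_Wg, mapG_dg, kapR_map]
  | i + 2 => exact nh_map φ K A i

theorem ch_map (φ : R →+* S) (K : ℕ) (A : ℕ → ℕ → ℕ → Rˣ) (i : ℕ) :
    mapG φ (ch K A i : GLm n R) = ch K (fun a => mapA φ (A a)) i := by
  unfold ch
  rw [map_mul, map_mul, map_mul, mapG_Wg, pG_map, lh_map]

theorem Cf_map (φ : R →+* S) (K : ℕ) (A : ℕ → ℕ → ℕ → Rˣ) (i : ℕ) :
    mapG φ (Cf K A i : GLm n R) = Cf K (fun a => mapA φ (A a)) i := by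
  match i with
  | 0 =>
    show mapG φ ((fr A K)⁻¹ * dg (rv kapR)) = (fr _ K)⁻¹ * dg (rv kapR)
    rw [map_mul, map_inv, fr_map, mapG_dg, mapD_rv, kapR_map]
  | 1 =>
    show mapG φ ((dg kapR)⁻¹ * (Wg n * lG (A 0) * Wg n)) = (dg kapR)⁻¹ * (Wg n * lG (mapA φ (A 0)) * Wg n)
    rw [map_mul, map_inv, mapG_dg, kapR_map, map_mul, map_mul, mapG_Wg, lG_map]
  | i + 2 => exact ch_map φ K A i

theorem dCf_map (φ : R →+* S) (A : ℕ → ℕ → ℕ → Rˣ) (i : ℕ) :
    mapD φ (dCf A i : Fin n → Rˣ) = dCf (fun a => mapA φ (A a)) i := by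
  match i with
  | 0 =>
    show mapD φ (rv kapR) = rv kapR
    rw [mapD_rv, kapR_map]
  | 1 =>
    show mapD φ kapR⁻¹ = kapR⁻¹
    rw [mapD_inv, kapR_map]
  | i + 2 => exact dT_map φ (A i)

/-! ### Gluing -/

/-- The matrix gluing the side `i` of the polygon to the side `i'`. -/
noncomputable def glue (B : ℕ → GLm n R) (i i' : ℕ) (τ : Fin n → Rˣ) : GLm n R :=
  B (i' + 1) * Wg n * dg τ * (B (i + 1))⁻¹

theorem glue_inv (B : ℕ → GLm n R) (i i' : ℕ) (τ : Fin n → Rˣ) :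
    (glue B i i' τ)⁻¹ = glue B i' i (rv τ)⁻¹ := by
  have h : (Wg n : GLm n R) * dg (rv τ)⁻¹ * Wg n = (dg τ)⁻¹ := by
    rw [Wg_conj_dg, rv_inv, rv_rv, dg_inv]
  have h2 : (Wg n : GLm n R) * dg (rv τ)⁻¹ = (dg τ)⁻¹ * Wg n := by
    rw [← h, mul_assoc _ (Wg n) (Wg n), Wg_mul_Wg, mul_one]
  unfold glue
  rw [mul_assoc (B (i + 1)) (Wg n), h2]
  simp only [_root_.mul_inv_rev, Wg_inv, inv_inv, mul_assoc]

theorem glue_inv' (B : ℕ → GLm n R) (i i' : ℕ) (τ : Fin n → Rˣ) :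
    (glue B i i' (rv τ)⁻¹)⁻¹ = glue B i' i τ := by
  rw [glue_inv, rv_inv, rv_rv, inv_inv]

theorem glue_corner (B : ℕ → GLm n R) {i : ℕ} (i' : ℕ) (τ : Fin n → Rˣ) {C : GLm n R}
    (hB : B (i + 1) * Wg n = B i * C) :
    glue B i i' τ * B i = B (i' + 1) * (dg (rv τ) * C⁻¹) := by
  have h1 : (B (i + 1))⁻¹ * B i = Wg n * C⁻¹ := by
    have h2 : B i = B (i + 1) * Wg n * C⁻¹ := by
      rw [hB]
      group
    calc (B (i + 1))⁻¹ * B i = (B (i + 1))⁻¹ * (B (i + 1) * Wg n * C⁻¹) := by rw [← h2]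
      _ = _ := by group
  have h3 : (Wg n : GLm n R) * dg τ * Wg n = dg (rv τ) := Wg_conj_dg τ
  unfold glue
  rw [mul_assoc _ _ (B i), h1, ← h3]
  simp only [mul_assoc]

theorem glue_map (φ : R →+* S) (B : ℕ → GLm n R) (i i' : ℕ) (τ : Fin n → Rˣ) :
    mapG φ (glue B i i' τ) = glue (fun a => mapG φ (B a)) i i' (mapD φ τ) := by
  unfold glue
  rw [map_mul, map_mul, map_mul, map_inv, mapG_Wg, mapG_dg]

theorem glue_det (B : ℕ → GLm n R) (hB : ∀ i, (B i).val.det = 1) (i i' : ℕ) (τ : Fin n → Rˣ)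
    (hτ : ∏ a, τ a = om n R) : (glue B i i' τ).val.det = 1 := by
  have h1 : (B (i + 1))⁻¹.val.det = 1 := by
    have h2 : (B (i + 1))⁻¹.val.det * (B (i + 1)).val.det = 1 := by
      rw [← Matrix.det_mul]
      have : (B (i + 1))⁻¹.val * (B (i + 1)).val = 1 := by simp
      rw [this, Matrix.det_one]
    rwa [hB, mul_one] at h2
  have h3 : (glue B i i' τ).val = (B (i' + 1)).val * (W n : Mat n R) * (dg τ).val *
      (B (i + 1))⁻¹.val := rfl
  rw [h3, Matrix.det_mul, Matrix.det_mul, Matrix.det_mul, hB, h1, dg_val, Matrix.det_diagonal]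
  have h4 : (∏ a, ((τ a : Rˣ) : R)) = ((om n R : Rˣ) : R) := by
    rw [← hτ, Units.coe_prod]
  rw [h4, om_val, one_mul, mul_one, ← Matrix.det_mul, W_mul_W, Matrix.det_one]

/-- All frames have determinant one. -/
theorem Bf_det {K : ℕ} (A : ℕ → ℕ → ℕ → Rˣ) (i : ℕ) : (Bf K A i : GLm n R).val.det = 1 := by
  have hup : ∀ {g : GLm n R}, IsUpD g 1 → g.val.det = 1 := by
    intro g hg
    rw [hg.1.det_eq]
    simp [hg.2]
  have hlo : ∀ {g : GLm n R}, IsLoD g 1 → g.val.det = 1 := by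
    intro g hg
    rw [hg.1.det_eq]
    simp [hg.2]
  match i with
  | 0 => exact hup (fr_up A K)
  | 1 =>
    show ((Wg n : GLm n R) * dg kapR).val.det = 1
    rw [Units.val_mul, Matrix.det_mul, Wg_val, dg_val, Matrix.det_diagonal]
    have h4 : (∏ a, (((kapR : Fin n → Rˣ) a : Rˣ) : R)) = ((om n R : Rˣ) : R) := by
      rw [om, Units.coe_prod]
    rw [h4, om_val, ← Matrix.det_mul, W_mul_W, Matrix.det_one]
  | i + 2 =>
    show ((fr A i * lh K A i : GLm n R)).val.det = 1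
    rw [Units.val_mul, Matrix.det_mul, hup (fr_up A i), hlo (lh_lo K A i), one_mul]

end Vale.Agent.Lib.P002
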