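import Vale.Agent.Lib.P002.RTuple

/-!
The flags at the corners of the polygon. The values of the chart with nonzero entries above the
diagonal between equal eigenvalues are points of the generic locus.
-/

open Matrix

namespace Vale.Agent.Lib.P002

section Grp

variable {G : Type*} [Group G] {G' : Type*} [Group G']

/-- The group element carrying the corner `0` to the corner `i` around the big vertex. -/
def cornerG (a b c : ℕ → G) (g i : ℕ) : G :=
  if i < 4 * g then
    if i % 4 = 0 then HwG a b (i / 4)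
    else if i % 4 = 1 then a (i / 4) * (b (i / 4))⁻¹ * (a (i / 4))⁻¹ * HwG a b (i / 4)
    else if i % 4 = 2 then (b (i / 4))⁻¹ * (a (i / 4))⁻¹ * HwG a b (i / 4)
    else (a (i / 4))⁻¹ * HwG a b (i / 4)
  else HuG c (HwG a b g) ((i - 4 * g) / 2)

variable (a b c : ℕ → G) {g : ℕ}

theorem cornerG_0 {t : ℕ} (ht : t < g) : cornerG a b c g (4 * t) = HwG a b t := by
  unfold cornerG
  rw [if_pos (by omega), if_pos (by omega), show 4 * t / 4 = t by omega]

theorem cornerG_1 {t : ℕ} (ht : t < g) :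
    cornerG a b c g (4 * t + 1) = a t * (b t)⁻¹ * (a t)⁻¹ * HwG a b t := by
  unfold cornerG
  rw [if_pos (by omega), if_neg (by omega), if_pos (by omega), show (4 * t + 1) / 4 = t by omega]

theorem cornerG_2 {t : ℕ} (ht : t < g) :
    cornerG a b c g (4 * t + 2) = (b t)⁻¹ * (a t)⁻¹ * HwG a b t := by
  unfold cornerG
  rw [if_pos (by omega), if_neg (by omega), if_neg (by omega), if_pos (by omega),
    show (4 * t + 2) / 4 = t by omega]

theorem cornerG_3 {t : ℕ} (ht : t < g) :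
    cornerG a b c g (4 * t + 3) = (a t)⁻¹ * HwG a b t := by
  unfold cornerG
  rw [if_pos (by omega), if_neg (by omega), if_neg (by omega), if_neg (by omega),
    show (4 * t + 3) / 4 = t by omega]

theorem cornerG_fold (j : ℕ) : cornerG a b c g (4 * g + 2 * j) = HuG c (HwG a b g) j := by
  unfold cornerG
  rw [if_neg (by omega), show (4 * g + 2 * j - 4 * g) / 2 = j by omega]

theorem cornerG_hom (f : G →* G') (i : ℕ) :
    f (cornerG a b c g i) =
      cornerG (fun t => f (a t)) (fun t => f (b t)) (fun t => f (c t)) g i := by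
  unfold cornerG
  split_ifs <;> simp only [map_mul, map_inv, HwG_hom, HuG_hom]

variable {a b c}

theorem HwG_congr {a' b' : ℕ → G} {m : ℕ} (ha : ∀ t < m, a t = a' t) (hb : ∀ t < m, b t = b' t) :
    ∀ t, t ≤ m → HwG a b t = HwG a' b' t
  | 0, _ => rfl
  | t + 1, h => by
      show b t * a t * (b t)⁻¹ * (a t)⁻¹ * HwG a b t = b' t * a' t * (b' t)⁻¹ * (a' t)⁻¹ * HwG a' b' t
      rw [ha t (by omega), hb t (by omega), HwG_congr ha hb t (by omega)]

theorem HuG_congr {c' : ℕ → G} {h0 : G} {m : ℕ} (hc : ∀ t < m, c t = c' t) :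
    ∀ j, j ≤ m → HuG c h0 j = HuG c' h0 j
  | 0, _ => rfl
  | j + 1, h => by
      show (c j)⁻¹ * HuG c h0 j = (c' j)⁻¹ * HuG c' h0 j
      rw [hc j (by omega), HuG_congr hc j (by omega)]

theorem cornerG_congr {a' b' c' : ℕ → G} {s : ℕ} (ha : ∀ t < g, a t = a' t)
    (hb : ∀ t < g, b t = b' t) (hc : ∀ t < s, c t = c' t) {i : ℕ} (hi : i ≤ 4 * g + 2 * s) :
    cornerG a b c g i = cornerG a' b' c' g i := by
  unfold cornerG
  split_ifs with h1 h2 h3 h4
  · rw [HwG_congr ha hb _ (by omega)]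
  · rw [ha _ (by omega), hb _ (by omega), HwG_congr ha hb _ (by omega)]
  · rw [ha _ (by omega), hb _ (by omega), HwG_congr ha hb _ (by omega)]
  · rw [ha _ (by omega), HwG_congr ha hb _ (by omega)]
  · rw [HwG_congr ha hb g le_rfl, HuG_congr hc _ (by omega)]

end Grp

/-! ### The statement level words -/

section Words

variable {g s r : ℕ} (A : PGens g s → SLr r)

theorem wT_eq : ∀ t, wT A t = HwG (aN A) (bN A) t
  | 0 => rfl
  | t + 1 => by
      show bN A t * aN A t * (bN A t)⁻¹ * (aN A t)⁻¹ * wT A t = _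
      rw [wT_eq t]
      rfl

theorem uT_eq : ∀ j, uT A j = HuG (cN A) (HwG (aN A) (bN A) g) j
  | 0 => wT_eq A g
  | j + 1 => by
      show (cN A j)⁻¹ * uT A j = _
      rw [uT_eq j]
      rfl

theorem cornerEl_eq (i : ℕ) : cornerEl A i = cornerG (aN A) (bN A) (cN A) g i := by
  unfold cornerEl cornerG
  simp only [wT_eq, uT_eq]

end Words

variable {k : ℕ}

section Corners

variable {R : Type*} [CommRing R] {n : ℕ}

/-- The frames at the corners around the big vertex, up to triangular matrices. -/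
theorem corner_up {g s : ℕ} (B C : ℕ → GLm n R) (hC : ∀ i, IsUp (C i).val)
    (xa xb ρ : ℕ → Fin n → Rˣ)
    (hrel : ∀ i, i < 4 * g + 2 * s → B (i + 1) * Wg n = B i * C i) {i : ℕ}
    (hi : i ≤ 4 * g + 2 * s) (hf : ¬ (4 * g ≤ i ∧ (i - 4 * g) % 2 = 1)) :
    ∃ U : GLm n R, IsUp U.val ∧
      cornerG (aE B xa) (bE B xb) (cE g B ρ) g i * B 0 = B i * U := by
  have hCi : ∀ i, IsUp (C i)⁻¹.val := fun i => isUp_inv _ (hC i)
  have hdg : ∀ τ : Fin n → Rˣ, IsUp (dg τ).val := fun τ => (dg_isUpD τ).1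
  have hmul : ∀ {X Y : GLm n R}, IsUp X.val → IsUp Y.val → IsUp (X * Y).val :=
    fun hX hY => IsUp.mul hX hY
  have hUw : ∀ t, IsUp (Uw C xa xb t).val := by
    intro t
    induction t with
    | zero => exact isUp_one
    | succ t ih =>
      refine hmul ?_ ih
      unfold Uh
      exact hmul (hmul (hmul (hmul (hdg _) (hCi _)) (hmul (hdg _) (hCi _))) (hmul (hdg _) (hCi _)))
        (hmul (hdg _) (hCi _))
  have hUu : ∀ j, IsUp (Uu g C xa xb ρ j).val := by
    intro j
    induction j with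
    | zero => exact hUw g
    | succ j ih => exact hmul (hmul (hdg _) (hCi _)) ih
  by_cases h4 : i < 4 * g
  · obtain ⟨t, m, hm, rfl⟩ : ∃ t m, m < 4 ∧ i = 4 * t + m :=
      ⟨i / 4, i % 4, Nat.mod_lt _ (by omega), (Nat.div_add_mod i 4).symm⟩
    have ht : t < g := by omega
    have hW := Hw_corner B C xa xb (g := g) (t := t) (fun i hi => hrel i (by omega)) (by omega)
    have h0 : B (4 * t + 1) * Wg n = B (4 * t) * C (4 * t) := hrel _ (by omega)
    have h1 : B (4 * t + 2) * Wg n = B (4 * t + 1) * C (4 * t + 1) := hrel _ (by omega)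
    have h2 : B (4 * t + 3) * Wg n = B (4 * t + 2) * C (4 * t + 2) := hrel _ (by omega)
    have h3 : B (4 * t + 4) * Wg n = B (4 * t + 3) * C (4 * t + 3) := hrel _ (by omega)
    have e1 : (aE B xa t)⁻¹ * B (4 * t) = B (4 * t + 3) * (dg (rv (xa t)) * (C (4 * t))⁻¹) := by
      unfold aE
      rw [glue_inv', glue_corner B _ _ h0]
    have e2 : (bE B xb t)⁻¹ * B (4 * t + 3) =
        B (4 * t + 2) * (dg (xb t)⁻¹ * (C (4 * t + 3))⁻¹) := by
      unfold bE
      rw [glue_inv, glue_corner B _ _ h3, rv_inv, rv_rv]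
    have e3 : aE B xa t * B (4 * t + 2) = B (4 * t + 1) * (dg (xa t)⁻¹ * (C (4 * t + 2))⁻¹) := by
      unfold aE
      rw [glue_corner B _ _ h2, rv_inv, rv_rv]
    have hm4 : m = 0 ∨ m = 1 ∨ m = 2 ∨ m = 3 := by omega
    rcases hm4 with rfl | rfl | rfl | rfl
    · refine ⟨Uw C xa xb t, hUw t, ?_⟩
      have e : cornerG (aE B xa) (bE B xb) (cE g B ρ) g (4 * t + 0) =
          HwG (aE B xa) (bE B xb) t := cornerG_0 _ _ _ ht
      rw [e]
      exact hW
    · refine ⟨(dg (xa t)⁻¹ * (C (4 * t + 2))⁻¹) * ((dg (xb t)⁻¹ * (C (4 * t + 3))⁻¹) *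
        ((dg (rv (xa t)) * (C (4 * t))⁻¹) * Uw C xa xb t)),
        hmul (hmul (hdg _) (hCi _)) (hmul (hmul (hdg _) (hCi _)) (hmul (hmul (hdg _) (hCi _)) (hUw t))),
        ?_⟩
      rw [cornerG_1 _ _ _ ht]
      calc aE B xa t * (bE B xb t)⁻¹ * (aE B xa t)⁻¹ * HwG (aE B xa) (bE B xb) t * B 0
          = aE B xa t * (bE B xb t)⁻¹ * ((aE B xa t)⁻¹ * B (4 * t)) * Uw C xa xb t := by
            rw [mul_assoc _ _ (B 0), hW]; group
        _ = aE B xa t * ((bE B xb t)⁻¹ * B (4 * t + 3)) * (dg (rv (xa t)) * (C (4 * t))⁻¹) *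
            Uw C xa xb t := by
            rw [e1]; group
        _ = (aE B xa t * B (4 * t + 2)) * (dg (xb t)⁻¹ * (C (4 * t + 3))⁻¹) *
            (dg (rv (xa t)) * (C (4 * t))⁻¹) * Uw C xa xb t := by
            rw [e2]; group
        _ = _ := by
            rw [e3]; group
    · refine ⟨(dg (xb t)⁻¹ * (C (4 * t + 3))⁻¹) *
        ((dg (rv (xa t)) * (C (4 * t))⁻¹) * Uw C xa xb t),
        hmul (hmul (hdg _) (hCi _)) (hmul (hmul (hdg _) (hCi _)) (hUw t)), ?_⟩
      rw [cornerG_2 _ _ _ ht]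
      calc (bE B xb t)⁻¹ * (aE B xa t)⁻¹ * HwG (aE B xa) (bE B xb) t * B 0
          = (bE B xb t)⁻¹ * ((aE B xa t)⁻¹ * B (4 * t)) * Uw C xa xb t := by
            rw [mul_assoc _ _ (B 0), hW]; group
        _ = ((bE B xb t)⁻¹ * B (4 * t + 3)) * (dg (rv (xa t)) * (C (4 * t))⁻¹) *
            Uw C xa xb t := by
            rw [e1]; group
        _ = _ := by
            rw [e2]; group
    · refine ⟨(dg (rv (xa t)) * (C (4 * t))⁻¹) * Uw C xa xb t,
        hmul (hmul (hdg _) (hCi _)) (hUw t), ?_⟩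
      rw [cornerG_3 _ _ _ ht]
      calc (aE B xa t)⁻¹ * HwG (aE B xa) (bE B xb) t * B 0
          = ((aE B xa t)⁻¹ * B (4 * t)) * Uw C xa xb t := by
            rw [mul_assoc _ _ (B 0), hW]; group
        _ = _ := by
            rw [e1]; group
  · obtain ⟨j, rfl⟩ : ∃ j, i = 4 * g + 2 * j := by
      refine ⟨(i - 4 * g) / 2, ?_⟩
      have : (i - 4 * g) % 2 = 0 := by
        by_contra h5
        exact hf ⟨by omega, by omega⟩
      omega
    refine ⟨Uu g C xa xb ρ j, hUu j, ?_⟩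
    rw [cornerG_fold]
    exact Hu_corner B C xa xb ρ hrel (by omega)

end Corners


/-! ### The triangular forms, uniformly -/

section Uniform

variable {R : Type*} [CommRing R] {S : Type*} [CommRing S]

/-- The triangular form of the monodromy at the puncture `j`. -/
noncomputable def Tv (g s : ℕ) (D : ℕ → Fin (k + 1) → Rˣ) (x : PI → Rˣ) (j : ℕ) : GLm (k + 1) R :=
  if j < s then Tc g s D x j else Tb g s D x

/-- The frame of the monodromy at the puncture `j`. -/
noncomputable def Xf (g s : ℕ) (D : ℕ → Fin (k + 1) → Rˣ) (x : PI → Rˣ) (j : ℕ) : GLm (k + 1) R :=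
  if j < s then fP g s D x (4 * g + 2 * j + 1) else fP g s D x 0

theorem Tv_map (φ : R →+* S) (g s : ℕ) (D : ℕ → Fin (k + 1) → Rˣ) (x : PI → Rˣ) (j : ℕ) :
    mapG φ (Tv g s D x j) = Tv g s (fun v => mapD φ (D v)) (mapP φ x) j := by
  unfold Tv
  split_ifs
  · exact Tc_map φ g s D x j
  · exact Tb_map φ g s D x

variable {g s : ℕ} (hgs : 1 ≤ g ∨ 2 ≤ s) (D : ℕ → Fin (k + 1) → Rˣ) (hD : ∀ v, prH (D v) = 1)
  (x : PI → Rˣ)

include hgs hD in
theorem Tv_up {j : ℕ} (hj : j ≤ s) : IsUpD (Tv g s D x j) (D j) := by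
  unfold Tv
  split_ifs with h
  · exact Tc_up D x j
  · have : j = s := by omega
    rw [this]
    exact Tb_up hgs D hD x

include hgs in
theorem Tv_corner {j : ℕ} (hj : j ≤ s) :
    Matrix.SpecialLinearGroup.toGL (chP g s D hD x (Sum.inr ⟨j, by omega⟩)) * Xf g s D x j =
      Xf g s D x j * Tv g s D x j := by
  unfold Tv Xf
  split_ifs with h
  · have e : chP g s D hD x (Sum.inr ⟨j, by omega⟩) = cSr g s D hD x j := if_pos h
    rw [e, toGL_cS]
    exact small_corner hgs D x h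
  · have e : chP g s D hD x (Sum.inr ⟨j, by omega⟩) = cbS g s D hD x := if_neg h
    rw [e, toGL_cbS]
    exact big_corner hgs D x

end Uniform

/-! ### Complex points -/

section Complex

variable {g s : ℕ}

theorem Fl_Bf {K : ℕ} (A : ℕ → ℕ → ℕ → ℂˣ) {i : ℕ} (hi : i ≤ K) (m : ℕ) :
    Fl (Bf K A (i + 1) : GLm (k + 1) ℂ).val m = Fl (fr A i * Wg (k + 1) : GLm (k + 1) ℂ).val m := by
  cases i with
  | zero =>
    show Fl ((W (k + 1) : Mat (k + 1) ℂ) * (dg kapR).val) m = Fl ((1 : GLm (k + 1) ℂ) * Wg (k + 1)).val m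
    rw [Fl_dg_right, one_mul]
    rfl
  | succ i => exact Fl_nh A (by omega) m

theorem Fl_Bf0 {K : ℕ} (A : ℕ → ℕ → ℕ → ℂˣ) (m : ℕ) :
    Fl (Bf K A 0 : GLm (k + 1) ℂ).val m = Fl (1 : Mat (k + 1) ℂ) m := by
  have := Fl_mul_up (1 : Mat (k + 1) ℂ) (fr A K) (fr_up A K).1 m
  rwa [Matrix.one_mul] at this

variable (hgs : 1 ≤ g ∨ 2 ≤ s) (l : Fin (s + 1) → Fin (k + 1) → ℂ) (D : ℕ → Fin (k + 1) → ℂˣ)
  (hD : ∀ v, prH (D v) = 1) (hDl : ∀ (v : Fin (s + 1)) (i : Fin (k + 1)), ((D v.val i : ℂˣ) : ℂ) = l v i)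
  (x : PI → ℂˣ)

theorem aN_chP {t : ℕ} (ht : t < g) :
    aN (chP g s D hD x) t = aS g s D x t := by
  unfold aN
  rw [dif_pos ht]
  rfl

theorem bN_chP {t : ℕ} (ht : t < g) :
    bN (chP g s D hD x) t = bS g s D x t := by
  unfold bN
  rw [dif_pos ht]
  rfl

theorem cN_chP {j : ℕ} (hj : j < s) :
    cN (chP g s D hD x) j = cSr g s D hD x j := by
  unfold cN
  rw [dif_pos (by omega)]
  exact if_pos hj

include hgs in
/-- The monodromy of the chart is regular if the triangular form is. -/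
theorem chP_regular {j : ℕ} (hj : j ≤ s) (hreg : IsRegular (Tv g s D x j).val (l ⟨j, by omega⟩)) :
    IsRegular ((chP g s D hD x (Sum.inr ⟨j, by omega⟩) : SLr (k + 1)) : Mat (k + 1) ℂ)
      (l ⟨j, by omega⟩) := by
  have h := Tv_corner hgs D hD x hj
  have e : ((chP g s D hD x (Sum.inr ⟨j, by omega⟩) : SLr (k + 1)) : Mat (k + 1) ℂ) =
      (Xf g s D x j).val * (Tv g s D x j).val * (Xf g s D x j)⁻¹.val := by
    have h2 : Matrix.SpecialLinearGroup.toGL (chP g s D hD x (Sum.inr ⟨j, by omega⟩)) =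
        Xf g s D x j * Tv g s D x j * (Xf g s D x j)⁻¹ := by
      rw [← h]
      group
    exact congrArg Units.val h2
  rw [e]
  exact hreg.conj _

include hgs hDl in
theorem chP_flag {j : ℕ} (hj : j ≤ s) (hreg : IsRegular (Tv g s D x j).val (l ⟨j, by omega⟩))
    (m : ℕ) : cFlag (chP g s D hD x) l j m = Fl (Xf g s D x j).val m := by
  unfold cFlag
  rw [dif_pos (by omega)]
  refine regFlag_of_up (Xf g s D x j) (T := (Tv g s D x j).val) (Tv_up hgs D hD x hj).1
    (fun i => ?_) ?_ (chP_regular hgs l D hD x hj hreg) m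
  · rw [(Tv_up hgs D hD x hj).2, ← hDl ⟨j, by omega⟩]
  · exact congrArg Units.val (Tv_corner hgs D hD x hj)

include hgs hDl in
/-- The flags at the corners of the polygon. -/
theorem chP_corner (hreg : ∀ j (hj : j ≤ s), IsRegular (Tv g s D x j).val (l ⟨j, by omega⟩))
    {i : ℕ} (hi : i < 4 * g + 2 * s) (m : ℕ) :
    cornerFlag (chP g s D hD x) l i m = Fl (fP g s D x i).val m := by
  unfold cornerFlag
  split_ifs with hf
  · obtain ⟨h4, h2⟩ := hf
    have hj : (i - 4 * g) / 2 < s := by omega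
    rw [chP_flag hgs l D hD hDl x (le_of_lt hj) (hreg _ (le_of_lt hj))]
    unfold Xf
    rw [if_pos hj]
    have e : 4 * g + 2 * ((i - 4 * g) / 2) + 1 = i := by omega
    rw [e]
  · rw [chP_flag hgs l D hD hDl x le_rfl (hreg _ le_rfl)]
    have e0 : Xf g s D x s = fP g s D x 0 := if_neg (lt_irrefl s)
    rw [e0]
    obtain ⟨U, hU, hcorner⟩ := corner_up (g := g) (s := s) (fP g s D x) (cfP g s D x)
      (fun i => (cfP_up D x i).1) (xaF x) (xbF x) (rP g s D x)
      (fun i hi => fP_rel hgs D x hi) (le_of_lt hi) hf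
    have e1 : ((cornerEl (chP g s D hD x) i : SLr (k + 1)) : Mat (k + 1) ℂ) *
        (fP g s D x 0).val = (fP g s D x i * U).val := by
      rw [← hcorner]
      have h1 : Matrix.SpecialLinearGroup.toGL (cornerEl (chP g s D hD x) i) =
          cornerG (aE (fP g s D x) (xaF x)) (bE (fP g s D x) (xbF x))
            (cE g (fP g s D x) (rP g s D x)) g i := by
        rw [cornerEl_eq, cornerG_hom]
        refine cornerG_congr (s := s) (fun t ht => ?_) (fun t ht => ?_) (fun t ht => ?_) (le_of_lt hi)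
        · rw [aN_chP D hD x ht, toGL_aS]
          rfl
        · rw [bN_chP D hD x ht, toGL_bS]
          rfl
        · rw [cN_chP D hD x ht, toGL_cS]
          rfl
      rw [← h1]
      rfl
    rw [← Fl_map, e1]
    exact Fl_mul_up _ U hU m

include hgs hDl in
/-- General position for the values of the chart. -/
theorem chP_genpos (hreg : ∀ j (hj : j ≤ s), IsRegular (Tv g s D x j).val (l ⟨j, by omega⟩)) :
    IsGenPos (chP g s D hD x) l := by
  intro t ht a b c habc
  have hpos : 0 < 4 * g + 2 * s := by omega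
  rw [chP_corner hgs l D hD hDl x hreg hpos, chP_corner hgs l D hD hDl x hreg (by omega),
    chP_corner hgs l D hD hDl x hreg ht]
  show Fl (Bf _ _ 0 : GLm (k + 1) ℂ).val a ⊔ Fl (Bf _ _ (t + 1) : GLm (k + 1) ℂ).val b ⊔
    Fl (Bf _ _ (t + 1 + 1) : GLm (k + 1) ℂ).val c = ⊤
  rw [Fl_Bf0, Fl_Bf _ (by omega), Fl_Bf _ (by omega)]
  exact GenG_fan _ t a b c habc

include hgs hDl in
/-- The values of the chart with regular triangular forms are in the generic locus. -/
theorem chP_mem (hreg : ∀ j (hj : j ≤ s), IsRegular (Tv g s D x j).val (l ⟨j, by omega⟩)) :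
    chP g s D hD x ∈ YStar l := by
  refine ⟨chP_rel D hD x, fun j => ?_, chP_genpos hgs l D hD hDl x hreg⟩
  have := chP_regular hgs l D hD x (j := j.val) (by have := j.isLt; omega)
    (hreg j.val (by have := j.isLt; omega))
  exact this

end Complex

end Vale.Agent.Lib.P002
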