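import Vale.Agent.Lib.P002.RChart

/-!
The chart as a map to tuples of elements of `SL_r` over a commutative ring.
-/

open Matrix

namespace Vale.Agent.Lib.P002

variable {R : Type*} [CommRing R] {S : Type*} [CommRing S] {k : ℕ}

/-- The frames at the corners. -/
noncomputable def fP (g s : ℕ) (D : ℕ → Fin (k + 1) → Rˣ) (x : PI → Rˣ) : ℕ → GLm (k + 1) R :=
  Bf (4 * g + 2 * s - 2) (arrP g s D x)

/-- The transitions at the corners. -/
noncomputable def cfP (g s : ℕ) (D : ℕ → Fin (k + 1) → Rˣ) (x : PI → Rˣ) : ℕ → GLm (k + 1) R :=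
  Cf (4 * g + 2 * s - 2) (arrP g s D x)

/-- The twist coordinates at the small punctures. -/
noncomputable def rP (g s : ℕ) (D : ℕ → Fin (k + 1) → Rˣ) (x : PI → Rˣ) : ℕ → Fin (k + 1) → Rˣ :=
  rhoF g (arrP g s D x) D

/-- The generators `a_t`. -/
noncomputable def aP (g s : ℕ) (D : ℕ → Fin (k + 1) → Rˣ) (x : PI → Rˣ) : ℕ → GLm (k + 1) R :=
  aE (fP g s D x) (xaF x)

/-- The generators `b_t`. -/
noncomputable def bP (g s : ℕ) (D : ℕ → Fin (k + 1) → Rˣ) (x : PI → Rˣ) : ℕ → GLm (k + 1) R :=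
  bE (fP g s D x) (xbF x)

/-- The generators `c_j`, `j < s`. -/
noncomputable def cPr (g s : ℕ) (D : ℕ → Fin (k + 1) → Rˣ) (x : PI → Rˣ) : ℕ → GLm (k + 1) R :=
  cE g (fP g s D x) (rP g s D x)

theorem fP_map (φ : R →+* S) (g s : ℕ) (D : ℕ → Fin (k + 1) → Rˣ) (x : PI → Rˣ) :
    (fun a => mapG φ (fP g s D x a)) = fP g s (fun v => mapD φ (D v)) (mapP φ x) := by
  funext a
  unfold fP
  rw [Bf_map, arrP_map]

theorem cfP_map (φ : R →+* S) (g s : ℕ) (D : ℕ → Fin (k + 1) → Rˣ) (x : PI → Rˣ) :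
    (fun a => mapG φ (cfP g s D x a)) = cfP g s (fun v => mapD φ (D v)) (mapP φ x) := by
  funext a
  unfold cfP
  rw [Cf_map, arrP_map]

theorem rP_map (φ : R →+* S) (g s : ℕ) (D : ℕ → Fin (k + 1) → Rˣ) (x : PI → Rˣ) :
    (fun a => mapD φ (rP g s D x a)) = rP g s (fun v => mapD φ (D v)) (mapP φ x) := by
  unfold rP
  rw [rhoF_map, arrP_map]

theorem aP_map (φ : R →+* S) (g s : ℕ) (D : ℕ → Fin (k + 1) → Rˣ) (x : PI → Rˣ) (t : ℕ) :
    mapG φ (aP g s D x t) = aP g s (fun v => mapD φ (D v)) (mapP φ x) t := by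
  show mapG φ (glue _ _ _ _) = glue _ _ _ _
  rw [glue_map, fP_map, mapD_inv, mapD_rv, xaF_map]

theorem bP_map (φ : R →+* S) (g s : ℕ) (D : ℕ → Fin (k + 1) → Rˣ) (x : PI → Rˣ) (t : ℕ) :
    mapG φ (bP g s D x t) = bP g s (fun v => mapD φ (D v)) (mapP φ x) t := by
  show mapG φ (glue _ _ _ _) = glue _ _ _ _
  rw [glue_map, fP_map, xbF_map]

theorem cP_map (φ : R →+* S) (g s : ℕ) (D : ℕ → Fin (k + 1) → Rˣ) (x : PI → Rˣ) (j : ℕ) :
    mapG φ (cPr g s D x j) = cPr g s (fun v => mapD φ (D v)) (mapP φ x) j := by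
  show mapG φ (glue _ _ _ _) = glue _ _ _ _
  rw [glue_map, fP_map]
  show glue _ _ _ (mapD φ (rP g s D x j)) = glue _ _ _ (rP g s _ _ j)
  rw [← rP_map]

section Det

variable {g s : ℕ} (D : ℕ → Fin (k + 1) → Rˣ) (hD : ∀ v, prH (D v) = 1) (x : PI → Rˣ)

theorem aP_det (t : ℕ) : (aP g s D x t).val.det = 1 := by
  refine glue_det _ (Bf_det _) _ _ _ ?_
  show prH _ = _
  rw [map_inv, prH_rv]
  show (prH (xaF x t))⁻¹ = _
  rw [xaF, prH_nu]
  exact om_inv

theorem bP_det (t : ℕ) : (bP g s D x t).val.det = 1 := by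
  refine glue_det _ (Bf_det _) _ _ _ ?_
  exact prH_nu _

include hD in
theorem cP_det (j : ℕ) : (cPr g s D x j).val.det = 1 := by
  refine glue_det _ (Bf_det _) _ _ _ ?_
  exact prH_rhoF g _ D hD j

/-- The generators `a_t` in `SL_r`. -/
noncomputable def aS (g s : ℕ) (D : ℕ → Fin (k + 1) → Rˣ) (x : PI → Rˣ) (t : ℕ) :
    Matrix.SpecialLinearGroup (Fin (k + 1)) R := ⟨(aP g s D x t).val, aP_det D x t⟩

/-- The generators `b_t` in `SL_r`. -/
noncomputable def bS (g s : ℕ) (D : ℕ → Fin (k + 1) → Rˣ) (x : PI → Rˣ) (t : ℕ) :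
    Matrix.SpecialLinearGroup (Fin (k + 1)) R := ⟨(bP g s D x t).val, bP_det D x t⟩

/-- The generators `c_j`, `j < s`, in `SL_r`. -/
noncomputable def cSr (g s : ℕ) (D : ℕ → Fin (k + 1) → Rˣ) (hD : ∀ v, prH (D v) = 1) (x : PI → Rˣ)
    (j : ℕ) : Matrix.SpecialLinearGroup (Fin (k + 1)) R := ⟨(cPr g s D x j).val, cP_det D hD x j⟩

/-- The generator `c_s` in `SL_r`. -/
noncomputable def cbS (g s : ℕ) (D : ℕ → Fin (k + 1) → Rˣ) (hD : ∀ v, prH (D v) = 1)
    (x : PI → Rˣ) : Matrix.SpecialLinearGroup (Fin (k + 1)) R :=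
  HuG (cSr g s D hD x) (HwG (aS g s D x) (bS g s D x) g) s

/-- The chart with values in tuples. -/
noncomputable def chP (g s : ℕ) (D : ℕ → Fin (k + 1) → Rˣ) (hD : ∀ v, prH (D v) = 1)
    (x : PI → Rˣ) : (Fin g × Bool) ⊕ Fin (s + 1) → Matrix.SpecialLinearGroup (Fin (k + 1)) R
  | Sum.inl (t, false) => aS g s D x t.val
  | Sum.inl (t, true) => bS g s D x t.val
  | Sum.inr j => if j.val < s then cSr g s D hD x j.val else cbS g s D hD x

theorem toGL_aS (t : ℕ) :
    Matrix.SpecialLinearGroup.toGL (aS g s D x t) = aP g s D x t := by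
  ext1
  rfl

theorem toGL_bS (t : ℕ) :
    Matrix.SpecialLinearGroup.toGL (bS g s D x t) = bP g s D x t := by
  ext1
  rfl

theorem toGL_cS (j : ℕ) :
    Matrix.SpecialLinearGroup.toGL (cSr g s D hD x j) = cPr g s D x j := by
  ext1
  rfl

theorem toGL_cbS :
    Matrix.SpecialLinearGroup.toGL (cbS g s D hD x) =
      HuG (cPr g s D x) (HwG (aP g s D x) (bP g s D x) g) s := by
  unfold cbS
  rw [HuG_hom, HwG_hom]
  simp only [toGL_aS, toGL_bS, toGL_cS]

/-- The surface relation for the chart. -/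
theorem chP_rel :
    (List.ofFn fun t : Fin g => chP g s D hD x (Sum.inl (t, false)) * chP g s D hD x (Sum.inl (t, true)) *
      (chP g s D hD x (Sum.inl (t, false)))⁻¹ * (chP g s D hD x (Sum.inl (t, true)))⁻¹).prod *
    (List.ofFn fun j : Fin (s + 1) => chP g s D hD x (Sum.inr j)).prod = 1 := by
  have h1 : (List.ofFn fun t : Fin g => chP g s D hD x (Sum.inl (t, false)) *
      chP g s D hD x (Sum.inl (t, true)) * (chP g s D hD x (Sum.inl (t, false)))⁻¹ *
      (chP g s D hD x (Sum.inl (t, true)))⁻¹).prod =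
      (HwG (aS g s D x) (bS g s D x) g)⁻¹ :=
    prod_comm_eq (aS g s D x) (bS g s D x) g
  have h2 : (List.ofFn fun j : Fin (s + 1) => chP g s D hD x (Sum.inr j)).prod =
      (List.ofFn fun j : Fin s => cSr g s D hD x j.val).prod * cbS g s D hD x := by
    rw [List.ofFn_succ', List.concat_eq_append, List.prod_append]
    simp only [Fin.val_castSucc, Fin.val_last, List.prod_cons, List.prod_nil, mul_one]
    congr 1
    · congr 2
      funext j
      show (if j.val < s then _ else _) = _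
      rw [if_pos j.isLt]
      rfl
    · show (if s < s then _ else _) = _
      rw [if_neg (lt_irrefl s)]
  rw [h1, h2, ← mul_assoc, prod_c_eq]
  unfold cbS
  group

end Det

/-! ### Functoriality of the tuple -/

theorem aS_map (φ : R →+* S) (g s : ℕ) (D : ℕ → Fin (k + 1) → Rˣ) (x : PI → Rˣ) (t : ℕ) :
    Matrix.SpecialLinearGroup.map φ (aS g s D x t) =
      aS g s (fun v => mapD φ (D v)) (mapP φ x) t := by
  apply Subtype.ext
  exact congrArg Units.val (aP_map φ g s D x t)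

theorem bS_map (φ : R →+* S) (g s : ℕ) (D : ℕ → Fin (k + 1) → Rˣ) (x : PI → Rˣ) (t : ℕ) :
    Matrix.SpecialLinearGroup.map φ (bS g s D x t) =
      bS g s (fun v => mapD φ (D v)) (mapP φ x) t := by
  apply Subtype.ext
  exact congrArg Units.val (bP_map φ g s D x t)

theorem cS_map (φ : R →+* S) (g s : ℕ) (D : ℕ → Fin (k + 1) → Rˣ) (hD : ∀ v, prH (D v) = 1)
    (hD' : ∀ v, prH (mapD φ (D v)) = 1) (x : PI → Rˣ) (j : ℕ) :
    Matrix.SpecialLinearGroup.map φ (cSr g s D hD x j) =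
      cSr g s (fun v => mapD φ (D v)) hD' (mapP φ x) j := by
  apply Subtype.ext
  exact congrArg Units.val (cP_map φ g s D x j)

theorem cbS_map (φ : R →+* S) (g s : ℕ) (D : ℕ → Fin (k + 1) → Rˣ) (hD : ∀ v, prH (D v) = 1)
    (hD' : ∀ v, prH (mapD φ (D v)) = 1) (x : PI → Rˣ) :
    Matrix.SpecialLinearGroup.map φ (cbS g s D hD x) =
      cbS g s (fun v => mapD φ (D v)) hD' (mapP φ x) := by
  unfold cbS
  rw [HuG_hom, HwG_hom]
  simp only [aS_map, bS_map, cS_map φ g s D hD hD']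

theorem chP_map (φ : R →+* S) (g s : ℕ) (D : ℕ → Fin (k + 1) → Rˣ) (hD : ∀ v, prH (D v) = 1)
    (hD' : ∀ v, prH (mapD φ (D v)) = 1) (x : PI → Rˣ) (v : (Fin g × Bool) ⊕ Fin (s + 1)) :
    Matrix.SpecialLinearGroup.map φ (chP g s D hD x v) =
      chP g s (fun v => mapD φ (D v)) hD' (mapP φ x) v := by
  match v with
  | Sum.inl (t, false) => exact aS_map φ g s D x t.val
  | Sum.inl (t, true) => exact bS_map φ g s D x t.val
  | Sum.inr j =>
    show Matrix.SpecialLinearGroup.map φ (if j.val < s then _ else _) = (if j.val < s then _ else _)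
    split_ifs
    · exact cS_map φ g s D hD hD' x j.val
    · exact cbS_map φ g s D hD hD' x

/-! ### The triangular forms -/

/-- The triangular form of the big puncture. -/
noncomputable def Tb (g s : ℕ) (D : ℕ → Fin (k + 1) → Rˣ) (x : PI → Rˣ) : GLm (k + 1) R :=
  Uu g (cfP g s D x) (xaF x) (xbF x) (rP g s D x) s

/-- The triangular form of a small puncture. -/
noncomputable def Tc (g s : ℕ) (D : ℕ → Fin (k + 1) → Rˣ) (x : PI → Rˣ) (j : ℕ) : GLm (k + 1) R :=
  dg (rv (rP g s D x j)) * (cfP g s D x (4 * g + 2 * j + 1))⁻¹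

section Tri

variable {g s : ℕ} (hgs : 1 ≤ g ∨ 2 ≤ s) (D : ℕ → Fin (k + 1) → Rˣ) (hD : ∀ v, prH (D v) = 1)
  (x : PI → Rˣ)

include hgs in
theorem K_pos : 0 < 4 * g + 2 * s - 2 := by omega

include hgs in
theorem fP_rel {i : ℕ} (hi : i < 4 * g + 2 * s) :
    fP g s D x (i + 1) * Wg (k + 1) = fP g s D x i * cfP g s D x i :=
  Bf_rel (K_pos hgs) _ (by omega)

theorem cfP_up (i : ℕ) : IsUpD (cfP g s D x i) (dCf (arrP g s D x) i) := Cf_up _ _ _

include hgs hD in
theorem Tb_up : IsUpD (Tb g s D x) (D s) := by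
  have h := Uu_up (cfP_up (g := g) (s := s) D x) g (xaF x) (xbF x) (rP g s D x) s
  have e : dUu g (dCf (arrP g s D x)) (xaF x) (xbF x) (rP g s D x) s = D s := dUu_arrP hgs D hD x
  rw [e] at h
  exact h

theorem Tc_up (j : ℕ) : IsUpD (Tc g s D x j) (D j) := by
  have h := (dg_isUpD (rv (rP g s D x j))).mul (cfP_up (g := g) (s := s) D x (4 * g + 2 * j + 1)).inv
  have e : rv (rP g s D x j) * (dCf (arrP g s D x) (4 * g + 2 * j + 1))⁻¹ = D j := by
    show rv (rv (D j * dCf (arrP g s D x) (4 * g + 2 * j + 1))) * _ = _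
    rw [rv_rv]
    simp
  rw [e] at h
  exact h

include hgs in
/-- The big monodromy is triangular in the frame at the corner `0`. -/
theorem big_corner :
    HuG (cPr g s D x) (HwG (aP g s D x) (bP g s D x) g) s * fP g s D x 0 =
      fP g s D x 0 * Tb g s D x := by
  have h := Hu_corner (fP g s D x) (cfP g s D x) (xaF x) (xbF x) (rP g s D x) (g := g) (s := s)
    (fun i hi => fP_rel hgs D x hi) le_rfl
  have e : fP g s D x (4 * g + 2 * s) = fP g s D x 0 := by
    have h2 : 4 * g + 2 * s = (4 * g + 2 * s - 2) + 2 := by omega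
    conv_lhs => rw [h2]
    exact Bf_top _ _
  rw [e] at h
  exact h

include hgs in
/-- The small monodromies are triangular in the frame at the fold vertex. -/
theorem small_corner {j : ℕ} (hj : j < s) :
    cPr g s D x j * fP g s D x (4 * g + 2 * j + 1) =
      fP g s D x (4 * g + 2 * j + 1) * Tc g s D x j :=
  cE_corner _ (cfP g s D x) _ g j (fP_rel hgs D x (by omega))

end Tri

/-! ### Functoriality of the triangular forms -/

section MapT

variable {n : ℕ} (φ : R →+* S)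

theorem Uh_map (C : ℕ → GLm n R) (xa xb : Fin n → Rˣ) (p : ℕ) :
    mapG φ (Uh C xa xb p) = Uh (fun i => mapG φ (C i)) (mapD φ xa) (mapD φ xb) p := by
  unfold Uh
  simp only [map_mul, map_inv, mapG_dg, mapD_inv, mapD_rv]

theorem Uw_map (C : ℕ → GLm n R) (xa xb : ℕ → Fin n → Rˣ) : ∀ t,
    mapG φ (Uw C xa xb t) =
      Uw (fun i => mapG φ (C i)) (fun i => mapD φ (xa i)) (fun i => mapD φ (xb i)) t
  | 0 => map_one _
  | t + 1 => by
      show mapG φ (Uh C (xa t) (xb t) (4 * t) * Uw C xa xb t) = Uh _ _ _ _ * Uw _ _ _ t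
      rw [map_mul, Uh_map, Uw_map C xa xb t]

theorem Uu_map (g : ℕ) (C : ℕ → GLm n R) (xa xb ρ : ℕ → Fin n → Rˣ) : ∀ j,
    mapG φ (Uu g C xa xb ρ j) =
      Uu g (fun i => mapG φ (C i)) (fun i => mapD φ (xa i)) (fun i => mapD φ (xb i))
        (fun i => mapD φ (ρ i)) j
  | 0 => Uw_map φ C xa xb g
  | j + 1 => by
      show mapG φ ((dg (ρ j)⁻¹ * (C (4 * g + 2 * j))⁻¹) * Uu g C xa xb ρ j) =
        ((dg (mapD φ (ρ j))⁻¹ * (mapG φ (C (4 * g + 2 * j)))⁻¹) * Uu g _ _ _ _ j)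
      rw [map_mul, map_mul, map_inv, mapG_dg, mapD_inv, Uu_map g C xa xb ρ j]

end MapT

theorem Tb_map (φ : R →+* S) (g s : ℕ) (D : ℕ → Fin (k + 1) → Rˣ) (x : PI → Rˣ) :
    mapG φ (Tb g s D x) = Tb g s (fun v => mapD φ (D v)) (mapP φ x) := by
  unfold Tb
  rw [Uu_map, cfP_map, rP_map]
  have e1 : (fun i => mapD φ (xaF (k := k) x i)) = xaF (mapP φ x) := by
    funext i
    exact xaF_map φ x i
  have e2 : (fun i => mapD φ (xbF (k := k) x i)) = xbF (mapP φ x) := by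
    funext i
    exact xbF_map φ x i
  rw [e1, e2]

theorem Tc_map (φ : R →+* S) (g s : ℕ) (D : ℕ → Fin (k + 1) → Rˣ) (x : PI → Rˣ) (j : ℕ) :
    mapG φ (Tc g s D x j) = Tc g s (fun v => mapD φ (D v)) (mapP φ x) j := by
  unfold Tc
  rw [map_mul, map_inv, mapG_dg, mapD_rv]
  have h1 : mapD φ (rP g s D x j) = rP g s (fun v => mapD φ (D v)) (mapP φ x) j :=
    congrFun (rP_map φ g s D x) j
  have h2 : mapG φ (cfP g s D x (4 * g + 2 * j + 1)) =
      cfP g s (fun v => mapD φ (D v)) (mapP φ x) (4 * g + 2 * j + 1) :=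
    congrFun (cfP_map φ g s D x) (4 * g + 2 * j + 1)
  rw [h1, h2]

end Vale.Agent.Lib.P002
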