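import Vale.Agent.Lib.P002.RDom
import Vale.Agent.Lib.P002.RBurn

/-!
The universal chart over the ring of regular functions on a torus; trace functions and the entries
of the triangular forms are regular functions.
-/

open Matrix MvPolynomial

namespace Vale.Agent.Lib.P002

/-- The ring of regular functions on a torus has no zero divisors. -/
theorem reg_domain {I : Type*} (f g : (I → ℂˣ) → ℂ) (hf : f ∈ Reg I) (hg : g ∈ Reg I)
    (h : ∀ x, f x * g x = 0) : (∀ x, f x = 0) ∨ (∀ x, g x = 0) := by
  obtain ⟨q1, d1, hd1, hq1⟩ := reg_rep f hf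
  obtain ⟨q2, d2, hd2, hq2⟩ := reg_rep g hg
  let T : Set ℂ := {z | z ≠ 0}
  have hT : T.Infinite := by
    have h1 : (Set.univ : Set ℂ) = T ∪ {0} := by
      ext z
      by_cases hz : z = 0 <;> simp [T, hz]
    intro hfin
    have h2 : (Set.univ : Set ℂ).Finite := by
      rw [h1]
      exact hfin.union (Set.finite_singleton 0)
    exact Set.infinite_univ h2
  have h0 : q1 * q2 = 0 := by
    apply MvPolynomial.funext_set (fun _ : I => T) (fun _ => hT)
    intro y hy
    have hy' : ∀ i, y i ≠ 0 := fun i => hy i (Set.mem_univ i)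
    let u : I → ℂˣ := fun i => Units.mk0 (y i) (hy' i)
    have e : y = cv u := rfl
    rw [map_mul, map_zero, e, ← hq1, ← hq2]
    calc f u * eval (cv u) d1 * (g u * eval (cv u) d2) =
        (f u * g u) * (eval (cv u) d1 * eval (cv u) d2) := by ring
      _ = 0 := by rw [h u, zero_mul]
  rcases mul_eq_zero.mp h0 with h1 | h1
  · left
    intro x
    have h2 := hq1 x
    rw [h1, map_zero] at h2
    exact (mul_eq_zero.mp h2).resolve_right (hd1 x)
  · right
    intro x
    have h2 := hq2 x
    rw [h1, map_zero] at h2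
    exact (mul_eq_zero.mp h2).resolve_right (hd2 x)

section Free

variable {R : Type*} [CommRing R] {S : Type*} [CommRing S] {g s r : ℕ}

/-- The homomorphism attached to a tuple over a ring. -/
def rhoQ (A : PGens g s → Matrix.SpecialLinearGroup (Fin r) R) :
    FreeGroup (PGens g s) →* Matrix.SpecialLinearGroup (Fin r) R := FreeGroup.lift A

theorem rhoQ_map (φ : R →+* S) (A : PGens g s → Matrix.SpecialLinearGroup (Fin r) R)
    (w : FreeGroup (PGens g s)) :
    Matrix.SpecialLinearGroup.map φ (rhoQ A w) =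
      rhoQ (fun v => Matrix.SpecialLinearGroup.map φ (A v)) w := by
  have h : (Matrix.SpecialLinearGroup.map φ).comp (rhoQ A) =
      rhoQ (fun v => Matrix.SpecialLinearGroup.map φ (A v)) := by
    apply FreeGroup.ext_hom
    intro v
    simp [rhoQ]
  exact DFunLike.congr_fun h w

/-- Conjugate tuples give conjugate representations. -/
theorem rhoP_conj (h : GLm r ℂ) (A A' : PGens g s → SLr r)
    (hA : ∀ v, slG (A' v) = h⁻¹ * slG (A v) * h) (w : FreeGroup (PGens g s)) :
    slG (rhoP A' w) = h⁻¹ * slG (rhoP A w) * h := by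
  have h1 : slG.comp (rhoP A') = (MulAut.conj h⁻¹).toMonoidHom.comp (slG.comp (rhoP A)) := by
    apply FreeGroup.ext_hom
    intro v
    simp [rhoP, hA]
  have := DFunLike.congr_fun h1 w
  simpa using this

theorem trace_rhoP_conj (h : GLm r ℂ) (A A' : PGens g s → SLr r)
    (hA : ∀ v, slG (A' v) = h⁻¹ * slG (A v) * h) (w : FreeGroup (PGens g s)) :
    Matrix.trace ((rhoP A' w : SLr r) : Matrix (Fin r) (Fin r) ℂ) =
      Matrix.trace ((rhoP A w : SLr r) : Matrix (Fin r) (Fin r) ℂ) := by
  have h1 : ((rhoP A' w : SLr r) : Matrix (Fin r) (Fin r) ℂ) =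
      h⁻¹.val * ((rhoP A w : SLr r) : Matrix (Fin r) (Fin r) ℂ) * h.val := by
    have := congrArg Units.val (rhoP_conj h A A' hA w)
    exact this
  rw [h1, Matrix.trace_mul_comm, ← Matrix.mul_assoc]
  have : h.val * h⁻¹.val = 1 := by simp
  rw [this, Matrix.one_mul]

theorem evalTrP_conj {m : ℕ} (w : Fin m → FreeGroup (PGens g s)) (P : MvPolynomial (Fin m) ℂ)
    (h : GLm r ℂ) (A A' : PGens g s → SLr r) (hA : ∀ v, slG (A' v) = h⁻¹ * slG (A v) * h) :
    evalTrP w P A' = evalTrP w P A := by
  unfold evalTrP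
  congr 2
  funext i
  exact trace_rhoP_conj h A A' hA (w i)

end Free

section Univ

variable {k g s : ℕ}

/-- The universal eigenvalues. -/
def DUP (D : ℕ → Fin (k + 1) → ℂˣ) : ℕ → Fin (k + 1) → (Reg PI)ˣ :=
  fun v => mapD cstR (D v)

theorem prH_mapD {R S : Type*} [CommRing R] [CommRing S] (φ : R →+* S) {n : ℕ}
    (τ : Fin n → Rˣ) : prH (mapD φ τ) = Units.map φ.toMonoidHom (prH τ) := by
  rw [prH_apply, prH_apply, map_prod]
  rfl

theorem prH_DUP (D : ℕ → Fin (k + 1) → ℂˣ) (hD : ∀ v, prH (D v) = 1) (v : ℕ) :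
    prH (DUP D v) = 1 := by
  unfold DUP
  rw [prH_mapD, hD, map_one]

theorem mapD_DUP (D : ℕ → Fin (k + 1) → ℂˣ) (x : PI → ℂˣ) :
    (fun u => mapD (evR x) (DUP D u)) = D := by
  funext u j
  ext
  rfl

theorem mapP_tU (x : PI → ℂˣ) : mapP (evR x) (tU (I := PI)) = x := by
  funext i
  ext
  rfl

theorem chP_congr {R : Type*} [CommRing R] {D D' : ℕ → Fin (k + 1) → Rˣ}
    {hD : ∀ v, prH (D v) = 1} {hD' : ∀ v, prH (D' v) = 1} {x x' : PI → Rˣ}
    (h1 : D = D') (h2 : x = x') (v : PGens g s) :
    chP g s D hD x v = chP g s D' hD' x' v := by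
  subst h1
  subst h2
  rfl

variable (D : ℕ → Fin (k + 1) → ℂˣ) (hD : ∀ v, prH (D v) = 1)

theorem chP_univ (x : PI → ℂˣ) (v : PGens g s) :
    Matrix.SpecialLinearGroup.map (evR x) (chP g s (DUP D) (prH_DUP D hD) tU v) =
      chP g s D hD x v := by
  have hD' : ∀ v, prH (mapD (evR x) (DUP D v)) = 1 := by
    intro v
    have := congrFun (mapD_DUP D x) v
    rw [this]
    exact hD v
  rw [chP_map (evR x) g s (DUP D) (prH_DUP D hD) hD' tU v]
  exact chP_congr (mapD_DUP D x) (mapP_tU x) v

theorem Tv_univ (x : PI → ℂˣ) (j : ℕ) :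
    mapG (evR x) (Tv g s (DUP D) tU j) = Tv g s D x j := by
  rw [Tv_map, mapD_DUP, mapP_tU]

/-- The word in the universal chart. -/
noncomputable def rhoU (w : FreeGroup (PGens g s)) :
    Matrix.SpecialLinearGroup (Fin (k + 1)) (Reg PI) :=
  rhoQ (chP g s (DUP D) (prH_DUP D hD) tU) w

theorem rhoU_eval (x : PI → ℂˣ) (w : FreeGroup (PGens g s)) (a b : Fin (k + 1)) :
    evR x (((rhoU D hD w : Matrix.SpecialLinearGroup (Fin (k + 1)) (Reg PI)) :
      Matrix (Fin (k + 1)) (Fin (k + 1)) (Reg PI)) a b) =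
      ((rhoP (chP g s D hD x) w : SLr (k + 1)) : Mat (k + 1) ℂ) a b := by
  have h1 : (Matrix.SpecialLinearGroup.map (evR x) (rhoU D hD w)) = rhoP (chP g s D hD x) w := by
    unfold rhoU
    rw [rhoQ_map]
    have h3 : (fun v => Matrix.SpecialLinearGroup.map (evR x)
        (chP g s (DUP D) (prH_DUP D hD) tU v)) = chP g s D hD x := by
      funext v
      exact chP_univ D hD x v
    rw [h3]
    rfl
  rw [← h1]
  rfl

/-- A trace function along the chart is a regular function. -/
theorem evalTrP_chart_reg {m : ℕ} (w : Fin m → FreeGroup (PGens g s))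
    (P : MvPolynomial (Fin m) ℂ) :
    (fun x : PI → ℂˣ => evalTrP w P (chP g s D hD x)) ∈ Reg PI := by
  let T : Fin m → Reg PI := fun i =>
    Matrix.trace ((rhoU D hD (w i) : Matrix.SpecialLinearGroup (Fin (k + 1)) (Reg PI)) :
      Matrix (Fin (k + 1)) (Fin (k + 1)) (Reg PI))
  let F : Reg PI := MvPolynomial.eval₂ cstR T P
  have key : (fun x : PI → ℂˣ => evalTrP w P (chP g s D hD x)) = F.val := by
    funext x
    show _ = evR x F
    have h1 : evR x F = MvPolynomial.eval₂ ((evR x).comp cstR) (evR x ∘ T) P :=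
      MvPolynomial.eval₂_comp_left (evR x) cstR T P
    have h2 : (evR x).comp cstR = RingHom.id ℂ := by
      ext c
      rfl
    rw [h1, h2]
    unfold evalTrP
    rw [MvPolynomial.eval, MvPolynomial.coe_eval₂Hom]
    congr 1
    funext i
    show _ = evR x (Matrix.trace _)
    rw [Matrix.trace, Matrix.trace, map_sum]
    exact Finset.sum_congr rfl fun a _ => (rhoU_eval D hD x (w i) a a).symm
  rw [key]
  exact F.property

open Classical in
/-- The product of the entries above the diagonal between equal eigenvalues. -/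
noncomputable def supF (g s : ℕ) (D : ℕ → Fin (k + 1) → ℂˣ) (x : PI → ℂˣ) : ℂ :=
  ∏ j ∈ Finset.range (s + 1), ∏ p : Fin k,
    if D j p.castSucc = D j p.succ then (Tv g s D x j).val p.castSucc p.succ else 1

omit hD in
theorem supF_ne_zero {x : PI → ℂˣ} :
    supF g s D x ≠ 0 ↔ ∀ j, j ≤ s → ∀ p : Fin k, D j p.castSucc = D j p.succ →
      (Tv g s D x j).val p.castSucc p.succ ≠ 0 := by
  unfold supF
  simp only [Finset.prod_ne_zero_iff, Finset.mem_range, Finset.mem_univ, true_implies]
  constructor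
  · intro h j hj p hp
    have := h j (by omega) p
    rwa [if_pos hp] at this
  · intro h j hj p
    split_ifs with hp
    · exact h j (by omega) p hp
    · exact one_ne_zero

theorem supF_reg : (fun x : PI → ℂˣ => supF g s D x) ∈ Reg PI := by
  classical
  let F : Reg PI := ∏ j ∈ Finset.range (s + 1), ∏ p : Fin k,
    if D j p.castSucc = D j p.succ then (Tv g s (DUP D) tU j).val p.castSucc p.succ else 1
  have key : (fun x : PI → ℂˣ => supF g s D x) = F.val := by
    funext x
    show _ = evR x F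
    unfold supF
    simp only [F, map_prod]
    refine Finset.prod_congr rfl fun j _ => Finset.prod_congr rfl fun p _ => ?_
    split_ifs
    · have h1 := congrArg Units.val (Tv_univ D (g := g) (s := s) x j)
      have h2 := congrFun (congrFun h1 p.castSucc) p.succ
      exact h2.symm
    · exact (map_one _).symm
  rw [key]
  exact F.property

/-- The determinant of the entries of a family of words. -/
noncomputable def wordDet (w : (Fin (k + 1) × Fin (k + 1)) → FreeGroup (PGens g s))
    (x : PI → ℂˣ) : ℂ :=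
  Matrix.det (Matrix.of fun a (p : Fin (k + 1) × Fin (k + 1)) =>
    ((rhoP (chP g s D hD x) (w a) : SLr (k + 1)) : Mat (k + 1) ℂ) p.1 p.2)

theorem wordDet_reg (w : (Fin (k + 1) × Fin (k + 1)) → FreeGroup (PGens g s)) :
    (fun x : PI → ℂˣ => wordDet D hD w x) ∈ Reg PI := by
  let F : Reg PI := Matrix.det (Matrix.of fun a (p : Fin (k + 1) × Fin (k + 1)) =>
    ((rhoU D hD (w a) : Matrix.SpecialLinearGroup (Fin (k + 1)) (Reg PI)) :
      Matrix (Fin (k + 1)) (Fin (k + 1)) (Reg PI)) p.1 p.2)
  have key : (fun x : PI → ℂˣ => wordDet D hD w x) = F.val := by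
    funext x
    show _ = evR x F
    rw [RingHom.map_det]
    unfold wordDet
    congr 1
    ext a p
    exact (rhoU_eval D hD x (w a) p.1 p.2).symm
  rw [key]
  exact F.property

end Univ

end Vale.Agent.Lib.P002
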