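import Vale.Agent.Lib.P002.RPoly

/-!
The walk around the vertices of the polygon with boundary word `a b a⁻¹ b⁻¹ ⋯ x x⁻¹ ⋯`.
-/

open Matrix

namespace Vale.Agent.Lib.P002

section Grp

variable {G : Type*} [Group G] {G' : Type*} [Group G']

/-- The product `[b_{t-1}, a_{t-1}] ⋯ [b₀, a₀]`. -/
def HwG (a b : ℕ → G) : ℕ → G
  | 0 => 1
  | t + 1 => b t * a t * (b t)⁻¹ * (a t)⁻¹ * HwG a b t

/-- The product `c_{j-1}⁻¹ ⋯ c₀⁻¹ h₀`. -/
def HuG (c : ℕ → G) (h0 : G) : ℕ → G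
  | 0 => h0
  | j + 1 => (c j)⁻¹ * HuG c h0 j

theorem HwG_hom (f : G →* G') (a b : ℕ → G) :
    ∀ t, f (HwG a b t) = HwG (fun i => f (a i)) (fun i => f (b i)) t
  | 0 => map_one f
  | t + 1 => by
      show f (b t * a t * (b t)⁻¹ * (a t)⁻¹ * HwG a b t) =
        f (b t) * f (a t) * (f (b t))⁻¹ * (f (a t))⁻¹ * HwG _ _ t
      simp only [map_mul, map_inv, HwG_hom f a b t]

theorem HuG_hom (f : G →* G') (c : ℕ → G) (h0 : G) :
    ∀ j, f (HuG c h0 j) = HuG (fun i => f (c i)) (f h0) j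
  | 0 => rfl
  | j + 1 => by
      show f ((c j)⁻¹ * HuG c h0 j) = (f (c j))⁻¹ * HuG _ _ j
      rw [map_mul, map_inv, HuG_hom f c h0 j]

theorem prod_comm_eq (a b : ℕ → G) (m : ℕ) :
    (List.ofFn fun t : Fin m => a t.val * b t.val * (a t.val)⁻¹ * (b t.val)⁻¹).prod =
      (HwG a b m)⁻¹ := by
  induction m with
  | zero => simp [HwG]
  | succ m ih =>
    rw [List.ofFn_succ', List.concat_eq_append, List.prod_append]
    simp only [Fin.val_castSucc, Fin.val_last, List.prod_cons, List.prod_nil, mul_one]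
    rw [ih]
    show _ = (b m * a m * (b m)⁻¹ * (a m)⁻¹ * HwG a b m)⁻¹
    group

theorem prod_c_eq (c : ℕ → G) (h0 : G) (m : ℕ) :
    h0⁻¹ * (List.ofFn fun j : Fin m => c j.val).prod = (HuG c h0 m)⁻¹ := by
  induction m with
  | zero => simp [HuG]
  | succ m ih =>
    rw [List.ofFn_succ', List.concat_eq_append, List.prod_append]
    simp only [Fin.val_castSucc, Fin.val_last, List.prod_cons, List.prod_nil, mul_one]
    rw [← mul_assoc, ih]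
    show _ = ((c m)⁻¹ * HuG c h0 m)⁻¹
    group

end Grp

variable {R : Type*} [CommRing R] {S : Type*} [CommRing S] {n : ℕ}

/-- The generator `a_t`. -/
noncomputable def aE (B : ℕ → GLm n R) (xa : ℕ → Fin n → Rˣ) (t : ℕ) : GLm n R :=
  glue B (4 * t + 2) (4 * t) (rv (xa t))⁻¹

/-- The generator `b_t`. -/
noncomputable def bE (B : ℕ → GLm n R) (xb : ℕ → Fin n → Rˣ) (t : ℕ) : GLm n R :=
  glue B (4 * t + 1) (4 * t + 3) (xb t)

/-- The generator `c_j`. -/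
noncomputable def cE (g : ℕ) (B : ℕ → GLm n R) (ρ : ℕ → Fin n → Rˣ) (j : ℕ) : GLm n R :=
  glue B (4 * g + 2 * j + 1) (4 * g + 2 * j) (ρ j)

/-- The triangular part of the walk through one handle. -/
noncomputable def Uh (C : ℕ → GLm n R) (xa xb : Fin n → Rˣ) (p : ℕ) : GLm n R :=
  (dg (rv xb) * (C (p + 1))⁻¹) * (dg xa⁻¹ * (C (p + 2))⁻¹) * (dg xb⁻¹ * (C (p + 3))⁻¹) *
    (dg (rv xa) * (C p)⁻¹)

/-- The diagonal of the triangular part of the walk through one handle. -/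
def dUh (d : ℕ → Fin n → Rˣ) (xa xb : Fin n → Rˣ) (p : ℕ) : Fin n → Rˣ :=
  (rv xb * (d (p + 1))⁻¹) * (xa⁻¹ * (d (p + 2))⁻¹) * (xb⁻¹ * (d (p + 3))⁻¹) * (rv xa * (d p)⁻¹)

/-- The triangular part of the walk through the handles. -/
noncomputable def Uw (C : ℕ → GLm n R) (xa xb : ℕ → Fin n → Rˣ) : ℕ → GLm n R
  | 0 => 1
  | t + 1 => Uh C (xa t) (xb t) (4 * t) * Uw C xa xb t

/-- The diagonal of the walk through the handles. -/
def dUw (d : ℕ → Fin n → Rˣ) (xa xb : ℕ → Fin n → Rˣ) : ℕ → Fin n → Rˣ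
  | 0 => 1
  | t + 1 => dUh d (xa t) (xb t) (4 * t) * dUw d xa xb t

/-- The triangular part of the walk around the big vertex. -/
noncomputable def Uu (g : ℕ) (C : ℕ → GLm n R) (xa xb ρ : ℕ → Fin n → Rˣ) : ℕ → GLm n R
  | 0 => Uw C xa xb g
  | j + 1 => (dg (ρ j)⁻¹ * (C (4 * g + 2 * j))⁻¹) * Uu g C xa xb ρ j

/-- The diagonal of the walk around the big vertex. -/
def dUu (g : ℕ) (d : ℕ → Fin n → Rˣ) (xa xb ρ : ℕ → Fin n → Rˣ) : ℕ → Fin n → Rˣ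
  | 0 => dUw d xa xb g
  | j + 1 => ((ρ j)⁻¹ * (d (4 * g + 2 * j))⁻¹) * dUu g d xa xb ρ j

section Up

variable {C : ℕ → GLm n R} {d : ℕ → Fin n → Rˣ} (hC : ∀ i, IsUpD (C i) (d i))
include hC

theorem Uh_up (xa xb : Fin n → Rˣ) (p : ℕ) : IsUpD (Uh C xa xb p) (dUh d xa xb p) :=
  (((dg_isUpD _).mul (hC _).inv).mul ((dg_isUpD _).mul (hC _).inv)).mul
    ((dg_isUpD _).mul (hC _).inv) |>.mul ((dg_isUpD _).mul (hC _).inv)

theorem Uw_up (xa xb : ℕ → Fin n → Rˣ) : ∀ t, IsUpD (Uw C xa xb t) (dUw d xa xb t)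
  | 0 => by
      have : IsUpD (1 : GLm n R) 1 := IsUpD.one
      exact this
  | t + 1 => (Uh_up hC _ _ _).mul (Uw_up xa xb t)

theorem Uu_up (g : ℕ) (xa xb ρ : ℕ → Fin n → Rˣ) :
    ∀ j, IsUpD (Uu g C xa xb ρ j) (dUu g d xa xb ρ j)
  | 0 => Uw_up hC xa xb g
  | j + 1 => ((dg_isUpD _).mul (hC _).inv).mul (Uu_up g xa xb ρ j)

end Up

theorem handle_step (B C : ℕ → GLm n R) (xa xb : Fin n → Rˣ) (p : ℕ)
    (h0 : B (p + 1) * Wg n = B p * C p) (h1 : B (p + 2) * Wg n = B (p + 1) * C (p + 1))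
    (h2 : B (p + 3) * Wg n = B (p + 2) * C (p + 2))
    (h3 : B (p + 4) * Wg n = B (p + 3) * C (p + 3)) :
    glue B (p + 1) (p + 3) xb * glue B (p + 2) p (rv xa)⁻¹ * (glue B (p + 1) (p + 3) xb)⁻¹ *
        (glue B (p + 2) p (rv xa)⁻¹)⁻¹ * B p = B (p + 4) * Uh C xa xb p := by
  have e1 : (glue B (p + 2) p (rv xa)⁻¹)⁻¹ * B p = B (p + 3) * (dg (rv xa) * (C p)⁻¹) := by
    rw [glue_inv', glue_corner B (p + 2) xa h0]
  have e2 : (glue B (p + 1) (p + 3) xb)⁻¹ * B (p + 3) = B (p + 2) * (dg xb⁻¹ * (C (p + 3))⁻¹) := by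
    rw [glue_inv, glue_corner B (p + 1) _ h3, rv_inv, rv_rv]
  have e3 : glue B (p + 2) p (rv xa)⁻¹ * B (p + 2) = B (p + 1) * (dg xa⁻¹ * (C (p + 2))⁻¹) := by
    rw [glue_corner B p _ h2, rv_inv, rv_rv]
  have e4 : glue B (p + 1) (p + 3) xb * B (p + 1) = B (p + 4) * (dg (rv xb) * (C (p + 1))⁻¹) :=
    glue_corner B (p + 3) xb h1
  unfold Uh
  calc glue B (p + 1) (p + 3) xb * glue B (p + 2) p (rv xa)⁻¹ * (glue B (p + 1) (p + 3) xb)⁻¹ *
        (glue B (p + 2) p (rv xa)⁻¹)⁻¹ * B p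
      = glue B (p + 1) (p + 3) xb * glue B (p + 2) p (rv xa)⁻¹ * (glue B (p + 1) (p + 3) xb)⁻¹ *
        ((glue B (p + 2) p (rv xa)⁻¹)⁻¹ * B p) := by group
    _ = glue B (p + 1) (p + 3) xb * glue B (p + 2) p (rv xa)⁻¹ *
        ((glue B (p + 1) (p + 3) xb)⁻¹ * B (p + 3)) * (dg (rv xa) * (C p)⁻¹) := by
          rw [e1]; group
    _ = glue B (p + 1) (p + 3) xb * (glue B (p + 2) p (rv xa)⁻¹ * B (p + 2)) *
        (dg xb⁻¹ * (C (p + 3))⁻¹) * (dg (rv xa) * (C p)⁻¹) := by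
          rw [e2]; group
    _ = (glue B (p + 1) (p + 3) xb * B (p + 1)) * (dg xa⁻¹ * (C (p + 2))⁻¹) *
        (dg xb⁻¹ * (C (p + 3))⁻¹) * (dg (rv xa) * (C p)⁻¹) := by
          rw [e3]; group
    _ = _ := by
          rw [e4]; group

/-- The walk through the handles. -/
theorem Hw_corner (B C : ℕ → GLm n R) (xa xb : ℕ → Fin n → Rˣ) {g : ℕ}
    (hrel : ∀ i, i < 4 * g → B (i + 1) * Wg n = B i * C i) {t : ℕ} (ht : t ≤ g) :
    HwG (aE B xa) (bE B xb) t * B 0 = B (4 * t) * Uw C xa xb t := by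
  induction t with
  | zero =>
    show 1 * B 0 = B (4 * 0) * 1
    simp
  | succ t ih =>
    have h := handle_step B C (xa t) (xb t) (4 * t) (hrel _ (by omega)) (hrel _ (by omega))
      (hrel _ (by omega)) (hrel _ (by omega))
    show (bE B xb t * aE B xa t * (bE B xb t)⁻¹ * (aE B xa t)⁻¹ * HwG (aE B xa) (bE B xb) t) * B 0 =
      B (4 * (t + 1)) * (Uh C (xa t) (xb t) (4 * t) * Uw C xa xb t)
    rw [mul_assoc _ (HwG _ _ t), ih (by omega), ← mul_assoc, ← mul_assoc]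
    have e : 4 * (t + 1) = 4 * t + 4 := by ring
    rw [e]
    unfold aE bE
    rw [h]

/-- The walk around the big vertex. -/
theorem Hu_corner (B C : ℕ → GLm n R) (xa xb ρ : ℕ → Fin n → Rˣ) {g s : ℕ}
    (hrel : ∀ i, i < 4 * g + 2 * s → B (i + 1) * Wg n = B i * C i) {j : ℕ} (hj : j ≤ s) :
    HuG (cE g B ρ) (HwG (aE B xa) (bE B xb) g) j * B 0 =
      B (4 * g + 2 * j) * Uu g C xa xb ρ j := by
  induction j with
  | zero =>
    exact Hw_corner B C xa xb (fun i hi => hrel i (by omega)) le_rfl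
  | succ j ih =>
    show ((cE g B ρ j)⁻¹ * HuG (cE g B ρ) (HwG (aE B xa) (bE B xb) g) j) * B 0 =
      B (4 * g + 2 * (j + 1)) * ((dg (ρ j)⁻¹ * (C (4 * g + 2 * j))⁻¹) * Uu g C xa xb ρ j)
    rw [mul_assoc, ih (by omega), ← mul_assoc, ← mul_assoc]
    congr 1
    unfold cE
    rw [glue_inv, glue_corner B _ _ (hrel (4 * g + 2 * j) (by omega)), rv_inv, rv_rv]
    rfl

/-- The loop around a small puncture. -/
theorem cE_corner (B C : ℕ → GLm n R) (ρ : ℕ → Fin n → Rˣ) (g j : ℕ)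
    (h : B (4 * g + 2 * j + 1 + 1) * Wg n = B (4 * g + 2 * j + 1) * C (4 * g + 2 * j + 1)) :
    cE g B ρ j * B (4 * g + 2 * j + 1) =
      B (4 * g + 2 * j + 1) * (dg (rv (ρ j)) * (C (4 * g + 2 * j + 1))⁻¹) :=
  glue_corner B _ _ h

/-! ### Solving for the diagonal at the big vertex -/

/-- Forget the diagonal at the corner `2`. -/
def dp (d : ℕ → Fin n → Rˣ) : ℕ → Fin n → Rˣ := fun i => if i = 2 then 1 else d i

theorem dp_of_ne (d : ℕ → Fin n → Rˣ) {i : ℕ} (h : i ≠ 2) : dp d i = d i := if_neg h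

theorem dp_two (d : ℕ → Fin n → Rˣ) : dp d 2 = 1 := if_pos rfl

theorem dUh_dp_of_ge (d : ℕ → Fin n → Rˣ) (xa xb : Fin n → Rˣ) {p : ℕ} (hp : 3 ≤ p) :
    dUh (dp d) xa xb p = dUh d xa xb p := by
  unfold dUh
  rw [dp_of_ne d (show p + 1 ≠ 2 by omega), dp_of_ne d (show p + 2 ≠ 2 by omega),
    dp_of_ne d (show p + 3 ≠ 2 by omega), dp_of_ne d (show p ≠ 2 by omega)]

theorem dUh_dp_zero (d : ℕ → Fin n → Rˣ) (xa xb : Fin n → Rˣ) :
    dUh d xa xb 0 = (d 2)⁻¹ * dUh (dp d) xa xb 0 := by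
  unfold dUh
  rw [dp_of_ne d (show 0 + 1 ≠ 2 by omega), dp_of_ne d (show 0 + 3 ≠ 2 by omega),
    dp_of_ne d (show 0 ≠ 2 by omega), show dp d (0 + 2) = 1 from dp_two d]
  simp only [inv_one, mul_one, zero_add]
  simp only [mul_comm, mul_left_comm, mul_assoc]

theorem dUw_pin (d : ℕ → Fin n → Rˣ) (xa xb : ℕ → Fin n → Rˣ) :
    ∀ t, 1 ≤ t → dUw d xa xb t = (d 2)⁻¹ * dUw (dp d) xa xb t
  | 0, h => absurd h (by omega)
  | 1, _ => by
      show dUh d (xa 0) (xb 0) (4 * 0) * 1 = (d 2)⁻¹ * (dUh (dp d) (xa 0) (xb 0) (4 * 0) * 1)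
      rw [mul_one, mul_one]
      exact dUh_dp_zero d _ _
  | t + 2, _ => by
      show dUh d (xa (t + 1)) (xb (t + 1)) (4 * (t + 1)) * dUw d xa xb (t + 1) =
        (d 2)⁻¹ * (dUh (dp d) (xa (t + 1)) (xb (t + 1)) (4 * (t + 1)) * dUw (dp d) xa xb (t + 1))
      rw [dUh_dp_of_ge d _ _ (by omega), dUw_pin d xa xb (t + 1) (by omega)]
      simp only [mul_comm, mul_left_comm, mul_assoc]

theorem dUu_pin (g : ℕ) (d : ℕ → Fin n → Rˣ) (xa xb ρ : ℕ → Fin n → Rˣ) {s : ℕ}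
    (h : 1 ≤ g ∨ 2 ≤ s) : dUu g d xa xb ρ s = (d 2)⁻¹ * dUu g (dp d) xa xb ρ s := by
  rcases Nat.eq_zero_or_pos g with rfl | hg
  · have hs : 2 ≤ s := by omega
    obtain ⟨j, rfl⟩ : ∃ j, s = j + 2 := ⟨s - 2, by omega⟩
    clear h hs
    induction j with
    | zero =>
      show ((ρ 1)⁻¹ * (d (4 * 0 + 2 * 1))⁻¹) * (((ρ 0)⁻¹ * (d (4 * 0 + 2 * 0))⁻¹) * 1) =
        (d 2)⁻¹ * (((ρ 1)⁻¹ * (dp d (4 * 0 + 2 * 1))⁻¹) * (((ρ 0)⁻¹ * (dp d (4 * 0 + 2 * 0))⁻¹) * 1))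
      rw [show dp d (4 * 0 + 2 * 1) = 1 from dp_two d,
        dp_of_ne d (show 4 * 0 + 2 * 0 ≠ 2 by omega)]
      simp only [inv_one, mul_one, show 4 * 0 + 2 * 1 = 2 from rfl]
      simp only [mul_comm, mul_left_comm, mul_assoc]
    | succ j ih =>
      show ((ρ (j + 2))⁻¹ * (d (4 * 0 + 2 * (j + 2)))⁻¹) * dUu 0 d xa xb ρ (j + 2) =
        (d 2)⁻¹ * (((ρ (j + 2))⁻¹ * (dp d (4 * 0 + 2 * (j + 2)))⁻¹) * dUu 0 (dp d) xa xb ρ (j + 2))
      rw [dp_of_ne d (show 4 * 0 + 2 * (j + 2) ≠ 2 by omega), ih]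
      simp only [mul_comm, mul_left_comm, mul_assoc]
  · clear h
    induction s with
    | zero => exact dUw_pin d xa xb g hg
    | succ j ih =>
      show ((ρ j)⁻¹ * (d (4 * g + 2 * j))⁻¹) * dUu g d xa xb ρ j =
        (d 2)⁻¹ * (((ρ j)⁻¹ * (dp d (4 * g + 2 * j))⁻¹) * dUu g (dp d) xa xb ρ j)
      rw [dp_of_ne d (show 4 * g + 2 * j ≠ 2 by omega), ih]
      simp only [mul_comm, mul_left_comm, mul_assoc]

/-- The product of the entries as a homomorphism. -/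
def prH : (Fin n → Rˣ) →* Rˣ where
  toFun τ := ∏ a, τ a
  map_one' := by simp
  map_mul' τ σ := by simp [Finset.prod_mul_distrib]

theorem prH_apply (τ : Fin n → Rˣ) : prH τ = ∏ a, τ a := rfl

theorem prH_rv (τ : Fin n → Rˣ) : prH (rv τ) = prH τ := prod_rv τ

theorem dUh_pr (d : ℕ → Fin n → Rˣ) (xa xb : Fin n → Rˣ) (p : ℕ)
    (hd : ∀ i, prH (d i) = om n R) (ha : prH xa = om n R) (hb : prH xb = om n R) :
    prH (dUh d xa xb p) = 1 := by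
  unfold dUh
  simp only [map_mul, map_inv, prH_rv, hd, ha, hb, om_inv, mul_assoc, om_sq, mul_one]

theorem dUw_pr (d : ℕ → Fin n → Rˣ) (xa xb : ℕ → Fin n → Rˣ)
    (hd : ∀ i, prH (d i) = om n R) (ha : ∀ t, prH (xa t) = om n R)
    (hb : ∀ t, prH (xb t) = om n R) : ∀ t, prH (dUw d xa xb t) = 1
  | 0 => map_one _
  | t + 1 => by
      show prH (dUh d (xa t) (xb t) (4 * t) * dUw d xa xb t) = 1
      rw [map_mul, dUh_pr d _ _ _ hd (ha t) (hb t), dUw_pr d xa xb hd ha hb t, one_mul]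

theorem dUu_pr (g : ℕ) (d : ℕ → Fin n → Rˣ) (xa xb ρ : ℕ → Fin n → Rˣ)
    (hd : ∀ i, prH (d i) = om n R) (ha : ∀ t, prH (xa t) = om n R)
    (hb : ∀ t, prH (xb t) = om n R) (hρ : ∀ j, prH (ρ j) = om n R) :
    ∀ j, prH (dUu g d xa xb ρ j) = 1
  | 0 => dUw_pr d xa xb hd ha hb g
  | j + 1 => by
      show prH (((ρ j)⁻¹ * (d (4 * g + 2 * j))⁻¹) * dUu g d xa xb ρ j) = 1
      rw [map_mul, map_mul, map_inv, map_inv, hρ, hd, dUu_pr g d xa xb ρ hd ha hb hρ j, om_inv,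
        om_sq, one_mul]

end Vale.Agent.Lib.P002
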