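import Mathlib

/-!
Triangular matrices over a commutative ring, the reversal matrix, and the recursive
construction of triangle data `(u, l, p)` with `u * W = l * p`.
-/

open Matrix

namespace Vale.Agent.Lib.P002

variable {R : Type*} [CommRing R]

/-- Square matrices of size `n`. -/
abbrev Mat (n : ℕ) (R : Type*) := Matrix (Fin n) (Fin n) R

/-- Upper triangular. -/
def IsUp {n : ℕ} (M : Mat n R) : Prop := ∀ i j, j < i → M i j = 0

/-- Lower triangular. -/
def IsLo {n : ℕ} (M : Mat n R) : Prop := ∀ i j, i < j → M i j = 0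

theorem IsUp.mul {n : ℕ} {M N : Mat n R} (hM : IsUp M) (hN : IsUp N) : IsUp (M * N) := by
  intro i j hji
  rw [Matrix.mul_apply]
  refine Finset.sum_eq_zero fun a _ => ?_
  by_cases h : a < i
  · rw [hM i a h, zero_mul]
  · rw [hN a j (lt_of_lt_of_le hji (not_lt.mp h)), mul_zero]

theorem IsLo.mul {n : ℕ} {M N : Mat n R} (hM : IsLo M) (hN : IsLo N) : IsLo (M * N) := by
  intro i j hji
  rw [Matrix.mul_apply]
  refine Finset.sum_eq_zero fun a _ => ?_
  by_cases h : i < a
  · rw [hM i a h, zero_mul]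
  · rw [hN a j (lt_of_le_of_lt (not_lt.mp h) hji), mul_zero]

theorem IsUp.mul_diag {n : ℕ} {M N : Mat n R} (hM : IsUp M) (hN : IsUp N) (i : Fin n) :
    (M * N) i i = M i i * N i i := by
  rw [Matrix.mul_apply]
  refine Finset.sum_eq_single i (fun a _ hai => ?_) (fun h => absurd (Finset.mem_univ i) h)
  rcases lt_or_gt_of_ne hai with h | h
  · rw [hM i a h, zero_mul]
  · rw [hN a i h, mul_zero]

theorem IsLo.mul_diag {n : ℕ} {M N : Mat n R} (hM : IsLo M) (hN : IsLo N) (i : Fin n) :
    (M * N) i i = M i i * N i i := by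
  rw [Matrix.mul_apply]
  refine Finset.sum_eq_single i (fun a _ hai => ?_) (fun h => absurd (Finset.mem_univ i) h)
  rcases lt_or_gt_of_ne hai with h | h
  · rw [hN a i h, mul_zero]
  · rw [hM i a h, zero_mul]

theorem isUp_one {n : ℕ} : IsUp (1 : Mat n R) := by
  intro i j h
  exact Matrix.one_apply_ne (ne_of_gt h)

theorem isLo_one {n : ℕ} : IsLo (1 : Mat n R) := by
  intro i j h
  exact Matrix.one_apply_ne (ne_of_lt h)

theorem IsUp.det_eq {n : ℕ} {M : Mat n R} (hM : IsUp M) : M.det = ∏ i, M i i :=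
  Matrix.det_of_isUpperTriangular (fun _ _ h => hM _ _ h)

theorem IsLo.det_eq {n : ℕ} {M : Mat n R} (hM : IsLo M) : M.det = ∏ i, M i i :=
  Matrix.det_of_isLowerTriangular M (fun _ _ h => hM _ _ h)

/-- The reversal matrix. -/
def W (n : ℕ) : Mat n R := Matrix.of fun i j => if i = Fin.rev j then 1 else 0

theorem mul_W_apply {n : ℕ} (M : Mat n R) (i j : Fin n) : (M * (W n : Mat n R)) i j = M i (Fin.rev j) := by
  rw [Matrix.mul_apply]
  simp [W]

theorem W_mul_apply {n : ℕ} (M : Mat n R) (i j : Fin n) : ((W n : Mat n R) * M) i j = M (Fin.rev i) j := by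
  rw [Matrix.mul_apply]
  simp only [W, Matrix.of_apply]
  rw [Finset.sum_eq_single (Fin.rev i)]
  · rw [if_pos (Fin.rev_rev i).symm, one_mul]
  · intro a _ ha
    rw [if_neg (fun h => ha (by rw [h, Fin.rev_rev])), zero_mul]
  · exact fun h => absurd (Finset.mem_univ _) h

theorem W_mul_W (n : ℕ) : (W n : Mat n R) * W n = 1 := by
  ext i j
  rw [mul_W_apply]
  simp only [W, Matrix.of_apply, Fin.rev_rev, Matrix.one_apply]

theorem rev_lt_rev' {n : ℕ} {a b : Fin n} (h : a < b) : Fin.rev b < Fin.rev a :=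
  Fin.rev_lt_rev.mpr h

/-- Conjugation by `W` exchanges upper and lower triangular. -/
theorem IsUp.W_conj {n : ℕ} {M : Mat n R} (h : IsUp M) : IsLo ((W n : Mat n R) * M * W n) := by
  intro i j hij
  rw [mul_W_apply, W_mul_apply]
  exact h _ _ (Fin.rev_lt_rev.mpr hij)

theorem IsLo.W_conj {n : ℕ} {M : Mat n R} (h : IsLo M) : IsUp ((W n : Mat n R) * M * W n) := by
  intro i j hij
  rw [mul_W_apply, W_mul_apply]
  exact h _ _ (Fin.rev_lt_rev.mpr hij)

theorem W_conj_apply {n : ℕ} (M : Mat n R) (i j : Fin n) :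
    (((W n : Mat n R) * M * (W n : Mat n R) : Mat n R)) i j = M (Fin.rev i) (Fin.rev j) := by
  rw [mul_W_apply, W_mul_apply]

/-! ### Blocks -/

/-- `diag(1, m)`. -/
def consB {k : ℕ} (m : Mat k R) : Mat (k + 1) R :=
  Matrix.of fun i j =>
    Fin.cases (Fin.cases (1 : R) (fun _ => 0) j) (fun i' => Fin.cases (0 : R) (fun j' => m i' j') j) i

/-- `diag(m, 1)`. -/
def snocB {k : ℕ} (m : Mat k R) : Mat (k + 1) R :=
  Matrix.of fun i j =>
    Fin.lastCases (Fin.lastCases (1 : R) (fun _ => 0) j)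
      (fun i' => Fin.lastCases (0 : R) (fun j' => m i' j') j) i

@[simp] theorem consB_zero_zero {k : ℕ} (m : Mat k R) : consB m 0 0 = 1 := rfl
@[simp] theorem consB_zero_succ {k : ℕ} (m : Mat k R) (j : Fin k) : consB m 0 j.succ = 0 := rfl
@[simp] theorem consB_succ_zero {k : ℕ} (m : Mat k R) (i : Fin k) : consB m i.succ 0 = 0 := rfl
@[simp] theorem consB_succ_succ {k : ℕ} (m : Mat k R) (i j : Fin k) :
    consB m i.succ j.succ = m i j := rfl

@[simp] theorem snocB_last_last {k : ℕ} (m : Mat k R) :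
    snocB m (Fin.last k) (Fin.last k) = 1 := by
  simp [snocB]
@[simp] theorem snocB_last_castSucc {k : ℕ} (m : Mat k R) (j : Fin k) :
    snocB m (Fin.last k) j.castSucc = 0 := by
  simp [snocB]
@[simp] theorem snocB_castSucc_last {k : ℕ} (m : Mat k R) (i : Fin k) :
    snocB m i.castSucc (Fin.last k) = 0 := by
  simp [snocB]
@[simp] theorem snocB_castSucc_castSucc {k : ℕ} (m : Mat k R) (i j : Fin k) :
    snocB m i.castSucc j.castSucc = m i j := by
  simp [snocB]

theorem consB_isLo {k : ℕ} {m : Mat k R} (h : IsLo m) : IsLo (consB m) := by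
  intro i j hij
  refine Fin.cases ?_ (fun j' => ?_) j hij |> fun x => x
  · intro h0
    exact absurd h0 (Fin.not_lt_zero i)
  · intro hij'
    refine Fin.cases ?_ (fun i' => ?_) i hij'
    · intro _; simp
    · intro hlt
      simpa using h i' j' (by simpa using hlt)

theorem consB_diag {k : ℕ} {m : Mat k R} (h : ∀ i, m i i = 1) (i : Fin (k + 1)) :
    consB m i i = 1 := by
  refine Fin.cases ?_ (fun i' => ?_) i
  · simp
  · simpa using h i'

theorem snocB_isUp {k : ℕ} {m : Mat k R} (h : IsUp m) : IsUp (snocB m) := by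
  intro i j hij
  revert hij
  refine Fin.lastCases ?_ (fun j' => ?_) j
  · intro hlt
    exact absurd hlt (not_lt.mpr (Fin.le_last i))
  · refine Fin.lastCases ?_ (fun i' => ?_) i
    · intro _; simp
    · intro hlt
      simpa using h i' j' (by simpa using hlt)

theorem snocB_diag_castSucc {k : ℕ} (m : Mat k R) (i : Fin k) :
    snocB m i.castSucc i.castSucc = m i i := by simp

/-! ### The bidiagonal factorisation -/

/-- The sequence `-1, z 0, ..., z (k-1), 1`. -/
def zeta (k : ℕ) (z : ℕ → Rˣ) (i : ℕ) : Rˣ :=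
  if i = 0 then -1 else if i ≤ k then z (i - 1) else 1

theorem zeta_zero (k : ℕ) (z : ℕ → Rˣ) : zeta k z 0 = -1 := by simp [zeta]

theorem zeta_succ (k : ℕ) (z : ℕ → Rˣ) {i : ℕ} (h : i < k) : zeta k z (i + 1) = z i := by
  have h1 : i + 1 ≤ k := h
  simp [zeta, h1]

theorem zeta_top (k : ℕ) (z : ℕ → Rˣ) : zeta k z (k + 1) = 1 := by
  simp [zeta]

/-- The upper factor. -/
def Pz (k : ℕ) (z : ℕ → Rˣ) : Mat (k + 1) R :=
  Matrix.of fun a b =>
    if a ≤ b then -((zeta k z (b.val + 1) : Rˣ) : R) * (((zeta k z a.val)⁻¹ : Rˣ) : R) else 0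

/-- The subdiagonal part of the lower factor. -/
def Sz (k : ℕ) (z : ℕ → Rˣ) : Mat (k + 1) R :=
  Matrix.of fun a b =>
    if a.val = b.val + 1 then
      -((zeta k z b.val : Rˣ) : R) * (((zeta k z (b.val + 1))⁻¹ : Rˣ) : R) else 0

/-- The lower factor. -/
def Lz (k : ℕ) (z : ℕ → Rˣ) : Mat (k + 1) R := 1 + Sz k z

/-- The matrix `[[z, 1], [I, 0]]`. -/
def Ez (k : ℕ) (z : ℕ → Rˣ) : Mat (k + 1) R :=
  Matrix.of fun a b =>
    if a.val = 0 then ((zeta k z (b.val + 1) : Rˣ) : R) else if a.val = b.val + 1 then 1 else 0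

theorem Pz_isUp (k : ℕ) (z : ℕ → Rˣ) : IsUp (Pz k z : Mat (k + 1) R) := by
  intro i j h
  simp [Pz, not_le.mpr h]

theorem Pz_diag (k : ℕ) (z : ℕ → Rˣ) (i : Fin (k + 1)) :
    (Pz k z : Mat (k + 1) R) i i =
      -((zeta k z (i.val + 1) : Rˣ) : R) * (((zeta k z i.val)⁻¹ : Rˣ) : R) := by
  simp [Pz]

theorem Lz_isLo (k : ℕ) (z : ℕ → Rˣ) : IsLo (Lz k z : Mat (k + 1) R) := by
  intro i j h
  have h1 : i ≠ j := ne_of_lt h
  have h2 : ¬ i.val = j.val + 1 := by
    have : i.val < j.val := h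
    omega
  simp [Lz, Sz, Matrix.add_apply, Matrix.one_apply_ne h1, h2]

theorem Lz_diag (k : ℕ) (z : ℕ → Rˣ) (i : Fin (k + 1)) : (Lz k z : Mat (k + 1) R) i i = 1 := by
  simp [Lz, Sz, Matrix.add_apply]

theorem Sz_mul_Pz (k : ℕ) (z : ℕ → Rˣ) (a b : Fin (k + 1)) :
    ((Sz k z : Mat (k + 1) R) * Pz k z) a b =
      if h : a.val = 0 then 0 else
        (Sz k z : Mat (k + 1) R) a ⟨a.val - 1, by omega⟩ * Pz k z ⟨a.val - 1, by omega⟩ b := by
  rw [Matrix.mul_apply]
  split_ifs with h
  · refine Finset.sum_eq_zero fun c _ => ?_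
    have : ¬ a.val = c.val + 1 := by omega
    simp [Sz, this]
  · rw [Finset.sum_eq_single (⟨a.val - 1, by omega⟩ : Fin (k + 1))]
    · intro c _ hc
      have : ¬ a.val = c.val + 1 := by
        intro h1
        apply hc
        ext
        simp
        omega
      simp [Sz, this]
    · exact fun h => absurd (Finset.mem_univ _) h

theorem Lz_mul_Pz (k : ℕ) (z : ℕ → Rˣ) : (Lz k z : Mat (k + 1) R) * Pz k z = Ez k z := by
  ext a b
  rw [Lz, add_mul, one_mul, Matrix.add_apply, Sz_mul_Pz]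
  by_cases h : a.val = 0
  · simp only [h, dite_true, add_zero, Ez, Pz, Matrix.of_apply, if_true]
    have hab : a ≤ b := by
      show a.val ≤ b.val
      omega
    rw [if_pos hab, zeta_zero]
    simp
  · rw [dif_neg h]
    have h1 : a.val - 1 + 1 = a.val := by omega
    simp only [Sz, Pz, Ez, Matrix.of_apply]
    rw [if_pos h1.symm, if_neg h]
    have hle : (⟨a.val - 1, by omega⟩ : Fin (k + 1)) ≤ b ↔ a.val - 1 ≤ b.val := Iff.rfl
    have hle2 : a ≤ b ↔ a.val ≤ b.val := Iff.rfl
    simp only [hle, hle2, h1]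
    by_cases hb : a.val ≤ b.val
    · have hb' : a.val - 1 ≤ b.val := by omega
      have hb'' : ¬ a.val = b.val + 1 := by omega
      rw [if_pos hb, if_pos hb', if_neg hb'']
      have key : ((zeta k z (a.val - 1) : Rˣ) : R) * (((zeta k z (a.val - 1))⁻¹ : Rˣ) : R) = 1 :=
        Units.mul_inv _
      linear_combination (-((zeta k z (b.val + 1) : Rˣ) : R) * (((zeta k z a.val)⁻¹ : Rˣ) : R)) * key * (-1) + 0 * key
    · rw [if_neg hb, zero_add]
      by_cases hb2 : a.val - 1 ≤ b.val
      · have hb3 : a.val = b.val + 1 := by omega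
        rw [if_pos hb2, if_pos hb3]
        have hb4 : b.val + 1 = a.val := hb3.symm
        rw [hb4]
        have key : ((zeta k z (a.val - 1) : Rˣ) : R) * (((zeta k z (a.val - 1))⁻¹ : Rˣ) : R) = 1 :=
          Units.mul_inv _
        have key2 : ((zeta k z a.val : Rˣ) : R) * (((zeta k z a.val)⁻¹ : Rˣ) : R) = 1 :=
          Units.mul_inv _
        linear_combination (((zeta k z a.val)⁻¹ : Rˣ) : R) * ((zeta k z a.val : Rˣ) : R) * key + key2
      · have hb3 : ¬ a.val = b.val + 1 := by omega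
        rw [if_neg hb2, if_neg hb3, mul_zero]


/-! ### Triangle data -/

/-- Raw triangle data. -/
structure TD (n : ℕ) (R : Type*) [CommRing R] where
  u : Mat n R
  l : Mat n R
  p : Mat n R
  d : Fin n → Rˣ

/-- The properties of triangle data. -/
structure IsTD {n : ℕ} (D : TD n R) : Prop where
  u_up : IsUp D.u
  u_diag : ∀ i, D.u i i = 1
  l_lo : IsLo D.l
  l_diag : ∀ i, D.l i i = 1
  p_up : IsUp D.p
  p_diag : ∀ i, D.p i i = D.d i
  rel : D.u * (W n : Mat n R) = D.l * D.p

/-- The first row of the new `u`. -/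
def yRow {k : ℕ} (z : ℕ → Rˣ) (p : Mat k R) (j : Fin k) : R :=
  ∑ c : Fin k, ((z c.val : Rˣ) : R) * p c (Fin.rev j)

/-- The matrix `[[1, y], [0, u']]`. -/
def uB {k : ℕ} (y : Fin k → R) (u : Mat k R) : Mat (k + 1) R :=
  Matrix.of fun i j =>
    Fin.cases (Fin.cases (1 : R) y j) (fun i' => Fin.cases (0 : R) (fun j' => u i' j') j) i

@[simp] theorem uB_zero_zero {k : ℕ} (y : Fin k → R) (u : Mat k R) : uB y u 0 0 = 1 := rfl
@[simp] theorem uB_zero_succ {k : ℕ} (y : Fin k → R) (u : Mat k R) (j : Fin k) :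
    uB y u 0 j.succ = y j := rfl
@[simp] theorem uB_succ_zero {k : ℕ} (y : Fin k → R) (u : Mat k R) (i : Fin k) :
    uB y u i.succ 0 = 0 := rfl
@[simp] theorem uB_succ_succ {k : ℕ} (y : Fin k → R) (u : Mat k R) (i j : Fin k) :
    uB y u i.succ j.succ = u i j := rfl

/-- The recursion step for triangle data. -/
def step {k : ℕ} (z : ℕ → Rˣ) (D : TD k R) : TD (k + 1) R where
  u := uB (yRow z D.p) D.u
  l := consB D.l * Lz k z
  p := Pz k z * snocB D.p
  d := Fin.lastCases (-(zeta k z (k + 1)) * (zeta k z k)⁻¹)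
    (fun i => -(zeta k z (i.val + 1)) * (zeta k z i.val)⁻¹ * D.d i)

theorem step_d_last {k : ℕ} (z : ℕ → Rˣ) (D : TD k R) :
    (step z D).d (Fin.last k) = -(zeta k z (k + 1)) * (zeta k z k)⁻¹ := by
  simp [step]

theorem step_d_castSucc {k : ℕ} (z : ℕ → Rˣ) (D : TD k R) (i : Fin k) :
    (step z D).d i.castSucc = -(zeta k z (i.val + 1)) * (zeta k z i.val)⁻¹ * D.d i := by
  simp [step]

theorem uB_isUp {k : ℕ} (y : Fin k → R) {u : Mat k R} (h : IsUp u) : IsUp (uB y u) := by
  intro i j hij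
  revert hij
  refine Fin.cases ?_ (fun i' => ?_) i
  · intro h0
    exact absurd h0 (Fin.not_lt_zero j)
  · refine Fin.cases ?_ (fun j' => ?_) j
    · intro _; simp
    · intro hlt
      simpa using h i' j' (by simpa using hlt)

theorem uB_diag {k : ℕ} (y : Fin k → R) {u : Mat k R} (h : ∀ i, u i i = 1) (i : Fin (k + 1)) :
    uB y u i i = 1 := by
  refine Fin.cases ?_ (fun i' => ?_) i
  · simp
  · simpa using h i'

theorem rev_castSucc' {k : ℕ} (j : Fin k) : Fin.rev j.castSucc = (Fin.rev j).succ := by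
  ext; simp; omega

theorem rev_last' (k : ℕ) : Fin.rev (Fin.last k) = 0 := by
  ext; simp [Fin.val_rev]

/-- The matrix `[[zv, 1], [I, 0]]` for an arbitrary first row. -/
def Ev (k : ℕ) (zv : ℕ → R) : Mat (k + 1) R :=
  Matrix.of fun a b => if a.val = 0 then zv b.val else if a.val = b.val + 1 then 1 else 0

/-- The first row of `u` for an arbitrary row vector. -/
def yRow0 {k : ℕ} (zv : ℕ → R) (p : Mat k R) (j : Fin k) : R :=
  ∑ c : Fin k, zv c.val * p c (Fin.rev j)

/-- The block identity, for an arbitrary first row. -/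
theorem rel_aux {k : ℕ} (zv : ℕ → R) (hz : zv k = 1) (uu ll pp : Mat k R)
    (hrel : uu * (W k : Mat k R) = ll * pp) :
    uB (yRow0 zv pp) uu * (W (k + 1) : Mat (k + 1) R) = consB ll * (Ev k zv * snocB pp) := by
  have hE : ∀ (a : Fin (k + 1)) (j : Fin k), (Ev k zv * snocB pp) a j.castSucc =
      Fin.cases (∑ c : Fin k, zv c.val * pp c j) (fun i' => pp i' j) a := by
    intro a j
    rw [Matrix.mul_apply, Fin.sum_univ_castSucc, snocB_last_castSucc, mul_zero, add_zero]
    refine Fin.cases ?_ (fun i' => ?_) a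
    · refine Finset.sum_congr rfl fun c _ => ?_
      simp only [snocB_castSucc_castSucc, Ev, Matrix.of_apply, Fin.val_zero, if_true,
        Fin.val_castSucc]
    · simp only [Fin.cases_succ, snocB_castSucc_castSucc, Ev, Matrix.of_apply, Fin.val_succ,
        Fin.val_castSucc]
      rw [Finset.sum_eq_single i']
      · simp
      · intro c _ hc
        have h2 : ¬ (i'.val = c.val) := fun h => hc (Fin.ext h.symm)
        simp [h2]
      · exact fun h => absurd (Finset.mem_univ _) h
  have hE2 : ∀ a : Fin (k + 1), (Ev k zv * snocB pp) a (Fin.last k) =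
      Fin.cases (1 : R) (fun _ => 0) a := by
    intro a
    rw [Matrix.mul_apply, Fin.sum_univ_castSucc]
    simp only [snocB_castSucc_last, mul_zero, Finset.sum_const_zero, zero_add, snocB_last_last,
      mul_one]
    refine Fin.cases ?_ (fun i' => ?_) a
    · simp only [Ev, Matrix.of_apply, Fin.val_zero, if_true, Fin.val_last, Fin.cases_zero]
      exact hz
    · simp only [Ev, Matrix.of_apply, Fin.val_succ, Fin.val_last, Fin.cases_succ]
      have h2 : ¬ (i'.val = k) := by have := i'.isLt; omega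
      simp [h2]
  ext a b
  rw [mul_W_apply]
  revert b
  refine Fin.lastCases ?_ (fun j => ?_)
  · rw [rev_last', Matrix.mul_apply, Fin.sum_univ_succ]
    simp only [hE2]
    refine Fin.cases ?_ (fun i' => ?_) a
    · simp
    · simp
  · rw [rev_castSucc', Matrix.mul_apply, Fin.sum_univ_succ]
    simp only [hE]
    refine Fin.cases ?_ (fun i' => ?_) a
    · simp [yRow0]
    · simp only [uB_succ_succ, consB_succ_zero, zero_mul, zero_add, consB_succ_succ, Fin.cases_succ]
      have := congrFun (congrFun hrel i') j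
      rw [mul_W_apply, Matrix.mul_apply] at this
      exact this

theorem Ez_eq_Ev (k : ℕ) (z : ℕ → Rˣ) :
    (Ez k z : Mat (k + 1) R) = Ev k (fun b => ((zeta k z (b + 1) : Rˣ) : R)) := rfl

theorem yRow_eq (k : ℕ) (z : ℕ → Rˣ) (p : Mat k R) :
    yRow z p = yRow0 (fun b => ((zeta k z (b + 1) : Rˣ) : R)) p := by
  funext j
  refine Finset.sum_congr rfl fun c _ => ?_
  show ((z c.val : Rˣ) : R) * _ = ((zeta k z (c.val + 1) : Rˣ) : R) * _
  rw [zeta_succ k z c.isLt]

/-- The block identity. -/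
theorem step_rel_aux {k : ℕ} (z : ℕ → Rˣ) (D : TD k R) (hrel : D.u * (W k : Mat k R) = D.l * D.p) :
    uB (yRow z D.p) D.u * (W (k + 1) : Mat (k + 1) R) = consB D.l * (Ez k z * snocB D.p) := by
  rw [Ez_eq_Ev, yRow_eq]
  refine rel_aux _ ?_ _ _ _ hrel
  show ((zeta k z (k + 1) : Rˣ) : R) = 1
  rw [zeta_top]
  rfl

theorem step_spec {k : ℕ} (z : ℕ → Rˣ) {D : TD k R} (h : IsTD D) : IsTD (step z D) where
  u_up := uB_isUp _ h.u_up
  u_diag := uB_diag _ h.u_diag
  l_lo := (consB_isLo h.l_lo).mul (Lz_isLo k z)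
  l_diag := by
    intro i
    show (consB D.l * Lz k z) i i = 1
    rw [IsLo.mul_diag (consB_isLo h.l_lo) (Lz_isLo k z), consB_diag h.l_diag, Lz_diag, one_mul]
  p_up := (Pz_isUp k z).mul (snocB_isUp h.p_up)
  p_diag := by
    intro i
    show (Pz k z * snocB D.p) i i = _
    rw [IsUp.mul_diag (Pz_isUp k z) (snocB_isUp h.p_up), Pz_diag]
    revert i
    refine Fin.lastCases ?_ (fun i => ?_)
    · rw [step_d_last]
      simp
    · rw [step_d_castSucc]
      simp [h.p_diag i]
  rel := by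
    show uB (yRow z D.p) D.u * (W (k + 1) : Mat (k + 1) R) =
      (consB D.l * Lz k z) * (Pz k z * snocB D.p)
    rw [step_rel_aux z D h.rel, Matrix.mul_assoc, ← Matrix.mul_assoc (Lz k z), Lz_mul_Pz]

/-- The empty triangle data. -/
def td0 : TD 0 R where
  u := 1
  l := 1
  p := 1
  d := fun i => i.elim0

/-- Triangle data from an array of units. -/
def td : (n : ℕ) → (ℕ → ℕ → Rˣ) → TD n R
  | 0, _ => td0
  | k + 1, arr => step (arr k) (td k arr)

theorem td_spec : ∀ (n : ℕ) (arr : ℕ → ℕ → Rˣ), IsTD (td n arr)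
  | 0, _ => ⟨fun i => i.elim0, fun i => i.elim0, fun i => i.elim0, fun i => i.elim0,
      fun i => i.elim0, fun i => i.elim0, by ext i; exact i.elim0⟩
  | k + 1, arr => step_spec _ (td_spec k arr)

/-! ### Functoriality -/

variable {S : Type*} [CommRing S]

/-- Apply a ring homomorphism to triangle data. -/
def TD.map {n : ℕ} (φ : R →+* S) (D : TD n R) : TD n S where
  u := D.u.map φ
  l := D.l.map φ
  p := D.p.map φ
  d := fun i => Units.map φ.toMonoidHom (D.d i)

theorem zeta_map (φ : R →+* S) (k : ℕ) (z : ℕ → Rˣ) (i : ℕ) :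
    zeta k (fun m => Units.map φ.toMonoidHom (z m)) i = Units.map φ.toMonoidHom (zeta k z i) := by
  unfold zeta
  split_ifs <;> simp

theorem Pz_map (φ : R →+* S) (k : ℕ) (z : ℕ → Rˣ) :
    (Pz k (fun m => Units.map φ.toMonoidHom (z m)) : Mat (k + 1) S) = (Pz k z).map φ := by
  ext a b
  simp only [Pz, Matrix.of_apply, Matrix.map_apply, zeta_map]
  split_ifs <;> simp

theorem Sz_map (φ : R →+* S) (k : ℕ) (z : ℕ → Rˣ) :
    (Sz k (fun m => Units.map φ.toMonoidHom (z m)) : Mat (k + 1) S) = (Sz k z).map φ := by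
  ext a b
  simp only [Sz, Matrix.of_apply, Matrix.map_apply, zeta_map]
  split_ifs <;> simp

theorem Lz_map (φ : R →+* S) (k : ℕ) (z : ℕ → Rˣ) :
    (Lz k (fun m => Units.map φ.toMonoidHom (z m)) : Mat (k + 1) S) = (Lz k z).map φ := by
  rw [Lz, Lz, Sz_map, Matrix.map_add _ (map_add φ), Matrix.map_one _ (map_zero φ) (map_one φ)]

theorem consB_map (φ : R →+* S) {k : ℕ} (m : Mat k R) :
    consB (m.map φ) = (consB m).map φ := by
  ext a b
  revert a b
  refine Fin.cases ?_ (fun i => ?_)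
  · refine Fin.cases ?_ (fun j => ?_) <;> simp
  · refine Fin.cases ?_ (fun j => ?_) <;> simp

theorem snocB_map (φ : R →+* S) {k : ℕ} (m : Mat k R) :
    snocB (m.map φ) = (snocB m).map φ := by
  ext a b
  revert a b
  refine Fin.lastCases ?_ (fun i => ?_)
  · refine Fin.lastCases ?_ (fun j => ?_) <;> simp
  · refine Fin.lastCases ?_ (fun j => ?_) <;> simp

theorem uB_map (φ : R →+* S) {k : ℕ} (y : Fin k → R) (m : Mat k R) :
    uB (fun j => φ (y j)) (m.map φ) = (uB y m).map φ := by
  ext a b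
  revert a b
  refine Fin.cases ?_ (fun i => ?_)
  · refine Fin.cases ?_ (fun j => ?_) <;> simp
  · refine Fin.cases ?_ (fun j => ?_) <;> simp

theorem step_map (φ : R →+* S) {k : ℕ} (z : ℕ → Rˣ) (D : TD k R) :
    step (fun m => Units.map φ.toMonoidHom (z m)) (D.map φ) = (step z D).map φ := by
  have hy : yRow (fun m => Units.map φ.toMonoidHom (z m)) (D.p.map φ) =
      fun j => φ (yRow z D.p j) := by
    ext j
    simp [yRow, map_sum]
  have hu : (step (fun m => Units.map φ.toMonoidHom (z m)) (D.map φ)).u = ((step z D).map φ).u := by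
    show uB (yRow _ (D.p.map φ)) (D.u.map φ) = (uB (yRow z D.p) D.u).map φ
    rw [hy, uB_map]
  have hl : (step (fun m => Units.map φ.toMonoidHom (z m)) (D.map φ)).l = ((step z D).map φ).l := by
    show consB (D.l.map φ) * Lz k _ = (consB D.l * Lz k z).map φ
    rw [consB_map, Lz_map, Matrix.map_mul]
  have hp : (step (fun m => Units.map φ.toMonoidHom (z m)) (D.map φ)).p = ((step z D).map φ).p := by
    show Pz k _ * snocB (D.p.map φ) = (Pz k z * snocB D.p).map φ
    rw [snocB_map, Pz_map, Matrix.map_mul]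
  have hd : (step (fun m => Units.map φ.toMonoidHom (z m)) (D.map φ)).d = ((step z D).map φ).d := by
    ext i
    revert i
    refine Fin.lastCases ?_ (fun i => ?_)
    · show ((step _ (D.map φ)).d (Fin.last k) : S) = Units.map φ.toMonoidHom ((step z D).d (Fin.last k))
      rw [step_d_last, step_d_last, zeta_map, zeta_map]
      simp
    · show ((step _ (D.map φ)).d i.castSucc : S) = Units.map φ.toMonoidHom ((step z D).d i.castSucc)
      rw [step_d_castSucc, step_d_castSucc, zeta_map, zeta_map]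
      simp [TD.map]
  cases h : step (fun m => Units.map φ.toMonoidHom (z m)) (D.map φ)
  cases h' : (step z D).map φ
  simp only [h, h'] at hu hl hp hd
  simp_all

theorem td_map (φ : R →+* S) : ∀ (n : ℕ) (arr : ℕ → ℕ → Rˣ),
    td n (fun a b => Units.map φ.toMonoidHom (arr a b)) = (td n arr).map φ
  | 0, _ => by
      show td0 = (td0 : TD 0 R).map φ
      simp only [td0, TD.map]
      congr 1
      · ext i; exact i.elim0
      · ext i; exact i.elim0
      · ext i; exact i.elim0
      · ext i; exact i.elim0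
  | k + 1, arr => by
      show step (fun m => Units.map φ.toMonoidHom (arr k m)) (td k _) = (step (arr k) (td k arr)).map φ
      rw [td_map φ k arr, step_map]

end Vale.Agent.Lib.P002
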