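import Vale.Agent.Lib.P002.Flags

/-!
General position of a triple of flags is the same as membership in the image of the
parametrisation of triangles by units.
-/

open Matrix

namespace Vale.Agent.Lib.P002

variable {k : ℕ}

/-- Dropping the first coordinate. -/
def piD (k : ℕ) : (Fin (k + 1) → ℂ) →ₗ[ℂ] (Fin k → ℂ) := LinearMap.funLeft ℂ ℂ Fin.succ

theorem piD_apply (x : Fin (k + 1) → ℂ) (j : Fin k) : piD k x j = x j.succ := rfl

theorem piD_surj : Function.Surjective (piD k) :=
  LinearMap.funLeft_surjective_of_injective _ _ _ (Fin.succ_injective k)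

theorem map_piD_Fl_one (a : ℕ) :
    (Fl (1 : Mat (k + 1) ℂ) (a + 1)).map (piD k) = Fl (1 : Mat k ℂ) a := by
  ext y
  constructor
  · rintro ⟨x, hx, rfl⟩
    refine mem_Fl_one.mpr fun j hj => ?_
    rw [piD_apply]
    refine mem_Fl_one.mp hx _ ?_
    simp only [Fin.val_succ]
    omega
  · intro hy
    refine ⟨Fin.cons 0 y, ?_, ?_⟩
    · refine mem_Fl_one.mpr ?_
      intro i
      refine Fin.cases ?_ (fun j => ?_) i
      · intro h0
        simp at h0
      · intro hj
        simp only [Fin.cons_succ]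
        refine mem_Fl_one.mp hy j ?_
        simp only [Fin.val_succ] at hj
        omega
    · ext j
      rw [piD_apply]
      simp

theorem map_piD_Fl {Q : Mat (k + 1) ℂ} {Q' : Mat k ℂ}
    (h : ∀ m : Fin k, piD k (cl Q m.castSucc) = cl Q' m) {c : ℕ} (hc : c ≤ k) :
    (Fl Q c).map (piD k) = Fl Q' c := by
  unfold Fl
  rw [Submodule.map_span]
  congr 1
  ext v
  constructor
  · rintro ⟨_, ⟨m, hm, rfl⟩, rfl⟩
    have hm' : m.val < k := by omega
    refine ⟨⟨m.val, hm'⟩, hm, ?_⟩
    rw [← h]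
    rfl
  · rintro ⟨m, hm, rfl⟩
    exact ⟨_, ⟨m.castSucc, by simpa using hm, rfl⟩, h m⟩

theorem piD_cl_W (m : Fin k) :
    piD k (cl (W (k + 1) : Mat (k + 1) ℂ) m.castSucc) = cl (W k : Mat k ℂ) m := by
  ext j
  rw [piD_apply, cl_W, cl_W, rev_castSucc']
  simp only [Fin.succ_inj]

theorem piD_cl_uB (y : Fin k → ℂ) (u : Mat k ℂ) (m : Fin k) :
    piD k (cl (uB y u * (W (k + 1) : Mat (k + 1) ℂ)) m.castSucc) = cl (u * (W k : Mat k ℂ)) m := by
  ext j
  rw [piD_apply]
  show (uB y u * (W (k + 1) : Mat (k + 1) ℂ)) j.succ m.castSucc = (u * (W k : Mat k ℂ)) j m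
  rw [mul_W_apply, mul_W_apply, rev_castSucc']
  rfl

/-- General position descends. -/
theorem gen_down (y : Fin k → ℂ) (u : Mat k ℂ)
    (h : ∀ a b c, a + b + c = k + 1 → Fl (1 : Mat (k + 1) ℂ) a ⊔ Fl (W (k + 1) : Mat (k + 1) ℂ) b ⊔
      Fl (uB y u * (W (k + 1) : Mat (k + 1) ℂ)) c = ⊤) :
    ∀ a b c, a + b + c = k → Fl (1 : Mat k ℂ) a ⊔ Fl (W k : Mat k ℂ) b ⊔
      Fl (u * (W k : Mat k ℂ)) c = ⊤ := by
  intro a b c habc
  have h1 := congrArg (Submodule.map (piD k)) (h (a + 1) b c (by omega))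
  rw [Submodule.map_sup, Submodule.map_sup, map_piD_Fl_one, map_piD_Fl piD_cl_W (by omega),
    map_piD_Fl (piD_cl_uB y u) (by omega), Submodule.map_top, LinearMap.range_eq_top.mpr piD_surj] at h1
  exact h1

/-- General position ascends, when the first flag is nonzero. -/
theorem gen_up (y : Fin k → ℂ) (u : Mat k ℂ)
    (h : ∀ a b c, a + b + c = k → Fl (1 : Mat k ℂ) a ⊔ Fl (W k : Mat k ℂ) b ⊔
      Fl (u * (W k : Mat k ℂ)) c = ⊤) (a b c : ℕ) (habc : a + b + c = k) :
    Fl (1 : Mat (k + 1) ℂ) (a + 1) ⊔ Fl (W (k + 1) : Mat (k + 1) ℂ) b ⊔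
      Fl (uB y u * (W (k + 1) : Mat (k + 1) ℂ)) c = ⊤ := by
  set X := Fl (1 : Mat (k + 1) ℂ) (a + 1) ⊔ Fl (W (k + 1) : Mat (k + 1) ℂ) b ⊔
      Fl (uB y u * (W (k + 1) : Mat (k + 1) ℂ)) c with hX
  have h1 : X.map (piD k) = ⊤ := by
    rw [hX, Submodule.map_sup, Submodule.map_sup, map_piD_Fl_one, map_piD_Fl piD_cl_W (by omega),
      map_piD_Fl (piD_cl_uB y u) (by omega)]
    exact h a b c habc
  have h0 : cl (1 : Mat (k + 1) ℂ) 0 ∈ X :=
    Submodule.mem_sup_left (Submodule.mem_sup_left (cl_mem_Fl _ (by simp)))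
  rw [eq_top_iff]
  intro x _
  have hx : piD k x ∈ X.map (piD k) := by
    rw [h1]
    trivial
  obtain ⟨x0, hx0, hx1⟩ := hx
  have h2 : x = x0 + (x 0 - x0 0) • cl (1 : Mat (k + 1) ℂ) 0 := by
    ext i
    refine Fin.cases ?_ (fun j => ?_) i
    · simp [cl]
    · have := congrFun hx1 j
      rw [piD_apply, piD_apply] at this
      simp [cl, this]
  rw [h2]
  exact X.add_mem hx0 (X.smul_mem _ h0)

/-- The columns of the matrix `[[zv, 1], [I, 0]]`. -/
theorem cl_Ev_castSucc (zv : ℕ → ℂ) (b : Fin k) :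
    cl (Ev k zv) b.castSucc = zv b.val • cl (1 : Mat (k + 1) ℂ) 0 + cl (1 : Mat (k + 1) ℂ) b.succ := by
  ext a
  refine Fin.cases ?_ (fun i => ?_) a
  · have h0 : (1 : Mat (k + 1) ℂ) 0 b.succ = 0 := Matrix.one_apply_ne (Fin.succ_ne_zero b).symm
    simp [cl, Ev, h0]
  · simp only [cl, Ev, Matrix.of_apply, Fin.val_succ, Fin.val_castSucc, Pi.add_apply, Pi.smul_apply,
      smul_eq_mul]
    by_cases h : i = b
    · subst h
      simp
    · have h1 : ¬ i.val = b.val := fun e => h (Fin.ext e)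
      have h2 : i.succ ≠ b.succ := fun e => h (Fin.succ_injective k e)
      simp [h1, h2, Matrix.one_apply_ne]

theorem cl_Ev_last (zv : ℕ → ℂ) :
    cl (Ev k zv) (Fin.last k) = zv k • cl (1 : Mat (k + 1) ℂ) 0 := by
  ext a
  refine Fin.cases ?_ (fun i => ?_) a
  · simp [cl, Ev]
  · have h1 : ¬ i.val = k := by have := i.isLt; omega
    simp [cl, Ev, h1]

/-- The first block factor as an invertible matrix. -/
noncomputable def consG (D : TD k ℂ) (hD : IsTD D) : GLm (k + 1) ℂ :=
  toGL (consB D.l) (isUnit_det_of_lo (consB_isLo hD.l_lo) fun i => by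
    rw [consB_diag hD.l_diag]; exact isUnit_one)

/-- The second block factor as an invertible matrix. -/
noncomputable def snocG (D : TD k ℂ) (hD : IsTD D) : GLm (k + 1) ℂ :=
  toGL (snocB D.p) (isUnit_det_of_up (snocB_isUp hD.p_up) fun i => by
    revert i
    refine Fin.lastCases ?_ (fun i => ?_)
    · simp
    · rw [snocB_castSucc_castSucc, hD.p_diag]
      exact Units.isUnit _)

theorem Fl_W_map (X : GLm k ℂ) (hX : IsLo X.val) (b : ℕ) :
    (Fl (W k : Mat k ℂ) b).map (Matrix.toLin' X.val) = Fl (W k : Mat k ℂ) b := by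
  rw [← Fl_map]
  have h1 : (Wg k * X * Wg k : GLm k ℂ).val = (W k : Mat k ℂ) * X.val * (W k : Mat k ℂ) := rfl
  have h2 : X.val * (W k : Mat k ℂ) = (W k : Mat k ℂ) * (Wg k * X * Wg k : GLm k ℂ).val := by
    rw [h1, ← Matrix.mul_assoc, ← Matrix.mul_assoc, W_mul_W, Matrix.one_mul]
  rw [h2]
  exact Fl_mul_up _ _ hX.W_conj b

/-- General position for the next level, from the bidiagonal form. -/
theorem gen_step (z : ℕ → ℂˣ) {D : TD k ℂ} (hD : IsTD D)
    (h : ∀ a b c, a + b + c = k → Fl (1 : Mat k ℂ) a ⊔ Fl (W k : Mat k ℂ) b ⊔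
      Fl (D.u * (W k : Mat k ℂ)) c = ⊤) :
    ∀ a b c, a + b + c = k + 1 → Fl (1 : Mat (k + 1) ℂ) a ⊔ Fl (W (k + 1) : Mat (k + 1) ℂ) b ⊔
      Fl ((step z D).u * (W (k + 1) : Mat (k + 1) ℂ)) c = ⊤ := by
  intro a b c habc
  cases a with
  | succ a => exact gen_up _ _ h a b c (by omega)
  | zero =>
    rw [Fl_zero, bot_sup_eq]
    have hrel := step_rel_aux z D hD.rel
    have hU : Fl ((step z D).u * (W (k + 1) : Mat (k + 1) ℂ)) c =
        (Fl (Ez k z) c).map (Matrix.toLin' (consB D.l)) := by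
      show Fl (uB (yRow z D.p) D.u * (W (k + 1) : Mat (k + 1) ℂ)) c = _
      rw [hrel, ← Matrix.mul_assoc, ← Fl_map]
      exact Fl_mul_up _ (snocG D hD) (snocB_isUp hD.p_up) c
    have hW := Fl_W_map (consG D hD) (consB_isLo hD.l_lo) b
    change (Fl (W (k + 1) : Mat (k + 1) ℂ) b).map (Matrix.toLin' (consB D.l)) = _ at hW
    rw [hU, ← hW, ← Submodule.map_sup]
    have hZ : Fl (W (k + 1) : Mat (k + 1) ℂ) b ⊔ Fl (Ez k z) c = ⊤ := by
      set Z := Fl (W (k + 1) : Mat (k + 1) ℂ) b ⊔ Fl (Ez k z) c with hZdef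
      have hWZ : ∀ i : Fin (k + 1), b + i.val ≥ k + 1 → cl (1 : Mat (k + 1) ℂ) i ∈ Z := by
        intro i hi
        refine Submodule.mem_sup_left (mem_Fl_W.mpr fun j hj => ?_)
        refine Matrix.one_apply_ne ?_
        intro e
        rw [e] at hj
        omega
      have hE : ∀ i : Fin (k + 1), i.val < c → cl (Ez k z) i ∈ Z :=
        fun i hi => Submodule.mem_sup_right (cl_mem_Fl _ hi)
      have hEc : ∀ j : Fin k, j.val < c →
          (zeta k z (j.val + 1) : ℂ) • cl (1 : Mat (k + 1) ℂ) 0 + cl (1 : Mat (k + 1) ℂ) j.succ ∈ Z := by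
        intro j hj
        have := hE j.castSucc (by simpa using hj)
        rw [Ez_eq_Ev, cl_Ev_castSucc] at this
        exact this
      rcases Nat.eq_zero_or_pos c with hc | hc
      · refine top_of_cl_one fun i => hWZ i ?_
        have := i.isLt
        omega
      have h0 : cl (1 : Mat (k + 1) ℂ) 0 ∈ Z := by
        by_cases hck : c = k + 1
        · have := hE (Fin.last k) (by simp; omega)
          rw [Ez_eq_Ev, cl_Ev_last, zeta_top] at this
          simpa using this
        · have hlt : c - 1 < k := by omega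
          have h1 := hEc ⟨c - 1, hlt⟩ (by simp; omega)
          have h2 : cl (1 : Mat (k + 1) ℂ) (⟨c - 1, hlt⟩ : Fin k).succ ∈ Z :=
            hWZ _ (by simp; omega)
          have h3 := (Submodule.add_mem_iff_left Z h2).mp h1
          have h4 := Z.smul_mem (((zeta k z (c - 1 + 1) : ℂˣ) : ℂ)⁻¹) h3
          rwa [smul_smul, inv_mul_cancel₀ (Units.ne_zero _), one_smul] at h4
      refine top_of_cl_one fun i => ?_
      refine Fin.cases h0 (fun j => ?_) i
      by_cases hj : j.val < c
      · have h1 := hEc j hj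
        exact (Submodule.add_mem_iff_right Z (Z.smul_mem _ h0)).mp h1
      · exact hWZ _ (by simp; omega)
    rw [hZ, Submodule.map_top, LinearMap.range_eq_top]
    have e : Matrix.toLin' (consB D.l) = Matrix.toLin' (consG D hD).val := rfl
    rw [e]
    intro x
    refine ⟨(consG D hD)⁻¹.val.mulVec x, ?_⟩
    rw [Matrix.toLin'_apply, Matrix.mulVec_mulVec]
    have : (consG D hD).val * (consG D hD)⁻¹.val = 1 := by simp
    rw [this, Matrix.one_mulVec]

/-- Every triangle of the parametrisation is in general position. -/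
theorem td_generic : ∀ (n : ℕ) (arr : ℕ → ℕ → ℂˣ) (a b c : ℕ), a + b + c = n →
    Fl (1 : Mat n ℂ) a ⊔ Fl (W n : Mat n ℂ) b ⊔ Fl ((td n arr).u * (W n : Mat n ℂ)) c = ⊤
  | 0, _, _, _, _, _ => Subsingleton.elim _ _
  | n + 1, arr, a, b, c, h =>
      gen_step (arr n) (td_spec n arr) (td_generic n arr) a b c h

/-- Every triangle in general position comes from the parametrisation. -/
theorem exists_arr : ∀ (n : ℕ) (u : Mat n ℂ), IsUp u → (∀ i, u i i = 1) →
    (∀ a b c, a + b + c = n → Fl (1 : Mat n ℂ) a ⊔ Fl (W n : Mat n ℂ) b ⊔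
      Fl (u * (W n : Mat n ℂ)) c = ⊤) → ∃ arr : ℕ → ℕ → ℂˣ, (td n arr).u = u
  | 0, u, _, _, _ => ⟨fun _ _ => 1, by ext i; exact i.elim0⟩
  | k + 1, u, hup, hdiag, hgen => by
    let u' : Mat k ℂ := Matrix.of fun i j => u i.succ j.succ
    let y : Fin k → ℂ := fun j => u 0 j.succ
    have hu : u = uB y u' := by
      ext a b
      revert a b
      refine Fin.cases ?_ (fun i => ?_)
      · refine Fin.cases ?_ (fun j => ?_)
        · simpa using hdiag 0
        · rfl
      · refine Fin.cases ?_ (fun j => ?_)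
        · simpa using hup i.succ 0 (Fin.succ_pos i)
        · rfl
    have hup' : IsUp u' := fun i j hij => hup _ _ (Fin.succ_lt_succ_iff.mpr hij)
    have hd' : ∀ i, u' i i = 1 := fun i => hdiag i.succ
    rw [hu] at hgen
    obtain ⟨arr', harr'⟩ := exists_arr k u' hup' hd' (gen_down y u' hgen)
    have hD := td_spec k arr'
    set D := td k arr' with hDdef
    let q : Mat k ℂ := (pG arr' : GLm k ℂ)⁻¹.val
    have hqp : q * D.p = 1 := by
      show (pG arr' : GLm k ℂ)⁻¹.val * (pG arr' : GLm k ℂ).val = 1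
      simp
    let row : Fin k → ℂ := fun c => ∑ j, y (Fin.rev j) * q j c
    let zv : ℕ → ℂ := fun b => if h : b < k then row ⟨b, h⟩ else 1
    have hzk : zv k = 1 := by simp [zv]
    have hzv : ∀ c : Fin k, zv c.val = row c := fun c => by simp [zv]
    have hrow : ∀ j, ∑ c, row c * D.p c (Fin.rev j) = y j := by
      intro j
      have h1 : ∑ c, row c * D.p c (Fin.rev j) =
          ∑ j', y (Fin.rev j') * (q * D.p) j' (Fin.rev j) := by
        simp only [row, Finset.sum_mul, Matrix.mul_apply, Finset.mul_sum]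
        rw [Finset.sum_comm]
        refine Finset.sum_congr rfl fun a _ => Finset.sum_congr rfl fun b _ => ?_
        ring
      rw [h1, hqp, Finset.sum_eq_single (Fin.rev j)]
      · simp
      · intro b _ hb
        rw [Matrix.one_apply_ne hb, mul_zero]
      · exact fun h => absurd (Finset.mem_univ _) h
    have hy0 : yRow0 zv D.p = y := by
      funext j
      show ∑ c : Fin k, zv c.val * D.p c (Fin.rev j) = y j
      simp only [hzv]
      exact hrow j
    have hrel : uB y u' * (W (k + 1) : Mat (k + 1) ℂ) =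
        consB D.l * (Ev k zv * snocB D.p) := by
      have := rel_aux zv hzk D.u D.l D.p hD.rel
      rwa [hy0, harr'] at this
    -- nonvanishing of the new coordinates
    have hne : ∀ c : Fin k, row c ≠ 0 := by
      intro c h0
      have huU : IsUnit (uB y u').det := isUnit_det_of_up (uB_isUp y hup') fun i => by
        rw [uB_diag y hd']; exact isUnit_one
      let Qg : GLm (k + 1) ℂ := toGL (uB y u') huU * Wg (k + 1)
      have hQ : Qg.val = uB y u' * (W (k + 1) : Mat (k + 1) ℂ) := rfl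
      have hs := hgen 0 (k - c.val) (c.val + 1) (by have := c.isLt; omega)
      rw [Fl_zero, bot_sup_eq, ← hQ] at hs
      have hinf := inf_eq_bot_of_sup hs (by
        have h1 := finrank_Fl (Wg (k + 1) : GLm (k + 1) ℂ) (k := k - c.val) (by omega)
        have h2 := finrank_Fl Qg (k := c.val + 1) (by have := c.isLt; omega)
        rw [Wg_val] at h1
        rw [h1, h2]
        have := c.isLt
        omega)
      let X := consG D hD
      let U := snocG D hD
      have hv1 : cl (consB D.l) c.succ ∈ Fl (W (k + 1) : Mat (k + 1) ℂ) (k - c.val) := by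
        refine mem_Fl_W.mpr fun i hi => ?_
        refine consB_isLo hD.l_lo i c.succ ?_
        show i.val < c.val + 1
        have := c.isLt
        omega
      have hv2 : cl (consB D.l) c.succ ∈ Fl Qg.val (c.val + 1) := by
        have hx : ∀ i : Fin (k + 1), c.val + 1 ≤ i.val → cl U⁻¹.val c.castSucc i = 0 := by
          intro i hi
          exact isUp_inv U (snocB_isUp hD.p_up) i c.castSucc (by
            show c.val < i.val
            omega)
        have h1 := mulVec_mem_Fl Qg.val hx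
        have h2 : Qg.val.mulVec (cl U⁻¹.val c.castSucc) = cl (consB D.l) c.succ := by
          rw [← cl_mul, hQ, hrel]
          have e : consB D.l * (Ev k zv * snocB D.p) * U⁻¹.val = consB D.l * Ev k zv := by
            have e1 : snocB D.p * U⁻¹.val = 1 := by
              show U.val * U⁻¹.val = 1
              simp
            rw [Matrix.mul_assoc, Matrix.mul_assoc, e1, Matrix.mul_one]
          rw [e, cl_mul, cl_Ev_castSucc, hzv, h0, zero_smul, zero_add, ← cl_mul, Matrix.mul_one]
        rwa [h2] at h1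
      have hv3 : cl (consB D.l) c.succ ∈ Fl (W (k + 1) : Mat (k + 1) ℂ) (k - c.val) ⊓ Fl Qg.val (c.val + 1) :=
        ⟨hv1, hv2⟩
      rw [hinf] at hv3
      have hv4 := congrFun ((Submodule.mem_bot ℂ).mp hv3) c.succ
      have hv5 : cl (consB D.l) c.succ c.succ = 1 := consB_diag hD.l_diag c.succ
      rw [hv5] at hv4
      exact one_ne_zero hv4
    let zU : ℕ → ℂˣ := fun b => if h : b < k then Units.mk0 (row ⟨b, h⟩) (hne _) else 1
    have hzU : ∀ c : Fin k, ((zU c.val : ℂˣ) : ℂ) = row c := fun c => by simp [zU]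
    let arr : ℕ → ℕ → ℂˣ := fun a => if a = k then zU else arr' a
    refine ⟨arr, ?_⟩
    have h1 : td (k + 1) arr = step zU D := by
      show step (arr k) (td k arr) = _
      have e1 : arr k = zU := if_pos rfl
      have e2 : td k arr = td k arr' := td_congr k fun a ha => if_neg (ne_of_lt ha)
      rw [e1, e2]
    rw [h1, hu]
    show uB (yRow zU D.p) D.u = uB y u'
    rw [harr']
    congr 1
    funext j
    show ∑ c : Fin k, ((zU c.val : ℂˣ) : ℂ) * D.p c (Fin.rev j) = y j
    simp only [hzU]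
    exact hrow j

end Vale.Agent.Lib.P002
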